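import Crest.Agent.R6.Defs

/-! # R6 arithmetic, base: the `p`-adic norm `nrm`, reduction mod `p`, recurrences of `cc`, `ww`. -/

set_option autoImplicit false
set_option linter.unusedSectionVars false

namespace Crest.Agent.R6

open Polynomial Finset

/-- The `p`-adic norm of a rational number, as a real number. -/
noncomputable def nrm (p : ℕ) [Fact p.Prime] (x : ℚ) : ℝ := ‖(x : ℚ_[p])‖

/-- `lg p M` = the largest power of `p` that is `≤ M` (and `1` if `M < p`). -/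
noncomputable def lg (p M : ℕ) : ℝ := (p : ℝ) ^ Nat.log p M

section nrm
variable {p : ℕ} [hp : Fact p.Prime]

theorem p_pos_real : (0 : ℝ) < p := by exact_mod_cast hp.out.pos
theorem one_lt_p_real : (1 : ℝ) < p := by exact_mod_cast hp.out.one_lt
theorem one_le_p_real : (1 : ℝ) ≤ p := one_lt_p_real.le

theorem nrm_nonneg (x : ℚ) : 0 ≤ nrm p x := norm_nonneg _
@[simp] theorem nrm_zero : nrm p 0 = 0 := by simp [nrm]
@[simp] theorem nrm_one : nrm p 1 = 1 := by simp [nrm]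
@[simp] theorem nrm_neg (x : ℚ) : nrm p (-x) = nrm p x := by simp [nrm]
theorem nrm_mul (x y : ℚ) : nrm p (x * y) = nrm p x * nrm p y := by simp [nrm]
theorem nrm_inv (x : ℚ) : nrm p x⁻¹ = (nrm p x)⁻¹ := by simp [nrm]
theorem nrm_div (x y : ℚ) : nrm p (x / y) = nrm p x / nrm p y := by simp [nrm]
theorem nrm_pow (x : ℚ) (k : ℕ) : nrm p (x ^ k) = nrm p x ^ k := by simp [nrm]
theorem nrm_prod {ι : Type*} (s : Finset ι) (f : ι → ℚ) :
    nrm p (∏ i ∈ s, f i) = ∏ i ∈ s, nrm p (f i) := by simp [nrm]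
theorem nrm_eq_zero {x : ℚ} : nrm p x = 0 ↔ x = 0 := by
  rw [nrm, norm_eq_zero, Rat.cast_eq_zero]
theorem nrm_pos {x : ℚ} (hx : x ≠ 0) : 0 < nrm p x :=
  lt_of_le_of_ne (nrm_nonneg x) (fun h => hx (nrm_eq_zero.1 h.symm))
@[simp] theorem nrm_neg_one_pow (k : ℕ) : nrm p ((-1) ^ k) = 1 := by simp [nrm_pow]
theorem nrm_p : nrm p (p : ℚ) = (p : ℝ)⁻¹ := by simp [nrm]

theorem nrm_add_le_max (x y : ℚ) : nrm p (x + y) ≤ max (nrm p x) (nrm p y) := by
  simpa [nrm] using Padic.nonarchimedean (x : ℚ_[p]) (y : ℚ_[p])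

theorem nrm_add_le {x y : ℚ} {B : ℝ} (hx : nrm p x ≤ B) (hy : nrm p y ≤ B) :
    nrm p (x + y) ≤ B := (nrm_add_le_max x y).trans (max_le hx hy)

theorem nrm_sub_le {x y : ℚ} {B : ℝ} (hx : nrm p x ≤ B) (hy : nrm p y ≤ B) :
    nrm p (x - y) ≤ B := by
  rw [sub_eq_add_neg]; exact nrm_add_le hx (by simpa using hy)

theorem nrm_add_lt {x y : ℚ} {B : ℝ} (hx : nrm p x < B) (hy : nrm p y < B) :
    nrm p (x + y) < B := (nrm_add_le_max x y).trans_lt (max_lt hx hy)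

theorem nrm_sum_le {ι : Type*} {s : Finset ι} {f : ι → ℚ} {B : ℝ} (hB : 0 ≤ B)
    (h : ∀ i ∈ s, nrm p (f i) ≤ B) : nrm p (∑ i ∈ s, f i) ≤ B := by
  classical
  induction s using Finset.induction_on with
  | empty => simpa using hB
  | insert a s ha ih =>
    rw [Finset.sum_insert ha]
    exact nrm_add_le (h a (by simp)) (ih fun i hi => h i (by simp [hi]))

theorem nrm_mul_le {x y : ℚ} {A B : ℝ} (hx : nrm p x ≤ A) (hy : nrm p y ≤ B) :
    nrm p (x * y) ≤ A * B := by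
  rw [nrm_mul]; exact mul_le_mul hx hy (nrm_nonneg _) ((nrm_nonneg _).trans hx)

/-- multiply by an integral factor on the left -/
theorem nrm_mul_le_right {x y : ℚ} {B : ℝ} (hx : nrm p x ≤ 1) (hy : nrm p y ≤ B) :
    nrm p (x * y) ≤ B := by simpa using nrm_mul_le hx hy

/-- multiply by an integral factor on the right -/
theorem nrm_mul_le_left {x y : ℚ} {A : ℝ} (hx : nrm p x ≤ A) (hy : nrm p y ≤ 1) :
    nrm p (x * y) ≤ A := by simpa using nrm_mul_le hx hy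

theorem nrm_pow_le_one {x : ℚ} (hx : nrm p x ≤ 1) (k : ℕ) : nrm p (x ^ k) ≤ 1 := by
  rw [nrm_pow]; exact pow_le_one₀ (nrm_nonneg _) hx

theorem nrm_prod_le_one {ι : Type*} {s : Finset ι} {f : ι → ℚ} (h : ∀ i ∈ s, nrm p (f i) ≤ 1) :
    nrm p (∏ i ∈ s, f i) ≤ 1 := by
  rw [nrm_prod]; exact Finset.prod_le_one (fun i _ => nrm_nonneg _) h

theorem nrm_int_le (z : ℤ) : nrm p (z : ℚ) ≤ 1 := by
  simpa [nrm] using Padic.norm_int_le_one (p := p) z

theorem nrm_nat_le (z : ℕ) : nrm p (z : ℚ) ≤ 1 := by simpa using nrm_int_le (p := p) (z : ℤ)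

theorem nrm_int_lt_one_iff (z : ℤ) : nrm p (z : ℚ) < 1 ↔ (p : ℤ) ∣ z := by
  simp [nrm]

theorem nrm_int_eq_one {z : ℤ} (h : ¬ (p : ℤ) ∣ z) : nrm p (z : ℚ) = 1 :=
  le_antisymm (nrm_int_le z) (not_lt.1 fun h' => h ((nrm_int_lt_one_iff z).1 h'))

theorem nrm_nat_eq_one {z : ℕ} (h : ¬ p ∣ z) : nrm p (z : ℚ) = 1 := by
  have := nrm_int_eq_one (p := p) (z := (z : ℤ)) (by exact_mod_cast h)
  simpa using this

theorem nrm_two_eq_one (h2 : p ≠ 2) : nrm p 2 = 1 := by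
  have := nrm_nat_eq_one (p := p) (z := 2)
    (fun h => h2 ((Nat.prime_dvd_prime_iff_eq hp.out Nat.prime_two).1 h))
  simpa using this

theorem nrm_p_mul (x : ℚ) : nrm p (p * x) = nrm p x / p := by
  rw [nrm_mul, nrm_p]; ring

theorem nrm_div_p (x : ℚ) : nrm p (x / p) = nrm p x * p := by
  rw [nrm_div, nrm_p]; simp

theorem nrm_p_mul_le {x : ℚ} {B : ℝ} (h : nrm p x ≤ p * B) : nrm p (p * x) ≤ B := by
  rw [nrm_p_mul, div_le_iff₀ p_pos_real]; linarith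

theorem nrm_p_sq_mul_le {x : ℚ} {B : ℝ} (h : nrm p x ≤ p ^ 2 * B) :
    nrm p ((p : ℚ) ^ 2 * x) ≤ B := by
  rw [show (p : ℚ) ^ 2 * x = p * (p * x) by ring]
  refine nrm_p_mul_le (nrm_p_mul_le ?_)
  calc _ ≤ _ := h
    _ = _ := by ring

theorem one_le_lg (M : ℕ) : 1 ≤ lg p M := one_le_pow₀ one_le_p_real
theorem lg_pos (M : ℕ) : 0 < lg p M := lt_of_lt_of_le one_pos (one_le_lg M)
theorem lg_mono {M M' : ℕ} (h : M ≤ M') : lg p M ≤ lg p M' :=
  pow_le_pow_right₀ one_le_p_real (Nat.log_mono_right h)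
theorem lg_of_lt {M : ℕ} (h : M < p) : lg p M = 1 := by simp [lg, Nat.log_of_lt h]
theorem lg_le_p {M : ℕ} (h : M < p ^ 2) : lg p M ≤ p := by
  have : Nat.log p M ≤ 1 := by
    rcases Nat.eq_zero_or_pos M with rfl | hM
    · simp
    · exact Nat.lt_succ_iff.1 (Nat.log_lt_of_lt_pow hM.ne' h)
  simpa [lg] using pow_le_pow_right₀ (one_le_p_real (p := p)) this
theorem lg_le_self {M : ℕ} (h : 1 ≤ M) : lg p M ≤ M := by
  unfold lg; exact_mod_cast Nat.pow_log_le_self p (by omega)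

/-- `‖1/z‖ ≤ lg p M` when `|z| ≤ M` (also for `z = 0`, where `1/z = 0`). -/
theorem nrm_inv_int_le {z : ℤ} {M : ℕ} (h : z.natAbs ≤ M) : nrm p (z : ℚ)⁻¹ ≤ lg p M := by
  rcases eq_or_ne z 0 with rfl | hz
  · simpa using (lg_pos (p := p) M).le
  refine le_trans ?_ (lg_mono h)
  have hnd : ¬ ((p : ℤ) ^ (Nat.log p z.natAbs + 1) ∣ z) := by
    intro hd
    have h1 : p ^ (Nat.log p z.natAbs + 1) ∣ z.natAbs := by
      have := Int.natAbs_dvd_natAbs.2 hd
      simpa [Int.natAbs_pow] using this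
    have h2 := Nat.le_of_dvd (Int.natAbs_pos.2 hz) h1
    exact absurd (Nat.lt_pow_succ_log_self hp.out.one_lt z.natAbs) (not_lt.2 h2)
  have h4 : ¬ ‖((z : ℤ) : ℚ_[p])‖ ≤ (p : ℝ) ^ (-((Nat.log p z.natAbs + 1 : ℕ) : ℤ)) := by
    rw [Padic.norm_int_le_pow_iff_dvd]; exact_mod_cast hnd
  have hz' : ((z : ℤ) : ℚ_[p]) ≠ 0 := by exact_mod_cast hz
  rw [Padic.norm_eq_zpow_neg_valuation hz', zpow_le_zpow_iff_right₀ one_lt_p_real] at h4
  rw [nrm_inv]
  have : nrm p (z : ℚ) = (p : ℝ) ^ (-((z : ℤ) : ℚ_[p]).valuation) := by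
    rw [← Padic.norm_eq_zpow_neg_valuation hz']; simp [nrm]
  rw [this, ← zpow_neg, neg_neg, lg, ← zpow_natCast]
  refine zpow_le_zpow_right₀ one_le_p_real ?_
  push_cast at h4; omega

theorem nrm_inv_nat_le {z M : ℕ} (h : z ≤ M) : nrm p (z : ℚ)⁻¹ ≤ lg p M := by
  simpa using nrm_inv_int_le (p := p) (z := (z : ℤ)) (M := M) (by simpa using h)

/-- `‖1/z‖ ≤ 1` unless `z` is a nonzero multiple of `p`. -/
theorem nrm_inv_int_le_one {z : ℤ} (h : z = 0 ∨ ¬ (p : ℤ) ∣ z) : nrm p (z : ℚ)⁻¹ ≤ 1 := by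
  rcases h with rfl | h
  · simp
  · rw [nrm_inv, nrm_int_eq_one h]; simp

theorem nrm_inv_nat_le_one {z : ℕ} (h : z = 0 ∨ ¬ p ∣ z) : nrm p (z : ℚ)⁻¹ ≤ 1 := by
  have := nrm_inv_int_le_one (p := p) (z := (z : ℤ)) (by exact_mod_cast h)
  simpa using this

theorem nrm_le_one_iff {x : ℚ} : nrm p x ≤ 1 ↔ ¬ p ∣ x.den := by
  refine ⟨fun h hd => ?_, fun h => Padic.norm_rat_le_one h⟩
  have h1 : nrm p (x.den : ℚ) < 1 := by
    have := (nrm_int_lt_one_iff (p := p) (x.den : ℤ)).2 (by exact_mod_cast hd)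
    simpa using this
  have h2 : nrm p (x.num : ℚ) = 1 := by
    refine nrm_int_eq_one fun hn => ?_
    have h3 : p ∣ x.num.natAbs := by simpa using Int.natAbs_dvd_natAbs.2 hn
    have := Nat.dvd_gcd h3 hd
    rw [x.reduced] at this
    exact hp.out.one_lt.ne' (Nat.dvd_one.1 this)
  have h4 : (x.num : ℚ) = x * x.den := by simp
  rw [h4, nrm_mul] at h2
  have := nrm_nonneg (p := p) x
  have := nrm_nonneg (p := p) (x.den : ℚ)
  nlinarith

/-! ### Reduction modulo `p` (the cast `ℚ → ZMod p`, a ring map on `p`-integral numbers) -/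

theorem den_ne_zero {x : ℚ} (hx : nrm p x ≤ 1) : ((x.den : ℕ) : ZMod p) ≠ 0 := by
  rw [Ne, ZMod.natCast_eq_zero_iff]; exact nrm_le_one_iff.1 hx

theorem red_add {x y : ℚ} (hx : nrm p x ≤ 1) (hy : nrm p y ≤ 1) :
    ((x + y : ℚ) : ZMod p) = (x : ZMod p) + (y : ZMod p) :=
  Rat.cast_add_of_ne_zero (den_ne_zero hx) (den_ne_zero hy)

theorem red_sub {x y : ℚ} (hx : nrm p x ≤ 1) (hy : nrm p y ≤ 1) :
    ((x - y : ℚ) : ZMod p) = (x : ZMod p) - (y : ZMod p) :=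
  Rat.cast_sub_of_ne_zero (den_ne_zero hx) (den_ne_zero hy)

theorem red_mul {x y : ℚ} (hx : nrm p x ≤ 1) (hy : nrm p y ≤ 1) :
    ((x * y : ℚ) : ZMod p) = (x : ZMod p) * (y : ZMod p) :=
  Rat.cast_mul_of_ne_zero (den_ne_zero hx) (den_ne_zero hy)

theorem red_neg (x : ℚ) : ((-x : ℚ) : ZMod p) = -(x : ZMod p) := Rat.cast_neg x

theorem red_pow {x : ℚ} (hx : nrm p x ≤ 1) (k : ℕ) :
    ((x ^ k : ℚ) : ZMod p) = (x : ZMod p) ^ k := by
  induction k with
  | zero => simp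
  | succ k ih => rw [pow_succ, red_mul (nrm_pow_le_one hx k) hx, ih, pow_succ]

theorem red_sum {ι : Type*} {s : Finset ι} {f : ι → ℚ} (h : ∀ i ∈ s, nrm p (f i) ≤ 1) :
    ((∑ i ∈ s, f i : ℚ) : ZMod p) = ∑ i ∈ s, (f i : ZMod p) := by
  classical
  induction s using Finset.induction_on with
  | empty => simp
  | insert a s ha ih =>
    rw [Finset.sum_insert ha, Finset.sum_insert ha, red_add (h a (by simp))
      (nrm_sum_le zero_le_one fun i hi => h i (by simp [hi])), ih fun i hi => h i (by simp [hi])]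

theorem red_prod {ι : Type*} {s : Finset ι} {f : ι → ℚ} (h : ∀ i ∈ s, nrm p (f i) ≤ 1) :
    ((∏ i ∈ s, f i : ℚ) : ZMod p) = ∏ i ∈ s, (f i : ZMod p) := by
  classical
  induction s using Finset.induction_on with
  | empty => simp
  | insert a s ha ih =>
    rw [Finset.prod_insert ha, Finset.prod_insert ha, red_mul (h a (by simp))
      (nrm_prod_le_one fun i hi => h i (by simp [hi])), ih fun i hi => h i (by simp [hi])]

/-- `p x ↦ 0` for `p`-integral `x`. -/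
theorem red_p_mul {x : ℚ} (hx : nrm p x ≤ 1) : (((p : ℚ) * x : ℚ) : ZMod p) = 0 := by
  rw [red_mul (nrm_nat_le p) hx]; simp

theorem red_eq_zero_of_le {x : ℚ} (hx : nrm p x ≤ (p : ℝ)⁻¹) : (x : ZMod p) = 0 := by
  have h0 : (p : ℚ) ≠ 0 := by exact_mod_cast hp.out.ne_zero
  have : x = p * (x / p) := by field_simp
  rw [this]
  refine red_p_mul ?_
  rw [nrm_div_p]
  calc _ ≤ (p : ℝ)⁻¹ * p := by gcongr
    _ = 1 := inv_mul_cancel₀ p_pos_real.ne'

/-- division by an integer prime to `p` (or zero) -/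
theorem red_div_int {x : ℚ} (hx : nrm p x ≤ 1) {z : ℤ} (hz : z = 0 ∨ ¬ (p : ℤ) ∣ z) :
    ((x / z : ℚ) : ZMod p) = (x : ZMod p) / (z : ZMod p) := by
  rw [div_eq_mul_inv, red_mul hx (nrm_inv_int_le_one hz), Rat.cast_inv_int, div_eq_mul_inv]

theorem red_div_nat {x : ℚ} (hx : nrm p x ≤ 1) {z : ℕ} (hz : z = 0 ∨ ¬ p ∣ z) :
    ((x / z : ℚ) : ZMod p) = (x : ZMod p) / (z : ZMod p) := by
  rw [div_eq_mul_inv, red_mul hx (nrm_inv_nat_le_one hz), Rat.cast_inv_nat, div_eq_mul_inv]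

/-- a `p`-integral number with nonzero reduction is a `p`-adic unit -/
theorem nrm_eq_one_of_red_ne_zero {x : ℚ} (hx : nrm p x ≤ 1) (h : (x : ZMod p) ≠ 0) :
    nrm p x = 1 := by
  have hn : ¬ (p : ℤ) ∣ x.num := by
    intro hd
    apply h
    rw [Rat.cast_def, (ZMod.intCast_zmod_eq_zero_iff_dvd _ _).2 hd, zero_div]
  have h4 : (x.num : ℚ) = x * x.den := by simp
  have h5 := nrm_int_eq_one hn
  rw [h4, nrm_mul, nrm_nat_eq_one (nrm_le_one_iff.1 hx), mul_one] at h5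
  exact h5

theorem red_ne_zero_of_nrm_eq_one {x : ℚ} (hx : nrm p x = 1) : (x : ZMod p) ≠ 0 := by
  have hd := den_ne_zero hx.le
  have h4 : (x.num : ℚ) = x * x.den := by simp
  have h5 : ¬ (p : ℤ) ∣ x.num := by
    rw [← nrm_int_lt_one_iff, h4, nrm_mul, hx, nrm_nat_eq_one (nrm_le_one_iff.1 hx.le)]; simp
  rw [Rat.cast_def]
  exact div_ne_zero (by rwa [Ne, ZMod.intCast_zmod_eq_zero_iff_dvd]) hd

theorem nrm_det_le_one {ι : Type*} [Fintype ι] [DecidableEq ι] {M : Matrix ι ι ℚ}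
    (h : ∀ i j, nrm p (M i j) ≤ 1) : nrm p M.det ≤ 1 := by
  rw [Matrix.det_apply']
  exact nrm_sum_le zero_le_one fun σ _ =>
    nrm_mul_le_right (nrm_int_le _) (nrm_prod_le_one fun i _ => h _ _)

theorem red_det {ι : Type*} [Fintype ι] [DecidableEq ι] {M : Matrix ι ι ℚ}
    (h : ∀ i j, nrm p (M i j) ≤ 1) :
    ((M.det : ℚ) : ZMod p) = (Matrix.of fun i j => ((M i j : ℚ) : ZMod p)).det := by
  rw [Matrix.det_apply', Matrix.det_apply', red_sum fun σ _ =>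
    nrm_mul_le_right (nrm_int_le _) (nrm_prod_le_one fun i _ => h _ _)]
  refine Finset.sum_congr rfl fun σ _ => ?_
  rw [red_mul (nrm_int_le _) (nrm_prod_le_one fun i _ => h _ _), red_prod fun i _ => h _ _]
  simp

end nrm

/-! ### Recurrences -/

@[simp] theorem cc_zero : cc 0 = 1 := by simp [cc]
theorem cc_odd {m : ℕ} (h : m % 2 = 1) : cc m = 0 := by simp [cc, h]
theorem cc_two_mul (k : ℕ) : cc (2 * k) = (Nat.centralBinom k : ℚ) / 4 ^ k := by simp [cc]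
theorem cc_pos_of_even {m : ℕ} (h : m % 2 = 0) : 0 < cc m := by
  simp only [cc, h, if_true]
  have := Nat.centralBinom_pos (m / 2)
  positivity

theorem cc_add_two (m : ℕ) : ((m : ℚ) + 2) * cc (m + 2) = ((m : ℚ) + 1) * cc m := by
  rcases Nat.mod_two_eq_zero_or_one m with h | h
  · obtain ⟨k, rfl⟩ : ∃ k, m = 2 * k := ⟨m / 2, by omega⟩
    rw [show 2 * k + 2 = 2 * (k + 1) by ring, cc_two_mul, cc_two_mul]
    have h1 : ((k : ℚ) + 1) * (Nat.centralBinom (k + 1) : ℚ) =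
        2 * (2 * k + 1) * (Nat.centralBinom k : ℚ) := by
      exact_mod_cast Nat.succ_mul_centralBinom_succ k
    push_cast
    field_simp
    linear_combination (2 * 4 ^ k) * h1
  · rw [cc_odd h, cc_odd (by omega)]; simp

@[simp] theorem ww_zero : ww 0 = 2 := by simp [ww]
theorem ww_odd {m : ℕ} (h : m % 2 = 1) : ww m = 0 := by simp [ww, h]
theorem ww_mul_cc {m : ℕ} (h : m % 2 = 0) : ww m * (((m : ℚ) + 1) * cc m) = 2 := by
  have := cc_pos_of_even h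
  simp only [ww, h, if_true]
  field_simp

theorem ww_add_two (m : ℕ) : ((m : ℚ) + 3) * ww (m + 2) = ((m : ℚ) + 2) * ww m := by
  rcases Nat.mod_two_eq_zero_or_one m with h | h
  · have h1 := ww_mul_cc h
    have h2 := ww_mul_cc (m := m + 2) (by omega)
    have h3 := cc_add_two m
    have h4 := cc_pos_of_even (m := m + 2) (by omega)
    push_cast at h2
    apply mul_right_cancel₀ h4.ne'
    linear_combination h2 - h1 - ww m * h3
  · rw [ww_odd h, ww_odd (by omega)]; simp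

theorem cz_natCast (d : ℕ) : cz (d : ℤ) = cc d := by simp [cz]
theorem cz_of_neg {d : ℤ} (h : d < 0) : cz d = 0 := by simp [cz, not_le.2 h]
theorem cz_of_nonneg {d : ℤ} (h : 0 ≤ d) : cz d = cc d.toNat := by simp [cz, h]

/-! ### Definitions shared by the arithmetic files -/

/-- The diagonal constant of `Z0`: `Z0 i j = psi0 (j-i) - ∑_{m<i} (1/(m+1))/(m+j-i+1)`. -/
def psi0 (e : ℤ) : ℚ :=
  if 0 ≤ e then harmonic e.toNat / e else (1 / (-e) - harmonic ((-e).toNat - 1)) / (-e)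

/-- `pair K ((1-t)^{2N} t^{47N-1-l}) (col N k)`, written out. -/
def KM (K : ℕ → ℕ → ℚ) (N l k : ℕ) : ℚ :=
  ∑ a ∈ range (2 * N + 1), ∑ b ∈ range (2 * N + 1),
    (-1) ^ (a + b) * ((2 * N).choose a : ℚ) * ((2 * N).choose b : ℚ) *
      K (47 * N - 1 - l + a) (6 * N + k + b)

end Crest.Agent.R6
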