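import Crest.Agent.R6.ABase

/-! # R6 arithmetic: `p`-adic bounds for `cc, ww, phi0, psi0, M0, Z0`. -/

set_option autoImplicit false
set_option linter.unusedSectionVars false

namespace Crest.Agent.R6

open Polynomial Finset

variable {p : ℕ} [hp : Fact p.Prime]

theorem ab_div {x y : ℚ} {A : ℝ} {M : ℕ} (z : ℤ) (hx : nrm p x ≤ A) (hy : y = z)
    (hz : z.natAbs ≤ M) : nrm p (x / y) ≤ A * lg p M := by
  rw [div_eq_mul_inv, hy]
  exact nrm_mul_le hx (nrm_inv_int_le hz)

theorem ab_beta (b : ℕ) : ∀ a : ℕ,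
    nrm p ((a.factorial : ℚ) * b.factorial / (a + b + 1).factorial) ≤ lg p (a + b + 1) := by
  induction b with
  | zero =>
    intro a
    have h : (a.factorial : ℚ) * (0 : ℕ).factorial / (a + 0 + 1).factorial = ((a + 1 : ℕ) : ℚ)⁻¹ := by
      have := a.factorial_pos
      rw [add_zero, Nat.factorial_succ, Nat.factorial_zero]
      push_cast
      field_simp
    rw [h]
    exact nrm_inv_nat_le le_rfl
  | succ b ih =>
    intro a
    have h : (a.factorial : ℚ) * (b + 1).factorial / (a + (b + 1) + 1).factorial =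
        (a.factorial : ℚ) * b.factorial / (a + b + 1).factorial -
          ((a + 1).factorial : ℚ) * b.factorial / (a + 1 + b + 1).factorial := by
      have := (a + b + 1).factorial_pos
      rw [show a + 1 + b + 1 = a + b + 1 + 1 by ring, show a + (b + 1) + 1 = a + b + 1 + 1 by ring,
        Nat.factorial_succ (a + b + 1), Nat.factorial_succ a, Nat.factorial_succ b]
      push_cast
      field_simp
      ring
    rw [h]
    exact nrm_sub_le ((ih a).trans (lg_mono (by omega))) ((ih (a + 1)).trans (lg_mono (by omega)))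

/-- `cc` has only powers of `2` in the denominator (`nrm_two_eq_one`). -/
theorem nrm_cc_le_one (h2 : p ≠ 2) (m : ℕ) : nrm p (cc m) ≤ 1 := by
  unfold cc
  split_ifs
  · rw [nrm_div, nrm_pow, show (4 : ℚ) = 2 * 2 by norm_num, nrm_mul, nrm_two_eq_one h2, one_mul,
      one_pow, div_one]
    exact nrm_nat_le _
  · simp

theorem nrm_cz_le_one (h2 : p ≠ 2) (d : ℤ) : nrm p (cz d) ≤ 1 := by
  unfold cz
  split_ifs
  · exact nrm_cc_le_one h2 _
  · simp

/-- Any prime. `ww (2k) = 2·4^k / ((2k+1) centralBinom k)` and `(2k+1) centralBinom k = (2k+1)!/(k! k!)`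
has `p`-adic valuation `∑_{1 ≤ i ≤ log_p (2k+1)} (⌊(2k+1)/p^i⌋ - 2⌊k/p^i⌋) ≤ log_p (2k+1)`
(Legendre: `Nat.factorization_factorial` / `padicValNat_factorial`; each term is `≤ 1`). Then
`‖1/z‖ = p^{v_p z}` (e.g. copy the end of `nrm_inv_int_le`, or write `z = p^v z'`). -/
theorem nrm_ww_le (m : ℕ) : nrm p (ww m) ≤ lg p (m + 1) := by
  rcases Nat.mod_two_eq_zero_or_one m with h | h
  · obtain ⟨k, rfl⟩ : ∃ k, m = 2 * k := ⟨m / 2, by omega⟩
    have h1 : ww (2 * k) = ((2 * 4 ^ k : ℕ) : ℚ) *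
        ((k.factorial : ℚ) * k.factorial / (k + k + 1).factorial) := by
      have h2 : (Nat.centralBinom k : ℚ) = (k + k).factorial / (k.factorial * k.factorial) := by
        rw [Nat.centralBinom_eq_two_mul_choose, two_mul, Nat.cast_add_choose]
      have := k.factorial_pos
      have := (k + k).factorial_pos
      rw [ww, if_pos h, cc_two_mul, h2, Nat.factorial_succ]
      push_cast
      field_simp
      ring
    rw [h1]
    exact nrm_mul_le_right (nrm_nat_le _) ((ab_beta k k).trans (lg_mono (by omega)))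
  · rw [ww_odd h, nrm_zero]
    exact (lg_pos _).le

theorem nrm_harmonic_le (d : ℕ) : nrm p (harmonic d) ≤ lg p d := by
  exact nrm_sum_le (lg_pos _).le fun i hi => nrm_inv_nat_le (mem_range.1 hi)

/-- Four cases `phiA … phiD` (`e+1 = 2l+3, 2l+2, 1-2l, -2l`); every factor is `cc` (integral), `ww m` with
`m+1 ≤ M`, or `1/z` with `z ≤ M` (`nrm_inv_nat_le`, `lg_mono`, `one_le_lg`). -/
theorem nrm_phi0_le (h2 : p ≠ 2) {e : ℤ} {M : ℕ} (h : e.natAbs ≤ M) :
    nrm p (phi0 (e + 1)) ≤ lg p M ^ 2 := by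
  have h0 := lg_pos (p := p) M
  have hw : ∀ m, m + 1 ≤ M → nrm p (ww m) ≤ lg p M := fun m hm => (nrm_ww_le m).trans (lg_mono hm)
  have hd : ∀ {x y : ℚ} (z : ℕ), nrm p x ≤ 1 → y = z → z ≤ M → nrm p (x / y) ≤ lg p M :=
    fun z hx hy hz => by simpa using ab_div (M := M) z hx (by simpa using hy) (by simpa using hz)
  rw [sq]
  unfold phi0
  split_ifs with h1 h3 h3
  · refine nrm_mul_le_right (nrm_cc_le_one h2 _) (nrm_sum_le (by positivity) fun k hk => ?_)
    rw [mem_range] at hk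
    exact ab_div (2 * k + 2) (hw _ (by omega)) (by push_cast; rfl) (by omega)
  · refine nrm_mul_le (hw _ (by omega)) (nrm_sum_le h0.le fun k hk => ?_)
    rw [mem_range] at hk
    exact hd (2 * k + 1) (nrm_cc_le_one h2 _) (by push_cast; rfl) (by omega)
  · refine nrm_mul_le (hw _ (by omega)) (nrm_add_le (nrm_one.trans_le (one_le_lg M))
      (nrm_sum_le h0.le fun k hk => ?_))
    rw [mem_range] at hk
    exact nrm_sub_le (nrm_sub_le (hd (2 * k + 3) nrm_one.le (by push_cast; rfl) (by omega))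
      (hd (2 * k + 2) nrm_one.le (by push_cast; rfl) (by omega)))
      (hd (2 * k + 2) (nrm_cc_le_one h2 _) (by push_cast; rfl) (by omega))
  · rw [phiC, nrm_neg]
    refine nrm_mul_le_right (nrm_cc_le_one h2 _) (nrm_sum_le (by positivity) fun k hk => ?_)
    rw [mem_range] at hk
    exact ab_div (2 * k + 1) (hw _ (by omega)) (by push_cast; rfl) (by omega)

theorem nrm_psi0_le {e : ℤ} {M : ℕ} (h : e.natAbs ≤ M) : nrm p (psi0 e) ≤ lg p M ^ 2 := by
  rw [sq]
  unfold psi0
  split_ifs with h1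
  · exact ab_div e ((nrm_harmonic_le _).trans (lg_mono (by omega))) rfl h
  · refine ab_div (-e) (nrm_sub_le ?_ ((nrm_harmonic_le _).trans (lg_mono (by omega))))
      (by push_cast; rfl) (by omega)
    simpa using ab_div (p := p) (M := M) (y := -e) (-e) nrm_one.le (by push_cast; rfl) (by omega)

theorem ab_Z0_succ (i j : ℕ) :
    Z0 (i + 1) (j + 1) = Z0 i j - 1 / ((i : ℚ) + 1) / ((j : ℚ) + 1) := by
  unfold Z0
  by_cases h : i = j
  · subst h
    rw [if_pos rfl, if_pos rfl, sum_range_succ]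
    field_simp
    ring
  · have h1 : (i : ℚ) - j ≠ 0 := sub_ne_zero.2 (by exact_mod_cast h)
    rw [if_neg (by omega), if_neg h, harmonic_succ, harmonic_succ]
    push_cast
    rw [add_sub_add_right_eq_sub]
    field_simp
    ring

theorem ab_Z0_zero (d : ℕ) : Z0 (d + 1) 0 = psi0 (((0 : ℕ) : ℤ) - (d + 1 : ℕ)) - ∑ m ∈ range (d + 1),
    (1 / ((m : ℚ) + 1)) / ((m : ℚ) + (((0 : ℕ) : ℚ) - (d + 1 : ℕ) + 1)) := by
  have h1 : ∑ m ∈ range d, (1 / ((m : ℚ) + 1)) / ((m : ℚ) + (((0 : ℕ) : ℚ) - (d + 1 : ℕ) + 1)) =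
      -(harmonic d + harmonic d) / (d + 1) := by
    conv_rhs => rw [harmonic]
    nth_rewrite 2 [← sum_range_reflect]
    rw [← sum_add_distrib, ← sum_neg_distrib, sum_div]
    refine sum_congr rfl fun m hm => ?_
    obtain ⟨t, rfl⟩ := Nat.exists_eq_add_of_lt (mem_range.1 hm)
    rw [show m + t + 1 - 1 - m = t by omega]
    push_cast
    rw [show (m : ℚ) + (0 - (m + t + 1 + 1) + 1) = -(t + 1) by ring]
    field_simp
    ring
  have h2 : psi0 (((0 : ℕ) : ℤ) - (d + 1 : ℕ)) = (1 / (d + 1) - harmonic d) / (d + 1) := by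
    rw [psi0, if_neg (by omega), show (-(((0 : ℕ) : ℤ) - (d + 1 : ℕ))).toNat - 1 = d by omega]
    simp
  rw [sum_range_succ, h1, h2, Z0, if_neg (by omega), harmonic_succ]
  push_cast
  rw [show (d : ℚ) + (0 - (d + 1) + 1) = 0 by ring, div_zero, harmonic_zero]
  field_simp
  ring

/-- Induction on `min i j` along the diagonal (`Z0 (i+1) (j+1) = Z0 i j - 1/((i+1)(j+1))`), or partial
fractions. The term with `m + (j-i+1) = 0` is `0` (`x/0 = 0`). Base cases: `i = 0` (`Z0 0 j = h_j/j`) and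
`j = 0`, `i = d ≥ 1`: `∑_{m<d-1} 1/((m+1)(d-1-m)) = 2 h_{d-1}/d`, so the right side is
`(1/d - h_{d-1})/d + 2h_{d-1}/d = h_d/d`. -/
theorem Z0_eq (i j : ℕ) : Z0 i j = psi0 ((j : ℤ) - i) -
    ∑ m ∈ range i, (1 / ((m : ℚ) + 1)) / ((m : ℚ) + ((j : ℚ) - i + 1)) := by
  induction i generalizing j with
  | zero =>
    rcases eq_or_ne 0 j with rfl | h
    · simp [Z0, psi0]
    · simp [Z0, psi0, h, neg_div_neg_eq]
  | succ i ih =>
    rcases j with _ | j
    · exact ab_Z0_zero i
    · rw [ab_Z0_succ, ih j, sum_range_succ]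
      push_cast
      simp only [add_sub_add_right_eq_sub]
      rw [show (i : ℚ) + (j - i + 1) = j + 1 by ring]
      ring

theorem nrm_M0_le (h2 : p ≠ 2) {i j M : ℕ} (hi : i ≤ M) (hj : j ≤ M) :
    nrm p (M0 i j) ≤ lg p M ^ 2 := by
  refine nrm_sub_le (nrm_phi0_le h2 (by omega)) (nrm_sum_le (sq_nonneg _) fun m hm => ?_)
  rw [mem_range] at hm
  rw [sq]
  exact ab_div (m + (j - i + 1)) ((nrm_ww_le m).trans (lg_mono (by omega))) (by push_cast; rfl)
    (by omega)

theorem nrm_Z0_le {i j M : ℕ} (hi : i ≤ M) (hj : j ≤ M) : nrm p (Z0 i j) ≤ lg p M ^ 2 := by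
  rw [Z0_eq]
  refine nrm_sub_le (nrm_psi0_le (by omega)) (nrm_sum_le (sq_nonneg _) fun m hm => ?_)
  rw [mem_range] at hm
  rw [sq]
  refine ab_div (m + (j - i + 1)) ?_ (by push_cast; rfl) (by omega)
  simpa using ab_div (p := p) (M := M) (y := m + 1) (m + 1) nrm_one.le (by push_cast; rfl) (by omega)

end Crest.Agent.R6
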