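import Crest.Agent.R6.AEntry

/-! # R6: the contact `t P/f - D = O(t^L)`. -/

set_option autoImplicit false
set_option linter.unusedSectionVars false

namespace Crest.Agent.R6

open Polynomial Finset

/-- The functional `Q ↦ ∑_l g l Q_l`. -/
noncomputable def ctL (g : ℕ → ℚ) : ℚ[X] →ₗ[ℚ] ℚ :=
  Polynomial.lsum fun l => LinearMap.mulLeft ℚ (g l)

theorem ctL_monomial (g : ℕ → ℚ) (l : ℕ) (a : ℚ) : ctL g (monomial l a) = g l * a := by
  simp [ctL, Polynomial.lsum_apply, Polynomial.sum_monomial_index]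

theorem ctL_eq_sum (g : ℕ → ℚ) (Q : ℚ[X]) (B : ℕ) (h : ∀ l, B ≤ l → Q.coeff l = 0) :
    ctL g Q = ∑ l ∈ range B, g l * Q.coeff l := by
  unfold ctL
  rw [Polynomial.lsum_apply, Polynomial.sum_def]
  refine Finset.sum_subset (fun l hl => ?_) (fun l _ hl => ?_)
  · rw [mem_range]
    by_contra hcon
    exact (mem_support_iff.1 hl) (h l (not_lt.1 hcon))
  · rw [notMem_support_iff.1 hl]
    simp

theorem ctL_X_mul (g : ℕ → ℚ) (Q : ℚ[X]) : ctL g (X * Q) = ctL (fun l => g (l + 1)) Q := by
  induction Q using Polynomial.induction_on' with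
  | add p q hp hq => rw [mul_add, map_add, map_add, hp, hq]
  | monomial l a => rw [X_mul_monomial, ctL_monomial, ctL_monomial]

theorem ctL_zero_fun (Q : ℚ[X]) : ctL (fun _ => 0) Q = 0 := by
  induction Q using Polynomial.induction_on' with
  | add p q hp hq => rw [map_add, hp, hq, add_zero]
  | monomial l a => rw [ctL_monomial, zero_mul]

theorem ctL_intCast_mul (g : ℕ → ℚ) (n : ℤ) (Q : ℚ[X]) :
    ctL g ((n : ℚ[X]) * Q) = n * ctL g Q := by
  rw [← zsmul_eq_mul, map_zsmul, zsmul_eq_mul]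

theorem ctL_cc (Q : ℚ[X]) : ctL cc (X * Q - (1 - X ^ 2) * derivative Q) = 0 := by
  induction Q using Polynomial.induction_on' with
  | add p q hp hq =>
    rw [show X * (p + q) - (1 - X ^ 2) * derivative (p + q) =
      (X * p - (1 - X ^ 2) * derivative p) + (X * q - (1 - X ^ 2) * derivative q) by
        rw [derivative_add]; ring, map_add, hp, hq, add_zero]
  | monomial l a =>
    rw [show X * monomial l a - (1 - X ^ 2) * derivative (monomial l a) =
      X * monomial l a - derivative (monomial l a) + X * (X * derivative (monomial l a)) by ring,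
      map_add, map_sub, ctL_X_mul, ctL_X_mul, ctL_X_mul, derivative_monomial, ctL_monomial,
      ctL_monomial, ctL_monomial]
    cases l with
    | zero => simp [cc_odd]
    | succ m =>
      have h := cc_add_two m
      simp only [Nat.add_sub_cancel]
      push_cast
      linear_combination a * h

theorem ctL_cc_T {u : ℤ} (hu : u ≠ 0) : ctL cc (Chebyshev.T ℚ u) = 0 := by
  have h := Chebyshev.add_one_mul_T_eq_poly_in_U (R := ℚ) (u - 1)
  have h1 := ctL_cc (Chebyshev.U ℚ (u - 1))
  rw [← h, show (((u - 1 : ℤ) : ℚ[X]) + 1) = ((u : ℤ) : ℚ[X]) by push_cast; ring, sub_add_cancel,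
    ctL_intCast_mul] at h1
  exact (mul_eq_zero.1 h1).resolve_left (by exact_mod_cast hu)

theorem ct_T_coeff (u : ℤ) {l : ℕ} (h : u.natAbs < l) : (Chebyshev.T ℚ u).coeff l = 0 :=
  coeff_eq_zero_of_natDegree_lt (by rw [Chebyshev.natDegree_T]; exact h)

theorem ct_tau_nat (n : ℕ) : ∀ m : ℕ, (Chebyshev.U ℚ ((n : ℤ) - 1)).coeff m =
    ctL (fun l => cz ((l : ℤ) - 1 - m)) (Chebyshev.T ℚ n) := by
  induction n using Nat.twoStepInduction with
  | zero =>
    intro m
    rw [Nat.cast_zero, zero_sub, Chebyshev.U_neg_one, Chebyshev.T_zero, coeff_zero,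
      ← monomial_zero_one, ctL_monomial, cz_of_neg (by omega), zero_mul]
  | one =>
    intro m
    rw [Nat.cast_one, sub_self, Chebyshev.U_zero, Chebyshev.T_one, ← monomial_one_one_eq_X,
      ctL_monomial, coeff_one, mul_one]
    split_ifs with h
    · subst h
      simp [cz]
    · rw [cz_of_neg (by omega)]
  | more n ih0 ih1 =>
    intro m
    have e1 : Chebyshev.U ℚ (((n + 2 : ℕ) : ℤ) - 1) =
        ((2 : ℤ) : ℚ[X]) * (X * Chebyshev.U ℚ (((n + 1 : ℕ) : ℤ) - 1)) -
          Chebyshev.U ℚ ((n : ℤ) - 1) := by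
      have := Chebyshev.U_add_one ℚ (n : ℤ)
      rw [show ((n + 2 : ℕ) : ℤ) - 1 = (n : ℤ) + 1 by push_cast; ring,
        show ((n + 1 : ℕ) : ℤ) - 1 = (n : ℤ) by push_cast; ring, this]
      push_cast
      ring
    have e2 : Chebyshev.T ℚ ((n + 2 : ℕ) : ℤ) =
        ((2 : ℤ) : ℚ[X]) * (X * Chebyshev.T ℚ ((n + 1 : ℕ) : ℤ)) - Chebyshev.T ℚ (n : ℤ) := by
      have := Chebyshev.T_add_two ℚ (n : ℤ)
      push_cast
      rw [this]
      ring
    rw [e1, e2, coeff_sub, map_sub, ← ih0 m, ctL_intCast_mul, ctL_X_mul, coeff_intCast_mul]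
    congr 2
    cases m with
    | zero =>
      rw [coeff_X_mul_zero, ← ctL_cc_T (u := ((n + 1 : ℕ) : ℤ)) (by omega)]
      congr 2
      funext l
      rw [← cz_natCast]
      congr 1
      push_cast
      ring
    | succ k =>
      rw [coeff_X_mul, ih1 k]
      congr 2
      funext l
      congr 1
      push_cast
      ring

/-- The contact relation is preserved under multiplication by `1 - X`. -/
theorem ct_rel_pow (L : ℕ) (P D : ℚ[X])
    (h : ∀ j : ℕ, j < L → D.coeff j = ctL (fun i => cz ((j : ℤ) - i - 1)) P) (k : ℕ) :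
    ∀ j : ℕ, j < L →
      ((1 - X) ^ k * D).coeff j = ctL (fun i => cz ((j : ℤ) - i - 1)) ((1 - X) ^ k * P) := by
  induction k with
  | zero => simpa using h
  | succ k ih =>
    intro j hj
    rw [show (1 - X) ^ (k + 1) * D = (1 - X) ^ k * D - X * ((1 - X) ^ k * D) by ring,
      show (1 - X) ^ (k + 1) * P = (1 - X) ^ k * P - X * ((1 - X) ^ k * P) by ring,
      coeff_sub, map_sub, ih j hj, ctL_X_mul]
    congr 1
    cases j with
    | zero =>
      have e : (fun l : ℕ => cz (((0 : ℕ) : ℤ) - ((l + 1 : ℕ) : ℤ) - 1)) = fun _ => 0 :=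
        funext fun l => cz_of_neg (by omega)
      rw [coeff_X_mul_zero, e, ctL_zero_fun]
    | succ j =>
      rw [coeff_X_mul, ih j (by omega)]
      congr 2
      funext l
      congr 1
      push_cast
      ring

/-- Let `Λ Q = ∑_l cc l Q_l` (a linear functional). `Λ ((1-X²) Q' - X Q) = 0` for all `Q` (on `X^l` this is
`cc_add_two`), and `(u+1) T_{u+1} = X U_u - (1-X²) U_u'` (`Chebyshev.add_one_mul_T_eq_poly_in_U`). -/
theorem sum_cc_T {u : ℤ} (hu : u ≠ 0) {B : ℕ} (hB : u.natAbs < B) :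
    ∑ l ∈ range B, cc l * (Chebyshev.T ℚ u).coeff l = 0 := by
  rw [← ctL_eq_sum cc _ B fun l hl => ct_T_coeff u (by omega), ctL_cc_T hu]

/-- `U_{u-1}` is the polynomial part of `T_u/√(X²-1)`, in degrees `≥ -u`.
`u ≥ 0`: two-step induction on `u` for all `m` (`T_{u+2} = 2X T_{u+1} - T_u`, `U_{u+1} = 2X U_u - U_{u-1}`; the coefficient `m = 0`
uses `sum_cc_T`; take `B` large first, the extra terms vanish). `u < 0`: both sides vanish by degree
(`T_neg`, `U_neg_sub_one`). -/
theorem contact_tau (u : ℤ) {m B : ℕ} (hm : -u ≤ m) (hB : u.natAbs < B) :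
    (Chebyshev.U ℚ (u - 1)).coeff m =
      ∑ l ∈ range B, cz ((l : ℤ) - 1 - m) * (Chebyshev.T ℚ u).coeff l := by
  rcases le_or_gt 0 u with h | h
  · obtain ⟨n, rfl⟩ := Int.eq_ofNat_of_zero_le h
    rw [ct_tau_nat, ctL_eq_sum _ _ B fun l hl => ct_T_coeff _ (by omega)]
  · rw [coeff_eq_zero_of_natDegree_lt (by rw [Chebyshev.natDegree_U]; omega)]
    symm
    refine Finset.sum_eq_zero fun l _ => ?_
    rcases le_or_gt l m with h1 | h1
    · rw [cz_of_neg (by omega), zero_mul]
    · rw [ct_T_coeff u (by omega), mul_zero]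

/-- The property `∀ j < L, D_j = ∑_i P_i cz (j-i-1)` holds for the reflected polynomials (`contact_tau` with
`m = 47N-1-j ≥ 3N`) and is preserved by multiplying `P, D` by `1 - X`. -/
theorem contact_t {N r j : ℕ} (hr : r < 36 * N) (hj : j < 44 * N) :
    (rowD N r).coeff j =
      ∑ i ∈ range (49 * N), (rowP N r).coeff i * cz ((j : ℤ) - i - 1) := by
  have h0 : ∀ j : ℕ, j < 44 * N →
      (reflect (47 * N - 1) (Chebyshev.U ℚ ((r : ℤ) - 3 * N - 1))).coeff j =
        ctL (fun i => cz ((j : ℤ) - i - 1))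
          (reflect (47 * N - 1) (Chebyshev.T ℚ ((r : ℤ) - 3 * N))) := by
    intro j hj
    rw [coeff_reflect, revAt_le (by omega),
      contact_tau ((r : ℤ) - 3 * N) (m := 47 * N - 1 - j) (B := 47 * N) (by omega) (by omega),
      ctL_eq_sum _ _ (47 * N), ← Finset.sum_range_reflect]
    · refine Finset.sum_congr rfl fun i hi => ?_
      have hi' := mem_range.1 hi
      rw [coeff_reflect, revAt_le (by omega)]
      congr 2
      omega
    · intro l hl
      rw [coeff_reflect, revAt_eq_self_of_lt (by omega), ct_T_coeff _ (by omega)]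
  have h1 := ct_rel_pow (44 * N) _ _ h0 (2 * N) j hj
  change (rowD N r).coeff j = ctL _ (rowP N r) at h1
  rw [h1, ctL_eq_sum _ _ (49 * N) fun l hl => rowP_coeff_eq_zero hr (Or.inr hl)]
  exact Finset.sum_congr rfl fun i _ => mul_comm _ _

/-- the form used in the pairing -/
theorem pair_contact {N r k : ℕ} (hr : r < 36 * N) (hk : k < 36 * N) :
    pair (fun i j => cz ((j : ℤ) - i - 1)) (rowP N r) (col N k) =
      pair (fun i j => if i = j then 1 else 0) (rowD N r) (col N k) := by
  have hQ : ∀ j, j ∉ range (44 * N) → (col N k).coeff j = 0 := fun j hj =>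
    col_coeff_eq_zero hk (Or.inr (by simpa using hj))
  rw [pair_eq_sum _ _ _ (range (49 * N)) (range (44 * N))
      (fun i hi => rowP_coeff_eq_zero hr (Or.inr (by simpa using hi))) hQ,
    pair_eq_sum _ _ _ (range (49 * N)) (range (44 * N))
      (fun i hi => rowD_coeff_eq_zero hr (Or.inr (by simpa using hi))) hQ,
    Finset.sum_comm, Finset.sum_comm (s := range (49 * N))]
  refine Finset.sum_congr rfl fun j hj => ?_
  have hj' := mem_range.1 hj
  simp only [mul_ite, mul_one, mul_zero, Finset.sum_ite_eq', mem_range]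
  rw [if_pos (by omega), contact_t hr hj', Finset.sum_mul]
  exact Finset.sum_congr rfl fun i _ => by ring

end Crest.Agent.R6
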