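import Crest.Agent.R6.ABase

/-! # R6 arithmetic: from `p`-adic upper bounds to an archimedean lower bound. -/

set_option autoImplicit false
set_option linter.unusedSectionVars false

namespace Crest.Agent.R6

open Polynomial Finset

private theorem aden_nat {p : ℕ} [hp : Fact p.Prime] {d : ℕ} (hd : d ≠ 0) :
    nrm p (d : ℚ) = ((p : ℝ) ^ (d.factorization p))⁻¹ := by
  have h := Nat.ordProj_mul_ordCompl_eq_self d p
  have h2 : nrm p ((d / p ^ d.factorization p : ℕ) : ℚ) = 1 :=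
    nrm_nat_eq_one (Nat.not_dvd_ordCompl hp.out hd)
  conv_lhs => rw [← h]
  rw [Nat.cast_mul, nrm_mul, h2, Nat.cast_pow, nrm_pow, nrm_p, mul_one, inv_pow]

private theorem aden_eq {p : ℕ} [Fact p.Prime] (x : ℚ) :
    nrm p x = nrm p (x.num : ℚ) * (p : ℝ) ^ (x.den.factorization p) := by
  conv_lhs => rw [← x.num_div_den]
  rw [nrm_div, aden_nat x.den_nz, div_inv_eq_mul]

private theorem prod_dvd_of_coprime' (S : Finset ℕ) (d : ℕ) (hS : ∀ p ∈ S, p.Prime) :
    ∏ p ∈ S, p ^ d.factorization p ∣ d :=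
  Finset.prod_dvd_of_isRelPrime (fun p hp q hq hne => Nat.coprime_iff_isRelPrime.1
    (Nat.coprime_pow_primes _ _ (hS p hp) (hS q hq) hne)) fun p _ => Nat.ordProj_dvd d p

/-- `γ = num/den`, `‖1/den‖ = p^{v_p den}`. -/
theorem max_nrm_le {p : ℕ} [Fact p.Prime] (γ : ℚ) :
    max 1 (nrm p γ) ≤ (p : ℝ) ^ (γ.den.factorization p) := by
  refine max_le (one_le_pow₀ one_le_p_real) ?_
  rw [aden_eq]
  exact mul_le_of_le_one_left (pow_pos p_pos_real _).le (nrm_int_le _)

/-- for `p ∣ den x` the numerator is a unit, so `‖x‖ = p^{v_p den}` -/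
theorem pow_factorization_den_le {p : ℕ} [Fact p.Prime] (x : ℚ) :
    (p : ℝ) ^ (x.den.factorization p) ≤ max 1 (nrm p x) := by
  by_cases h : p ∣ x.den
  · refine le_trans (le_of_eq ?_) (le_max_right _ _)
    rw [aden_eq, nrm_int_eq_one, one_mul]
    intro h2
    have h3 := Nat.dvd_gcd (Int.natCast_dvd.1 h2) h
    rw [x.reduced] at h3
    exact (Fact.out : p.Prime).one_lt.ne' (Nat.dvd_one.1 h3)
  · rw [Nat.factorization_eq_zero_of_not_dvd h, pow_zero]
    exact le_max_left _ _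

/-- `|x| ≥ 1/den` and `den = ∏_{p ∣ den} p^{v_p den} ≤ ∏_{p ∈ S} B p`
(`Nat.factorization_prod_pow_eq_self`; primes outside `S` do not divide `den`). -/
theorem abs_ge_of_nrm_le {x : ℚ} (hx : x ≠ 0) (B : ℕ → ℝ) (S : Finset ℕ) (hB1 : ∀ p, 1 ≤ B p)
    (hB : ∀ (p : ℕ) [Fact p.Prime], nrm p x ≤ B p) (hS : ∀ p, p.Prime → p ∉ S → B p ≤ 1) :
    (∏ p ∈ S, B p)⁻¹ ≤ |(x : ℝ)| := by
  have h1 : ∀ p : ℕ, p.Prime → (p : ℝ) ^ (x.den.factorization p) ≤ B p := fun p hp => by
    have : Fact p.Prime := ⟨hp⟩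
    exact (pow_factorization_den_le x).trans (max_le (hB1 p) (hB p))
  have h2 : (x.den : ℝ) ≤ ∏ p ∈ S, B p := by
    conv_lhs => rw [← Nat.factorization_prod_pow_eq_self x.den_nz]
    rw [Finsupp.prod, Nat.cast_prod, Nat.support_factorization]
    calc ∏ p ∈ x.den.primeFactors, ((p ^ x.den.factorization p : ℕ) : ℝ)
        ≤ ∏ p ∈ x.den.primeFactors, B p := prod_le_prod (fun _ _ => by positivity) fun p hp => by
          exact_mod_cast h1 p (Nat.prime_of_mem_primeFactors hp)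
      _ = ∏ p ∈ x.den.primeFactors ∩ S, B p := by
          refine (prod_subset inter_subset_left fun p hp hp' => ?_).symm
          exact le_antisymm (hS p (Nat.prime_of_mem_primeFactors hp)
            fun h => hp' (mem_inter.2 ⟨hp, h⟩)) (hB1 p)
      _ ≤ _ := prod_le_prod_of_subset_of_one_le inter_subset_right
          (fun p _ => zero_le_one.trans (hB1 p)) fun p _ _ => hB1 p
  have h3 : (0 : ℝ) < x.den := by exact_mod_cast x.den_pos
  refine (inv_anti₀ h3 h2).trans ?_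
  rw [Rat.cast_def, abs_div, abs_of_pos h3, inv_eq_one_div]
  gcongr
  exact_mod_cast Int.one_le_abs (Rat.num_ne_zero.2 hx)

/-- `∏_{p ∈ S} p^{v_p d} ≤ d` for a set `S` of primes -/
theorem prod_pow_factorization_le {d : ℕ} (hd : d ≠ 0) (S : Finset ℕ) (hS : ∀ p ∈ S, p.Prime) :
    ∏ p ∈ S, (p : ℝ) ^ (d.factorization p) ≤ d := by
  have h : ∏ p ∈ S, p ^ d.factorization p ∣ d :=
    prod_dvd_of_coprime' S d hS
  exact_mod_cast Nat.le_of_dvd (Nat.pos_of_ne_zero hd) h

end Crest.Agent.R6
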