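import Crest.Agent.R6.ABase

/-! # R6 arithmetic: supports, integrality and explicit forms of the entries. -/

set_option autoImplicit false
set_option linter.unusedSectionVars false

namespace Crest.Agent.R6

open Polynomial Finset

section
variable {p : ℕ} [hp : Fact p.Prime]

theorem ae_nrm_map (P : ℤ[X]) (l : ℕ) : nrm p ((P.map (Int.castRingHom ℚ)).coeff l) ≤ 1 := by
  rw [coeff_map]
  exact nrm_int_le _

/-- `T ℚ u = map (Int.castRingHom ℚ) (T ℤ u)` (`Chebyshev.map_T`). -/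
theorem nrm_T_coeff (u : ℤ) (l : ℕ) : nrm p ((Chebyshev.T ℚ u).coeff l) ≤ 1 := by
  rw [← Chebyshev.map_T (Int.castRingHom ℚ)]
  exact ae_nrm_map _ _
theorem nrm_U_coeff (u : ℤ) (l : ℕ) : nrm p ((Chebyshev.U ℚ u).coeff l) ≤ 1 := by
  rw [← Chebyshev.map_U (Int.castRingHom ℚ)]
  exact ae_nrm_map _ _
theorem ae_nrm_pow (n l : ℕ) : nrm p (((1 - X : ℚ[X]) ^ n).coeff l) ≤ 1 := by
  have := ae_nrm_map (p := p) ((1 - X) ^ n) l
  simpa using this
theorem ae_nrm_mul {P Q : ℚ[X]} (hP : ∀ l, nrm p (P.coeff l) ≤ 1) (hQ : ∀ l, nrm p (Q.coeff l) ≤ 1)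
    (l : ℕ) : nrm p ((P * Q).coeff l) ≤ 1 := by
  rw [coeff_mul]
  exact nrm_sum_le zero_le_one fun x _ => nrm_mul_le_right (hP _) (hQ _)
/-- the rows and columns are images of integer polynomials (`reflect_map`, or `coeff_mul` + `coeff_reflect`) -/
theorem nrm_rowP_coeff (N r i : ℕ) : nrm p ((rowP N r).coeff i) ≤ 1 :=
  ae_nrm_mul (ae_nrm_pow _) (fun l => by rw [coeff_reflect]; exact nrm_T_coeff _ _) i
theorem nrm_rowD_coeff (N r i : ℕ) : nrm p ((rowD N r).coeff i) ≤ 1 :=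
  ae_nrm_mul (ae_nrm_pow _) (fun l => by rw [coeff_reflect]; exact nrm_U_coeff _ _) i
theorem nrm_col_coeff (N k j : ℕ) : nrm p ((col N k).coeff j) ≤ 1 :=
  ae_nrm_mul (fun l => by
    rw [coeff_X_pow]
    split_ifs
    · exact nrm_one.le
    · exact nrm_zero.le.trans zero_le_one) (ae_nrm_pow _) j
end

/-- `natDegree_T`: the degree is `|r - 3N| ≤ 33N - 1`. -/
theorem T_coeff_eq_zero {R : Type*} [CommRing R] {N r l : ℕ} (hr : r < 36 * N) (hl : 33 * N ≤ l) :
    (Chebyshev.T R ((r : ℤ) - 3 * N)).coeff l = 0 := by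
  rw [← Chebyshev.map_T (Int.castRingHom R), coeff_map,
    coeff_eq_zero_of_natDegree_lt (by rw [Chebyshev.natDegree_T]; omega), map_zero]
/-- `natDegree_U`: the degree is `≤ 33N - 2`. -/
theorem U_coeff_eq_zero {R : Type*} [CommRing R] {N r l : ℕ} (hr : r < 36 * N)
    (hl : 33 * N ≤ l + 1) : (Chebyshev.U R ((r : ℤ) - 3 * N - 1)).coeff l = 0 := by
  rw [← Chebyshev.map_U (Int.castRingHom R), coeff_map,
    coeff_eq_zero_of_natDegree_lt (by rw [Chebyshev.natDegree_U]; omega), map_zero]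

theorem ae_reflect {N : ℕ} {P : ℚ[X]} (h : ∀ l, 33 * N ≤ l → P.coeff l = 0) :
    (1 - X) ^ (2 * N) * reflect (47 * N - 1) P =
      ∑ l ∈ range (33 * N), C (P.coeff l) * ((1 - X) ^ (2 * N) * X ^ (47 * N - 1 - l)) := by
  have e : reflect (47 * N - 1) P = ∑ l ∈ range (33 * N), C (P.coeff l) * X ^ (47 * N - 1 - l) := by
    ext i
    rw [coeff_reflect, finsetSum_coeff]
    simp only [coeff_C_mul_X_pow]
    by_cases hi : 14 * N ≤ i ∧ i < 47 * N
    · rw [revAt_le (by omega), Finset.sum_eq_single (47 * N - 1 - i), if_pos (by omega)]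
      · intro l hl hl'
        rw [Finset.mem_range] at hl
        rw [if_neg (by omega)]
      · intro hl
        rw [Finset.mem_range] at hl
        omega
    · rw [Finset.sum_eq_zero fun l hl => by rw [Finset.mem_range] at hl; rw [if_neg (by omega)]]
      rcases le_or_gt i (47 * N - 1) with h1 | h1
      · rw [revAt_le h1]
        exact h _ (by omega)
      · rw [revAt_eq_self_of_lt h1]
        exact h _ (by omega)
  rw [e, Finset.mul_sum]
  exact Finset.sum_congr rfl fun l _ => by ring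

theorem ae_pow (n m : ℕ) : ((1 - X) ^ n * X ^ m : ℚ[X]) =
    ∑ a ∈ range (n + 1), C ((-1) ^ a * (n.choose a : ℚ)) * X ^ (m + a) := by
  rw [sub_eq_neg_add, add_pow, Finset.sum_mul]
  refine Finset.sum_congr rfl fun a _ => ?_
  rw [neg_pow, map_mul, map_pow, map_neg, map_one, map_natCast]
  ring

theorem ae_coeff_eq_zero {n m i : ℕ} (hi : i < m ∨ m + n < i) :
    ((1 - X) ^ n * X ^ m : ℚ[X]).coeff i = 0 := by
  rw [ae_pow, finsetSum_coeff]
  refine Finset.sum_eq_zero fun a ha => ?_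
  rw [Finset.mem_range] at ha
  rw [coeff_C_mul_X_pow, if_neg (by omega)]

/-- `rowP = ∑_{l<33N} T_l (1-X)^{2N} X^{47N-1-l}` -/
theorem rowP_eq {N r : ℕ} (hr : r < 36 * N) : rowP N r = ∑ l ∈ range (33 * N),
    C ((Chebyshev.T ℚ ((r : ℤ) - 3 * N)).coeff l) * ((1 - X) ^ (2 * N) * X ^ (47 * N - 1 - l)) :=
  ae_reflect fun _ hl => T_coeff_eq_zero hr hl
theorem rowD_eq {N r : ℕ} (hr : r < 36 * N) : rowD N r = ∑ l ∈ range (33 * N),
    C ((Chebyshev.U ℚ ((r : ℤ) - 3 * N - 1)).coeff l) *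
      ((1 - X) ^ (2 * N) * X ^ (47 * N - 1 - l)) :=
  ae_reflect fun _ hl => U_coeff_eq_zero hr (by omega)

theorem rowP_coeff_eq_zero {N r i : ℕ} (hr : r < 36 * N) (hi : i < 14 * N ∨ 49 * N ≤ i) :
    (rowP N r).coeff i = 0 := by
  rw [rowP_eq hr, finsetSum_coeff]
  refine Finset.sum_eq_zero fun l hl => ?_
  rw [Finset.mem_range] at hl
  rw [coeff_C_mul, ae_coeff_eq_zero (by omega), mul_zero]
theorem rowD_coeff_eq_zero {N r i : ℕ} (hr : r < 36 * N) (hi : i < 14 * N ∨ 49 * N ≤ i) :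
    (rowD N r).coeff i = 0 := by
  rw [rowD_eq hr, finsetSum_coeff]
  refine Finset.sum_eq_zero fun l hl => ?_
  rw [Finset.mem_range] at hl
  rw [coeff_C_mul, ae_coeff_eq_zero (by omega), mul_zero]
theorem col_coeff_eq_zero {N k j : ℕ} (hk : k < 36 * N) (hj : j < 6 * N ∨ 44 * N ≤ j) :
    (col N k).coeff j = 0 := by
  rw [col, mul_comm, ae_coeff_eq_zero (by omega)]

theorem pair_eq_sum (K : ℕ → ℕ → ℚ) (P Q : ℚ[X]) (s t : Finset ℕ)
    (hs : ∀ i, i ∉ s → P.coeff i = 0) (ht : ∀ j, j ∉ t → Q.coeff j = 0) :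
    pair K P Q = ∑ i ∈ s, ∑ j ∈ t, P.coeff i * Q.coeff j * K i j := by
  have h1 : P.support ⊆ s := fun i hi => by
    by_contra h
    exact mem_support_iff.1 hi (hs i h)
  have h2 : Q.support ⊆ t := fun j hj => by
    by_contra h
    exact mem_support_iff.1 hj (ht j h)
  rw [pair, Finset.sum_subset h1 fun i _ hi => by simp [notMem_support_iff.1 hi]]
  exact Finset.sum_congr rfl fun i _ =>
    Finset.sum_subset h2 fun j _ hj => by simp [notMem_support_iff.1 hj]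

/-- the linear functional with values `f i` on the monomials -/
noncomputable def aeL (f : ℕ → ℚ) : ℚ[X] →ₗ[ℚ] ℚ :=
  Polynomial.lsum fun i => LinearMap.toSpanSingleton ℚ ℚ (f i)

theorem aeL_apply (f : ℕ → ℚ) (P : ℚ[X]) : aeL f P = ∑ i ∈ P.support, P.coeff i * f i := by
  simp [aeL, Polynomial.sum_def]

theorem aeL_C_mul (f : ℕ → ℚ) (c : ℚ) (P : ℚ[X]) : aeL f (C c * P) = c * aeL f P := by
  rw [← smul_eq_C_mul, map_smul, smul_eq_mul]

theorem aeL_pow (f : ℕ → ℚ) (n m : ℕ) : aeL f ((1 - X) ^ n * X ^ m) =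
    ∑ a ∈ range (n + 1), (-1) ^ a * (n.choose a : ℚ) * f (m + a) := by
  rw [ae_pow, map_sum]
  refine Finset.sum_congr rfl fun a _ => ?_
  rw [aeL_C_mul, aeL_apply, support_X_pow]
  simp

theorem ae_pair (K : ℕ → ℕ → ℚ) (P Q : ℚ[X]) : pair K P Q = aeL (fun i => aeL (K i) Q) P := by
  simp only [pair, aeL_apply, Finset.mul_sum, mul_assoc]

theorem ae_pair_sum (K : ℕ → ℕ → ℚ) (N k : ℕ) (c : ℕ → ℚ) :
    pair K (∑ l ∈ range (33 * N), C (c l) * ((1 - X) ^ (2 * N) * X ^ (47 * N - 1 - l))) (col N k) =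
      ∑ l ∈ range (33 * N), c l * KM K N l k := by
  rw [ae_pair, map_sum]
  refine Finset.sum_congr rfl fun l _ => ?_
  rw [aeL_C_mul, aeL_pow, KM]
  congr 1
  refine Finset.sum_congr rfl fun a _ => ?_
  rw [col, mul_comm (X ^ _), aeL_pow, Finset.mul_sum]
  exact Finset.sum_congr rfl fun b _ => by ring

/-- `pair` is linear in the first polynomial; then expand `(1-X)^{2N}` by the binomial theorem in both slots. -/
theorem pair_rowP (K : ℕ → ℕ → ℚ) {N r : ℕ} (hr : r < 36 * N) (k : ℕ) :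
    pair K (rowP N r) (col N k) =
      ∑ l ∈ range (33 * N), (Chebyshev.T ℚ ((r : ℤ) - 3 * N)).coeff l * KM K N l k := by
  rw [rowP_eq hr, ae_pair_sum]
theorem pair_rowD (K : ℕ → ℕ → ℚ) {N r : ℕ} (hr : r < 36 * N) (k : ℕ) :
    pair K (rowD N r) (col N k) =
      ∑ l ∈ range (33 * N), (Chebyshev.U ℚ ((r : ℤ) - 3 * N - 1)).coeff l * KM K N l k := by
  rw [rowD_eq hr, ae_pair_sum]

end Crest.Agent.R6
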