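import Crest.Agent.R6.ABase

/-! # R6 arithmetic: `p`-adic size of a determinant from a feature decomposition. -/

set_option autoImplicit false
set_option linter.unusedSectionVars false

namespace Crest.Agent.R6

open Polynomial Finset

variable {p : ℕ} [hp : Fact p.Prime]

theorem af_det {n : Type*} [Fintype n] [DecidableEq n] (A : Matrix n n ℚ) (b : n → ℝ)
    (hb : ∀ k, 0 ≤ b k) (h : ∀ r k, nrm p (A r k) ≤ b k) : nrm p A.det ≤ ∏ k, b k := by
  rw [Matrix.det_apply']
  refine nrm_sum_le (prod_nonneg fun k _ => hb k) fun σ _ => nrm_mul_le_right (nrm_int_le _) ?_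
  rw [nrm_prod]
  exact prod_le_prod (fun _ _ => nrm_nonneg _) fun k _ => h _ k

/-- Proof: expand `det (X*Y) = ∑_{φ : n → ι} (∏_k Y (φ k) k) * det (X.submatrix id φ)`
(`Matrix.det_apply'`, `Matrix.mul_apply`, `Finset.prod_univ_sum`, `sum_comm`; compare the proof of
`Matrix.det_mul_aux`/`det_mul`). Non-injective `φ` give `0` (two equal columns). For injective `φ` each term
`± ∏_k X (σ k) (φ k) * Y (φ k) k` has norm `≤ ∏_k a (φ k) β k`, and
`∏_k a (φ k) ≤ ∏_k θ * max 1 (a (φ k)/θ) ≤ θ^n ∏_f max 1 (a f/θ)` (product over the image of `φ`, every factor `≥ 1`).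
Finish with `nrm_sum_le`. -/
theorem nrm_det_mul_le {n ι : Type*} [Fintype n] [DecidableEq n] [Fintype ι] [DecidableEq ι]
    (X : Matrix n ι ℚ) (Y : Matrix ι n ℚ) (a : ι → ℝ) (β : n → ℝ) (θ : ℝ) (hθ : 0 < θ)
    (ha : ∀ f, 0 ≤ a f) (hβ : ∀ k, 0 ≤ β k)
    (h : ∀ r f k, nrm p (X r f * Y f k) ≤ a f * β k) :
    nrm p (X * Y).det ≤ θ ^ Fintype.card n * (∏ f, max 1 (a f / θ)) * ∏ k, β k := by
  have h1 : ∀ f, (1 : ℝ) ≤ max 1 (a f / θ) := fun f => le_max_left _ _
  have e : (X * Y).det = ∑ φ : n → ι, (Matrix.of fun r k => X r (φ k) * Y (φ k) k).det := by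
    simp only [Matrix.det_apply', Matrix.mul_apply, prod_univ_sum, mul_sum, Fintype.piFinset_univ,
      Matrix.of_apply]
    exact sum_comm
  have h0 : 0 ≤ ∏ f, max 1 (a f / θ) := prod_nonneg fun f _ => zero_le_one.trans (h1 f)
  have hβ' : 0 ≤ ∏ k, β k := prod_nonneg fun k _ => hβ k
  rw [e]
  refine nrm_sum_le (by positivity) fun φ _ => ?_
  by_cases hφ : Function.Injective φ
  · refine (af_det _ (fun k => a (φ k) * β k) (fun k => mul_nonneg (ha _) (hβ k))
      fun r k => h r _ k).trans ?_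
    rw [prod_mul_distrib]
    refine mul_le_mul_of_nonneg_right ?_ hβ'
    calc ∏ k, a (φ k) ≤ ∏ k, θ * max 1 (a (φ k) / θ) := prod_le_prod (fun k _ => ha _) fun k _ =>
          (div_le_iff₀' hθ).1 (le_max_right _ _)
      _ = θ ^ Fintype.card n * ∏ f ∈ univ.image φ, max 1 (a f / θ) := by
          rw [prod_mul_distrib, prod_const, card_univ, prod_image hφ.injOn]
      _ ≤ _ := mul_le_mul_of_nonneg_left (prod_le_prod_of_subset_of_one_le (subset_univ _)
          (fun f _ => zero_le_one.trans (h1 f)) fun f _ _ => h1 f) (by positivity)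
  · obtain ⟨i, j, hij, hne⟩ := Function.not_injective_iff.1 hφ
    have := Matrix.det_mul_row (fun k => Y (φ k) k) (X.submatrix id φ)
    rw [Matrix.det_zero_of_column_eq (M := X.submatrix id φ) hne (fun k => by simp [hij]),
      mul_zero] at this
    simp only [mul_comm (X _ _)]
    exact ((congrArg (nrm p) this).trans nrm_zero).trans_le (by positivity)

/-- all entries `≤ B` -/
theorem nrm_det_le_pow {n : Type*} [Fintype n] [DecidableEq n] (A : Matrix n n ℚ) (B : ℝ)
    (hB : 0 ≤ B) (h : ∀ r k, nrm p (A r k) ≤ B) : nrm p A.det ≤ B ^ Fintype.card n := by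
  simpa using af_det A (fun _ => B) (fun _ => hB) h

/-- `x` is a `Γ`-small vector plus a `p`-integral combination of the features `u f`, `f ∈ s`. -/
def InSpan (p : ℕ) [Fact p.Prime] {n ι : Type*} (s : Finset ι) (u : ι → n → ℚ) (Γ : ℝ)
    (x : n → ℚ) : Prop :=
  ∃ (w : n → ℚ) (κ : ι → ℚ), (∀ r, nrm p (w r) ≤ Γ) ∧ (∀ f, nrm p (κ f) ≤ 1) ∧
    ∀ r, x r = w r + ∑ f ∈ s, κ f * u f r

section
variable {n ι : Type*} {s : Finset ι} {u : ι → n → ℚ} {Γ : ℝ}

theorem InSpan.of_small {x : n → ℚ} (h : ∀ r, nrm p (x r) ≤ Γ) : InSpan p s u Γ x := by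
  exact ⟨x, 0, h, by simp, by simp⟩

theorem InSpan.feat (hΓ : 0 ≤ Γ) {f : ι} (hf : f ∈ s) : InSpan p s u Γ (u f) := by
  classical
  refine ⟨0, Pi.single f 1, fun _ => by simpa, fun g => ?_, fun r => by simp [Pi.single_apply, hf]⟩
  rw [Pi.single_apply]
  split_ifs <;> simp

theorem InSpan.congr {x y : n → ℚ} (hx : InSpan p s u Γ x) (h : ∀ r, y r = x r) :
    InSpan p s u Γ y := by
  rwa [funext h]

theorem InSpan.add {x y : n → ℚ} (hx : InSpan p s u Γ x) (hy : InSpan p s u Γ y) :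
    InSpan p s u Γ (fun r => x r + y r) := by
  obtain ⟨w, κ, h1, h2, h3⟩ := hx
  obtain ⟨w', κ', k1, k2, k3⟩ := hy
  refine ⟨w + w', κ + κ', fun r => nrm_add_le (h1 r) (k1 r), fun f => nrm_add_le (h2 f) (k2 f),
    fun r => ?_⟩
  simp only [h3, k3, Pi.add_apply, add_mul, sum_add_distrib]
  ring

theorem InSpan.smul {x : n → ℚ} {c : ℚ} (hc : nrm p c ≤ 1) (hx : InSpan p s u Γ x) :
    InSpan p s u Γ (fun r => c * x r) := by
  obtain ⟨w, κ, h1, h2, h3⟩ := hx
  exact ⟨fun r => c * w r, fun f => c * κ f, fun r => nrm_mul_le_right hc (h1 r),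
    fun f => nrm_mul_le_right hc (h2 f), fun r => by simp only [h3, mul_add, mul_sum, mul_assoc]⟩

theorem InSpan.sub {x y : n → ℚ} (hx : InSpan p s u Γ x) (hy : InSpan p s u Γ y) :
    InSpan p s u Γ (fun r => x r - y r) := by
  exact (hx.add (hy.smul (c := -1) (by simp))).congr fun r => by ring

theorem InSpan.sum {α : Type*} (hΓ : 0 ≤ Γ) {t : Finset α} {x : α → n → ℚ}
    (h : ∀ i ∈ t, InSpan p s u Γ (x i)) : InSpan p s u Γ (fun r => ∑ i ∈ t, x i r) := by
  classical
  induction t using Finset.induction_on with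
  | empty => exact .of_small fun _ => by simpa
  | insert i t hi ih =>
    exact ((h i (mem_insert_self _ _)).add (ih fun j hj => h j (mem_insert_of_mem hj))).congr
      fun r => sum_insert hi

end

/-- Proof: choose `w k`, `κ k` for each column; `A = X * Y` with index type `n ⊕ s`,
`X = [1 | u]`, `Y = [w ; κ]`; apply `nrm_det_mul_le` with `β = 1`, weights `θ` on `n` and `max 0 (a f)` on `s`. -/
theorem nrm_det_le_of_inSpan {n ι : Type*} [Fintype n] [DecidableEq n] {s : Finset ι}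
    {u : ι → n → ℚ} {Γ : ℝ} (A : Matrix n n ℚ) (hA : ∀ k, InSpan p s u Γ (fun r => A r k))
    (a : ι → ℝ) (ha : ∀ f ∈ s, ∀ r, nrm p (u f r) ≤ a f) (θ : ℝ) (hθ : 0 < θ) (hΓ : Γ ≤ θ) :
    nrm p A.det ≤ θ ^ Fintype.card n * ∏ f ∈ s, max 1 (a f / θ) := by
  classical
  choose w κ h1 h2 h3 using hA
  have e : A = Matrix.of (fun r => Sum.elim (fun r' => if r = r' then 1 else 0) fun f : s => u f r) *
      Matrix.of fun f k => Sum.elim (fun r' => w k r') (fun f : s => κ k f) f := by
    ext r k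
    simp [Matrix.mul_apply, h3, mul_comm, ← sum_coe_sort s]
  have := nrm_det_mul_le (p := p) (a := Sum.elim (fun _ => θ) fun f : s => max 0 (a f))
    (β := fun _ => 1) θ hθ (by rintro (r | f) <;> simp [hθ.le]) (fun _ => zero_le_one) (X := Matrix.of fun r =>
      Sum.elim (fun r' => if r = r' then 1 else 0) fun f : s => u f r)
    (Y := Matrix.of fun f k => Sum.elim (fun r' => w k r') (fun f : s => κ k f) f) (by
      rintro r (r' | f) k
      · refine (nrm_mul_le_right ?_ (h1 k r')).trans (by simpa)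
        simp only [Matrix.of_apply, Sum.elim_inl]
        split_ifs <;> simp
      · exact (nrm_mul_le_left (ha f f.2 r) (h2 k f)).trans (by simp))
  rw [← e, prod_const_one, mul_one, Fintype.prod_sum_type] at this
  refine this.trans_eq ?_
  rw [← prod_coe_sort s]
  simp only [Sum.elim_inl, Sum.elim_inr, div_self hθ.ne', max_self, prod_const_one, one_mul,
    ← max_div_div_right hθ.le, zero_div, ← max_assoc, max_eq_left (zero_le_one' ℝ)]

end Crest.Agent.R6
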