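import Crest.Agent.R6.ABound

/-! # R6 arithmetic: the double pole of `phi0` is the simple pole of `ww`. -/

set_option autoImplicit false
set_option linter.unusedSectionVars false

namespace Crest.Agent.R6

open Polynomial Finset

variable {p : ℕ} [hp : Fact p.Prime]

/-- `cc (p+1) = p/(p+1) cc (p-1)`, then `cc (d+2) = (d+1)/(d+2) cc d` with `p ∤ d+2` (even, `< 2p`);
odd `d`: `cc d = 0`. -/
theorem nrm_cc_le_inv (h2 : p ≠ 2) {d : ℕ} (h1 : p < d) (h3 : d < 2 * p) :
    nrm p (cc d) ≤ (p : ℝ)⁻¹ := by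
  have hodd : p % 2 = 1 := hp.out.eq_two_or_odd.resolve_left h2
  have hp1 : 1 < p := hp.out.one_lt
  have step : ∀ m : ℕ, p < m + 2 → m + 2 < 2 * p →
      cc (m + 2) = (((m + 1 : ℕ) : ℚ) * cc m) * (((m + 2 : ℕ) : ℚ))⁻¹ ∧
        nrm p (((m + 2 : ℕ) : ℚ))⁻¹ ≤ 1 := by
    intro m hm1 hm2
    refine ⟨?_, nrm_inv_nat_le_one (Or.inr ?_)⟩
    · have h := cc_add_two m
      have h0 : ((m : ℚ) + 2) ≠ 0 := by positivity
      push_cast
      rw [← h]; field_simp
    · rintro ⟨c, hc⟩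
      rcases Nat.lt_or_ge c 2 with hc2 | hc2
      · interval_cases c <;> omega
      · nlinarith
  have key : ∀ k : ℕ, p + 1 + 2 * k < 2 * p → nrm p (cc (p + 1 + 2 * k)) ≤ (p : ℝ)⁻¹ := by
    intro k
    induction k with
    | zero =>
      intro hk
      obtain ⟨e1, e2⟩ := step (p - 1) (by omega) (by omega)
      rw [show p + 1 + 2 * 0 = p - 1 + 2 by omega, e1]
      refine nrm_mul_le_left (nrm_mul_le_left ?_ (nrm_cc_le_one h2 _)) e2
      rw [show p - 1 + 1 = p by omega, nrm_p]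
    | succ k ih =>
      intro hk
      obtain ⟨e1, e2⟩ := step (p + 1 + 2 * k) (by omega) (by omega)
      rw [show p + 1 + 2 * (k + 1) = p + 1 + 2 * k + 2 by omega, e1]
      exact nrm_mul_le_left (nrm_mul_le_right (nrm_nat_le _) (ih (by omega))) e2
  rcases Nat.mod_two_eq_zero_or_one d with h | h
  · obtain ⟨k, rfl⟩ : ∃ k, d = p + 1 + 2 * k := ⟨(d - p - 1) / 2, by omega⟩
    exact key k h3
  · rw [cc_odd h, nrm_zero]; positivity

/-- `d < p`: both terms integral (`nrm_phi0_le`, `nrm_ww_le`, `lg_of_lt`). `p ≤ d < 2p` (so `d < p²`):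
`d = 2l` even: `ww (d-1) = 0`, `phi0 (1-d) = phiC l = -cc d · ∑ ww(2k)/(2k+1)`, norm `≤ p⁻¹ p²`.
`d = 2e+1`: `phi0 (1-d) = phiD e = ww (2e) (1 + S)`; `p(1+S) - 1 = p · (integral)`, since the only term of `S` with a
pole is `1/(2k+3)` at `2k+3 = p` (even denominators `2k+2 < 2p` are prime to `p`); `‖ww (2e)‖ ≤ p`. -/
theorem phi0_key (h2 : p ≠ 2) {d : ℕ} (h1 : 1 ≤ d) (h3 : d < 2 * p) :
    nrm p (p * phi0 (1 - (d : ℤ)) - ww (d - 1)) ≤ 1 := by
  have hodd : p % 2 = 1 := hp.out.eq_two_or_odd.resolve_left h2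
  have hp1 : 1 < p := hp.out.one_lt
  have hp0 : (0 : ℝ) < p := p_pos_real
  have hpq : (p : ℚ) ≠ 0 := by exact_mod_cast hp.out.ne_zero
  rcases Nat.lt_or_ge d p with hd | hd
  · refine nrm_sub_le (nrm_mul_le_right (nrm_nat_le p) ?_) ?_
    · have := nrm_phi0_le (p := p) h2 (e := -(d : ℤ)) (M := d) (by simp)
      rw [lg_of_lt hd, one_pow] at this
      rwa [show (1 : ℤ) - d = -(d : ℤ) + 1 by ring]
    · have := nrm_ww_le (p := p) (d - 1)
      rwa [show d - 1 + 1 = d by omega, lg_of_lt hd] at this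
  have hlg : ∀ m : ℕ, m ≤ d → lg p m ≤ p := fun m hm => lg_le_p (by nlinarith)
  rcases Nat.mod_two_eq_zero_or_one d with h | h
  · obtain ⟨l, rfl⟩ : ∃ l, d = 2 * l := ⟨d / 2, by omega⟩
    have e1 : phi0 (1 - ((2 * l : ℕ) : ℤ)) = phiC l := by
      unfold phi0
      rw [if_neg (by push_cast; omega), if_neg (by push_cast; omega)]
      congr 1
      push_cast; omega
    rw [e1, ww_odd (by omega), sub_zero]
    refine nrm_p_mul_le ?_
    unfold phiC
    rw [nrm_neg]
    have h4 : nrm p (∑ k ∈ range l, ww (2 * k) / (2 * (k : ℚ) + 1)) ≤ p * p := by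
      refine nrm_sum_le (by positivity) fun k hk => ?_
      have hk' := Finset.mem_range.1 hk
      rw [div_eq_mul_inv]
      refine nrm_mul_le ((nrm_ww_le _).trans (hlg _ (by omega))) ?_
      have := nrm_inv_nat_le (p := p) (z := 2 * k + 1) (M := 2 * l) (by omega)
      push_cast at this
      exact this.trans (hlg _ le_rfl)
    refine (nrm_mul_le (nrm_cc_le_inv h2 (by omega) h3) h4).trans (le_of_eq ?_)
    field_simp
  · obtain ⟨e, rfl⟩ : ∃ e, d = 2 * e + 1 := ⟨d / 2, by omega⟩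
    have e1 : phi0 (1 - ((2 * e + 1 : ℕ) : ℤ)) = phiD e := by
      unfold phi0
      rw [if_neg (by push_cast; omega), if_pos (by push_cast; omega)]
      congr 1
      push_cast; omega
    obtain ⟨k0, hk0⟩ : ∃ k0, p = 2 * k0 + 3 := ⟨(p - 3) / 2, by omega⟩
    have hk0e : k0 ∈ range e := Finset.mem_range.2 (by omega)
    have e2 : (p : ℚ) * phiD e - ww (2 * e + 1 - 1) = ww (2 * e) * (p * (1 + ∑ k ∈ range e,
        ((1 / (2 * (k : ℚ) + 3) - if k = k0 then 1 / (p : ℚ) else 0) - 1 / (2 * (k : ℚ) + 2)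
          - cc (2 * k + 2) / (2 * (k : ℚ) + 2)))) := by
      unfold phiD
      simp only [Finset.sum_sub_distrib, Finset.sum_ite_eq', if_pos hk0e, Nat.add_sub_cancel]
      field_simp
      ring
    rw [e1, e2]
    have h5 : nrm p (1 + ∑ k ∈ range e,
        ((1 / (2 * (k : ℚ) + 3) - if k = k0 then 1 / (p : ℚ) else 0) - 1 / (2 * (k : ℚ) + 2)
          - cc (2 * k + 2) / (2 * (k : ℚ) + 2))) ≤ 1 := by
      refine nrm_add_le (by simp) (nrm_sum_le zero_le_one fun k hk => ?_)
      have hk' := Finset.mem_range.1 hk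
      have h6 : nrm p (2 * (k : ℚ) + 2)⁻¹ ≤ 1 := by
        have := nrm_inv_nat_le_one (p := p) (z := 2 * k + 2) (Or.inr (by
          rintro ⟨c, hc⟩
          rcases Nat.lt_or_ge c 2 with hc2 | hc2
          · interval_cases c <;> omega
          · nlinarith))
        push_cast at this
        exact this
      refine nrm_sub_le (nrm_sub_le ?_ (by rwa [one_div])) ?_
      · split_ifs with hk
        · subst hk
          have : (p : ℚ) = 2 * (k : ℚ) + 3 := by rw [hk0]; push_cast; ring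
          rw [this, sub_self, nrm_zero]; exact zero_le_one
        · rw [sub_zero, one_div]
          have := nrm_inv_nat_le_one (p := p) (z := 2 * k + 3) (Or.inr (by
            rintro ⟨c, hc⟩
            rcases Nat.lt_or_ge c 2 with hc2 | hc2
            · interval_cases c <;> omega
            · nlinarith))
          push_cast at this
          exact this
      · rw [div_eq_mul_inv]
        exact nrm_mul_le_left (nrm_cc_le_one h2 _) h6
    have h7 : nrm p (ww (2 * e)) ≤ p := (nrm_ww_le _).trans (hlg _ le_rfl)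
    refine (nrm_mul_le h7 (nrm_mul_le_left (le_of_eq nrm_p) h5)).trans (le_of_eq ?_)
    field_simp

/-- `psi0 (-d) = (1/d - h_{d-1})/d`. `d ≠ p`: `1/d` is integral and `‖h_{d-1}‖ ≤ p`.
`d = p`: the expression is `-h_{p-1}`. -/
theorem psi0_key (h2 : p ≠ 2) {d : ℕ} (h1 : 1 ≤ d) (h3 : d < 2 * p) :
    nrm p (p * psi0 (-(d : ℤ)) - 1 / (d : ℚ)) ≤ 1 := by
  have hodd : p % 2 = 1 := hp.out.eq_two_or_odd.resolve_left h2
  have hp1 : 1 < p := hp.out.one_lt
  have hp0 : (0 : ℝ) < p := p_pos_real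
  have hpq : (p : ℚ) ≠ 0 := by exact_mod_cast hp.out.ne_zero
  have e1 : psi0 (-(d : ℤ)) = (1 / (d : ℚ) - harmonic (d - 1)) / d := by
    unfold psi0
    rw [if_neg (by omega)]
    simp
  rw [e1]
  rcases eq_or_ne d p with rfl | hd
  · have : (d : ℚ) * ((1 / (d : ℚ) - harmonic (d - 1)) / d) - 1 / (d : ℚ) = -harmonic (d - 1) := by
      field_simp; ring
    rw [this, nrm_neg]
    exact (nrm_harmonic_le _).trans (le_of_eq (lg_of_lt (by omega)))
  · have h4 : nrm p (d : ℚ)⁻¹ ≤ 1 := nrm_inv_nat_le_one (Or.inr (by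
      rintro ⟨c, hc⟩
      rcases Nat.lt_or_ge c 2 with hc2 | hc2
      · interval_cases c <;> omega
      · nlinarith))
    refine nrm_sub_le (nrm_p_mul_le ?_) (by rwa [one_div])
    rw [div_eq_mul_inv, mul_one]
    refine nrm_mul_le_left (nrm_sub_le ?_ ?_) h4
    · rw [one_div]; exact h4.trans one_le_p_real
    · refine (nrm_harmonic_le _).trans (lg_le_p ?_)
      have : d - 1 < 2 * p := by omega
      nlinarith

end Crest.Agent.R6
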