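import Crest.Agent.R6.AFeat

/-! # R6 arithmetic: abstract feature count for the primes `p ≥ H/2`. -/

set_option autoImplicit false
set_option linter.unusedSectionVars false

namespace Crest.Agent.R6

open Polynomial Finset

/-- the column functional `φ_j = β_j - ∑_{a ≠ j} ν_a/(j-a)` on the rows -/
def Phi {n : Type*} (H : ℕ) (β ν : ℕ → n → ℚ) (j : ℕ) (r : n) : ℚ :=
  β j r - ∑ a ∈ range H, ν a r / ((j : ℚ) - a)

/-- the `p`-adic facts about `β, ν` -/
structure OddData (p : ℕ) [Fact p.Prime] {n : Type*} (A H L : ℕ) (β ν : ℕ → n → ℚ) : Prop where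
  nu_le : ∀ a r, nrm p (ν a r) ≤ p
  nu_int : ∀ a r, H ≤ a + p → nrm p (ν a r) ≤ 1
  nu_zero : ∀ a r, H ≤ a → ν a r = 0
  be_le : ∀ j r, j < L → nrm p (β j r) ≤ (p : ℝ) ^ 2
  be_int : ∀ j r, H ≤ j + p → j < A + p → nrm p (β j r) ≤ 1
  key : ∀ j r, H ≤ j + 2 * p → j < A + p → nrm p (p * β j r - ν j r) ≤ 1

variable {p : ℕ} [hp : Fact p.Prime]

/-- the first family of features -/
def o1_f {n : Type*} (p L b : ℕ) (β ν : ℕ → n → ℚ) (a : ℕ) (r : n) : ℚ :=
  if b ≤ a ∧ a < L then β a r + ν (a + p) r / p else if a < b ∧ a + p < L then ν a r / p else ν a r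

/-- all features -/
def o1_u {n : Type*} (p L b : ℕ) (β ν : ℕ → n → ℚ) : ℕ ⊕ ℕ → n → ℚ :=
  Sum.elim (o1_f p L b β ν) fun ρ r => β (ρ + p) r - ν ρ r / p + o1_f p L b β ν ρ r

/-- the indicator of the features of size `p²` -/
def o1_e (p A L b : ℕ) : ℕ ⊕ ℕ → ℕ :=
  Sum.elim (fun a => (if b ≤ a then 1 else 0) + (if a < b ∧ a + p < L then 1 else 0))
    fun ρ => if A ≤ ρ then 1 else 0

/-- the index set -/
def o1_s (p H L b : ℕ) : Finset (ℕ ⊕ ℕ) := (range (H - p)).disjSum (Ico b (L - p))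

theorem o1_e_le (p A L b : ℕ) (f : ℕ ⊕ ℕ) : o1_e p A L b f ≤ 1 := by
  rcases f with a | ρ
  · simp only [o1_e, Sum.elim_inl]
    split_ifs <;> omega
  · simp only [o1_e, Sum.elim_inr]
    split_ifs <;> omega

theorem o1_card (p H L b : ℕ) : (o1_s p H L b).card = (H - p) + (L - p - b) := by
  simp [o1_s]

theorem o1_sum_e (p A H L b : ℕ) : ∑ f ∈ o1_s p H L b, o1_e p A L b f ≤
    (H - p - b) + min b (L - p) + (L - p - A) := by
  simp only [o1_s, o1_e, Finset.sum_disjSum, Sum.elim_inl, Sum.elim_inr, Finset.sum_add_distrib,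
    ← Finset.card_filter]
  refine add_le_add (add_le_add ?_ ?_) ?_
  · rw [← Nat.card_Ico b (H - p)]
    refine Finset.card_le_card fun a ha => ?_
    simp only [Finset.mem_filter, Finset.mem_range, Finset.mem_Ico] at ha ⊢
    omega
  · rw [← Finset.card_range (min b (L - p))]
    refine Finset.card_le_card fun a ha => ?_
    simp only [Finset.mem_filter, Finset.mem_range] at ha ⊢
    omega
  · rw [← Nat.card_Ico A (L - p)]
    refine Finset.card_le_card fun a ha => ?_
    simp only [Finset.mem_filter, Finset.mem_Ico] at ha ⊢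
    omega

section
variable {n : Type*} {A H L b : ℕ} {β ν : ℕ → n → ℚ}

theorem o1_div_le {x : ℚ} {B : ℝ} (h : nrm p x ≤ B) : nrm p (x / p) ≤ B * p := by
  rw [nrm_div_p]
  exact mul_le_mul_of_nonneg_right h p_pos_real.le

theorem o1_p_le_sq : (p : ℝ) ≤ (p : ℝ) ^ 2 := by
  have := one_le_p_real (p := p)
  nlinarith

theorem o1_f_le (hd : OddData p A H L β ν) (a : ℕ) (r : n) :
    nrm p (o1_f p L b β ν a r) ≤ (p : ℝ) ^ 2 := by
  unfold o1_f
  split_ifs with h1 h2
  · exact nrm_add_le (hd.be_le a r h1.2) ((o1_div_le (hd.nu_le _ r)).trans (sq _).ge)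
  · exact (o1_div_le (hd.nu_le _ r)).trans (sq _).ge
  · exact (hd.nu_le _ r).trans o1_p_le_sq

theorem o1_size (hd : OddData p A H L β ν) (hH : H ≤ 2 * p) :
    ∀ f ∈ o1_s p H L b, ∀ r, nrm p (o1_u p L b β ν f r) ≤ (p : ℝ) ^ (1 + o1_e p A L b f) := by
  have h0 : (p : ℚ) ≠ 0 := by exact_mod_cast hp.out.ne_zero
  rintro (a | ρ) hf r
  · simp only [o1_u, o1_e, Sum.elim_inl]
    by_cases h1 : b ≤ a
    · rw [if_pos h1, if_neg (by omega)]
      exact o1_f_le hd a r
    · rw [if_neg h1]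
      split_ifs with h2
      · exact o1_f_le hd a r
      · rw [o1_f, if_neg (by omega), if_neg h2]
        simpa using hd.nu_le a r
  · simp only [o1_s, Finset.inr_mem_disjSum, Finset.mem_Ico] at hf
    simp only [o1_u, o1_e, Sum.elim_inr]
    split_ifs with h1
    · exact nrm_add_le (nrm_sub_le (hd.be_le _ r (by omega))
        ((o1_div_le (hd.nu_le _ r)).trans (sq _).ge)) (o1_f_le hd ρ r)
    · rw [o1_f, if_pos (by omega)]
      have e : β (ρ + p) r - ν ρ r / p + (β ρ r + ν (ρ + p) r / p) =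
          β (ρ + p) r + ((p * β ρ r - ν ρ r) + ν (ρ + p) r) / p := by
        field_simp
        ring
      rw [e, add_zero, pow_one]
      refine nrm_add_le ((hd.be_int _ r (by omega) (by omega)).trans one_le_p_real) ?_
      simpa using o1_div_le (nrm_add_le (hd.key ρ r (by omega) (by omega))
        (hd.nu_int (ρ + p) r (by omega)))

theorem o1_feat_f {Γ : ℝ} (hΓ : 1 ≤ Γ) {a : ℕ} (ha : a + p < H) :
    InSpan p (o1_s p H L b) (o1_u p L b β ν) Γ (o1_f p L b β ν a) :=
  InSpan.feat (u := o1_u p L b β ν) (f := Sum.inl a) (by linarith)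
    (by simp only [o1_s, Finset.inl_mem_disjSum, Finset.mem_range]; omega)

theorem o1_nu (hd : OddData p A H L β ν) (hH : H ≤ 2 * p) {Γ : ℝ} (hΓ : 1 ≤ Γ) (a : ℕ) :
    InSpan p (o1_s p H L b) (o1_u p L b β ν) Γ (ν a) := by
  have h0 : (p : ℚ) ≠ 0 := by exact_mod_cast hp.out.ne_zero
  by_cases ha : H ≤ a + p
  · exact InSpan.of_small fun r => (hd.nu_int a r ha).trans hΓ
  have hf := o1_feat_f (p := p) (L := L) (b := b) (β := β) (ν := ν) hΓ (not_le.1 ha)
  by_cases h1 : b ≤ a ∧ a < L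
  · refine ((hf.smul (nrm_nat_le p)).sub (InSpan.of_small
      (x := fun r => (p * β a r - ν a r) + ν (a + p) r) fun r => ?_)).congr fun r => ?_
    · exact (nrm_add_le (hd.key a r (by omega) (by omega)) (hd.nu_int _ r (by omega))).trans hΓ
    · rw [o1_f, if_pos h1]
      field_simp
      ring
  · by_cases h2 : a < b ∧ a + p < L
    · refine (hf.smul (nrm_nat_le p)).congr fun r => ?_
      rw [o1_f, if_neg h1, if_pos h2]
      field_simp
    · exact hf.congr fun r => by rw [o1_f, if_neg h1, if_neg h2]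

theorem o1_phi (hd : OddData p A H L β ν) (hbA : b ≤ A) (hLH : L ≤ H) (hH : H ≤ 2 * p) {Γ : ℝ}
    (hΓ : 1 ≤ Γ) {j : ℕ} (hj : j ∈ Ico b L) :
    InSpan p (o1_s p H L b) (o1_u p L b β ν) Γ (Phi H β ν j) := by
  have h0 : (p : ℚ) ≠ 0 := by exact_mod_cast hp.out.ne_zero
  rw [Finset.mem_Ico] at hj
  have key : ∀ a₀ : ℕ, (∀ a < H, a ≠ a₀ → (j : ℤ) - a = 0 ∨ ¬ (p : ℤ) ∣ (j : ℤ) - a) →
      InSpan p (o1_s p H L b) (o1_u p L b β ν) Γ (fun r => β j r - ν a₀ r / ((j : ℚ) - a₀)) →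
      InSpan p (o1_s p H L b) (o1_u p L b β ν) Γ (Phi H β ν j) := by
    intro a₀ h1 h2
    refine (h2.sub (InSpan.sum (by linarith) (t := (range H).erase a₀)
      (x := fun a r => ((j : ℚ) - a)⁻¹ * ν a r) fun a ha => ?_)).congr fun r => ?_
    · rw [Finset.mem_erase, Finset.mem_range] at ha
      refine (o1_nu hd hH hΓ a).smul ?_
      simpa using nrm_inv_int_le_one (p := p) (h1 a ha.2 ha.1)
    · have e : ∑ a ∈ range H, ν a r / ((j : ℚ) - a) =
          ∑ a ∈ (range H).erase a₀, ν a r / ((j : ℚ) - a) + ν a₀ r / ((j : ℚ) - a₀) := by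
        by_cases h : a₀ ∈ range H
        · rw [Finset.sum_erase_add _ _ h]
        · rw [Finset.erase_eq_of_notMem h, hd.nu_zero a₀ r (by simpa using h), zero_div, add_zero]
      rw [Phi, e]
      simp only [div_eq_inv_mul]
      ring
  have hdvd : ∀ a : ℕ, a < H → (p : ℤ) ∣ (j : ℤ) - a → a = j ∨ a = j + p ∨ a + p = j := by
    rintro a ha ⟨c, hc⟩
    have hp0 : (0 : ℤ) < p := by exact_mod_cast hp.out.pos
    have h1 : c < 2 := by
      by_contra h
      have : (p : ℤ) * 2 ≤ p * c := mul_le_mul_of_nonneg_left (not_lt.1 h) hp0.le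
      omega
    have h2 : -2 < c := by
      by_contra h
      have : (p : ℤ) * c ≤ p * (-2) := mul_le_mul_of_nonneg_left (not_lt.1 h) hp0.le
      omega
    interval_cases c <;> omega
  by_cases hjp : j < p
  · refine key (j + p) (fun a ha hne => ?_) ?_
    · by_cases h : (p : ℤ) ∣ (j : ℤ) - a
      · have := hdvd a ha h
        left
        omega
      · exact Or.inr h
    · by_cases h : j + p < H
      · refine (o1_feat_f hΓ h).congr fun r => ?_
        rw [o1_f, if_pos hj]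
        push_cast
        rw [show (j : ℚ) - (j + p) = -p by ring, div_neg, sub_neg_eq_add]
      · refine InSpan.of_small fun r => ?_
        rw [hd.nu_zero _ r (not_lt.1 h), zero_div, sub_zero]
        exact (hd.be_int j r (not_lt.1 h) (by omega)).trans hΓ
  · obtain ⟨ρ, rfl⟩ : ∃ ρ, j = ρ + p := ⟨j - p, by omega⟩
    refine key ρ (fun a ha hne => ?_) ?_
    · by_cases h : (p : ℤ) ∣ ((ρ + p : ℕ) : ℤ) - a
      · have := hdvd a ha h
        left
        omega
      · exact Or.inr h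
    · have hf := o1_feat_f (p := p) (L := L) (b := b) (β := β) (ν := ν) hΓ (show ρ + p < H by omega)
      have e : (((ρ + p : ℕ) : ℚ) - ρ) = p := by push_cast; ring
      by_cases h : b ≤ ρ
      · refine ((InSpan.feat (u := o1_u p L b β ν) (f := Sum.inr ρ) (by linarith)
          (by simp only [o1_s, Finset.inr_mem_disjSum, Finset.mem_Ico]; omega)).sub hf).congr
          fun r => ?_
        simp only [o1_u, Sum.elim_inr, e]
        ring
      · refine ((InSpan.of_small (x := β (ρ + p)) fun r =>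
          (hd.be_int _ r (by omega) (by omega)).trans hΓ).sub hf).congr fun r => ?_
        rw [o1_f, if_neg (by omega), if_pos (by omega), e]

end

/-- Features (index `ℕ ⊕ ℕ`): for `a < H-p`, `f_a = β_a + ν_{a+p}/p` if `b ≤ a` (and `a < L`; size `p²`),
`f_a = ν_a/p` if `a < b ∧ a+p < L` (size `p²`), else `f_a = ν_a` (size `p`); for `ρ ∈ [b, L-p)`,
`g_ρ = β_{ρ+p} - ν_ρ/p + f_ρ`, size `p` if `ρ < A` (`β_{ρ+p}` integral, `f_ρ - ν_ρ/p = (pβ_ρ - ν_ρ + ν_{ρ+p})/p`), else `p²`.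
Every `ν_a` is `InSpan` (`ν_a = p f_a - (p f_a - ν_a)`, `key`, `nu_int`; integral if `a ≥ H-p`). For `j ∈ [b,L)`:
in `Phi j` the only `a < H ≤ 2p` with `p ∣ j-a ≠ 0` is `a = j ± p` (use `nrm_inv_int_le_one` for the others, and
`nu_zero` when `j+p ≥ H`). `j < p`: `β_j + ν_{j+p}/p` is `f_j` or (if `j ≥ H-p`) integral.
`j = ρ+p`: `β_j - ν_ρ/p` is `g_ρ - f_ρ` (`ρ ≥ b`) or integral `- f_ρ` (`ρ < b ≤ A`). So all columns are `InSpan` with `Γ`.
There are `r₁ = (H-p)+(L-p-b)` features, at most `r₂` of size `p²`. Apply `nrm_det_le_of_inSpan` with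
`θ = Γ`, `Γ p`, `Γ p²` (exponents `r₁+r₂`, `n+r₂`, `2n`), and `min n r₁ + min n r₂` is one of these or
`r₁ + n ≥ r₁+r₂`-type cases (`r₂' ≤ r₁` for the true count `r₂'`): take the minimum of the three bounds.
If `a ≥ L` (possible when `L < H-p`) use `f_a = ν_a`. -/
theorem odd_rangeI {n : Type*} [Fintype n] [DecidableEq n] {A H L b : ℕ} {β ν : ℕ → n → ℚ}
    (hd : OddData p A H L β ν) (hbA : b ≤ A) (hLH : L ≤ H) (hH : H ≤ 2 * p)
    (Q : n → ℕ → ℚ) (hQ : ∀ k j, nrm p (Q k j) ≤ 1) (W : Matrix n n ℚ) (Γ : ℝ) (hΓ : 1 ≤ Γ)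
    (hW : ∀ r k, nrm p (W r k) ≤ Γ) (M : Matrix n n ℚ)
    (hM : ∀ r k, M r k = ∑ j ∈ Ico b L, Q k j * Phi H β ν j r + W r k) :
    nrm p M.det ≤ Γ ^ Fintype.card n * (p : ℝ) ^
      (min (2 * Fintype.card n) (min (Fintype.card n) ((H - p) + (L - p - b)) +
        ((H - p - b) + min b (L - p) + (L - p - A)))) := by
  have hP := p_pos_real (p := p)
  have hP1 := one_le_p_real (p := p)
  have hcol : ∀ k, InSpan p (o1_s p H L b) (o1_u p L b β ν) Γ (fun r => M r k) := fun k =>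
    ((InSpan.sum (by linarith) (t := Ico b L) (x := fun j r => Q k j * Phi H β ν j r)
      fun j hj => (o1_phi hd hbA hLH hH hΓ hj).smul (hQ k j)).add
      (InSpan.of_small (x := fun r => W r k) fun r => hW r k)).congr fun r => hM r k
  have key : ∀ t : ℕ, nrm p M.det ≤ Γ ^ Fintype.card n *
      (p : ℝ) ^ (t * Fintype.card n + ∑ f ∈ o1_s p H L b, (1 + o1_e p A L b f - t)) := by
    intro t
    have h1 : 1 ≤ (p : ℝ) ^ t := one_le_pow₀ hP1
    refine (nrm_det_le_of_inSpan M hcol (fun f => (p : ℝ) ^ (1 + o1_e p A L b f)) (o1_size hd hH)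
      (Γ * (p : ℝ) ^ t) (by positivity) (le_mul_of_one_le_right (by linarith) h1)).trans ?_
    rw [mul_pow, ← pow_mul, pow_add, mul_assoc, ← Finset.prod_pow_eq_pow_sum]
    refine mul_le_mul_of_nonneg_left (mul_le_mul_of_nonneg_left ?_ (by positivity)) (by positivity)
    refine Finset.prod_le_prod (fun f _ => le_trans zero_le_one (le_max_left _ _)) fun f _ => ?_
    refine max_le (one_le_pow₀ hP1) ?_
    rw [div_le_iff₀ (by positivity)]
    calc (p : ℝ) ^ (1 + o1_e p A L b f) ≤ (p : ℝ) ^ ((1 + o1_e p A L b f - t) + t) :=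
          pow_le_pow_right₀ hP1 (by omega)
      _ = (p : ℝ) ^ (1 + o1_e p A L b f - t) * (1 * (p : ℝ) ^ t) := by rw [pow_add, one_mul]
      _ ≤ _ := by gcongr
  have hs := o1_sum_e p A H L b
  have e0 : ∑ f ∈ o1_s p H L b, (1 + o1_e p A L b f - 0) =
      (H - p) + (L - p - b) + ∑ f ∈ o1_s p H L b, o1_e p A L b f := by
    simp [Finset.sum_add_distrib, o1_card]
  have e1 : ∑ f ∈ o1_s p H L b, (1 + o1_e p A L b f - 1) = ∑ f ∈ o1_s p H L b, o1_e p A L b f := by
    simp
  have e2 : ∑ f ∈ o1_s p H L b, (1 + o1_e p A L b f - 2) = 0 :=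
    Finset.sum_eq_zero fun f _ => by have := o1_e_le p A L b f; omega
  have fin : ∀ t : ℕ, t * Fintype.card n + ∑ f ∈ o1_s p H L b, (1 + o1_e p A L b f - t) ≤
      min (2 * Fintype.card n) (min (Fintype.card n) ((H - p) + (L - p - b)) +
        ((H - p - b) + min b (L - p) + (L - p - A))) → _ := fun t ht =>
    (key t).trans (mul_le_mul_of_nonneg_left (pow_le_pow_right₀ hP1 ht) (by positivity))
  by_cases h2 : 2 * Fintype.card n ≤ min (Fintype.card n) ((H - p) + (L - p - b)) +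
      ((H - p - b) + min b (L - p) + (L - p - A))
  · exact fin 2 (by rw [e2]; omega)
  · by_cases h1 : Fintype.card n ≤ (H - p) + (L - p - b)
    · exact fin 1 (by rw [e1]; omega)
    · exact fin 0 (by rw [e0]; omega)

end Crest.Agent.R6
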