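import Crest.Agent.R6.AOdd1

/-! # R6 arithmetic: abstract feature count for the primes `A ≤ p ≤ L - A`. -/

set_option autoImplicit false
set_option linter.unusedSectionVars false

namespace Crest.Agent.R6

open Polynomial Finset

variable {p : ℕ} [hp : Fact p.Prime]

theorem nrm_Phi_le {n : Type*} {A H L : ℕ} {β ν : ℕ → n → ℚ} (hd : OddData p A H L β ν)
    (hLH : L ≤ H) (hH : H < p ^ 2) {j : ℕ} (hj : j < L) (r : n) :
    nrm p (Phi H β ν j r) ≤ (p : ℝ) ^ 2 := by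
  unfold Phi
  refine nrm_sub_le (hd.be_le j r hj) (nrm_sum_le (by positivity) fun a ha => ?_)
  have ha' := Finset.mem_range.1 ha
  have h1 : nrm p (((j : ℤ) - (a : ℤ) : ℤ) : ℚ)⁻¹ ≤ lg p H := nrm_inv_int_le (by omega)
  have h2 : ν a r / ((j : ℚ) - a) = ν a r * (((j : ℤ) - (a : ℤ) : ℤ) : ℚ)⁻¹ := by
    push_cast; rw [div_eq_mul_inv]
  rw [h2, sq]
  exact nrm_mul_le (hd.nu_le a r) (h1.trans (lg_le_p hH))

private theorem term_le {x : ℚ} (hx : nrm p x ≤ p) {j a : ℕ}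
    (h : (j : ℤ) - a = 0 ∨ ¬ (p : ℤ) ∣ (j : ℤ) - a) : nrm p (x / ((j : ℚ) - a)) ≤ p := by
  have h2 : x / ((j : ℚ) - a) = x * (((j : ℤ) - (a : ℤ) : ℤ) : ℚ)⁻¹ := by
    push_cast; rw [div_eq_mul_inv]
  rw [h2]
  exact nrm_mul_le_left hx (nrm_inv_int_le_one h)

private theorem dvd_cases {z : ℤ} (h : (p : ℤ) ∣ z) (h1 : -(2 * p : ℤ) < z) (h2 : z < 2 * p) :
    z = 0 ∨ z = p ∨ z = -p := by
  obtain ⟨c, rfl⟩ := h
  have hp0 : (0 : ℤ) < p := by exact_mod_cast hp.out.pos
  have h3 : -2 < c := by nlinarith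
  have h4 : c < 2 := by nlinarith
  interval_cases c <;> simp

/-- For `H ≤ ρ+2p`, `ρ < A ≤ p`: in `Phi ρ` the only `a < H` with `p ∣ ρ-a ≠ 0` is `a = ρ+p` (`ν_{ρ+p}` integral), in
`Phi (ρ+p)` it is `a = ρ`; `β_{ρ+p}` is integral and `β_ρ - ν_ρ/p = (pβ_ρ - ν_ρ)/p`. -/
theorem nrm_Phi_add_le {n : Type*} {A H L : ℕ} {β ν : ℕ → n → ℚ} (hd : OddData p A H L β ν)
    (hA : A ≤ p) {ρ : ℕ} (h1 : H ≤ ρ + 2 * p) (h2 : ρ < A) (r : n) :
    nrm p (Phi H β ν ρ r + Phi H β ν (ρ + p) r) ≤ p := by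
  have hp0 : (0 : ℚ) < p := by exact_mod_cast hp.out.pos
  have hsplit : ∑ a ∈ range H, ν a r / (((ρ + p : ℕ) : ℚ) - a) =
      ν ρ r / p + ∑ a ∈ (range H).erase ρ, ν a r / (((ρ + p : ℕ) : ℚ) - a) := by
    by_cases hρ : ρ ∈ range H
    · rw [← Finset.add_sum_erase _ _ hρ]
      congr 2
      push_cast; ring
    · rw [Finset.erase_eq_of_notMem hρ, hd.nu_zero ρ r (by simpa using hρ)]
      simp
  have heq : Phi H β ν ρ r + Phi H β ν (ρ + p) r =
      ((p * β ρ r - ν ρ r) / p + β (ρ + p) r) - ∑ a ∈ range H, ν a r / ((ρ : ℚ) - a)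
        - ∑ a ∈ (range H).erase ρ, ν a r / (((ρ + p : ℕ) : ℚ) - a) := by
    unfold Phi
    rw [hsplit]
    field_simp
    ring
  rw [heq]
  refine nrm_sub_le (nrm_sub_le (nrm_add_le ?_ ?_) (nrm_sum_le p_pos_real.le fun a ha => ?_))
    (nrm_sum_le p_pos_real.le fun a ha => ?_)
  · rw [nrm_div_p]
    have := hd.key ρ r h1 (by have := hp.out.pos; omega)
    have h3 := p_pos_real (p := p)
    nlinarith
  · exact (hd.be_int (ρ + p) r (by omega) (by omega)).trans one_le_p_real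
  · have ha' := Finset.mem_range.1 ha
    by_cases hdv : (p : ℤ) ∣ (ρ : ℤ) - a
    · rcases dvd_cases hdv (by omega) (by omega) with h | h | h
      · exact term_le (hd.nu_le a r) (Or.inl h)
      · omega
      · have ha2 : a = ρ + p := by omega
        subst ha2
        have : ν (ρ + p) r / ((ρ : ℚ) - ((ρ + p : ℕ) : ℚ)) = -(ν (ρ + p) r / p) := by
          push_cast
          rw [show (ρ : ℚ) - (ρ + p) = -p by ring, div_neg]
        rw [this, nrm_neg, nrm_div_p]
        have h4 := hd.nu_int (ρ + p) r (by omega)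
        have h3 := p_pos_real (p := p)
        nlinarith
    · exact term_le (hd.nu_le a r) (Or.inr hdv)
  · obtain ⟨hne, ha'⟩ := Finset.mem_erase.1 ha
    have ha' := Finset.mem_range.1 ha'
    by_cases hdv : (p : ℤ) ∣ ((ρ + p : ℕ) : ℤ) - a
    · rcases dvd_cases hdv (by push_cast; omega) (by push_cast; omega) with h | h | h
      · exact term_le (hd.nu_le a r) (Or.inl h)
      · push_cast at h; omega
      · push_cast at h; omega
    · exact term_le (hd.nu_le a r) (Or.inr hdv)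

/-- Features: `Phi j` (size `p²`) for `j ∈ [b,L)` not of the form `ρ+p`, `ρ ∈ R = [max b (H-2p), A)`; small vectors have
size `Γ p`; `Phi (ρ+p) = (Phi ρ + Phi (ρ+p)) - Phi ρ` and `ρ < p` is a feature. `nrm_det_le_of_inSpan` with `θ = Γ p` gives the
exponent `n + (L-b) - |R|`; `nrm_det_le_pow` with `B = Γ p²` gives `2n`. -/
theorem odd_rangeII {n : Type*} [Fintype n] [DecidableEq n] {A H L b : ℕ} {β ν : ℕ → n → ℚ}
    (hd : OddData p A H L β ν) (hbA : b ≤ A) (hLH : L ≤ H) (hH : H < p ^ 2) (hA : A ≤ p)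
    (hAL : A + p ≤ L)
    (Q : n → ℕ → ℚ) (hQ : ∀ k j, nrm p (Q k j) ≤ 1) (W : Matrix n n ℚ) (Γ : ℝ) (hΓ : 1 ≤ Γ)
    (hW : ∀ r k, nrm p (W r k) ≤ Γ) (M : Matrix n n ℚ)
    (hM : ∀ r k, M r k = ∑ j ∈ Ico b L, Q k j * Phi H β ν j r + W r k) :
    nrm p M.det ≤ Γ ^ Fintype.card n * (p : ℝ) ^
      (Fintype.card n + min (Fintype.card n) ((L - b) - (A - max b (H - 2 * p)))) := by
  classical
  have hp1 := one_le_p_real (p := p)
  have hp0 := p_pos_real (p := p)
  set m := max b (H - 2 * p) with hm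
  set s : Finset ℕ := Ico b L \ Ico (m + p) (A + p) with hs
  have hcard : s.card = (L - b) - (A - m) := by
    rw [hs, Finset.card_sdiff_of_subset]
    · simp only [Nat.card_Ico]; omega
    · intro j hj
      rw [Finset.mem_Ico] at hj ⊢
      omega
  have hΓp : (p : ℝ) ≤ Γ * p := by nlinarith
  have hΓp0 : (0 : ℝ) < Γ * p := by linarith
  have hspan : ∀ j ∈ Ico b L, InSpan p s (Phi H β ν) (Γ * p) (Phi H β ν j) := by
    intro j hj
    by_cases hjs : j ∈ s
    · exact InSpan.feat hΓp0.le hjs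
    · have hj2 : j ∈ Ico (m + p) (A + p) := by
        by_contra h
        exact hjs (Finset.mem_sdiff.2 ⟨hj, h⟩)
      rw [Finset.mem_Ico] at hj hj2
      obtain ⟨ρ, rfl⟩ : ∃ ρ, j = ρ + p := ⟨j - p, by omega⟩
      have hρ : ρ ∈ s := by
        rw [hs, Finset.mem_sdiff, Finset.mem_Ico, Finset.mem_Ico]
        omega
      have h1 : InSpan p s (Phi H β ν) (Γ * p)
          (fun r => Phi H β ν ρ r + Phi H β ν (ρ + p) r) :=
        InSpan.of_small fun r => (nrm_Phi_add_le hd hA (by omega) (by omega) r).trans hΓp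
      exact (h1.sub (InSpan.feat hΓp0.le hρ)).congr fun r => by ring
  have hcol : ∀ k, InSpan p s (Phi H β ν) (Γ * p) (fun r => M r k) := by
    intro k
    have h1 : InSpan p s (Phi H β ν) (Γ * p)
        (fun r => ∑ j ∈ Ico b L, Q k j * Phi H β ν j r) :=
      InSpan.sum hΓp0.le fun j hj => (hspan j hj).smul (hQ k j)
    have h2 : InSpan p s (Phi H β ν) (Γ * p) (fun r => W r k) :=
      InSpan.of_small fun r => (hW r k).trans (by nlinarith)
    exact (h1.add h2).congr fun r => hM r k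
  have hb1 : nrm p M.det ≤ Γ ^ Fintype.card n * (p : ℝ) ^ (Fintype.card n + s.card) := by
    refine (nrm_det_le_of_inSpan M hcol (fun _ => (p : ℝ) ^ 2) (fun f hf r => ?_) (Γ * p) hΓp0
      le_rfl).trans ?_
    · exact nrm_Phi_le hd hLH hH (Finset.mem_Ico.1 (Finset.mem_sdiff.1 hf).1).2 r
    · rw [mul_pow, pow_add, mul_assoc]
      refine mul_le_mul_of_nonneg_left (mul_le_mul_of_nonneg_left ?_ (by positivity))
        (by positivity)
      rw [Finset.prod_const]
      refine pow_le_pow_left₀ (le_trans zero_le_one (le_max_left _ _)) (max_le hp1 ?_) _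
      rw [div_le_iff₀ hΓp0]
      nlinarith
  have hb2 : nrm p M.det ≤ Γ ^ Fintype.card n * (p : ℝ) ^ (Fintype.card n + Fintype.card n) := by
    refine (nrm_det_le_pow M (Γ * (p : ℝ) ^ 2) (by positivity) fun r k => ?_).trans (le_of_eq ?_)
    · rw [hM]
      have hp2 : (1 : ℝ) ≤ (p : ℝ) ^ 2 := one_le_pow₀ hp1
      refine nrm_add_le (nrm_sum_le (by positivity) fun j hj => ?_) ((hW r k).trans (by nlinarith))
      refine (nrm_mul_le_right (hQ k j) (nrm_Phi_le hd hLH hH (Finset.mem_Ico.1 hj).2 r)).trans ?_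
      nlinarith
    · rw [mul_pow, ← pow_mul, two_mul]
  rw [← hcard]
  rcases le_total (Fintype.card n) s.card with h | h
  · rwa [min_eq_left h]
  · rwa [min_eq_right h]

end Crest.Agent.R6
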