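import Crest.Agent.R6.AOdd2
import Crest.Agent.R6.AKey
import Crest.Agent.R6.AEntry

/-! # R6 arithmetic: the bound at an odd prime. -/

set_option autoImplicit false
set_option linter.unusedSectionVars false

namespace Crest.Agent.R6

open Polynomial Finset

noncomputable def beta (N j : ℕ) (r : Fin (36 * N)) : ℚ :=
  ∑ i ∈ range (49 * N), ((rowP N r).coeff i * phi0 ((j : ℤ) - i + 1) -
    3 / 2 * ((rowD N r).coeff i * psi0 ((j : ℤ) - i)))

noncomputable def nu (N a : ℕ) (r : Fin (36 * N)) : ℚ :=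
  ∑ i ∈ range (49 * N), if a < i then ((rowP N r).coeff i * ww (i - 1 - a) -
    3 / 2 * ((rowD N r).coeff i * (1 / ((i : ℚ) - a)))) else 0

/-- The exponent of `p` lost at the prime `p` (natural subtractions). -/
def lossZ (N p : ℕ) : ℤ :=
  -((37 * N - 2 * p : ℕ) : ℤ) + (43 * N - 2 * p : ℕ) - (49 * N - 2 * p : ℕ) - (51 * N - 2 * p : ℕ)
    + (30 * N - p : ℕ) + (43 * N - p : ℕ) + (44 * N - p : ℕ) + (49 * N - p : ℕ)

/-- Unfold `M0`, use `Z0_eq`; in the inner sums put `m = i-1-a` (`Finset.sum_range_reflect`), extend to `a < 49N`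
with `if a < i`, and swap the sums. -/
theorem Phi_eq (N j : ℕ) (r : Fin (36 * N)) : Phi (49 * N) (beta N) (nu N) j r =
    ∑ i ∈ range (49 * N), ((rowP N r).coeff i * M0 i j - 3 / 2 * ((rowD N r).coeff i * Z0 i j)) := by
  unfold Phi beta nu
  simp only [Finset.sum_div]
  rw [Finset.sum_comm, ← Finset.sum_sub_distrib]
  refine Finset.sum_congr rfl fun i hi => ?_
  have hi' := Finset.mem_range.1 hi
  have e1 : ∑ a ∈ range (49 * N), (if a < i then ((rowP N r).coeff i * ww (i - 1 - a) -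
      3 / 2 * ((rowD N r).coeff i * (1 / ((i : ℚ) - a)))) else 0) / ((j : ℚ) - a) =
      ∑ a ∈ range i, ((rowP N r).coeff i * ww (i - 1 - a) -
        3 / 2 * ((rowD N r).coeff i * (1 / ((i : ℚ) - a)))) / ((j : ℚ) - a) := by
    rw [← Finset.sum_subset (Finset.range_subset_range.2 hi'.le) fun a _ ha => by
      rw [if_neg (by simpa using ha), zero_div]]
    exact Finset.sum_congr rfl fun a ha => by rw [if_pos (Finset.mem_range.1 ha)]
  have e2 : ∑ a ∈ range i, ((rowP N r).coeff i * ww (i - 1 - a) -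
        3 / 2 * ((rowD N r).coeff i * (1 / ((i : ℚ) - a)))) / ((j : ℚ) - a) =
      ∑ m ∈ range i, ((rowP N r).coeff i * (ww m / ((m : ℚ) + ((j : ℚ) - i + 1))) -
        3 / 2 * ((rowD N r).coeff i * ((1 / ((m : ℚ) + 1)) / ((m : ℚ) + ((j : ℚ) - i + 1))))) := by
    rw [← Finset.sum_range_reflect _ i]
    refine Finset.sum_congr rfl fun m hm => ?_
    obtain ⟨a, rfl⟩ : ∃ a, i = m + 1 + a := ⟨i - m - 1, by have := Finset.mem_range.1 hm; omega⟩
    rw [show m + 1 + a - 1 - m = a by omega, show m + 1 + a - 1 - a = m by omega]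
    push_cast
    rw [show (m : ℚ) + 1 + a - a = m + 1 by ring, show (m : ℚ) + (j - (m + 1 + a) + 1) = j - a by ring]
    ring
  rw [e1, e2, Z0_eq, M0, Finset.sum_sub_distrib, ← Finset.mul_sum, ← Finset.mul_sum, ← Finset.mul_sum]
  ring

/-- `pair_eq_sum` with `range (49N)`, `Ico (6N) (44N)`. -/
theorem matQ_eq_Phi (N : ℕ) (γ : ℚ) (r k : Fin (36 * N)) : matQ N γ r k =
    ∑ j ∈ Ico (6 * N) (44 * N), (col N k).coeff j * Phi (49 * N) (beta N) (nu N) j r
      + γ * entB N r k := by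
  have hc : ∀ j, j ∉ Ico (6 * N) (44 * N) → (col N k).coeff j = 0 := fun j hj =>
    col_coeff_eq_zero k.2 (by rw [Finset.mem_Ico] at hj; omega)
  have e : matQ N γ r k = entA N r k + γ * entB N r k := rfl
  rw [e, entA, pair_eq_sum _ _ _ (range (49 * N)) _
    (fun i hi => rowP_coeff_eq_zero r.2 (Or.inr (by simpa using hi))) hc,
    pair_eq_sum _ _ _ (range (49 * N)) _
    (fun i hi => rowD_coeff_eq_zero r.2 (Or.inr (by simpa using hi))) hc]
  congr 1
  simp only [Phi_eq, Finset.mul_sum, ← Finset.sum_sub_distrib]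
  rw [Finset.sum_comm]
  exact Finset.sum_congr rfl fun j _ => Finset.sum_congr rfl fun i _ => by ring

variable {p : ℕ} [hp : Fact p.Prime]

theorem aoa_pair {K : ℕ → ℕ → ℚ} {P Q : ℚ[X]} {B : ℝ} (hB : 0 ≤ B) (hP : ∀ i, nrm p (P.coeff i) ≤ 1)
    (hQ : ∀ j, nrm p (Q.coeff j) ≤ 1) (hK : ∀ i, P.coeff i ≠ 0 → ∀ j, Q.coeff j ≠ 0 → nrm p (K i j) ≤ B) :
    nrm p (pair K P Q) ≤ B :=
  nrm_sum_le hB fun i hi => nrm_sum_le hB fun j hj =>
    nrm_mul_le_right (nrm_mul_le_right (hP i) (hQ j))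
      (hK i (mem_support_iff.1 hi) j (mem_support_iff.1 hj))

theorem aoa_32 (h2 : p ≠ 2) : nrm p (3 / 2) ≤ 1 := by
  rw [nrm_div, nrm_two_eq_one h2, div_one]
  simpa using nrm_nat_le (p := p) 3

theorem aoa_term (h2 : p ≠ 2) {N : ℕ} (r : Fin (36 * N)) (i : ℕ) {x y : ℚ} {B : ℝ} (hB : 0 ≤ B)
    (h : 14 * N ≤ i → nrm p x ≤ B ∧ nrm p y ≤ B) :
    nrm p ((rowP N r).coeff i * x - 3 / 2 * ((rowD N r).coeff i * y)) ≤ B := by
  rcases Nat.lt_or_ge i (14 * N) with hi | hi
  · rw [rowP_coeff_eq_zero r.2 (Or.inl hi), rowD_coeff_eq_zero r.2 (Or.inl hi)]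
    simpa using hB
  · exact nrm_sub_le (nrm_mul_le_right (nrm_rowP_coeff _ _ _) (h hi).1)
      (nrm_mul_le_right (aoa_32 h2) (nrm_mul_le_right (nrm_rowD_coeff _ _ _) (h hi).2))

theorem aoa_nu (h2 : p ≠ 2) {N : ℕ} (a : ℕ) (r : Fin (36 * N)) {B : ℝ} (hB : 0 ≤ B)
    (h : ∀ i, a < i → i < 49 * N → lg p (i - a) ≤ B) : nrm p (nu N a r) ≤ B := by
  refine nrm_sum_le hB fun i hi => ?_
  split_ifs with ha
  · refine aoa_term h2 r i hB fun _ => ⟨?_, ?_⟩
    · refine (nrm_ww_le _).trans ?_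
      rw [show i - 1 - a + 1 = i - a by omega]
      exact h i ha (Finset.mem_range.1 hi)
    · have := nrm_inv_nat_le (p := p) (z := i - a) le_rfl
      rw [Nat.cast_sub ha.le] at this
      rw [one_div]
      exact this.trans (h i ha (Finset.mem_range.1 hi))
  · simpa using hB

theorem nrm_entB_le (h2 : p ≠ 2) (N r k : ℕ) : nrm p (entB N r k) ≤ 1 := by
  unfold entB
  refine nrm_mul_le_right (by simpa using nrm_nat_le (p := p) 4) ?_
  exact aoa_pair zero_le_one (nrm_rowP_coeff N r) (nrm_col_coeff N k) fun i _ j _ => nrm_cz_le_one h2 _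

/-- Termwise from `nrm_ww_le, nrm_phi0_le, nrm_psi0_le, nrm_inv_int_le, lg_le_p, lg_of_lt`; the coefficients vanish for
`i < 14N` (`rowP_coeff_eq_zero`); `key`: for `i > j` use `phi0_key`, `psi0_key` with `d = i-j`, for `14N ≤ i ≤ j` the
constants are integral since `j - i < p`. -/
theorem oddData (h2 : p ≠ 2) {N : ℕ} (hN : 49 * N < p ^ 2) :
    OddData p (14 * N) (49 * N) (44 * N) (beta N) (nu N) := by
  have hp0 : (0 : ℝ) < p := p_pos_real
  have hp1 : 1 < p := hp.out.one_lt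
  have hint : ∀ e : ℤ, e.natAbs < p → nrm p (phi0 (e + 1)) ≤ 1 ∧ nrm p (psi0 e) ≤ 1 := fun e he => by
    have h3 := nrm_phi0_le (p := p) h2 (e := e) le_rfl
    have h4 := nrm_psi0_le (p := p) (e := e) le_rfl
    rw [lg_of_lt he, one_pow] at h3 h4
    exact ⟨h3, h4⟩
  refine ⟨fun a r => aoa_nu h2 a r hp0.le fun i _ _ => lg_le_p (by omega),
    fun a r h => aoa_nu h2 a r zero_le_one fun i _ _ => (lg_of_lt (by omega)).le,
    fun a r h => Finset.sum_eq_zero fun i hi => if_neg (by have := Finset.mem_range.1 hi; omega),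
    fun j r hj => nrm_sum_le (by positivity) fun i hi => aoa_term h2 r i (by positivity) fun _ => ?_,
    fun j r h1 h3 => nrm_sum_le zero_le_one fun i hi => aoa_term h2 r i zero_le_one fun h4 =>
      hint _ (by have := Finset.mem_range.1 hi; omega), fun j r h1 h3 => ?_⟩
  · have hi' := Finset.mem_range.1 hi
    have h5 : lg p (49 * N) ^ 2 ≤ (p : ℝ) ^ 2 := pow_le_pow_left₀ (lg_pos _).le (lg_le_p hN) 2
    exact ⟨(nrm_phi0_le h2 (by omega)).trans h5, (nrm_psi0_le (by omega)).trans h5⟩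
  · unfold beta nu
    rw [Finset.mul_sum, ← Finset.sum_sub_distrib]
    refine nrm_sum_le zero_le_one fun i hi => ?_
    have hi' := Finset.mem_range.1 hi
    split_ifs with hji
    · obtain ⟨d, rfl⟩ : ∃ d, i = j + d := ⟨i - j, by omega⟩
      have h5 := aoa_term h2 r (j + d) zero_le_one fun _ =>
        ⟨phi0_key h2 (d := d) (by omega) (by omega), psi0_key h2 (d := d) (by omega) (by omega)⟩
      convert h5 using 2
      rw [show j + d - 1 - j = d - 1 by omega, show (j : ℤ) - (j + d : ℕ) + 1 = 1 - d by push_cast; ring,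
        show (j : ℤ) - (j + d : ℕ) = -d by push_cast; ring,
        show ((j + d : ℕ) : ℚ) - j = d by push_cast; ring]
      ring
    · rw [sub_zero]
      exact nrm_mul_le_right (nrm_nat_le p) (aoa_term h2 r i zero_le_one fun h4 => hint _ (by omega))

/-- any odd prime: `nrm_det_le_pow`, entries via `pair` and `nrm_M0_le`, `nrm_Z0_le` -/
theorem triv_bound (h2 : p ≠ 2) (N : ℕ) (γ : ℚ) :
    nrm p (matQ N γ).det ≤ (max 1 (nrm p γ) * lg p (49 * N) ^ 2) ^ (36 * N) := by
  have h1 : (1 : ℝ) ≤ lg p (49 * N) ^ 2 := one_le_pow₀ (one_le_lg _)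
  have h3 : (1 : ℝ) ≤ max 1 (nrm p γ) := le_max_left _ _
  have := nrm_det_le_pow (p := p) (matQ N γ) (max 1 (nrm p γ) * lg p (49 * N) ^ 2) (by positivity)
    fun r k => ?_
  · rwa [Fintype.card_fin] at this
  have hc : ∀ j, (col N k).coeff j ≠ 0 → j ≤ 49 * N := fun j hj => by
    by_contra h
    exact hj (col_coeff_eq_zero k.2 (by omega))
  have e : matQ N γ r k = entA N r k + γ * entB N r k := rfl
  rw [e]
  refine nrm_add_le (le_trans ?_ (le_mul_of_one_le_left (by positivity) h3))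
    ((nrm_mul_le_left (le_max_right 1 _) (nrm_entB_le h2 _ _ _)).trans
      (le_mul_of_one_le_right (by positivity) h1))
  refine nrm_sub_le (aoa_pair (by positivity) (nrm_rowP_coeff N r) (nrm_col_coeff N k)
    fun i hi j hj => nrm_M0_le h2 ?_ (hc j hj)) (nrm_mul_le_right (aoa_32 h2)
      (aoa_pair (by positivity) (nrm_rowD_coeff N r) (nrm_col_coeff N k)
        fun i hi j hj => nrm_Z0_le ?_ (hc j hj)))
  · by_contra h
    exact hi (rowP_coeff_eq_zero r.2 (by omega))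
  · by_contra h
    exact hi (rowD_coeff_eq_zero r.2 (by omega))

/-- `49N ≤ 2p`: `odd_rangeI`; `14N ≤ p`, `2p < 49N`: `odd_rangeII`; `p < 14N`: `triv_bound` with `e = 72N`.
The comparison with `lossZ` is `omega` (after `unfold lossZ`, `Fintype.card_fin`). -/
theorem odd_bound (h2 : p ≠ 2) {N : ℕ} (hN : 49 * N < p ^ 2) (γ : ℚ) :
    ∃ e : ℕ, (e : ℤ) ≤ lossZ N p ∧
      nrm p (matQ N γ).det ≤ (max 1 (nrm p γ)) ^ (36 * N) * (p : ℝ) ^ e := by
  have hW : ∀ r k : Fin (36 * N), nrm p ((Matrix.of fun r k : Fin (36 * N) => γ * entB N r k) r k) ≤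
      max 1 (nrm p γ) := fun r k => nrm_mul_le_left (le_max_right 1 _) (nrm_entB_le h2 _ _ _)
  rcases le_or_gt (49 * N) (2 * p) with h1 | h1
  · have := odd_rangeI (b := 6 * N) (oddData h2 hN) (by omega) (by omega) h1
      (fun (k : Fin (36 * N)) j => (col N k).coeff j) (fun k j => nrm_col_coeff N k j) _ _
      (le_max_left _ _) hW (matQ N γ) (matQ_eq_Phi N γ)
    rw [Fintype.card_fin] at this
    exact ⟨_, by unfold lossZ; omega, this⟩
  rcases le_or_gt (14 * N) p with h3 | h3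
  · have := odd_rangeII (b := 6 * N) (oddData h2 hN) (by omega) (by omega) hN h3 (by omega)
      (fun (k : Fin (36 * N)) j => (col N k).coeff j) (fun k j => nrm_col_coeff N k j) _ _
      (le_max_left _ _) hW (matQ N γ) (matQ_eq_Phi N γ)
    rw [Fintype.card_fin] at this
    exact ⟨_, by unfold lossZ; omega, this⟩
  · refine ⟨72 * N, by unfold lossZ; omega, (triv_bound h2 N γ).trans ?_⟩
    rw [mul_pow, show 72 * N = 2 * (36 * N) by ring, pow_mul (p : ℝ)]
    refine mul_le_mul_of_nonneg_left (pow_le_pow_left₀ (by positivity) ?_ _) (by positivity)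
    exact pow_le_pow_left₀ (lg_pos _).le (lg_le_p hN) 2

end Crest.Agent.R6
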