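import Crest.Agent.R6.AOddApp
import Crest.Agent.R20.PNT

/-! # R6 arithmetic: summing the loss over the primes. -/

set_option autoImplicit false
set_option linter.unusedSectionVars false

namespace Crest.Agent.R6

open Polynomial Finset

open Filter Topology

theorem apnt_sum (m : ℕ) : ∑ p ∈ (range m).filter Nat.Prime, ((m : ℝ) - p) * Real.log p =
    ∑ k ∈ range m, Chebyshev.theta k := by
  induction m with
  | zero => simp
  | succ m ih =>
    rw [sum_range_succ, ← ih, Chebyshev.theta_eq_sum_Icc, Nat.floor_natCast,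
      ← Nat.range_succ_eq_Icc_zero, sum_filter, sum_filter, sum_filter, sum_range_succ,
      sum_range_succ, ← add_assoc, ← sum_add_distrib]
    congr 1
    · refine sum_congr rfl fun p _ => ?_
      split_ifs
      · push_cast; ring
      · simp
    · split_ifs
      · push_cast; ring
      · rfl

/-- `θ₁(m) = ∑_{p<m} (m-p) log p = ∑_{k<m} θ(k)`, and `θ(k)/k → 1` (`Crest.Agent.R20.theta_tendsto`), so
`θ₁(m)/m² → 1/2` (Cesàro / direct `ε`-argument). -/
theorem theta1_nat_tendsto : Tendsto (fun m : ℕ =>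
    (∑ p ∈ (range m).filter Nat.Prime, ((m : ℝ) - p) * Real.log p) / (m : ℝ) ^ 2)
    atTop (𝓝 (1 / 2)) := by
  have e : ∀ m : ℕ, ∑ k ∈ range m, (k : ℝ) = m * (m - 1) / 2 := fun m => by
    induction m with
    | zero => simp
    | succ m ih => rw [sum_range_succ, ih]; push_cast; ring
  have h1 : (fun k : ℕ => Chebyshev.theta k - k) =o[atTop] fun k : ℕ => (k : ℝ) := by
    refine Asymptotics.isLittleO_of_tendsto' ?_ ?_
    · filter_upwards [eventually_gt_atTop 0] with k hk h
      exact absurd h (by positivity)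
    · have h2 := (Crest.Agent.R20.theta_tendsto.comp tendsto_natCast_atTop_atTop).sub_const 1
      rw [sub_self] at h2
      refine h2.congr' ?_
      filter_upwards [eventually_gt_atTop 0] with k hk
      have : (k : ℝ) ≠ 0 := by positivity
      simp only [Function.comp_apply]
      field_simp
  have h2 := h1.sum_range (fun k => Nat.cast_nonneg k) (by
    refine tendsto_atTop_mono' _ ?_ tendsto_natCast_atTop_atTop
    filter_upwards [eventually_ge_atTop 3] with m hm
    have : (3 : ℝ) ≤ m := by exact_mod_cast hm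
    rw [e]
    nlinarith)
  have h3 : (fun m : ℕ => ∑ k ∈ range m, (k : ℝ)) =O[atTop] fun m : ℕ => (m : ℝ) ^ 2 := by
    refine Asymptotics.IsBigO.of_bound 1 (Eventually.of_forall fun m => ?_)
    rw [Real.norm_of_nonneg (sum_nonneg fun k _ => Nat.cast_nonneg k), e,
      Real.norm_of_nonneg (by positivity)]
    nlinarith [sq_nonneg (m : ℝ), Nat.cast_nonneg (α := ℝ) m]
  have h4 := (h2.trans_isBigO h3).tendsto_div_nhds_zero
  have h5 := h4.add ((tendsto_inv_atTop_nhds_zero_nat (𝕜 := ℝ)).const_sub 1 |>.div_const 2)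
  rw [zero_add, sub_zero] at h5
  refine h5.congr' ?_
  filter_upwards [eventually_gt_atTop 0] with m hm
  have : (m : ℝ) ≠ 0 := by positivity
  rw [apnt_sum, sum_sub_distrib, e]
  field_simp
  ring

theorem apnt_seq {y : ℝ} (hy : 0 < y) {m : ℕ → ℕ}
    (hm : Tendsto (fun N : ℕ => (m N : ℝ) / N) atTop (𝓝 y)) : Tendsto (fun N : ℕ =>
    (∑ p ∈ (range (m N)).filter Nat.Prime, ((m N : ℝ) - p) * Real.log p) / (N : ℝ) ^ 2)
    atTop (𝓝 (y ^ 2 / 2)) := by
  have h1 : Tendsto m atTop atTop := by
    rw [← tendsto_natCast_atTop_iff (R := ℝ)]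
    refine (hm.pos_mul_atTop hy tendsto_natCast_atTop_atTop).congr' ?_
    filter_upwards [eventually_gt_atTop 0] with N hN
    have : (N : ℝ) ≠ 0 := by positivity
    field_simp
  have h2 := (theta1_nat_tendsto.comp h1).mul (hm.pow 2)
  rw [show 1 / 2 * y ^ 2 = y ^ 2 / 2 by ring] at h2
  refine h2.congr' ?_
  filter_upwards [h1.eventually_gt_atTop 0] with N hN
  have : (m N : ℝ) ≠ 0 := by positivity
  simp only [Function.comp_apply]
  field_simp

theorem apnt_le (M m : ℕ) {x : ℝ} (hx : x ≤ m) :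
    ∑ p ∈ (range M).filter Nat.Prime, max (x - p) 0 * Real.log p ≤
      ∑ p ∈ (range m).filter Nat.Prime, ((m : ℝ) - p) * Real.log p := by
  rw [← sum_filter_add_sum_filter_not _ (fun p => p < m), sum_eq_zero (s := filter (fun p => ¬ p < m) _),
    add_zero]
  · refine le_trans (sum_le_sum fun p hp => ?_) (sum_le_sum_of_subset_of_nonneg
      (s := ((range M).filter Nat.Prime).filter fun p => p < m) (fun p hp => ?_) fun p hp _ => ?_)
    · have h1 : (p : ℝ) ≤ m := by exact_mod_cast (mem_filter.1 hp).2.le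
      exact mul_le_mul_of_nonneg_right (max_le (by linarith) (by linarith)) (Real.log_natCast_nonneg p)
    · exact mem_filter.2 ⟨mem_range.2 (mem_filter.1 hp).2, (mem_filter.1 (mem_filter.1 hp).1).2⟩
    · have h1 : (p : ℝ) ≤ m := by exact_mod_cast (mem_range.1 (mem_filter.1 hp).1).le
      exact mul_nonneg (by linarith) (Real.log_natCast_nonneg p)
  · intro p hp
    have h1 : (m : ℝ) ≤ p := by exact_mod_cast not_lt.1 (mem_filter.1 hp).2
    rw [max_eq_right (by linarith), zero_mul]

theorem apnt_ge {M m : ℕ} (hM : m ≤ M) {x : ℝ} (hx : (m : ℝ) ≤ x) :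
    ∑ p ∈ (range m).filter Nat.Prime, ((m : ℝ) - p) * Real.log p ≤
      ∑ p ∈ (range M).filter Nat.Prime, max (x - p) 0 * Real.log p := by
  refine le_trans (sum_le_sum fun p _ => ?_) (sum_le_sum_of_subset_of_nonneg
    (filter_subset_filter _ (range_subset_range.2 hM)) fun p _ _ => ?_)
  · exact mul_le_mul_of_nonneg_right (le_max_of_le_left (by linarith)) (Real.log_natCast_nonneg p)
  · exact mul_nonneg (le_max_right _ _) (Real.log_natCast_nonneg p)

/-- squeeze between `m = ⌊yN⌋` and `m = ⌊yN⌋ + 1` -/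
theorem theta1_tendsto {y : ℝ} (hy : 0 < y) (hy' : y ≤ 49) : Tendsto (fun N : ℕ =>
    (∑ p ∈ (range (49 * N)).filter Nat.Prime, max (y * N - p) 0 * Real.log p) / (N : ℝ) ^ 2)
    atTop (𝓝 (y ^ 2 / 2)) := by
  have h1 : Tendsto (fun N : ℕ => (⌊y * N⌋₊ : ℝ) / N) atTop (𝓝 y) :=
    (tendsto_nat_floor_mul_div_atTop hy.le).comp tendsto_natCast_atTop_atTop
  have h2 : Tendsto (fun N : ℕ => ((⌊y * N⌋₊ + 1 : ℕ) : ℝ) / N) atTop (𝓝 y) := by
    have h3 := h1.add (tendsto_inv_atTop_nhds_zero_nat (𝕜 := ℝ))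
    rw [add_zero] at h3
    refine h3.congr fun N => ?_
    push_cast
    ring
  refine tendsto_of_tendsto_of_tendsto_of_le_of_le (apnt_seq hy h1) (apnt_seq hy h2)
    (fun N => ?_) fun N => ?_
  · refine div_le_div_of_nonneg_right (apnt_ge ?_ (Nat.floor_le (by positivity))) (by positivity)
    refine Nat.floor_le_of_le ?_
    push_cast
    exact mul_le_mul_of_nonneg_right hy' (Nat.cast_nonneg N)
  · refine div_le_div_of_nonneg_right (apnt_le _ _ ?_) (by positivity)
    push_cast
    exact (Nat.lt_floor_add_one _).le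

theorem apnt_cast (a b : ℕ) : ((a - b : ℕ) : ℝ) = max ((a : ℝ) - b) 0 := by
  rcases le_total a b with h | h
  · have : (a : ℝ) ≤ b := by exact_mod_cast h
    rw [Nat.sub_eq_zero_of_le h, max_eq_right (by linarith), Nat.cast_zero]
  · have : (b : ℝ) ≤ a := by exact_mod_cast h
    rw [Nat.cast_sub h, max_eq_left (by linarith)]

theorem apnt_cast2 (a N p : ℕ) : ((a * N - 2 * p : ℕ) : ℝ) = 2 * max ((a : ℝ) / 2 * N - p) 0 := by
  rw [apnt_cast, mul_max_of_nonneg _ _ zero_le_two, mul_zero]
  congr 1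
  push_cast
  ring

/-- `lossZ N p = -2(18.5N-p)₊ + 2(21.5N-p)₊ - 2(24.5N-p)₊ - 2(25.5N-p)₊ + (30N-p)₊ + (43N-p)₊ + (44N-p)₊ + (49N-p)₊`,
and the limit is `4825/2`. -/
theorem loss_tendsto : Tendsto (fun N : ℕ =>
    (∑ p ∈ (range (49 * N)).filter Nat.Prime, (lossZ N p : ℝ) * Real.log p) / (N : ℝ) ^ 2)
    atTop (𝓝 (4825 / 2)) := by
  have h1 := (theta1_tendsto (y := 37 / 2) (by norm_num) (by norm_num)).const_mul (-2)
  have h2 := (theta1_tendsto (y := 43 / 2) (by norm_num) (by norm_num)).const_mul 2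
  have h3 := (theta1_tendsto (y := 49 / 2) (by norm_num) (by norm_num)).const_mul (-2)
  have h4 := (theta1_tendsto (y := 51 / 2) (by norm_num) (by norm_num)).const_mul (-2)
  have h5 := theta1_tendsto (y := 30) (by norm_num) (by norm_num)
  have h6 := theta1_tendsto (y := 43) (by norm_num) (by norm_num)
  have h7 := theta1_tendsto (y := 44) (by norm_num) (by norm_num)
  have h8 := theta1_tendsto (y := 49) (by norm_num) (by norm_num)
  have h := ((((((h1.add h2).add h3).add h4).add h5).add h6).add h7).add h8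
  convert h using 2 with N
  · simp only [← mul_div_assoc, ← add_div, mul_sum, ← sum_add_distrib]
    congr 1
    refine sum_congr rfl fun p _ => ?_
    unfold lossZ
    simp only [Int.cast_add, Int.cast_sub, Int.cast_neg, Int.cast_natCast, apnt_cast2]
    simp only [apnt_cast]
    push_cast
    ring
  · norm_num

theorem lossZ_nonneg (N p : ℕ) : 0 ≤ lossZ N p := by
  unfold lossZ; omega

theorem lossZ_eq_zero {N p : ℕ} (h : 49 * N ≤ p) : lossZ N p = 0 := by
  unfold lossZ; omega

end Crest.Agent.R6
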