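import Crest.Agent.R6.ABound
import Crest.Agent.R6.AContact

/-! # R6 arithmetic: the kernels at the prime `2`. -/

set_option autoImplicit false
set_option linter.unusedSectionVars false

namespace Crest.Agent.R6

open Polynomial Finset

def xi (T : ℕ) : ℚ := ∑ k ∈ range T, ww (2 * k) / (2 * (k : ℚ) + 2)

def M2 (γ ξ : ℚ) (i j : ℕ) : ℚ :=
  M0 i j - ξ * cz ((j : ℤ) - i - 1) + 4 * γ * cz ((i : ℤ) - j)

def Z2 (ξ : ℚ) (i j : ℕ) : ℚ := 3 / 2 * Z0 i j - ξ * (if i = j then 1 else 0)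

theorem nrm_two_two : nrm 2 2 = 1 / 2 := by
  simpa using nrm_p (p := 2)

theorem nrm2_cc (d : ℕ) : nrm 2 (cc d) ≤ 2 ^ d := by
  rcases Nat.mod_two_eq_zero_or_one d with h | h
  · obtain ⟨k, rfl⟩ : ∃ k, d = 2 * k := ⟨d / 2, by omega⟩
    rw [cc_two_mul, show (4 : ℚ) ^ k = 2 ^ (2 * k) by rw [pow_mul]; norm_num, nrm_div, nrm_pow, nrm_two_two,
      one_div, inv_pow, div_inv_eq_mul]
    exact mul_le_of_le_one_left (by positivity) (nrm_nat_le _)
  · rw [cc_odd h, nrm_zero]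
    positivity

/-- Induction on `k`: `ww (2k+2) = (2k+2)/(2k+3) ww (2k)` (`ww_add_two`); `cc (2l) ww (2l) = 2/(2l+1)` (`ww_mul_cc`). -/
theorem nrm2_cc_mul_ww {l k : ℕ} (h : l ≤ k) : nrm 2 (cc (2 * l) * ww (2 * k)) ≤ 1 := by
  induction k, h using Nat.le_induction with
  | base =>
    have h1 := ww_mul_cc (m := 2 * l) (by omega)
    have e : cc (2 * l) * ww (2 * l) = (2 : ℕ) * ((2 * l + 1 : ℕ) : ℚ)⁻¹ := by
      rw [← div_eq_mul_inv, eq_div_iff (by positivity)]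
      push_cast at h1 ⊢
      linarith
    rw [e]
    exact nrm_mul_le_right (nrm_nat_le _) (nrm_inv_nat_le_one (Or.inr (by omega)))
  | succ k _ ih =>
    have h1 := ww_add_two (2 * k)
    have e : cc (2 * l) * ww (2 * (k + 1)) =
        ((2 * k + 2 : ℕ) : ℚ) * ((2 * k + 3 : ℕ) : ℚ)⁻¹ * (cc (2 * l) * ww (2 * k)) := by
      rw [show 2 * (k + 1) = 2 * k + 2 by ring, ← div_eq_mul_inv, div_mul_eq_mul_div,
        eq_div_iff (by positivity)]
      push_cast at h1 ⊢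
      linear_combination cc (2 * l) * h1
    rw [e]
    exact nrm_mul_le_right (nrm_mul_le_right (nrm_nat_le _) (nrm_inv_nat_le_one (Or.inr (by omega)))) ih

theorem nrm2_ww (m : ℕ) : nrm 2 (ww m) ≤ 1 := by
  rcases Nat.mod_two_eq_zero_or_one m with h | h
  · obtain ⟨k, rfl⟩ : ∃ k, m = 2 * k := ⟨m / 2, by omega⟩
    simpa using nrm2_cc_mul_ww (Nat.zero_le k)
  · rw [ww_odd h, nrm_zero]
    exact zero_le_one

private theorem a2_comp (P : ℤ[X]) (l : ℕ) :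
    nrm 2 (((P.map (Int.castRingHom ℚ)).comp (2 * X)).coeff l) ≤ 1 / 2 ^ l := by
  rw [show (2 : ℚ[X]) = C 2 from rfl, comp_C_mul_X_coeff, coeff_map, eq_intCast]
  refine nrm_mul_le_right (nrm_int_le _) ?_
  rw [nrm_pow, nrm_two_two, div_pow, one_pow]

/-- `T_u(X) = C_u(2X)/2`, `U_u(X) = S_u(2X)` with `C, S` integer polynomials
(`Chebyshev.C_comp_two_mul_X`, `S_comp_two_mul_X`, `comp_C_mul_X_coeff`, `map_C`, `map_S`). -/
theorem nrm2_T_coeff (u : ℤ) (l : ℕ) : nrm 2 ((Chebyshev.T ℚ u).coeff l) ≤ 2 / 2 ^ l := by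
  have h := a2_comp (Chebyshev.C ℤ u) l
  rw [Chebyshev.map_C, Chebyshev.C_comp_two_mul_X, show (2 : ℚ[X]) = C 2 from rfl, coeff_C_mul, nrm_mul,
    nrm_two_two] at h
  have e : (2 : ℝ) / 2 ^ l = 2 * (1 / 2 ^ l) := by ring
  linarith
theorem nrm2_U_coeff (u : ℤ) (l : ℕ) : nrm 2 ((Chebyshev.U ℚ u).coeff l) ≤ 1 / 2 ^ l := by
  have h := a2_comp (Chebyshev.S ℤ u) l
  rwa [Chebyshev.map_S, Chebyshev.S_comp_two_mul_X] at h

private theorem a2_div {M : ℕ} (hM : 1 ≤ M) {x y : ℚ} (z : ℤ) (hx : nrm 2 x ≤ 1) (hy : y = z)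
    (hz : z.natAbs ≤ 2 * M) : nrm 2 (x / y) ≤ 2 * M := by
  have h1 := ab_div (p := 2) z hx hy hz
  have h2 := lg_le_self (p := 2) (M := 2 * M) (by omega)
  push_cast at h2
  linarith

private theorem a2_phi {M : ℕ} (hM : 1 ≤ M) {e : ℤ} (h : e.natAbs ≤ M) :
    nrm 2 (phi0 (e + 1) - xi M * cz (e - 1)) ≤ 2 * M * 2 ^ (-e).toNat := by
  have hM' : (1 : ℝ) ≤ M := by exact_mod_cast hM
  have h0 : (0 : ℝ) ≤ 2 * M := by positivity
  have hle : (2 * M : ℝ) ≤ 2 * M * 2 ^ (-e).toNat := le_mul_of_one_le_right h0 (one_le_pow₀ one_le_two)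
  unfold phi0
  split_ifs with h1 h3 h3
  · refine le_trans ?_ hle
    obtain ⟨l, hl⟩ : ∃ l : ℕ, e = 2 * l + 1 := ⟨((e - 1) / 2).toNat, by omega⟩
    rw [show ((e + 1 - 2) / 2).toNat = l by omega, cz_of_nonneg (by omega), show (e - 1).toNat = 2 * l by omega,
      phiB, xi, mul_comm _ (cc (2 * l)), ← mul_sub, ← neg_sub, ← Finset.sum_Ico_eq_sub _ (by omega), mul_neg,
      nrm_neg, Finset.mul_sum]
    refine nrm_sum_le h0 fun k hk => ?_
    rw [Finset.mem_Ico] at hk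
    rw [← mul_div_assoc]
    exact a2_div hM (2 * k + 2) (nrm2_cc_mul_ww hk.1) (by push_cast; rfl) (by omega)
  · refine le_trans ?_ hle
    rw [cz_of_nonneg (by omega), cc_odd (by omega), mul_zero, sub_zero, phiA, Finset.mul_sum]
    refine nrm_sum_le h0 fun k hk => ?_
    rw [mem_range] at hk
    rw [← mul_div_assoc, mul_comm]
    exact a2_div hM (2 * k + 1) (nrm2_cc_mul_ww (by omega)) (by push_cast; rfl) (by omega)
  · refine le_trans ?_ hle
    rw [cz_of_neg (by omega), mul_zero, sub_zero, phiD, mul_add, mul_one, Finset.mul_sum]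
    refine nrm_add_le ((nrm2_ww _).trans (by linarith)) (nrm_sum_le h0 fun k hk => ?_)
    rw [mem_range] at hk
    rw [mul_sub, mul_sub, mul_one_div, mul_one_div, ← mul_div_assoc, mul_comm (ww _),
      show 2 * k + 2 = 2 * (k + 1) by ring]
    exact nrm_sub_le (nrm_sub_le (a2_div hM (2 * k + 3) (nrm2_ww _) (by push_cast; rfl) (by omega))
      (a2_div hM (2 * k + 2) (nrm2_ww _) (by push_cast; rfl) (by omega)))
      (a2_div hM (2 * k + 2) (nrm2_cc_mul_ww (by omega)) (by push_cast; rfl) (by omega))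
  · rw [cz_of_neg (by omega), mul_zero, sub_zero, phiC, nrm_neg, mul_comm (2 * (M : ℝ)),
      show (-e).toNat = 2 * ((1 - (e + 1)) / 2).toNat by omega]
    refine nrm_mul_le (nrm2_cc _) (nrm_sum_le h0 fun k hk => ?_)
    rw [mem_range] at hk
    exact a2_div hM (2 * k + 1) (nrm2_ww _) (by push_cast; rfl) (by omega)

/-- `δ = j-i+1`. The sum in `M0`: `‖ww m‖ ≤ 1`, `‖1/z‖ ≤ lg 2 M ≤ M`. `δ = 2l+2`:
`phiB l - xi M · cc (2l) = -∑_{l ≤ k < M} cc(2l) ww(2k)/(2k+2)` (`nrm2_cc_mul_ww`). `δ = 2l+3`: `phiA`, same lemma, `cz` odd `= 0`.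
`δ = 1-2l`: `phiC`, `‖cc (2l)‖ ≤ 2^{2l}`, `2l = i-j`. `δ = -2e`: `phiD`, multiply out and use `nrm2_cc_mul_ww`.
The `γ` term: `nrm2_cc`. -/
theorem nrm2_M2 (γ : ℚ) {i j M : ℕ} (hM : 1 ≤ M) (hi : i ≤ M) (hj : j ≤ M) :
    nrm 2 (M2 γ (xi M) i j) ≤ max 1 (nrm 2 γ) * (2 * M) * 2 ^ (i - j) := by
  have hM' : (1 : ℝ) ≤ M := by exact_mod_cast hM
  have h0 : (0 : ℝ) ≤ 2 * M := by positivity
  have hp : (1 : ℝ) ≤ 2 ^ (i - j) := one_le_pow₀ one_le_two
  have h1 : (2 * M : ℝ) * 2 ^ (i - j) ≤ max 1 (nrm 2 γ) * (2 * M) * 2 ^ (i - j) := by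
    rw [mul_assoc (max _ _)]
    exact le_mul_of_one_le_left (by positivity) (le_max_left _ _)
  have e : M2 γ (xi M) i j = (phi0 ((j : ℤ) - i + 1) - xi M * cz ((j : ℤ) - i - 1)) -
      ∑ m ∈ range i, ww m / ((m : ℚ) + ((j : ℚ) - i + 1)) + (4 : ℕ) * (γ * cz ((i : ℤ) - j)) := by
    unfold M2 M0
    push_cast
    ring
  rw [e]
  refine nrm_add_le (nrm_sub_le ?_ ?_) (nrm_mul_le_right (nrm_nat_le _) ?_)
  · have h := a2_phi hM (e := (j : ℤ) - i) (by omega)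
    rw [show (-((j : ℤ) - i)).toNat = i - j by omega] at h
    exact h.trans h1
  · refine le_trans (nrm_sum_le h0 fun m hm => ?_) ((le_mul_of_one_le_right h0 hp).trans h1)
    rw [mem_range] at hm
    exact a2_div hM (m + (j - i + 1)) (nrm2_ww _) (by push_cast; rfl) (by omega)
  · refine nrm_mul_le ((le_max_right 1 _).trans (le_mul_of_one_le_right (by positivity) (by linarith))) ?_
    by_cases h : (i : ℤ) - j < 0
    · rw [cz_of_neg h, nrm_zero]
      positivity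
    · rw [cz_of_nonneg (by omega), show ((i : ℤ) - j).toNat = i - j by omega]
      exact nrm2_cc _

theorem nrm2_Z2 {i j M : ℕ} (hM : 1 ≤ M) (hi : i ≤ M) (hj : j ≤ M) :
    nrm 2 (Z2 (xi M) i j) ≤ 2 * (M : ℝ) ^ 2 := by
  have hM' : (1 : ℝ) ≤ M := by exact_mod_cast hM
  refine nrm_sub_le (nrm_mul_le ?_ ((nrm_Z0_le hi hj).trans ?_)) (nrm_mul_le_left ?_ ?_)
  · have h := nrm_nat_le (p := 2) 3
    rw [nrm_div, nrm_two_two]
    push_cast at h
    linarith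
  · exact pow_le_pow_left₀ (lg_pos M).le (lg_le_self hM) 2
  · refine le_trans (nrm_sum_le (B := 2 * M) (by positivity) fun k hk => ?_) (by nlinarith)
    rw [mem_range] at hk
    exact a2_div hM (2 * k + 2) (nrm2_ww _) (by push_cast; rfl) (by omega)
  · split_ifs <;> simp

private theorem a2_pair (K₁ K₂ K₃ : ℕ → ℕ → ℚ) (a b c : ℚ) (P Q : ℚ[X]) :
    pair (fun i j => a * K₁ i j - b * K₂ i j + c * K₃ i j) P Q =
      a * pair K₁ P Q - b * pair K₂ P Q + c * pair K₃ P Q := by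
  simp only [pair, Finset.mul_sum, ← Finset.sum_sub_distrib, ← Finset.sum_add_distrib]
  exact Finset.sum_congr rfl fun i _ => Finset.sum_congr rfl fun j _ => by ring

/-- `pair` is linear in the kernel; the two `ξ` terms cancel by `pair_contact`; then `pair_rowP`, `pair_rowD`. -/
theorem matQ_eq_two (N : ℕ) (γ ξ : ℚ) (r k : Fin (36 * N)) : matQ N γ r k =
    ∑ l ∈ range (33 * N), (Chebyshev.T ℚ ((r : ℤ) - 3 * N)).coeff l * KM (M2 γ ξ) N l k -
    ∑ l ∈ range (33 * N), (Chebyshev.U ℚ ((r : ℤ) - 3 * N - 1)).coeff l * KM (Z2 ξ) N l k := by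
  have e1 : M2 γ ξ = fun i j => 1 * M0 i j - ξ * (fun i j : ℕ => cz ((j : ℤ) - i - 1)) i j +
      4 * γ * (fun i j : ℕ => cz ((i : ℤ) - j)) i j := by
    funext i j
    simp only [M2, one_mul]
  have e2 : Z2 ξ = fun i j => 3 / 2 * Z0 i j - ξ * (fun i j : ℕ => if i = j then (1 : ℚ) else 0) i j +
      0 * Z0 i j := by
    funext i j
    simp only [Z2, zero_mul, add_zero]
  rw [← pair_rowP _ r.2, ← pair_rowD _ r.2, e1, e2, a2_pair, a2_pair, pair_contact r.2 k.2, matQ,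
    Matrix.of_apply, entA, entB]
  ring

end Crest.Agent.R6
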