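import Crest.Agent.R6.ATwo
import Crest.Agent.R6.AFeat

/-! # R6 arithmetic: the bound at the prime `2`. -/

set_option autoImplicit false
set_option linter.unusedSectionVars false

namespace Crest.Agent.R6

open Polynomial Finset

/-- Induction on `B` (or telescoping `(θ - c l)₊ ≤ ((θ-c(l-1))₊² - (θ-cl)₊²)/(2c)` for `l ≥ 1`). -/
theorem sum_pos_part_le (θ c : ℝ) (hθ : 0 ≤ θ) (hc : 0 < c) (B : ℕ) :
    ∑ l ∈ range B, max (θ - c * l) 0 ≤ θ ^ 2 / (2 * c) + θ := by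
  have key : ∀ B : ℕ, ∑ l ∈ range (B + 1), max (θ - c * l) 0 ≤
      θ ^ 2 / (2 * c) + θ - (max (θ - c * B) 0) ^ 2 / (2 * c) := by
    intro B
    induction B with
    | zero => simp [hθ]
    | succ B ih =>
      rw [sum_range_succ]
      have h : max (θ - c * ((B + 1 : ℕ) : ℝ)) 0 ≤ ((max (θ - c * B) 0) ^ 2 -
          (max (θ - c * ((B + 1 : ℕ) : ℝ)) 0) ^ 2) / (2 * c) := by
        rw [le_div_iff₀ (by positivity)]
        push_cast
        rcases le_total (θ - c * (B + 1)) 0 with h | h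
        · rw [max_eq_right h]; nlinarith [sq_nonneg (max (θ - c * B) 0)]
        · rw [max_eq_left h, max_eq_left (by nlinarith)]; nlinarith
      rw [sub_div] at h
      linarith
  rcases B with _ | B
  · simp only [range_zero, sum_empty]; positivity
  · have := key B
    have h2 : 0 ≤ (max (θ - c * B) 0) ^ 2 / (2 * c) := by positivity
    linarith

theorem atd_KM_le {K : ℕ → ℕ → ℚ} {N l k : ℕ} {B : ℝ} (hB : 0 ≤ B)
    (h : ∀ a ≤ 2 * N, ∀ b ≤ 2 * N, nrm 2 (K (47 * N - 1 - l + a) (6 * N + k + b)) ≤ B) :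
    nrm 2 (KM K N l k) ≤ B := by
  refine nrm_sum_le hB fun a ha => nrm_sum_le hB fun b hb => nrm_mul_le_right ?_
    (h a (by simpa [Nat.lt_succ_iff] using ha) b (by simpa [Nat.lt_succ_iff] using hb))
  exact nrm_mul_le_right (nrm_mul_le_right (by simp) (nrm_nat_le _)) (nrm_nat_le _)

theorem atd_KM_M2 {N : ℕ} (hN : 1 ≤ N) (γ : ℚ) {l k : ℕ} (hl : l < 33 * N) (hk : k < 36 * N) :
    nrm 2 (KM (M2 γ (xi (49 * N))) N l k) ≤
      max 1 (nrm 2 γ) * (2 * (49 * (N : ℝ))) * 2 ^ (43 * N - 1 - l - k) := by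
  refine atd_KM_le (by positivity) fun a ha b hb => ?_
  refine (nrm2_M2 γ (M := 49 * N) (by omega) (by omega) (by omega)).trans ?_
  push_cast
  exact mul_le_mul_of_nonneg_left (pow_le_pow_right₀ (by norm_num) (by omega)) (by positivity)

theorem atd_KM_Z2 {N : ℕ} (hN : 1 ≤ N) {l k : ℕ} (hl : l < 33 * N) (hk : k < 36 * N) :
    nrm 2 (KM (Z2 (xi (49 * N))) N l k) ≤ 2 * (49 * (N : ℝ)) ^ 2 := by
  refine atd_KM_le (by positivity) fun a ha b hb => ?_
  refine (nrm2_Z2 (M := 49 * N) (by omega) (by omega) (by omega)).trans_eq ?_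
  push_cast
  ring

/-- `M = 49N`, `ξ = xi M`. By `matQ_eq_two`, `matQ = X * Y` over the index `Fin (33N) ⊕ Fin (33N)`:
`X r (inl l) = T_l`, `Y (inl l) k = KM (M2 γ ξ) N l k`, `X r (inr l) = -U_l`, `Y (inr l) k = KM (Z2 ξ) N l k`.
`‖KM (M2 ..) N l k‖ ≤ Γ (2M) 2^{43N-1-l-k}` (natural subtraction; `nrm2_M2` termwise), `‖KM (Z2 ..)‖ ≤ 2M²`.
Apply `nrm_det_mul_le` with (real powers of 2) `a (inl l) = 2^{-l + (93N/4 - l)₊}`, `a (inr l) = 2^{-l}`,
`β k = Γ · 4M² · 2^{(79N/4 - k)₊}`, `θ = 2^{-65N/4}`; note `(43N-l-k)₊ ≤ (93N/4-l)₊ + (79N/4-k)₊`,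
`max 1 (2^x) = 2^{x₊}`, `(65N/4 - l + (93N/4-l)₊)₊ ≤ (79N/2 - 2l)₊`. By `sum_pos_part_le` the exponent is at most
`(-585 + 4225/32 + 6241/16 + 6241/32) N² + 75.5 N = (1057/8) N² + 75.5 N`. -/
theorem two_bound {N : ℕ} (hN : 1 ≤ N) (γ : ℚ) :
    nrm 2 (matQ N γ).det ≤ (max 1 (nrm 2 γ) * (4 * (49 * (N : ℝ)) ^ 2)) ^ (36 * N) *
      (2 : ℝ) ^ ((1057 / 8 : ℝ) * (N : ℝ) ^ 2 + 100 * N) := by
  have hN' : (1 : ℝ) ≤ N := by exact_mod_cast hN
  set Γ : ℝ := max 1 (nrm 2 γ) with hΓ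
  have hΓ1 : 1 ≤ Γ := le_max_left _ _
  set M : ℝ := 49 * (N : ℝ) with hM
  have hM1 : 1 ≤ M := by rw [hM]; linarith
  let X : Matrix (Fin (36 * N)) (Fin (33 * N) ⊕ Fin (33 * N)) ℚ := Matrix.of fun r =>
    Sum.elim (fun l => (Chebyshev.T ℚ ((r : ℤ) - 3 * N)).coeff l)
      (fun l => -(Chebyshev.U ℚ ((r : ℤ) - 3 * N - 1)).coeff l)
  let Y : Matrix (Fin (33 * N) ⊕ Fin (33 * N)) (Fin (36 * N)) ℚ := Matrix.of fun f k =>
    Sum.elim (fun l : Fin (33 * N) => KM (M2 γ (xi (49 * N))) N l k)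
      (fun l : Fin (33 * N) => KM (Z2 (xi (49 * N))) N l k) f
  have e : matQ N γ = X * Y := by
    ext r k
    rw [matQ_eq_two N γ (xi (49 * N)), Matrix.mul_apply, Fintype.sum_sum_type, sum_range,
      sum_range, sub_eq_add_neg, ← sum_neg_distrib]
    simp [X, Y]
  let a : Fin (33 * N) ⊕ Fin (33 * N) → ℝ :=
    Sum.elim (fun l => (2 : ℝ) ^ (-(l : ℝ) + max (93 / 4 * (N : ℝ) - l) 0))
      (fun l => (2 : ℝ) ^ (-(l : ℝ)))
  let β : Fin (36 * N) → ℝ := fun k => Γ * (4 * M ^ 2) * (2 : ℝ) ^ max (79 / 4 * (N : ℝ) - k) 0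
  have hpow : ∀ l : ℕ, (1 : ℝ) / 2 ^ l = (2 : ℝ) ^ (-(l : ℝ)) := fun l => by
    rw [Real.rpow_neg (by norm_num), Real.rpow_natCast, one_div]
  have hb := nrm_det_mul_le (p := 2) X Y a β ((2 : ℝ) ^ (-(65 / 4 * (N : ℝ)))) (by positivity)
    (by rintro (l | l) <;> simp only [a, Sum.elim_inl, Sum.elim_inr] <;> positivity)
    (fun k => by simp only [β]; positivity) (by
      rintro r (l | l) k
      · have h1 := atd_KM_M2 hN γ l.2 k.2
        refine (nrm_mul_le (nrm2_T_coeff _ l) h1).trans ?_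
        simp only [a, β, Sum.elim_inl]
        have h2 : (2 : ℝ) ^ (43 * N - 1 - l - k) ≤
            (2 : ℝ) ^ max (93 / 4 * (N : ℝ) - l) 0 * (2 : ℝ) ^ max (79 / 4 * (N : ℝ) - k) 0 := by
          rw [← Real.rpow_add (by norm_num), ← Real.rpow_natCast]
          refine Real.rpow_le_rpow_of_exponent_le (by norm_num) ?_
          have m1 := le_max_left (93 / 4 * (N : ℝ) - l) 0
          have m2 := le_max_right (93 / 4 * (N : ℝ) - l) 0
          have m3 := le_max_left (79 / 4 * (N : ℝ) - k) 0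
          have m4 := le_max_right (79 / 4 * (N : ℝ) - k) 0
          rcases Nat.eq_zero_or_pos (43 * N - 1 - l - k) with h0 | h0
          · rw [h0]; push_cast; linarith
          · have : 43 * N - 1 - l - k + l + k ≤ 43 * N := by omega
            have : ((43 * N - 1 - l - k : ℕ) : ℝ) + l + k ≤ 43 * N := by exact_mod_cast this
            linarith
        rw [Real.rpow_add (by norm_num), ← hpow]
        have h3 : Γ * (4 * M) ≤ Γ * (4 * M ^ 2) := by gcongr; nlinarith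
        calc 2 / 2 ^ (l : ℕ) * (Γ * (2 * M) * 2 ^ (43 * N - 1 - l - k))
            = 1 / 2 ^ (l : ℕ) * (Γ * (4 * M)) * 2 ^ (43 * N - 1 - l - k) := by ring
          _ ≤ 1 / 2 ^ (l : ℕ) * (Γ * (4 * M ^ 2)) * ((2 : ℝ) ^ max (93 / 4 * (N : ℝ) - l) 0 *
              (2 : ℝ) ^ max (79 / 4 * (N : ℝ) - k) 0) := by gcongr
          _ = _ := by ring
      · have h1 := atd_KM_Z2 hN l.2 k.2
        have h0 : nrm 2 (-(Chebyshev.U ℚ ((r : ℤ) - 3 * N - 1)).coeff l) ≤ 1 / 2 ^ (l : ℕ) := by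
          rw [nrm_neg]; exact nrm2_U_coeff _ l
        refine (nrm_mul_le h0 h1).trans ?_
        simp only [a, β, Sum.elim_inr]
        rw [← hpow]
        have h2 : (1 : ℝ) ≤ (2 : ℝ) ^ max (79 / 4 * (N : ℝ) - k) 0 :=
          Real.one_le_rpow (by norm_num) (le_max_right _ _)
        refine mul_le_mul_of_nonneg_left ?_ (by positivity)
        calc 2 * M ^ 2 ≤ 1 * (4 * M ^ 2) * 1 := by nlinarith
          _ ≤ _ := by gcongr)
  rw [← e] at hb
  refine hb.trans ?_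
  have hmax : ∀ x : ℝ, max 1 ((2 : ℝ) ^ x) = (2 : ℝ) ^ max x 0 := fun x => by
    rcases le_total x 0 with h | h
    · rw [max_eq_right h, Real.rpow_zero,
        max_eq_left (Real.rpow_le_one_of_one_le_of_nonpos (by norm_num) h)]
    · rw [max_eq_left h, max_eq_right (Real.one_le_rpow (by norm_num) h)]
  have hprod : ∀ (B : ℕ) (f : ℕ → ℝ), ∏ l : Fin B, (2 : ℝ) ^ f l = (2 : ℝ) ^ ∑ l ∈ range B, f l :=
    fun B f => by rw [Real.rpow_sum_of_pos (by norm_num), prod_range]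
  have p1 : ∏ l : Fin (33 * N), max 1 (a (Sum.inl l) / (2 : ℝ) ^ (-(65 / 4 * (N : ℝ)))) ≤
      (2 : ℝ) ^ ∑ l ∈ range (33 * N), max (79 / 2 * (N : ℝ) - 2 * l) 0 := by
    rw [← hprod]
    refine prod_le_prod (fun _ _ => by positivity) fun l _ => ?_
    simp only [a, Sum.elim_inl]
    rw [← Real.rpow_sub (by norm_num), hmax]
    refine Real.rpow_le_rpow_of_exponent_le (by norm_num) (max_le ?_ (le_max_right _ _))
    rcases le_total (93 / 4 * (N : ℝ) - l) 0 with h | h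
    · rw [max_eq_right h]; exact le_max_of_le_right (by linarith)
    · rw [max_eq_left h]; exact le_max_of_le_left (by linarith)
  have p2 : ∏ l : Fin (33 * N), max 1 (a (Sum.inr l) / (2 : ℝ) ^ (-(65 / 4 * (N : ℝ)))) =
      (2 : ℝ) ^ ∑ l ∈ range (33 * N), max (65 / 4 * (N : ℝ) - 1 * l) 0 := by
    rw [← hprod]
    refine prod_congr rfl fun l _ => ?_
    simp only [a, Sum.elim_inr]
    rw [← Real.rpow_sub (by norm_num), hmax]
    congr 2
    ring
  have p3 : ∏ k, β k = (Γ * (4 * M ^ 2)) ^ (36 * N) *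
      (2 : ℝ) ^ ∑ l ∈ range (36 * N), max (79 / 4 * (N : ℝ) - 1 * l) 0 := by
    rw [← hprod]
    simp only [β, prod_mul_distrib, prod_const, card_univ, Fintype.card_fin, one_mul, mul_pow]
  have s1 := sum_pos_part_le (79 / 2 * (N : ℝ)) 2 (by positivity) (by norm_num) (33 * N)
  have s2 := sum_pos_part_le (65 / 4 * (N : ℝ)) 1 (by positivity) (by norm_num) (33 * N)
  have s3 := sum_pos_part_le (79 / 4 * (N : ℝ)) 1 (by positivity) (by norm_num) (36 * N)
  rw [Fintype.prod_sum_type, p2, p3, Fintype.card_fin, ← Real.rpow_natCast,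
    ← Real.rpow_mul (by norm_num)]
  calc _ ≤ (2 : ℝ) ^ (-(65 / 4 * (N : ℝ)) * ((36 * N : ℕ) : ℝ)) *
        ((2 : ℝ) ^ (∑ l ∈ range (33 * N), max (79 / 2 * (N : ℝ) - 2 * l) 0) *
          (2 : ℝ) ^ ∑ l ∈ range (33 * N), max (65 / 4 * (N : ℝ) - 1 * l) 0) *
        ((Γ * (4 * M ^ 2)) ^ (36 * N) *
          (2 : ℝ) ^ ∑ l ∈ range (36 * N), max (79 / 4 * (N : ℝ) - 1 * l) 0) := by gcongr
    _ = (Γ * (4 * M ^ 2)) ^ (36 * N) * (2 : ℝ) ^ (-(65 / 4 * (N : ℝ)) * ((36 * N : ℕ) : ℝ) +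
          (∑ l ∈ range (33 * N), max (79 / 2 * (N : ℝ) - 2 * l) 0 +
          ∑ l ∈ range (33 * N), max (65 / 4 * (N : ℝ) - 1 * l) 0) +
          ∑ l ∈ range (36 * N), max (79 / 4 * (N : ℝ) - 1 * l) 0) := by
        rw [Real.rpow_add (by norm_num), Real.rpow_add (by norm_num), Real.rpow_add (by norm_num)]
        ring
    _ ≤ _ := by
        refine mul_le_mul_of_nonneg_left (Real.rpow_le_rpow_of_exponent_le (by norm_num) ?_)
          (by positivity)
        push_cast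
        nlinarith

end Crest.Agent.R6
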