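import Mathlib

/-! Andréief's identity as an upper bound, and Cauchy's determinant. -/

set_option autoImplicit false

namespace Crest.Agent.R6

open Finset MeasureTheory

/-- `n! det (∫ a_r b_k) = ∫ det (a_r(x_i)) det (b_k(x_i))`, hence the bound. -/
theorem andreief_bound {X : Type} [MeasurableSpace X] (μ : Measure X) [IsFiniteMeasure μ] {n : ℕ}
    (a b : Fin n → X → ℝ) (hint : ∀ r k, Integrable (fun x => a r x * b k x) μ)
    (S : Set X) (hS : ∀ᵐ x ∂μ, x ∈ S) (B : ℝ)
    (hB : ∀ x : Fin n → X, (∀ i, x i ∈ S) →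
      |(Matrix.of fun r i => a r (x i)).det| * |(Matrix.of fun k i => b k (x i)).det| ≤ B) :
    |(Matrix.of fun r k => ∫ x, a r x * b k x ∂μ).det| ≤ B * (μ.real Set.univ) ^ n := by
  set F : Matrix (Fin n) (Fin n) ℝ := Matrix.of fun r k => ∫ x, a r x * b k x ∂μ with hF
  have e1 : ∀ x : Fin n → X,
      (Matrix.of fun r i => a r (x i)).det * (Matrix.of fun k i => b k (x i)).det =
      ∑ τ : Equiv.Perm (Fin n), ∑ σ : Equiv.Perm (Fin n),
        (((Equiv.Perm.sign τ : ℤ) : ℝ) * ((Equiv.Perm.sign σ : ℤ) : ℝ)) *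
          ∏ i, a (σ i) (x i) * b (τ i) (x i) := fun x => by
    rw [mul_comm, Matrix.det_apply', Matrix.det_apply', Finset.sum_mul_sum]
    refine Finset.sum_congr rfl fun τ _ => Finset.sum_congr rfl fun σ _ => ?_
    simp only [Matrix.of_apply, Finset.prod_mul_distrib]
    ring
  have hi : ∀ τ σ : Equiv.Perm (Fin n), Integrable (fun x : Fin n → X =>
      (((Equiv.Perm.sign τ : ℤ) : ℝ) * ((Equiv.Perm.sign σ : ℤ) : ℝ)) *
        ∏ i, a (σ i) (x i) * b (τ i) (x i)) (Measure.pi fun _ => μ) := fun τ σ =>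
    (Integrable.fintype_prod (f := fun i x => a (σ i) x * b (τ i) x) fun i => hint _ _).const_mul _
  have e2 : ∫ x : Fin n → X,
      (Matrix.of fun r i => a r (x i)).det * (Matrix.of fun k i => b k (x i)).det
        ∂(Measure.pi fun _ => μ) = n.factorial * F.det := by
    simp only [e1]
    rw [integral_finsetSum _ fun τ _ => integrable_finsetSum _ fun σ _ => hi τ σ]
    have e3 : ∀ τ : Equiv.Perm (Fin n), ∫ x : Fin n → X, ∑ σ : Equiv.Perm (Fin n),
        (((Equiv.Perm.sign τ : ℤ) : ℝ) * ((Equiv.Perm.sign σ : ℤ) : ℝ)) *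
          ∏ i, a (σ i) (x i) * b (τ i) (x i) ∂(Measure.pi fun _ => μ) = F.det := fun τ => by
      rw [integral_finsetSum _ fun σ _ => hi τ σ]
      have e4 : ((Equiv.Perm.sign τ : ℤ) : ℝ) * (F.submatrix id τ).det = F.det := by
        rw [Matrix.det_permute', ← mul_assoc, ← Int.cast_mul, ← Units.val_mul, Int.units_mul_self]
        simp
      rw [← e4, Matrix.det_apply', Finset.mul_sum]
      refine Finset.sum_congr rfl fun σ _ => ?_
      rw [integral_const_mul,
        integral_fintype_prod_eq_prod (f := fun i x => a (σ i) x * b (τ i) x), mul_assoc]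
      rfl
    simp only [e3, Finset.sum_const, Finset.card_univ, Fintype.card_perm, Fintype.card_fin,
      nsmul_eq_mul]
  have h3 : ∀ᵐ x : Fin n → X ∂(Measure.pi fun _ => μ), ∀ i, x i ∈ S :=
    ae_all_iff.2 fun i => (Measure.tendsto_eval_ae_ae (μ := fun _ : Fin n => μ) (i := i)).eventually hS
  have h4 := norm_integral_le_of_norm_le_const (μ := Measure.pi fun _ : Fin n => μ) (C := B)
    (f := fun x : Fin n → X =>
      (Matrix.of fun r i => a r (x i)).det * (Matrix.of fun k i => b k (x i)).det)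
    (h3.mono fun x hx => by
      rw [Real.norm_eq_abs, abs_mul]
      exact hB x hx)
  have e5 : (Measure.pi fun _ : Fin n => μ).real Set.univ = μ.real Set.univ ^ n := by
    simp [Measure.real, Measure.pi_univ]
  rw [e2, e5, Real.norm_eq_abs, abs_mul, Nat.abs_cast] at h4
  refine le_trans (le_mul_of_one_le_left (abs_nonneg _) ?_) h4
  exact_mod_cast n.factorial_pos

end Crest.Agent.R6
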