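import Crest.Agent.R6.NVMain
import Crest.Agent.R6.APnt
import Crest.Agent.R6.ATwoDet
import Crest.Agent.R6.ADen

/-! # R6 arithmetic: the lower bound for the determinant. -/

set_option autoImplicit false
set_option linter.unusedSectionVars false

namespace Crest.Agent.R6

open Polynomial Finset

open Filter Topology

private theorem ar_card (M : ℕ) (S : Finset ℕ) :
    ((S.filter fun p => p ^ 2 ≤ M).card : ℝ) ≤ Real.sqrt M + 1 := by
  have h1 : (S.filter fun p => p ^ 2 ≤ M) ⊆ range (Nat.sqrt M + 1) := by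
    intro p hp
    rw [mem_filter] at hp
    rw [mem_range, Nat.lt_succ_iff, Nat.le_sqrt']
    exact hp.2
  have h2 := card_le_card h1
  rw [card_range] at h2
  have h3 : ((Nat.sqrt M : ℕ) : ℝ) ≤ Real.sqrt M := by
    apply Real.le_sqrt_of_sq_le
    exact_mod_cast Nat.sqrt_le' M
  have h4 : ((S.filter fun p => p ^ 2 ≤ M).card : ℝ) ≤ (Nat.sqrt M : ℝ) + 1 := by exact_mod_cast h2
  linarith

private theorem ar_max {p : ℕ} [hp : Fact p.Prime] (γ : ℚ) (n : ℕ) :
    (max 1 (nrm p γ)) ^ n ≤ Real.exp (n * (γ.den.factorization p * Real.log p)) := by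
  have h0 : (0 : ℝ) < p := p_pos_real
  have h1 : Real.exp (n * (γ.den.factorization p * Real.log p)) =
      ((p : ℝ) ^ (γ.den.factorization p)) ^ n := by
    rw [Real.exp_nat_mul, Real.exp_nat_mul, Real.exp_log h0]
  rw [h1]
  exact pow_le_pow_left₀ (le_trans zero_le_one (le_max_left _ _)) (max_nrm_le γ) n

/-- `abs_ge_of_nrm_le` with `S` = primes `< 49N` together with the prime factors of `den γ`, and `B p = p^{36N v_p(den γ)} · b p`, where
`b 2 = (4(49N)²)^{36N} 2^{(1057/8)N²+100N}` (`two_bound`), `b p = (49N)^{72N}` for odd `p` with `p² ≤ 49N` (`triv_bound`, `lg_le_self`),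
`b p = p^{(lossZ N p).toNat}` otherwise (`odd_bound`; it is `1` for `p ≥ 49N`). There are at most `√(49N) + 1` numbers with `p² ≤ 49N`. -/
theorem log_abs_det_ge (γ : ℚ) {N : ℕ} (hN : 1 ≤ N) (h : (matQ N γ).det ≠ 0) :
    -(36 * N * Real.log γ.den + 36 * N * Real.log (4 * (49 * (N : ℝ)) ^ 2)
      + ((1057 / 8 : ℝ) * (N : ℝ) ^ 2 + 100 * N) * Real.log 2
      + (Real.sqrt (49 * N) + 1) * (72 * N * Real.log (49 * N))
      + ∑ p ∈ (range (49 * N)).filter Nat.Prime, (lossZ N p : ℝ) * Real.log p)
      ≤ Real.log |((matQ N γ).det : ℝ)| := by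
  classical
  have hN' : (1 : ℝ) ≤ N := by exact_mod_cast hN
  set c2 : ℝ := 36 * N * Real.log (4 * (49 * (N : ℝ)) ^ 2)
      + ((1057 / 8 : ℝ) * (N : ℝ) ^ 2 + 100 * N) * Real.log 2 with hc2
  set c3 : ℝ := 72 * N * Real.log (49 * N) with hc3
  have h49 : (1 : ℝ) ≤ 49 * N := by linarith
  have h4 : (1 : ℝ) ≤ 4 * (49 * (N : ℝ)) ^ 2 := by nlinarith
  have hc2' : 0 ≤ c2 := by
    have := Real.log_nonneg h4
    have := Real.log_nonneg (show (1 : ℝ) ≤ 2 by norm_num)
    positivity
  have hc3' : 0 ≤ c3 := by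
    have := Real.log_nonneg h49
    positivity
  set β : ℕ → ℝ := fun p => (36 * N : ℕ) * (γ.den.factorization p * Real.log p)
    + (if p = 2 then c2 else 0) + (if p ^ 2 ≤ 49 * N then c3 else 0)
    + (lossZ N p : ℝ) * Real.log p with hβ
  have hA : ∀ p : ℕ, (0 : ℝ) ≤ (36 * N : ℕ) * (γ.den.factorization p * Real.log p) := fun p => by
    have := Real.log_natCast_nonneg p
    positivity
  have hB : ∀ p : ℕ, (0 : ℝ) ≤ (if p = 2 then c2 else 0) := fun p => by split_ifs <;> simp [hc2']
  have hC : ∀ p : ℕ, (0 : ℝ) ≤ (if p ^ 2 ≤ 49 * N then c3 else 0) := fun p => by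
    split_ifs <;> simp [hc3']
  have hD : ∀ p : ℕ, (0 : ℝ) ≤ (lossZ N p : ℝ) * Real.log p := fun p => by
    have h1 := Real.log_natCast_nonneg p
    have h2 : (0 : ℝ) ≤ (lossZ N p : ℝ) := by exact_mod_cast lossZ_nonneg N p
    positivity
  set P : Finset ℕ := (range (49 * N)).filter Nat.Prime with hP
  set S : Finset ℕ := P ∪ γ.den.primeFactors with hS
  have hSp : ∀ p ∈ S, p.Prime := by
    intro p hp
    rcases mem_union.1 hp with hp | hp
    · exact (mem_filter.1 hp).2
    · exact Nat.prime_of_mem_primeFactors hp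
  have key := abs_ge_of_nrm_le h (fun p => Real.exp (β p)) S
    (fun p => Real.one_le_exp (by
      have := hA p; have := hB p; have := hC p; have := hD p
      simp only [hβ]; linarith))
    (fun p hp => by
      have h0 : (0 : ℝ) < p := p_pos_real
      have hm := ar_max (p := p) γ (36 * N)
      have hm0 : (0 : ℝ) ≤ max 1 (nrm p γ) := le_trans zero_le_one (le_max_left _ _)
      by_cases h2 : p = 2
      · subst h2
        have h1 := two_bound hN γ
        have e1 : (4 * (49 * (N : ℝ)) ^ 2) ^ (36 * N) *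
            (2 : ℝ) ^ ((1057 / 8 : ℝ) * (N : ℝ) ^ 2 + 100 * N) = Real.exp c2 := by
          rw [hc2, Real.exp_add, Real.rpow_def_of_pos (by norm_num : (0 : ℝ) < 2),
            mul_comm (Real.log 2)]
          congr 1
          rw [show (36 * N : ℝ) = ((36 * N : ℕ) : ℝ) by push_cast; ring, Real.exp_nat_mul,
            Real.exp_log (by linarith)]
        rw [mul_pow, mul_assoc, e1] at h1
        refine le_trans h1 ?_
        refine le_trans (mul_le_mul_of_nonneg_right hm (Real.exp_pos _).le) ?_
        rw [← Real.exp_add, Real.exp_le_exp]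
        have := hC 2; have := hD 2
        simp only [hβ, if_true] at *
        linarith
      · by_cases h3 : p ^ 2 ≤ 49 * N
        · have h1 := triv_bound (p := p) h2 N γ
          have hl : lg p (49 * N) ≤ (49 * N : ℝ) := by
            have := lg_le_self (p := p) (M := 49 * N) (by omega)
            push_cast at this; exact this
          have hl0 : 0 ≤ lg p (49 * N) := (lg_pos _).le
          have e1 : (lg p (49 * N) ^ 2) ^ (36 * N) ≤ Real.exp c3 := by
            rw [hc3, show (72 * N : ℝ) = ((72 * N : ℕ) : ℝ) by push_cast; ring, Real.exp_nat_mul,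
              Real.exp_log (by linarith), ← pow_mul, show 2 * (36 * N) = 72 * N by ring]
            exact pow_le_pow_left₀ hl0 hl _
          rw [mul_pow] at h1
          refine le_trans h1 ?_
          refine le_trans (mul_le_mul hm e1 (by positivity) (Real.exp_pos _).le) ?_
          rw [← Real.exp_add, Real.exp_le_exp]
          have := hB p; have := hD p
          simp only [hβ, if_pos h3] at *
          linarith
        · obtain ⟨e, he, h1⟩ := odd_bound (p := p) h2 (N := N) (by omega) γ
          have e1 : (p : ℝ) ^ e ≤ Real.exp ((lossZ N p : ℝ) * Real.log p) := by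
            have : (p : ℝ) ^ e = Real.exp (e * Real.log p) := by
              rw [Real.exp_nat_mul, Real.exp_log h0]
            rw [this, Real.exp_le_exp]
            have he' : (e : ℝ) ≤ (lossZ N p : ℝ) := by exact_mod_cast he
            exact mul_le_mul_of_nonneg_right he' (Real.log_natCast_nonneg p)
          refine le_trans h1 ?_
          refine le_trans (mul_le_mul hm e1 (by positivity) (Real.exp_pos _).le) ?_
          rw [← Real.exp_add, Real.exp_le_exp]
          have := hB p; have := hC p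
          simp only [hβ] at *
          linarith)
    (fun p hp hpS => by
      rw [Real.exp_le_one_iff]
      have hp1 : 49 * N ≤ p := by
        by_contra hlt
        exact hpS (mem_union_left _ (mem_filter.2 ⟨mem_range.2 (by omega), hp⟩))
      have hp2 : γ.den.factorization p = 0 := by
        by_contra hne
        exact hpS (mem_union_right _ (by
          rw [← Nat.support_factorization]; exact Finsupp.mem_support_iff.2 hne))
      have hp3 : p ≠ 2 := by omega
      have hp4 : ¬ p ^ 2 ≤ 49 * N := by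
        have := hp.two_le
        nlinarith
      simp only [hβ, hp2, if_neg hp3, if_neg hp4, lossZ_eq_zero hp1]
      simp)
  rw [← Real.exp_sum, ← Real.exp_neg] at key
  have hx : 0 < |((matQ N γ).det : ℝ)| := lt_of_lt_of_le (Real.exp_pos _) key
  have key2 : -∑ p ∈ S, β p ≤ Real.log |((matQ N γ).det : ℝ)| := by
    rw [Real.le_log_iff_exp_le hx]; exact key
  refine le_trans ?_ key2
  rw [neg_le_neg_iff]
  simp only [hβ, sum_add_distrib]
  have s1 : ∑ p ∈ S, ((36 * N : ℕ) : ℝ) * (γ.den.factorization p * Real.log p)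
      ≤ 36 * N * Real.log γ.den := by
    rw [← mul_sum]
    push_cast
    refine mul_le_mul_of_nonneg_left ?_ (by positivity)
    have h1 := prod_pow_factorization_le γ.den_nz S hSp
    have h2 : ∑ p ∈ S, (γ.den.factorization p : ℝ) * Real.log p =
        Real.log (∏ p ∈ S, (p : ℝ) ^ (γ.den.factorization p)) := by
      rw [Real.log_prod]
      · exact sum_congr rfl fun p _ => (Real.log_pow _ _).symm
      · intro p hp
        have : (0 : ℝ) < p := by exact_mod_cast (hSp p hp).pos
        positivity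
    rw [h2]
    refine Real.log_le_log (prod_pos fun p hp => ?_) h1
    have : (0 : ℝ) < p := by exact_mod_cast (hSp p hp).pos
    positivity
  have s2 : ∑ p ∈ S, (if p = 2 then c2 else 0) ≤ c2 := by
    rw [sum_ite_eq']
    split_ifs <;> simp [hc2']
  have s3 : ∑ p ∈ S, (if p ^ 2 ≤ 49 * N then c3 else 0) ≤ (Real.sqrt (49 * N) + 1) * c3 := by
    rw [← sum_filter, sum_const, nsmul_eq_mul]
    refine mul_le_mul_of_nonneg_right ?_ hc3'
    have := ar_card (49 * N) S
    push_cast at this
    exact this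
  have s4 : ∑ p ∈ S, (lossZ N p : ℝ) * Real.log p = ∑ p ∈ P, (lossZ N p : ℝ) * Real.log p := by
    symm
    refine sum_subset subset_union_left fun p hp hpP => ?_
    have hp1 : 49 * N ≤ p := by
      by_contra hlt
      exact hpP (mem_filter.2 ⟨mem_range.2 (by omega), hSp p hp⟩)
    simp [lossZ_eq_zero hp1]
  rw [s4]
  linarith

/-- `4825/2 + (1057/8) log 2 < 2504.09 < 1.9328 · 1296 = 2504.9088` (`Real.log_two_lt_d9`); the other terms are `o(N²)`. -/
theorem arith_lower (γ : ℚ) : ∀ᶠ N : ℕ in atTop, N.Prime →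
    Real.exp (-(1.9328 : ℝ) * (36 * N) ^ 2) ≤ |((matQ N γ).det : ℝ)| := by
  -- the normalised exponent tends to `(1057/8) log 2 + 4825/2`
  have hlog : Tendsto (fun N : ℕ => Real.log N / Real.sqrt N) atTop (𝓝 0) := by
    have h1 := (isLittleO_log_rpow_atTop (r := 1 / 2) (by norm_num)).tendsto_div_nhds_zero
    have h2 := h1.comp tendsto_natCast_atTop_atTop
    refine h2.congr fun N => ?_
    simp [Real.sqrt_eq_rpow]
  have hsq : Tendsto (fun N : ℕ => 1 / Real.sqrt N) atTop (𝓝 0) := by
    have h1 : Tendsto (fun N : ℕ => Real.sqrt N) atTop atTop :=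
      Real.tendsto_sqrt_atTop.comp tendsto_natCast_atTop_atTop
    exact h1.inv_tendsto_atTop.congr fun N => by simp
  set a : ℕ → ℝ := fun N => Real.log N / Real.sqrt N with ha
  set b : ℕ → ℝ := fun N => 1 / Real.sqrt N with hb
  set G : ℕ → ℝ := fun N => 36 * Real.log γ.den * (b N * b N)
      + 36 * (Real.log (4 * 49 ^ 2) * (b N * b N) + 2 * (a N * b N))
      + ((1057 / 8 : ℝ) + 100 * (b N * b N)) * Real.log 2
      + (7 + b N) * (72 * (Real.log 49 * b N + a N))
      + (∑ p ∈ (range (49 * N)).filter Nat.Prime, (lossZ N p : ℝ) * Real.log p) / (N : ℝ) ^ 2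
    with hG
  have hGt : Tendsto G atTop (𝓝 (36 * Real.log γ.den * (0 * 0)
      + 36 * (Real.log (4 * 49 ^ 2) * (0 * 0) + 2 * (0 * 0))
      + ((1057 / 8 : ℝ) + 100 * (0 * 0)) * Real.log 2
      + (7 + 0) * (72 * (Real.log 49 * 0 + 0)) + 4825 / 2)) := by
    refine Tendsto.add (Tendsto.add (Tendsto.add (Tendsto.add ?_ ?_) ?_) ?_) loss_tendsto
    · exact (hsq.mul hsq).const_mul _
    · exact (((hsq.mul hsq).const_mul _).add ((hlog.mul hsq).const_mul _)).const_mul _
    · exact (((hsq.mul hsq).const_mul _).const_add _).mul_const _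
    · exact (hsq.const_add _).mul (((hsq.const_mul _).add hlog).const_mul _)
  have hlt : (36 * Real.log γ.den * (0 * 0)
      + 36 * (Real.log (4 * 49 ^ 2) * (0 * 0) + 2 * (0 * 0))
      + ((1057 / 8 : ℝ) + 100 * (0 * 0)) * Real.log 2
      + (7 + 0) * (72 * (Real.log 49 * 0 + 0)) + 4825 / 2) < 1.9328 * 36 ^ 2 := by
    have := Real.log_two_lt_d9
    norm_num at this ⊢
    linarith
  filter_upwards [hGt.eventually (gt_mem_nhds hlt), det_ne_zero γ, eventually_ge_atTop 1]
    with N h1 h2 hN hp
  have hd := h2 hp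
  have h3 := log_abs_det_ge γ hN hd
  have hN' : (1 : ℝ) ≤ N := by exact_mod_cast hN
  have hN0 : (0 : ℝ) < N := by linarith
  have hx : 0 < |((matQ N γ).det : ℝ)| := by
    rw [abs_pos]; exact_mod_cast hd
  rw [← Real.le_log_iff_exp_le hx]
  refine le_trans ?_ h3
  have hs : 0 < Real.sqrt N := Real.sqrt_pos.2 hN0
  have hss : Real.sqrt N * Real.sqrt N = N := Real.mul_self_sqrt hN0.le
  have e0 : Real.sqrt (49 * N) = 7 * Real.sqrt N := by
    rw [Real.sqrt_mul (by norm_num), show (49 : ℝ) = 7 ^ 2 by norm_num, Real.sqrt_sq (by norm_num)]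
  have e1 : Real.log (4 * (49 * (N : ℝ)) ^ 2) = Real.log (4 * 49 ^ 2) + 2 * Real.log N := by
    rw [mul_pow, ← mul_assoc, Real.log_mul (by norm_num) (by positivity), Real.log_pow]
    norm_num
  have e2 : Real.log (49 * (N : ℝ)) = Real.log 49 + Real.log N :=
    Real.log_mul (by norm_num) hN0.ne'
  have e3 : G N * (N : ℝ) ^ 2 = (36 * N * Real.log γ.den + 36 * N * Real.log (4 * (49 * (N : ℝ)) ^ 2)
      + ((1057 / 8 : ℝ) * (N : ℝ) ^ 2 + 100 * N) * Real.log 2
      + (Real.sqrt (49 * N) + 1) * (72 * N * Real.log (49 * N))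
      + ∑ p ∈ (range (49 * N)).filter Nat.Prime, (lossZ N p : ℝ) * Real.log p) := by
    rw [e0, e1, e2]
    simp only [hG, ha, hb]
    generalize (∑ p ∈ (range (49 * N)).filter Nat.Prime, (lossZ N p : ℝ) * Real.log p) = L
    generalize Real.log (N : ℝ) = l
    generalize hr : Real.sqrt (N : ℝ) = r at hs hss
    rw [← hss]
    field_simp
  rw [← e3]
  have h4 : G N * (N : ℝ) ^ 2 ≤ 1.9328 * 36 ^ 2 * (N : ℝ) ^ 2 :=
    mul_le_mul_of_nonneg_right h1.le (by positivity)
  nlinarith

end Crest.Agent.R6
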