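import Mathlib

/-! Cauchy's and Vandermonde's determinants in logarithmic form. -/

set_option autoImplicit false

namespace Crest.Agent.R6

open Finset

theorem cauchy_vdm {n : ℕ} (x : Fin n → ℝ) (hx : Function.Injective x) :
    Real.log |(Matrix.vandermonde x).det| =
      1 / 2 * ∑ i, ∑ j ∈ univ.erase i, Real.log |x i - x j| := by
  have h0 : ∀ i, ∀ j ∈ Ioi i, x j - x i ≠ 0 := fun i j hj =>
    sub_ne_zero.2 fun h => (mem_Ioi.1 hj).ne' (hx h)
  have h1 := sum_sum_Ioi_add_eq_sum_sum_off_diag fun j i : Fin n => Real.log |x i - x j|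
  simp only [compl_singleton] at h1
  rw [← h1, Matrix.det_vandermonde, Real.log_abs,
    Real.log_prod fun i _ => prod_ne_zero_iff.2 (h0 i), mul_sum]
  refine sum_congr rfl fun i _ => ?_
  rw [Real.log_prod (h0 i), mul_sum]
  refine sum_congr rfl fun j _ => ?_
  rw [abs_sub_comm (x i), Real.log_abs]
  ring

theorem cauchy_eval {n : ℕ} (v : Fin n → ℝ) (p : Fin n → Polynomial ℝ) (h : ∀ j, (p j).natDegree < n) :
    (Matrix.of fun i j => (p j).eval (v i)) =
      Matrix.vandermonde v * Matrix.of fun k j : Fin n => (p j).coeff k := by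
  ext i j
  rw [Matrix.mul_apply, Matrix.of_apply, Polynomial.eval_eq_sum_range' (h j),
    ← Fin.sum_univ_eq_sum_range fun k => (p j).coeff k * v i ^ k]
  exact sum_congr rfl fun k _ => mul_comm _ _

theorem log_det_vandermonde {n : ℕ} (x : Fin n → ℝ) (hx : Function.Injective x) :
    Real.log |(Matrix.of fun (r i : Fin n) => x i ^ (r : ℕ)).det| =
      1 / 2 * ∑ i, ∑ j ∈ univ.erase i, Real.log |x i - x j| := by
  rw [← cauchy_vdm x hx, ← Matrix.det_transpose]
  rfl

/-- Cauchy's determinant. Hint: `(∏ k, (x i + y k)) / (x i + y j) = ℓ_j (x i)` with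
`ℓ_j = ∏_{k ≠ j} (X + y k)` of degree `< n`; use
`Matrix.eval_matrixOfPolynomials_eq_vandermonde_mul_matrixOfPolynomials` at `x` and at `-y`. -/
theorem log_det_cauchy {n : ℕ} (x y : Fin n → ℝ) (hx : Function.Injective x)
    (hy : Function.Injective y) (hxy : ∀ i j, x i + y j ≠ 0) :
    (Matrix.of fun i j => 1 / (x i + y j)).det ≠ 0 ∧
    Real.log |(Matrix.of fun i j => 1 / (x i + y j)).det| =
      1 / 2 * ∑ i, ∑ j ∈ univ.erase i, Real.log |x i - x j| +
      1 / 2 * ∑ i, ∑ j ∈ univ.erase i, Real.log |y i - y j| -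
      ∑ i, ∑ j, Real.log |x i + y j| := by
  set p : Fin n → Polynomial ℝ := fun j => ∏ k ∈ univ.erase j, (Polynomial.X + Polynomial.C (y k)) with hp
  have hd : ∀ j, (p j).natDegree < n := by
    intro j
    refine lt_of_le_of_lt (Polynomial.natDegree_prod_le _ _) ?_
    simp only [Polynomial.natDegree_X_add_C, sum_const, smul_eq_mul, mul_one,
      card_erase_of_mem (mem_univ j), card_univ, Fintype.card_fin]
    have := j.pos
    omega
  have he : ∀ j t, (p j).eval t = ∏ k ∈ univ.erase j, (t + y k) := by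
    intro j t
    simp [hp, Polynomial.eval_prod]
  have h1 := congrArg Matrix.det (cauchy_eval x p hd)
  have h2 := congrArg Matrix.det (cauchy_eval (fun i => -y i) p hd)
  set c := (Matrix.of fun k j : Fin n => (p j).coeff k).det with hc
  have e1 : (Matrix.of fun i j => (p j).eval (x i)) =
      Matrix.of fun i j => (∏ k, (x i + y k)) * (Matrix.of fun i j => 1 / (x i + y j)) i j := by
    ext i j
    rw [Matrix.of_apply, Matrix.of_apply, Matrix.of_apply, he, ← mul_prod_erase _ _ (mem_univ j)]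
    have := hxy i j
    field_simp
  have e2 : (Matrix.of fun i j => (p j).eval (-y i)) =
      Matrix.diagonal fun j => ∏ k ∈ univ.erase j, (-y j + y k) := by
    ext i j
    rw [Matrix.of_apply, he, Matrix.diagonal_apply]
    split_ifs with h
    · rw [h]
    · exact prod_eq_zero (mem_erase.2 ⟨h, mem_univ i⟩) (neg_add_cancel _)
  rw [e1, Matrix.det_mul_column, Matrix.det_mul, ← hc] at h1
  rw [e2, Matrix.det_diagonal, Matrix.det_mul, ← hc] at h2
  have hy' : Function.Injective fun i => -y i := fun i j h => hy (neg_injective h)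
  have n1 : ∀ j, ∀ k ∈ univ.erase j, -y j + y k ≠ 0 := fun j k hk h =>
    (mem_erase.1 hk).1 (hy (by linarith))
  have n2 : ∏ j, ∏ k ∈ univ.erase j, (-y j + y k) ≠ 0 :=
    prod_ne_zero_iff.2 fun j _ => prod_ne_zero_iff.2 (n1 j)
  have n3 : c ≠ 0 := fun h => n2 (by rw [h2, h, mul_zero])
  have n4 := Matrix.det_vandermonde_ne_zero_iff.2 hx
  have n5 := Matrix.det_vandermonde_ne_zero_iff.2 hy'
  have n6 : ∀ i, ∏ k, (x i + y k) ≠ 0 := fun i => prod_ne_zero_iff.2 fun k _ => hxy i k
  have n7 : ∏ i, ∏ k, (x i + y k) ≠ 0 := prod_ne_zero_iff.2 fun i _ => n6 i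
  have n8 : (Matrix.of fun i j => 1 / (x i + y j)).det ≠ 0 := fun h =>
    mul_ne_zero n4 n3 (by rw [← h1, h, mul_zero])
  refine ⟨n8, ?_⟩
  have l1 := congrArg Real.log h1
  have l2 := congrArg Real.log h2
  rw [Real.log_mul n7 n8, Real.log_mul n4 n3, Real.log_prod fun i _ => n6 i] at l1
  rw [Real.log_mul n5 n3, Real.log_prod fun j _ => prod_ne_zero_iff.2 (n1 j)] at l2
  have v1 := cauchy_vdm x hx
  have v2 := cauchy_vdm _ hy'
  have s1 : ∑ i, Real.log (∏ k, (x i + y k)) = ∑ i, ∑ j, Real.log |x i + y j| :=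
    sum_congr rfl fun i _ => by
      rw [Real.log_prod fun k _ => hxy i k]
      simp only [Real.log_abs]
  have s2 : ∑ j, Real.log (∏ k ∈ univ.erase j, (-y j + y k)) =
      ∑ i, ∑ j ∈ univ.erase i, Real.log |y i - y j| :=
    sum_congr rfl fun i _ => by
      rw [Real.log_prod (n1 i)]
      refine sum_congr rfl fun j _ => ?_
      rw [abs_sub_comm, Real.log_abs]
      congr 1
      ring
  have s3 : ∑ i, ∑ j ∈ univ.erase i, Real.log |-y i - -y j| =
      ∑ i, ∑ j ∈ univ.erase i, Real.log |y i - y j| :=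
    sum_congr rfl fun i _ => sum_congr rfl fun j _ => by
      rw [abs_sub_comm (y i)]
      congr 2
      ring
  rw [s3, Real.log_abs] at v2
  rw [Real.log_abs] at v1 ⊢
  linarith

end Crest.Agent.R6
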