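import Crest.Agent.R6.RunAux
import Crest.Agent.R6.DataP

/-! Kernel evaluation of the checker. -/

set_option autoImplicit false

namespace Crest.Agent.R6

theorem p_rLA_0 : chkRows (rowL pA) (List.take 12 pA) (List.take 12 pLA) = true := by
  decide +kernel

theorem p_rLA_1 : chkRows (rowL pA) (List.take 12 (List.drop 12 pA)) (List.take 12 (List.drop 12 pLA)) = true := by
  decide +kernel

theorem p_rLA_2 : chkRows (rowL pA) (List.take 12 (List.drop 12 (List.drop 12 pA))) (List.take 12 (List.drop 12 (List.drop 12 pLA))) = true := by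
  decide +kernel

theorem p_rLA_3 : chkRows (rowL pA) (List.take 12 (List.drop 12 (List.drop 12 (List.drop 12 pA)))) (List.take 12 (List.drop 12 (List.drop 12 (List.drop 12 pLA)))) = true := by
  decide +kernel

theorem p_rLA_4 : chkRows (rowL pA) (List.take 12 (List.drop 12 (List.drop 12 (List.drop 12 (List.drop 12 pA))))) (List.take 12 (List.drop 12 (List.drop 12 (List.drop 12 (List.drop 12 pLA))))) = true := by
  decide +kernel

theorem p_rLA_5 : chkRows (rowL pA) (List.drop 12 (List.drop 12 (List.drop 12 (List.drop 12 (List.drop 12 pA))))) (List.drop 12 (List.drop 12 (List.drop 12 (List.drop 12 (List.drop 12 pLA))))) = true := by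
  decide +kernel

theorem p_rLA : chkRows (rowL pA) pA pLA = true :=
  (chkRows_split _ 12 _ _ p_rLA_0
    (chkRows_split _ 12 _ _ p_rLA_1
    (chkRows_split _ 12 _ _ p_rLA_2
    (chkRows_split _ 12 _ _ p_rLA_3
    (chkRows_split _ 12 _ _ p_rLA_4
    p_rLA_5)))))

theorem p_sLA : pLA.sum = -433784068985407546830520487840748 := by
  decide +kernel

end Crest.Agent.R6
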