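import Crest.Agent.R6.RunAux
import Crest.Agent.R6.DataP

/-! Kernel evaluation of the checker. -/

set_option autoImplicit false

namespace Crest.Agent.R6

theorem p_rLB_0 : chkRows (rowL pB) (List.take 12 pB) (List.take 12 pLB) = true := by
  decide +kernel

theorem p_rLB_1 : chkRows (rowL pB) (List.take 12 (List.drop 12 pB)) (List.take 12 (List.drop 12 pLB)) = true := by
  decide +kernel

theorem p_rLB_2 : chkRows (rowL pB) (List.take 12 (List.drop 12 (List.drop 12 pB))) (List.take 12 (List.drop 12 (List.drop 12 pLB))) = true := by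
  decide +kernel

theorem p_rLB_3 : chkRows (rowL pB) (List.take 12 (List.drop 12 (List.drop 12 (List.drop 12 pB)))) (List.take 12 (List.drop 12 (List.drop 12 (List.drop 12 pLB)))) = true := by
  decide +kernel

theorem p_rLB_4 : chkRows (rowL pB) (List.take 12 (List.drop 12 (List.drop 12 (List.drop 12 (List.drop 12 pB))))) (List.take 12 (List.drop 12 (List.drop 12 (List.drop 12 (List.drop 12 pLB))))) = true := by
  decide +kernel

theorem p_rLB_5 : chkRows (rowL pB) (List.take 12 (List.drop 12 (List.drop 12 (List.drop 12 (List.drop 12 (List.drop 12 pB)))))) (List.take 12 (List.drop 12 (List.drop 12 (List.drop 12 (List.drop 12 (List.drop 12 pLB)))))) = true := by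
  decide +kernel

theorem p_rLB_6 : chkRows (rowL pB) (List.drop 12 (List.drop 12 (List.drop 12 (List.drop 12 (List.drop 12 (List.drop 12 pB)))))) (List.drop 12 (List.drop 12 (List.drop 12 (List.drop 12 (List.drop 12 (List.drop 12 pLB)))))) = true := by
  decide +kernel

theorem p_rLB : chkRows (rowL pB) pB pLB = true :=
  (chkRows_split _ 12 _ _ p_rLB_0
    (chkRows_split _ 12 _ _ p_rLB_1
    (chkRows_split _ 12 _ _ p_rLB_2
    (chkRows_split _ 12 _ _ p_rLB_3
    (chkRows_split _ 12 _ _ p_rLB_4
    (chkRows_split _ 12 _ _ p_rLB_5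
    p_rLB_6))))))

theorem p_sLB : pLB.sum = 5049957646535946650710940228511 := by
  decide +kernel

end Crest.Agent.R6
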