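import Crest.Agent.R6.RunAux
import Crest.Agent.R6.DataP

/-! Kernel evaluation of the checker. -/

set_option autoImplicit false

namespace Crest.Agent.R6

theorem p_rLC_0 : chkRows (rowL pC) (List.take 12 pC) (List.take 12 pLC) = true := by
  decide +kernel

theorem p_rLC_1 : chkRows (rowL pC) (List.take 12 (List.drop 12 pC)) (List.take 12 (List.drop 12 pLC)) = true := by
  decide +kernel

theorem p_rLC_2 : chkRows (rowL pC) (List.take 12 (List.drop 12 (List.drop 12 pC))) (List.take 12 (List.drop 12 (List.drop 12 pLC))) = true := by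
  decide +kernel

theorem p_rLC_3 : chkRows (rowL pC) (List.take 12 (List.drop 12 (List.drop 12 (List.drop 12 pC)))) (List.take 12 (List.drop 12 (List.drop 12 (List.drop 12 pLC)))) = true := by
  decide +kernel

theorem p_rLC_4 : chkRows (rowL pC) (List.take 12 (List.drop 12 (List.drop 12 (List.drop 12 (List.drop 12 pC))))) (List.take 12 (List.drop 12 (List.drop 12 (List.drop 12 (List.drop 12 pLC))))) = true := by
  decide +kernel

theorem p_rLC_5 : chkRows (rowL pC) (List.drop 12 (List.drop 12 (List.drop 12 (List.drop 12 (List.drop 12 pC))))) (List.drop 12 (List.drop 12 (List.drop 12 (List.drop 12 (List.drop 12 pLC))))) = true := by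
  decide +kernel

theorem p_rLC : chkRows (rowL pC) pC pLC = true :=
  (chkRows_split _ 12 _ _ p_rLC_0
    (chkRows_split _ 12 _ _ p_rLC_1
    (chkRows_split _ 12 _ _ p_rLC_2
    (chkRows_split _ 12 _ _ p_rLC_3
    (chkRows_split _ 12 _ _ p_rLC_4
    p_rLC_5)))))

theorem p_sLC : pLC.sum = -408293321895151525288015554841089 := by
  decide +kernel

end Crest.Agent.R6
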