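import Crest.Agent.R6.RunAux
import Crest.Agent.R6.DataP

/-! Kernel evaluation of the checker. -/

set_option autoImplicit false

namespace Crest.Agent.R6

theorem p_okA : atomsOK pA 2415919104 = true := by decide +kernel

theorem p_okB : atomsOK pB 0 = true := by decide +kernel

theorem p_okC : atomsOK pC 2415919104 = true := by decide +kernel

theorem p_disc : discOK pB = true := by decide +kernel

end Crest.Agent.R6
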