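import Crest.Agent.R6.RunAux
import Crest.Agent.R6.DataP

/-! Kernel evaluation of the checker. -/

set_option autoImplicit false

namespace Crest.Agent.R6

theorem p_out_0 : chk (zOut pA pB 0) (-225020332781226300538880) 0 ([78835, 143415, 209544, 294188, 402532, 541212, 718722, 945934,
  1236765] ++ [1609028]) = true := by
  decide +kernel

theorem p_out_1 : chk (zOut pA pB 0) (-225020332781226300538880) 1609028 ([2085524, 2695438, 3476127, 4275551, 5298813, 6346633, 7419600, 8518317,
  9643402] ++ [10565070]) = true := by
  decide +kernel

theorem p_out_2 : chk (zOut pA pB 0) (-225020332781226300538880) 10565070 ([11508857, 12282006, 12915369, 13563932, 14095234, 14530475, 14815713, 15002645,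
  15155778] ++ [15400790]) = true := by
  decide +kernel

theorem p_out_3 : chk (zOut pA pB 0) (-225020332781226300538880) 15400790 ([15890814, 16777216, 17613234, 18161125, 18390926, 18511406, 18704174, 19012602,
  19407389] ++ [19912716]) = true := by
  decide +kernel

theorem p_out_4 : chk (zOut pA pB 0) (-225020332781226300538880) 19912716 ([20559534, 21221874, 22069669, 22937810, 23826786, 24737096, 25669252, 26623779,
  27405727] ++ [28206440]) = true := by
  decide +kernel

theorem p_out_5 : chk (zOut pA pB 0) (-225020332781226300538880) 28206440 ([28862383, 29534067, 30084310, 30647758, 31017018, 31395139, 31782334, 32036085,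
  32243957] ++ [32456817]) = true := by
  decide +kernel

theorem p_out_6 : chk (zOut pA pB 0) (-225020332781226300538880) 32456817 ([32631191, 32774037, 32891055, 33040837, 33119365, 33183694, 33249566, 33333882,
  33369245] ++ [33398213]) = true := by
  decide +kernel

theorem p_out_7 : chk (zOut pA pB 0) (-225020332781226300538880) 33398213 ([33427875, 33475334, 33538612] ++ [33554432]) = true := by
  decide +kernel

end Crest.Agent.R6
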