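import Crest.Agent.R6.RunAux
import Crest.Agent.R6.DataP

/-! Kernel evaluation of the checker. -/

set_option autoImplicit false

namespace Crest.Agent.R6

theorem p_sd_0 : chk (sSide pB pC) (203883795850907323727872) 0 ([60642, 110318, 151011, 184345, 237679, 323013, 432240, 572050,
  751006, 980069, 1214629, 1514865, 1899166] ++ [2292689]) = true := by
  decide +kernel

theorem p_sd_1 : chk (sSide pB pC) (203883795850907323727872) 2292689 ([2796397, 3441142, 4101360, 4946438, 5811797, 6697924, 7605317, 8534486,
  9485954, 10460256, 11258403, 12075705, 12745237] ++ [13293717]) = true := by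
  decide +kernel

theorem p_sd_2 : chk (sSide pB pC) (203883795850907323727872) 13293717 ([13855360, 14315456, 14692365, 15001128, 15317300, 15576308, 15788486, 15962301,
  16104689, 16221332, 16316884, 16395159, 16459281] ++ [16511809]) = true := by
  decide +kernel

theorem p_sd_3 : chk (sSide pB pC) (203883795850907323727872) 16511809 ([16565597, 16600846, 16636940, 16666508, 16685884, 16705724, 16721976, 16732625,
  16741348, 16748492, 16754344, 16759137, 16763062] ++ [16766277]) = true := by
  decide +kernel

theorem p_sd_4 : chk (sSide pB pC) (203883795850907323727872) 16766277 ([16768910, 16770634, 16772045, 16773850, 16774951, 16775527, 16775903, 16776287,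
  16776778] ++ [16777216]) = true := by
  decide +kernel

end Crest.Agent.R6
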