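import Crest.Agent.R6.RunAux
import Crest.Agent.R6.DataQ

/-! Kernel evaluation of the checker. -/

set_option autoImplicit false

namespace Crest.Agent.R6

theorem q_okA : atomsOK qA 2415919104 = true := by decide +kernel

theorem q_okB : atomsOK qB 0 = true := by decide +kernel

theorem q_okC : atomsOK qC 2415919104 = true := by decide +kernel

theorem q_disc : discOK qB = true := by decide +kernel

theorem q_rLA_0 : chkRows (rowL qA) (List.take 12 qA) (List.take 12 qLA) = true := by
  decide +kernel

theorem q_rLA_1 : chkRows (rowL qA) (List.take 12 (List.drop 12 qA)) (List.take 12 (List.drop 12 qLA)) = true := by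
  decide +kernel

theorem q_rLA_2 : chkRows (rowL qA) (List.drop 12 (List.drop 12 qA)) (List.drop 12 (List.drop 12 qLA)) = true := by
  decide +kernel

theorem q_rLA : chkRows (rowL qA) qA qLA = true :=
  (chkRows_split _ 12 _ _ q_rLA_0
    (chkRows_split _ 12 _ _ q_rLA_1
    q_rLA_2))

theorem q_sLA : qLA.sum = -440217564162130097572603908892722 := by
  decide +kernel

theorem q_rLB_0 : chkRows (rowL qB) (List.take 12 qB) (List.take 12 qLB) = true := by
  decide +kernel

theorem q_rLB_1 : chkRows (rowL qB) (List.take 12 (List.drop 12 qB)) (List.take 12 (List.drop 12 qLB)) = true := by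
  decide +kernel

theorem q_rLB_2 : chkRows (rowL qB) (List.drop 12 (List.drop 12 qB)) (List.drop 12 (List.drop 12 qLB)) = true := by
  decide +kernel

theorem q_rLB : chkRows (rowL qB) qB qLB = true :=
  (chkRows_split _ 12 _ _ q_rLB_0
    (chkRows_split _ 12 _ _ q_rLB_1
    q_rLB_2))

theorem q_sLB : qLB.sum = 8725346336206584481715294792424 := by
  decide +kernel

theorem q_rLS_0 : chkRows (rowLstar qB) (List.take 12 qB) (List.take 12 qLS) = true := by
  decide +kernel

theorem q_rLS_1 : chkRows (rowLstar qB) (List.take 12 (List.drop 12 qB)) (List.take 12 (List.drop 12 qLS)) = true := by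
  decide +kernel

theorem q_rLS_2 : chkRows (rowLstar qB) (List.drop 12 (List.drop 12 qB)) (List.drop 12 (List.drop 12 qLS)) = true := by
  decide +kernel

theorem q_rLS : chkRows (rowLstar qB) qB qLS = true :=
  (chkRows_split _ 12 _ _ q_rLS_0
    (chkRows_split _ 12 _ _ q_rLS_1
    q_rLS_2))

theorem q_sLS : qLS.sum = 12001566307938788952036280715096 := by
  decide +kernel

theorem q_rLC_0 : chkRows (rowL qC) (List.take 12 qC) (List.take 12 qLC) = true := by
  decide +kernel

theorem q_rLC_1 : chkRows (rowL qC) (List.drop 12 qC) (List.drop 12 qLC) = true := by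
  decide +kernel

theorem q_rLC : chkRows (rowL qC) qC qLC = true :=
  (chkRows_split _ 12 _ _ q_rLC_0
    q_rLC_1)

theorem q_sLC : qLC.sum = -408853149277759695836707332772845 := by
  decide +kernel

end Crest.Agent.R6
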