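import Crest.Agent.R6.RunAux
import Crest.Agent.R6.DataQ

/-! Kernel evaluation of the checker. -/

set_option autoImplicit false

namespace Crest.Agent.R6

theorem q_out_0 : chk (zOut qA qB 7247757312) (-1288060405690406354812928) 0 ([836018, 2173646, 4848902, 9129311, 12261892, 14111368, 15203298, 16009143,
  16777216] ++ [17613234]) = true := by
  decide +kernel

theorem q_out_1 : chk (zOut qA qB 7247757312) (-1288060405690406354812928) 17613234 ([18683336, 19779120, 21532374, 25038882, 28629545, 30646777, 31837752, 32400273,
  33120299] ++ [33554432]) = true := by
  decide +kernel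

theorem q_inn_0 : chk (zInn qA qB 7247757312) (-1140762130097671768113152) 0 ([643090, 1929270, 4501630, 8617406, 11959663, 13932931, 15097949, 15957733,
  16777216, 17864040, 18754365, 20178885, 22458117, 25375533, 28362966, 30489389,
  31744829, 32337798, 32944998] ++ [33554432]) = true := by
  decide +kernel

end Crest.Agent.R6
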