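import Crest.Agent.R6.RunAux
import Crest.Agent.R6.DataQ

/-! Kernel evaluation of the checker. -/

set_option autoImplicit false

namespace Crest.Agent.R6

theorem q_sd_0 : chk (sSide qB qC) (204391951999254598254592) 0 ([133232, 399696, 1092503, 2478117, 4695099, 9129063, 12261745, 14573665,
  15476238, 16142338, 16467394, 16665679, 16737062] ++ [16777216]) = true := by
  decide +kernel

end Crest.Agent.R6
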