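import Crest.Agent.R6.Glue
import Crest.Agent.R6.RunPOut
import Crest.Agent.R6.RunPSd
import Crest.Agent.R6.RunPEn
import Crest.Agent.R6.RunQOut
import Crest.Agent.R6.RunQSd
import Crest.Agent.R6.RunQEn
import Crest.Agent.R6.RunPELA
import Crest.Agent.R6.RunPELB
import Crest.Agent.R6.RunPELS
import Crest.Agent.R6.RunPELC

/-! The two certificates exist. -/

set_option autoImplicit false

namespace Crest.Agent.R6

theorem cert_p : Cert 0 False (ofList pA) (ofList pB) (ofList pC) (-1.690839) (-2.285649) := by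
  have l1 := Real.log_two_gt_d9
  have l2 := Real.log_two_lt_d9
  have hA := L_of_rows p_okA p_rLA
  have hB := L_of_rows p_okB p_rLB
  have hS := Lstar_of_rows p_okB p_disc p_rLS
  have hC := L_of_rows p_okC p_rLC
  rw [p_sLA] at hA
  rw [p_sLB] at hB
  rw [p_sLS] at hS
  rw [p_sLC] at hC
  have e : ((0 : ℤ) : ℝ) / 2415919104 = 0 := by norm_num
  refine ⟨ofList_im p_okA, ofList_im p_okB, ofList_im p_okC, ofList_norm p_disc, ?_, ?_, ?_,
    ?_, ?_, ?_, ?_⟩
  · rw [ofList_mass p_okA]; norm_num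
  · rw [ofList_mass p_okB]; norm_num
  · rw [ofList_mass p_okC]; norm_num
  · intro z hz h0
    have h := out_of_Bd p_okA p_okB
      ((((((((Bd.of_chk p_out_0).trans (Bd.of_chk p_out_1)).trans (Bd.of_chk p_out_2)).trans (Bd.of_chk p_out_3)).trans (Bd.of_chk p_out_4)).trans (Bd.of_chk p_out_5)).trans (Bd.of_chk p_out_6)).trans (Bd.of_chk p_out_7)) z hz h0
    rw [e] at h
    refine h.trans ?_
    push_cast
    linarith
  · exact fun h => h.elim
  · intro s hs
    have h := sd_of_Bd p_okB p_disc p_okC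
      (((((Bd.of_chk p_sd_0).trans (Bd.of_chk p_sd_1)).trans (Bd.of_chk p_sd_2)).trans (Bd.of_chk p_sd_3)).trans (Bd.of_chk p_sd_4)) s hs
    refine h.trans ?_
    unfold eta
    push_cast
    linarith
  · unfold eta
    push_cast at hA hB hS hC
    linarith

theorem cert_q : Cert 3 True (ofList qA) (ofList qB) (ofList qC) (-2.159) (-2.189) := by
  have l1 := Real.log_two_gt_d9
  have l2 := Real.log_two_lt_d9
  have hA := L_of_rows q_okA q_rLA
  have hB := L_of_rows q_okB q_rLB
  have hS := Lstar_of_rows q_okB q_disc q_rLS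
  have hC := L_of_rows q_okC q_rLC
  rw [q_sLA] at hA
  rw [q_sLB] at hB
  rw [q_sLS] at hS
  rw [q_sLC] at hC
  have e : ((7247757312 : ℤ) : ℝ) / 2415919104 = 3 := by norm_num
  refine ⟨ofList_im q_okA, ofList_im q_okB, ofList_im q_okC, ofList_norm q_disc, ?_, ?_, ?_,
    ?_, ?_, ?_, ?_⟩
  · rw [ofList_mass q_okA]; norm_num
  · rw [ofList_mass q_okB]; norm_num
  · rw [ofList_mass q_okC]; norm_num
  · intro z hz h0
    have h := out_of_Bd q_okA q_okB
      ((Bd.of_chk q_out_0).trans (Bd.of_chk q_out_1)) z hz h0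
    rw [e] at h
    refine h.trans ?_
    push_cast
    linarith
  · intro _ z hz h0
    have h := inn_of_Bd q_okA q_okB
      (Bd.of_chk q_inn_0) z hz h0
    rw [e] at h
    refine h.trans ?_
    push_cast
    linarith
  · intro s hs
    have h := sd_of_Bd q_okB q_disc q_okC
      (Bd.of_chk q_sd_0) s hs
    refine h.trans ?_
    unfold eta
    push_cast
    linarith
  · unfold eta
    push_cast at hA hB hS hC
    linarith

theorem cert_outer : ∃ A B C m1 m2, Cert 0 False A B C m1 m2 := ⟨_, _, _, _, _, cert_p⟩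

theorem cert_both : ∃ lam A B C m1 m2, 0 ≤ lam ∧ Cert lam True A B C m1 m2 :=
  ⟨3, _, _, _, _, _, by norm_num, cert_q⟩

end Crest.Agent.R6
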