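import Crest.Agent.R6.ChkLog

/-! Soundness of the checker. -/

set_option autoImplicit false

namespace Crest.Agent.R6

/-! ### the per-term values -/

def chk_q0 (Y : ℕ) (n : NT) : ℕ :=
  Nat.sub (Nat.add (Nat.mul (Nat.add (Nat.mul n.A Y) n.Bp) Y) n.C) (Nat.mul n.Bn Y)

def chk_Ad (δ : ℕ) (n : NT) : ℕ := Nat.mul n.A (Nat.mul δ δ)

def chk_ok (Y δ : ℕ) (n : NT) : Bool := Nat.ble (Nat.mul 4 (chk_Ad δ n)) (chk_q0 Y n)

noncomputable def chk_X (Y δ : ℕ) (n : NT) : ℕ :=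
  Bool.rec (motive := fun _ => ℕ) (Nat.mul 2 (Nat.add (chk_q0 Y n) (chk_Ad δ n))) (chk_q0 Y n) (chk_ok Y δ n)

def chk_N1 (Y δ : ℕ) (n : NT) : ℕ :=
  Nat.sub (Nat.add (chk_q0 Y n) (Nat.mul (Nat.add (Nat.add (Nat.mul n.A Y) (Nat.mul n.A Y)) n.Bp) δ))
    (Nat.mul n.Bn δ)

noncomputable def chk_P1 (Y δ : ℕ) (n : NT) : ℕ :=
  Bool.rec (motive := fun _ => ℕ) 1099511627776
    (Nat.div (Nat.shiftLeft (chk_N1 Y δ n) 40) (chk_q0 Y n)) (chk_ok Y δ n)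

noncomputable def chk_P2 (Y δ : ℕ) (n : NT) : ℕ :=
  Bool.rec (motive := fun _ => ℕ) 0 (Nat.div (Nat.shiftLeft (chk_Ad δ n) 40) (chk_q0 Y n)) (chk_ok Y δ n)

noncomputable def chk_L (Y δ : ℕ) (n : NT) : ℕ :=
  lgx (chk_X Y δ n) (ex (chk_X Y δ n)) (Nat.shiftLeft 1 (ex (chk_X Y δ n)))

noncomputable def chk_bad (Y δ : ℕ) (n : NT) : ℕ :=
  lgBad (chk_X Y δ n) (Nat.shiftLeft 1 (ex (chk_X Y δ n)))

noncomputable def chk_cr (Y δ : ℕ) (n : NT) : ℕ := Bool.rec (motive := fun _ => ℕ) 1 0 (chk_ok Y δ n)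

noncomputable def chk_step (Y δ : ℕ) (n : NT) (a : Acc) : Acc where
  a0 := a.a0 + n.g * chk_L Y δ n
  a1 := a.a1 + n.g * chk_P1 Y δ n
  a2 := a.a2 + n.g * chk_P1 Y δ n * chk_P1 Y δ n
  a3 := a.a3 + n.g * chk_P1 Y δ n * chk_P1 Y δ n * chk_P1 Y δ n
  b1 := a.b1 + n.g * chk_P2 Y δ n
  b2 := a.b2 + n.g * chk_P1 Y δ n * chk_P2 Y δ n
  b3 := a.b3 + n.g * chk_P2 Y δ n * chk_P2 Y δ n
  G := a.G + n.g
  bad := a.bad + chk_bad Y δ n
  cr := a.cr + chk_cr Y δ n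

noncomputable def chk_run (Y δ : ℕ) (ts : List NT) (a : Acc) : Acc :=
  run Y δ ts a.a0 a.a1 a.a2 a.a3 a.b1 a.b2 a.b3 a.G a.bad a.cr

theorem chk_run_nil (Y δ : ℕ) (a : Acc) : chk_run Y δ [] a = a := rfl

theorem chk_run_cons0 (Y δ : ℕ) (g A Bp Bn C : ℕ) (ts : List NT) (a0 a1 a2 a3 b1 b2 b3 G bad cr : ℕ) :
    run Y δ (⟨g, A, Bp, Bn, C⟩ :: ts) a0 a1 a2 a3 b1 b2 b3 G bad cr =
      run Y δ ts (Nat.add a0 (Nat.mul g (chk_L Y δ ⟨g, A, Bp, Bn, C⟩)))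
        (Nat.add a1 (Nat.mul g (chk_P1 Y δ ⟨g, A, Bp, Bn, C⟩)))
        (Nat.add a2 (Nat.mul (Nat.mul g (chk_P1 Y δ ⟨g, A, Bp, Bn, C⟩)) (chk_P1 Y δ ⟨g, A, Bp, Bn, C⟩)))
        (Nat.add a3 (Nat.mul (Nat.mul (Nat.mul g (chk_P1 Y δ ⟨g, A, Bp, Bn, C⟩)) (chk_P1 Y δ ⟨g, A, Bp, Bn, C⟩))
          (chk_P1 Y δ ⟨g, A, Bp, Bn, C⟩)))
        (Nat.add b1 (Nat.mul g (chk_P2 Y δ ⟨g, A, Bp, Bn, C⟩)))
        (Nat.add b2 (Nat.mul (Nat.mul g (chk_P1 Y δ ⟨g, A, Bp, Bn, C⟩)) (chk_P2 Y δ ⟨g, A, Bp, Bn, C⟩)))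
        (Nat.add b3 (Nat.mul (Nat.mul g (chk_P2 Y δ ⟨g, A, Bp, Bn, C⟩)) (chk_P2 Y δ ⟨g, A, Bp, Bn, C⟩)))
        (Nat.add G g) (Nat.add bad (chk_bad Y δ ⟨g, A, Bp, Bn, C⟩))
        (Nat.add cr (chk_cr Y δ ⟨g, A, Bp, Bn, C⟩)) := by
  unfold chk_L chk_bad chk_cr chk_P1 chk_P2 chk_X chk_ok chk_N1 chk_Ad chk_q0
  dsimp only
  unfold run
  dsimp only

theorem chk_run_cons (Y δ : ℕ) (n : NT) (ts : List NT) (a : Acc) :
    chk_run Y δ (n :: ts) a = chk_run Y δ ts (chk_step Y δ n a) := by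
  obtain ⟨g, A, Bp, Bn, C⟩ := n
  unfold chk_run
  rw [chk_run_cons0]
  simp only [chk_step, Nat.add_eq, Nat.mul_eq]

theorem chk_mono (Y δ : ℕ) (ts : List NT) : ∀ a : Acc,
    a.bad ≤ (chk_run Y δ ts a).bad ∧ a.cr ≤ (chk_run Y δ ts a).cr := by
  induction ts with
  | nil => intro a; rw [chk_run_nil]; exact ⟨le_rfl, le_rfl⟩
  | cons n ts ih =>
    intro a
    rw [chk_run_cons]
    obtain ⟨h1, h2⟩ := ih (chk_step Y δ n a)
    exact ⟨(Nat.le_add_right _ _).trans h1, (Nat.le_add_right _ _).trans h2⟩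

/-! ### real meaning of the per-term values -/

theorem chk_A (t : LT) : (t.toNT.A : ℤ) = t.d * t.d + t.f * t.f :=
  Int.toNat_of_nonneg (add_nonneg (mul_self_nonneg _) (mul_self_nonneg _))

theorem chk_C (t : LT) : (t.toNT.C : ℤ) = t.c * t.c + t.e * t.e :=
  Int.toNat_of_nonneg (add_nonneg (mul_self_nonneg _) (mul_self_nonneg _))

theorem chk_B (t : LT) : (t.toNT.Bp : ℤ) = 2 * (t.c * t.d + t.e * t.f) + t.toNT.Bn := by
  have := Int.toNat_sub_toNat_neg (2 * (t.c * t.d + t.e * t.f))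
  show (((2 * (t.c * t.d + t.e * t.f)).toNat : ℕ) : ℤ) =
    2 * (t.c * t.d + t.e * t.f) + (((-(2 * (t.c * t.d + t.e * t.f))).toNat : ℕ) : ℤ)
  linarith

theorem chk_sub {a b : ℕ} {z : ℤ} (h : (a : ℤ) - b = z) (hz : 0 ≤ z) : ((Nat.sub a b : ℕ) : ℤ) = z := by
  show ((a - b : ℕ) : ℤ) = z
  omega

theorem chk_q0_int (Y : ℕ) (t : LT) :
    (chk_q0 Y t.toNT : ℤ) = (t.c + t.d * Y) ^ 2 + (t.e + t.f * Y) ^ 2 := by
  refine chk_sub ?_ (by positivity)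
  simp only [Nat.add_eq, Nat.mul_eq]
  push_cast
  rw [chk_A, chk_C, chk_B]; ring

theorem chk_Ad_int (δ : ℕ) (t : LT) : (chk_Ad δ t.toNT : ℤ) = (t.d ^ 2 + t.f ^ 2) * δ ^ 2 := by
  simp only [chk_Ad, Nat.mul_eq]
  push_cast
  rw [chk_A]; ring

theorem chk_N1_int (Y δ : ℕ) (t : LT) (h : 4 * chk_Ad δ t.toNT ≤ chk_q0 Y t.toNT) :
    (chk_N1 Y δ t.toNT : ℤ) =
      chk_q0 Y t.toNT + 2 * ((t.c + t.d * Y) * t.d + (t.e + t.f * Y) * t.f) * δ := by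
  refine chk_sub ?_ ?_
  · simp only [Nat.add_eq, Nat.mul_eq]
    push_cast
    rw [chk_A, chk_B]; ring
  · have h' : (4 : ℤ) * chk_Ad δ t.toNT ≤ chk_q0 Y t.toNT := by exact_mod_cast h
    rw [chk_Ad_int, chk_q0_int] at h'
    rw [chk_q0_int]
    nlinarith [sq_nonneg (t.c + t.d * Y + 2 * t.d * δ), sq_nonneg (t.e + t.f * Y + 2 * t.f * δ)]

theorem chk_div (N q : ℕ) (hq : 0 < q) :
    ((Nat.div (Nat.shiftLeft N 40) q : ℕ) : ℝ) ≤ 2 ^ 40 * (N / q) ∧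
      2 ^ 40 * ((N : ℝ) / q) ≤ ((Nat.div (Nat.shiftLeft N 40) q : ℕ) : ℝ) + 1 := by
  have e : Nat.div (Nat.shiftLeft N 40) q = N * 2 ^ 40 / q := by
    rw [← Nat.shiftLeft_eq]; rfl
  have hq' : (0 : ℝ) < q := by exact_mod_cast hq
  rw [e]
  constructor
  · refine Nat.cast_div_le.trans (le_of_eq ?_)
    push_cast; ring
  · have h := Nat.lt_div_mul_add (a := N * 2 ^ 40) hq
    have h' : (N : ℝ) * 2 ^ 40 < ((N * 2 ^ 40 / q : ℕ) : ℝ) * q + q := by exact_mod_cast h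
    rw [← mul_div_assoc, div_le_iff₀ hq']
    linarith

theorem chk_lg (Y δ : ℕ) (n : NT) (h : chk_bad Y δ n = 0) :
    0 < chk_X Y δ n ∧ |(2 : ℝ) ^ 40 * Real.log (chk_X Y δ n) - chk_L Y δ n| ≤ 196608 := by
  unfold chk_bad lgBad at h
  unfold chk_L
  have e : Nat.shiftLeft 1 (ex (chk_X Y δ n)) = 2 ^ ex (chk_X Y δ n) := Nat.one_shiftLeft _
  rw [e] at h ⊢
  simp only [Nat.add_eq, Nat.sub_eq] at h
  have hp : 0 < 2 ^ ex (chk_X Y δ n) := by positivity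
  exact ⟨by omega, lg_approx _ _ (ex_le _) (by omega) (by omega)⟩

/-- the cubic Taylor polynomial -/
noncomputable def chk_tay (p1 p2 x : ℝ) : ℝ :=
  p1 * x + (p2 - p1 ^ 2 / 2) * x ^ 2 + (p1 ^ 3 / 3 - p1 * p2) * x ^ 3

theorem chk_tay_sub {p1 p2 r1 r2 x η : ℝ} (hx : |x| ≤ 1) (h1 : |p1| ≤ 1) (h2 : |p2| ≤ 1) (hη : η ≤ 1)
    (h3 : |r1 - p1| ≤ η) (h4 : |r2 - p2| ≤ η) : |chk_tay r1 r2 x - chk_tay p1 p2 x| ≤ 20 * η := by
  have hη0 : 0 ≤ η := (abs_nonneg _).trans h3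
  have hr1 : |r1| ≤ 2 := by
    rw [abs_le] at *; constructor <;> linarith [h1.1, h1.2, h3.1, h3.2]
  have hx2 : |x ^ 2| ≤ 1 := by rw [abs_pow]; exact pow_le_one₀ (abs_nonneg _) hx
  have hx3 : |x ^ 3| ≤ 1 := by rw [abs_pow]; exact pow_le_one₀ (abs_nonneg _) hx
  have k1 : |r1 + p1| ≤ 3 := (abs_add_le _ _).trans (by linarith)
  have k2 : |r1 ^ 2 + r1 * p1 + p1 ^ 2| ≤ 7 := by
    refine (abs_add_three _ _ _).trans ?_
    rw [abs_pow, abs_pow, abs_mul]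
    nlinarith [abs_nonneg r1, abs_nonneg p1]
  have e : chk_tay r1 r2 x - chk_tay p1 p2 x =
      ((r1 - p1) * x + (r2 - p2) * x ^ 2 + -(1 / 2) * ((r1 - p1) * (r1 + p1) * x ^ 2)) +
      ((1 / 3) * ((r1 - p1) * (r1 ^ 2 + r1 * p1 + p1 ^ 2) * x ^ 3) + -((r1 - p1) * p2 * x ^ 3) +
        -(r1 * (r2 - p2) * x ^ 3)) := by
    unfold chk_tay; ring
  have t1 : |(r1 - p1) * x| ≤ η * 1 := by rw [abs_mul]; gcongr
  have t2 : |(r2 - p2) * x ^ 2| ≤ η * 1 := by rw [abs_mul]; gcongr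
  have t3 : |(r1 - p1) * (r1 + p1) * x ^ 2| ≤ η * 3 * 1 := by rw [abs_mul, abs_mul]; gcongr
  have t4 : |(r1 - p1) * (r1 ^ 2 + r1 * p1 + p1 ^ 2) * x ^ 3| ≤ η * 7 * 1 := by
    rw [abs_mul, abs_mul]; gcongr
  have t5 : |(r1 - p1) * p2 * x ^ 3| ≤ η * 1 * 1 := by rw [abs_mul, abs_mul]; gcongr
  have t6 : |r1 * (r2 - p2) * x ^ 3| ≤ 2 * η * 1 := by rw [abs_mul, abs_mul]; gcongr
  rw [e]
  rw [abs_le] at t1 t2 t3 t4 t5 t6 ⊢
  constructor <;> linarith [t1.1, t1.2, t2.1, t2.2, t3.1, t3.2, t4.1, t4.2, t5.1, t5.2, t6.1, t6.2]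

/-- the approximation of `2^40 log q(y)` -/
noncomputable def chk_phi (Y δ : ℕ) (n : NT) (x : ℝ) : ℝ :=
  chk_L Y δ n + 2 ^ 40 * chk_tay (chk_P1 Y δ n / 2 ^ 40 - 1) (chk_P2 Y δ n / 2 ^ 40) x

noncomputable def chk_err (Y δ : ℕ) (n : NT) : ℝ := (chk_P2 Y δ n : ℝ) ^ 2 / 2 ^ 40 + 262144

theorem chk_good_real {c d e f Y δ x Q Ad N1 P1 P2 L : ℝ} (hx : |x| ≤ 1)
    (hq : (c + d * (Y + δ * x)) ^ 2 + (e + f * (Y + δ * x)) ^ 2 ≠ 0)
    (eq0 : Q = (c + d * Y) ^ 2 + (e + f * Y) ^ 2) (eAd : Ad = (d ^ 2 + f ^ 2) * δ ^ 2)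
    (eN1 : N1 = Q + 2 * ((c + d * Y) * d + (e + f * Y) * f) * δ) (h4 : 4 * Ad ≤ Q) (hQ : 0 < Q)
    (hL : |2 ^ 40 * Real.log Q - L| ≤ 196608)
    (a1 : P1 ≤ 2 ^ 40 * (N1 / Q)) (a2 : 2 ^ 40 * (N1 / Q) ≤ P1 + 1)
    (b1 : P2 ≤ 2 ^ 40 * (Ad / Q)) (b2 : 2 ^ 40 * (Ad / Q) ≤ P2 + 1) :
    |2 ^ 40 * Real.log ((c + d * (Y + δ * x)) ^ 2 + (e + f * (Y + δ * x)) ^ 2) -
      (L + 2 ^ 40 * chk_tay (P1 / 2 ^ 40 - 1) (P2 / 2 ^ 40) x)| ≤ P2 ^ 2 / 2 ^ 40 + 262144 := by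
  have hAd : 0 ≤ Ad := by rw [eAd]; positivity
  obtain ⟨D, hD⟩ : ∃ D, D = 2 * ((c + d * Y) * d + (e + f * Y) * f) * δ := ⟨_, rfl⟩
  rw [← hD] at eN1
  have hDQ : D ^ 2 ≤ 4 * Ad * Q := by
    have : 4 * Ad * Q - D ^ 2 = 4 * (((c + d * Y) * f - (e + f * Y) * d) * δ) ^ 2 := by
      rw [hD, eAd, eq0]; ring
    have h0 : 0 ≤ 4 * (((c + d * Y) * f - (e + f * Y) * d) * δ) ^ 2 := by positivity
    linarith
  obtain ⟨p1, hp1⟩ : ∃ p1, p1 = D / Q := ⟨_, rfl⟩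
  obtain ⟨p2, hp2⟩ : ∃ p2, p2 = Ad / Q := ⟨_, rfl⟩
  have hd : p1 ^ 2 ≤ 4 * p2 := by
    rw [hp1, hp2, div_pow, div_le_iff₀ (by positivity)]
    calc D ^ 2 ≤ 4 * Ad * Q := hDQ
      _ = 4 * (Ad / Q) * Q ^ 2 := by field_simp
  have hp : 4 * p2 ≤ 1 := by
    rw [hp2, ← mul_div_assoc, div_le_one hQ]; exact h4
  have hp20 : 0 ≤ p2 := by rw [hp2]; positivity
  have eq : (c + d * (Y + δ * x)) ^ 2 + (e + f * (Y + δ * x)) ^ 2 = Q * (1 + p1 * x + p2 * x ^ 2) := by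
    have : Q * (1 + p1 * x + p2 * x ^ 2) = Q + D * x + Ad * x ^ 2 := by
      rw [hp1, hp2]; field_simp
    rw [this, hD, eAd, eq0]; ring
  have hne : 1 + p1 * x + p2 * x ^ 2 ≠ 0 := by
    intro h0; apply hq; rw [eq, h0, mul_zero]
  have eN : N1 / Q = 1 + p1 := by rw [eN1, hp1]; field_simp
  rw [eN] at a1 a2
  rw [← hp2] at b1 b2
  have ht : |Real.log (1 + p1 * x + p2 * x ^ 2) - chk_tay p1 p2 x| ≤ p2 ^ 2 := log_taylor3 p1 p2 x hd hp hx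
  have hs : |chk_tay (P1 / 2 ^ 40 - 1) (P2 / 2 ^ 40) x - chk_tay p1 p2 x| ≤ 20 * (1 / 2 ^ 40) := by
    refine chk_tay_sub hx ?_ ?_ (by norm_num) ?_ ?_
    · rw [← sq_le_one_iff_abs_le_one]; linarith
    · rw [abs_of_nonneg hp20]; linarith
    · rw [abs_le]; constructor <;> linarith
    · rw [abs_le]; constructor <;> linarith
  have hsq : 2 ^ 40 * p2 ^ 2 ≤ P2 ^ 2 / 2 ^ 40 + 2 := by
    have k1 : (2 ^ 40 * p2) ^ 2 ≤ (P2 + 1) ^ 2 := by gcongr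
    linarith
  rw [eq, Real.log_mul hQ.ne' hne]
  rw [abs_le] at hL ht hs ⊢
  constructor <;> linarith [hL.1, hL.2, ht.1, ht.2, hs.1, hs.2]

theorem chk_crude_real {c d e f Y δ x X L : ℝ} (hx : |x| ≤ 1)
    (hq : (c + d * (Y + δ * x)) ^ 2 + (e + f * (Y + δ * x)) ^ 2 ≠ 0)
    (eX : X = 2 * (((c + d * Y) ^ 2 + (e + f * Y) ^ 2) + (d ^ 2 + f ^ 2) * δ ^ 2))
    (hL : |2 ^ 40 * Real.log X - L| ≤ 196608) :
    2 ^ 40 * Real.log ((c + d * (Y + δ * x)) ^ 2 + (e + f * (Y + δ * x)) ^ 2) ≤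
      (L + 2 ^ 40 * chk_tay (1099511627776 / 2 ^ 40 - 1) (0 / 2 ^ 40) x) + (0 ^ 2 / 2 ^ 40 + 262144) := by
  have hx2 : x ^ 2 ≤ 1 := (sq_le_one_iff_abs_le_one x).2 hx
  have hle : (c + d * (Y + δ * x)) ^ 2 + (e + f * (Y + δ * x)) ^ 2 ≤ X := by
    have k : (d ^ 2 + f ^ 2) * δ ^ 2 * x ^ 2 ≤ (d ^ 2 + f ^ 2) * δ ^ 2 :=
      mul_le_of_le_one_right (by positivity) hx2
    rw [eX]
    linarith [sq_nonneg ((c + d * Y) - d * δ * x), sq_nonneg ((e + f * Y) - f * δ * x)]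
  have hpos : 0 < (c + d * (Y + δ * x)) ^ 2 + (e + f * (Y + δ * x)) ^ 2 :=
    lt_of_le_of_ne (by positivity) hq.symm
  have hlog := Real.log_le_log hpos hle
  have e0 : chk_tay (1099511627776 / 2 ^ 40 - 1) (0 / 2 ^ 40) x = 0 := by unfold chk_tay; norm_num
  rw [e0]
  linarith [(abs_le.1 hL).2]

theorem chk_q0_real (Y : ℕ) (t : LT) :
    (chk_q0 Y t.toNT : ℝ) = (t.c + t.d * Y) ^ 2 + (t.e + t.f * Y) ^ 2 := by
  exact_mod_cast chk_q0_int Y t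

theorem chk_Ad_real (δ : ℕ) (t : LT) : (chk_Ad δ t.toNT : ℝ) = (t.d ^ 2 + t.f ^ 2) * δ ^ 2 := by
  exact_mod_cast chk_Ad_int δ t

theorem chk_N1_real (Y δ : ℕ) (t : LT) (h : 4 * chk_Ad δ t.toNT ≤ chk_q0 Y t.toNT) :
    (chk_N1 Y δ t.toNT : ℝ) =
      chk_q0 Y t.toNT + 2 * ((t.c + t.d * Y) * t.d + (t.e + t.f * Y) * t.f) * δ := by
  exact_mod_cast chk_N1_int Y δ t h

theorem chk_good (Y δ : ℕ) (t : LT) (x : ℝ) (hx : |x| ≤ 1) (hq : t.q (Y + δ * x) ≠ 0)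
    (hb : chk_bad Y δ t.toNT = 0) (hok : chk_ok Y δ t.toNT = true) :
    |2 ^ 40 * Real.log (t.q (Y + δ * x)) - chk_phi Y δ t.toNT x| ≤ chk_err Y δ t.toNT := by
  obtain ⟨hX, hL⟩ := chk_lg Y δ t.toNT hb
  have eX : chk_X Y δ t.toNT = chk_q0 Y t.toNT := by unfold chk_X; rw [hok]
  have eP1 : chk_P1 Y δ t.toNT = Nat.div (Nat.shiftLeft (chk_N1 Y δ t.toNT) 40) (chk_q0 Y t.toNT) := by
    unfold chk_P1; rw [hok]
  have eP2 : chk_P2 Y δ t.toNT = Nat.div (Nat.shiftLeft (chk_Ad δ t.toNT) 40) (chk_q0 Y t.toNT) := by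
    unfold chk_P2; rw [hok]
  have h4 : 4 * chk_Ad δ t.toNT ≤ chk_q0 Y t.toNT := Nat.le_of_ble_eq_true hok
  rw [eX] at hX hL
  obtain ⟨a1, a2⟩ := chk_div (chk_N1 Y δ t.toNT) _ hX
  obtain ⟨b1, b2⟩ := chk_div (chk_Ad δ t.toNT) _ hX
  rw [← eP1] at a1 a2
  rw [← eP2] at b1 b2
  unfold chk_phi chk_err LT.q
  exact chk_good_real hx hq (chk_q0_real Y t) (chk_Ad_real δ t) (chk_N1_real Y δ t h4)
    (by exact_mod_cast h4) (by exact_mod_cast hX) hL a1 a2 b1 b2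

theorem chk_crude (Y δ : ℕ) (t : LT) (x : ℝ) (hx : |x| ≤ 1) (hq : t.q (Y + δ * x) ≠ 0)
    (hb : chk_bad Y δ t.toNT = 0) (hok : chk_ok Y δ t.toNT = false) :
    2 ^ 40 * Real.log (t.q (Y + δ * x)) ≤ chk_phi Y δ t.toNT x + chk_err Y δ t.toNT := by
  obtain ⟨-, hL⟩ := chk_lg Y δ t.toNT hb
  have eX : chk_X Y δ t.toNT = 2 * (chk_q0 Y t.toNT + chk_Ad δ t.toNT) := by
    unfold chk_X; rw [hok]; simp only [Nat.add_eq, Nat.mul_eq]
  have eP1 : chk_P1 Y δ t.toNT = 1099511627776 := by unfold chk_P1; rw [hok]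
  have eP2 : chk_P2 Y δ t.toNT = 0 := by unfold chk_P2; rw [hok]
  have eX' : (chk_X Y δ t.toNT : ℝ) =
      2 * (((t.c + t.d * Y) ^ 2 + (t.e + t.f * Y) ^ 2) + (t.d ^ 2 + t.f ^ 2) * δ ^ 2) := by
    rw [eX, Nat.cast_mul, Nat.cast_add, chk_q0_real, chk_Ad_real, Nat.cast_ofNat]
  unfold chk_phi chk_err LT.q
  rw [eP1, eP2, Nat.cast_ofNat, Nat.cast_zero]
  exact chk_crude_real hx hq eX' hL

/-! ### summation -/

noncomputable def chk_F (u : Acc) (x : ℝ) : ℝ :=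
  u.a0 + (u.a1 - 2 ^ 40 * u.G) * x +
    (2 * 2 ^ 40 * u.b1 - (u.a2 - 2 * 2 ^ 40 * u.a1 + 2 ^ 40 * 2 ^ 40 * u.G)) / (2 * 2 ^ 40) * x ^ 2 +
    (u.a3 - 3 * 2 ^ 40 * u.a2 + 3 * (2 ^ 40 * 2 ^ 40) * u.a1 - 2 ^ 40 * 2 ^ 40 * 2 ^ 40 * u.G -
      3 * 2 ^ 40 * (u.b2 - 2 ^ 40 * u.b1)) / (3 * 2 ^ 40 * 2 ^ 40) * x ^ 3

noncomputable def chk_E (u : Acc) : ℝ := u.b3 / 2 ^ 40 + u.G * 262144

theorem chk_F_step (Y δ : ℕ) (n : NT) (a : Acc) (x : ℝ) :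
    chk_F (chk_step Y δ n a) x = chk_F a x + n.g * chk_phi Y δ n x := by
  simp only [chk_F, chk_step, chk_phi, chk_tay]
  push_cast
  ring

theorem chk_E_step (Y δ : ℕ) (n : NT) (a : Acc) :
    chk_E (chk_step Y δ n a) = chk_E a + n.g * chk_err Y δ n := by
  simp only [chk_E, chk_step, chk_err]
  push_cast
  ring

noncomputable def chk_S (ts : List LT) (y : ℝ) : ℝ :=
  (ts.map fun t => (t.toNT.g : ℝ) * (2 ^ 40 * Real.log (t.q y))).sum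

theorem chk_up (Y δ : ℕ) (x : ℝ) (hx : |x| ≤ 1) (ts : List LT) : ∀ a : Acc,
    (∀ t ∈ ts, t.q (Y + δ * x) ≠ 0) → (chk_run Y δ (ts.map LT.toNT) a).bad = 0 →
      chk_F a x + chk_E a + chk_S ts (Y + δ * x) ≤
        chk_F (chk_run Y δ (ts.map LT.toNT) a) x + chk_E (chk_run Y δ (ts.map LT.toNT) a) := by
  induction ts with
  | nil => intro a _ _; simp [chk_S, chk_run_nil]
  | cons t ts ih =>
    intro a hq hb
    rw [List.map_cons, chk_run_cons] at hb ⊢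
    have h1 := ih (chk_step Y δ t.toNT a) (fun s hs => hq s (List.mem_cons_of_mem _ hs)) hb
    have h2 := (chk_mono Y δ (ts.map LT.toNT) (chk_step Y δ t.toNT a)).1
    have h3 : chk_bad Y δ t.toNT = 0 := by
      rw [hb] at h2
      have : a.bad + chk_bad Y δ t.toNT ≤ 0 := h2
      omega
    have h4 : 2 ^ 40 * Real.log (t.q (Y + δ * x)) ≤ chk_phi Y δ t.toNT x + chk_err Y δ t.toNT := by
      cases hok : chk_ok Y δ t.toNT with
      | false => exact chk_crude Y δ t x hx (hq t List.mem_cons_self) h3 hok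
      | true =>
        have := (abs_le.1 (chk_good Y δ t x hx (hq t List.mem_cons_self) h3 hok)).2
        linarith
    rw [chk_F_step, chk_E_step] at h1
    have h5 := mul_le_mul_of_nonneg_left h4 (Nat.cast_nonneg (α := ℝ) t.toNT.g)
    have e : chk_S (t :: ts) (Y + δ * x) =
        t.toNT.g * (2 ^ 40 * Real.log (t.q (Y + δ * x))) + chk_S ts (Y + δ * x) := by
      simp only [chk_S, List.map_cons, List.sum_cons]
    rw [e]
    linarith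

theorem chk_low (Y δ : ℕ) (x : ℝ) (hx : |x| ≤ 1) (ts : List LT) : ∀ a : Acc,
    (∀ t ∈ ts, t.q (Y + δ * x) ≠ 0) → (chk_run Y δ (ts.map LT.toNT) a).bad = 0 →
      (chk_run Y δ (ts.map LT.toNT) a).cr = 0 →
      chk_F (chk_run Y δ (ts.map LT.toNT) a) x - chk_E (chk_run Y δ (ts.map LT.toNT) a) ≤
        chk_F a x - chk_E a + chk_S ts (Y + δ * x) := by
  induction ts with
  | nil => intro a _ _ _; simp [chk_S, chk_run_nil]
  | cons t ts ih =>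
    intro a hq hb hc
    rw [List.map_cons, chk_run_cons] at hb hc ⊢
    have h1 := ih (chk_step Y δ t.toNT a) (fun s hs => hq s (List.mem_cons_of_mem _ hs)) hb hc
    obtain ⟨h2, h2'⟩ := chk_mono Y δ (ts.map LT.toNT) (chk_step Y δ t.toNT a)
    have h3 : chk_bad Y δ t.toNT = 0 := by
      rw [hb] at h2
      have : a.bad + chk_bad Y δ t.toNT ≤ 0 := h2
      omega
    have h3' : chk_cr Y δ t.toNT = 0 := by
      rw [hc] at h2'
      have : a.cr + chk_cr Y δ t.toNT ≤ 0 := h2'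
      omega
    have hok : chk_ok Y δ t.toNT = true := by
      cases hok : chk_ok Y δ t.toNT with
      | false => unfold chk_cr at h3'; rw [hok] at h3'; exact absurd h3' one_ne_zero
      | true => rfl
    have h4 : chk_phi Y δ t.toNT x - chk_err Y δ t.toNT ≤ 2 ^ 40 * Real.log (t.q (Y + δ * x)) := by
      have := (abs_le.1 (chk_good Y δ t x hx (hq t List.mem_cons_self) h3 hok)).1
      linarith
    rw [chk_F_step, chk_E_step] at h1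
    have h5 := mul_le_mul_of_nonneg_left h4 (Nat.cast_nonneg (α := ℝ) t.toNT.g)
    have e : chk_S (t :: ts) (Y + δ * x) =
        t.toNT.g * (2 ^ 40 * Real.log (t.q (Y + δ * x))) + chk_S ts (Y + δ * x) := by
      simp only [chk_S, List.map_cons, List.sum_cons]
    rw [e]
    linarith

theorem chk_split (ts : List LT) (y : ℝ) :
    2 ^ 40 * evalLT ts y =
      chk_S (ts.filter fun t => decide (0 < t.g)) y - chk_S (ts.filter fun t => decide (t.g < 0)) y := by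
  induction ts with
  | nil => simp [evalLT, chk_S]
  | cons t ts ih =>
    have e : evalLT (t :: ts) y = t.g * Real.log (t.q y) + evalLT ts y := by
      simp only [evalLT, List.map_cons, List.sum_cons]
    have eS : ∀ l : List LT, chk_S (t :: l) y =
        ((|t.g| : ℤ) : ℝ) * (2 ^ 40 * Real.log (t.q y)) + chk_S l y := by
      intro l
      simp only [chk_S, List.map_cons, List.sum_cons]
      rw [← Int.natCast_natAbs, Int.cast_natCast]; rfl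
    rw [e, mul_add, ih]
    rcases lt_trichotomy t.g 0 with h | h | h
    · rw [List.filter_cons_of_neg (by simpa using h.le), List.filter_cons_of_pos (by simpa using h), eS,
        abs_of_neg h]
      push_cast; ring
    · rw [List.filter_cons_of_neg (by simp [h]), List.filter_cons_of_neg (by simp [h]), h]
      push_cast; ring
    · rw [List.filter_cons_of_pos (by simpa using h), List.filter_cons_of_neg (by simpa using h.le), eS,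
        abs_of_pos h]
      ring

theorem chk_ndiv (a b : ℕ) (hb : 0 < b) : (a : ℝ) / b ≤ ((a / b : ℕ) : ℝ) + 1 := by
  have hb' : (0 : ℝ) < b := by exact_mod_cast hb
  have h := Nat.lt_div_mul_add (a := a) hb
  have h' : (a : ℝ) < ((a / b : ℕ) : ℝ) * b + b := by exact_mod_cast h
  rw [div_le_iff₀ hb']
  linarith

theorem chk_fin (c1 c2 c3 : ℤ) (b G : ℕ) (x : ℝ) (hx : |x| ≤ 1) :
    c1 * x + c2 / (2 * 2 ^ 40) * x ^ 2 + c3 / (3 * 2 ^ 40 * 2 ^ 40) * x ^ 3 + (b / 2 ^ 40 + G * 262144) ≤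
      ((c1.natAbs + c2.toNat / (2 * 1099511627776) + c3.natAbs / (3 * 1099511627776 * 1099511627776) +
        b / 1099511627776 + 3 + G * 262144 : ℕ) : ℝ) := by
  have hx2 : x ^ 2 ≤ 1 := (sq_le_one_iff_abs_le_one x).2 hx
  have hx3 : |x ^ 3| ≤ 1 := by rw [abs_pow]; exact pow_le_one₀ (abs_nonneg _) hx
  have k1 : ∀ (c : ℤ) (z : ℝ), |z| ≤ 1 → c * z ≤ (c.natAbs : ℝ) := by
    intro c z hz
    rw [Nat.cast_natAbs, Int.cast_abs]
    refine (le_abs_self _).trans ?_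
    rw [abs_mul]
    exact mul_le_of_le_one_right (abs_nonneg _) hz
  have t1 := k1 c1 x hx
  have t3 := k1 c3 _ hx3
  have t2 : c2 * x ^ 2 ≤ (c2.toNat : ℝ) := by
    have h1 : (c2 : ℝ) ≤ (c2.toNat : ℝ) := by exact_mod_cast Int.self_le_toNat c2
    have h2 : (0 : ℝ) ≤ (c2.toNat : ℝ) := Nat.cast_nonneg _
    nlinarith [sq_nonneg x]
  have s2 := chk_ndiv c2.toNat (2 * 1099511627776) (by norm_num)
  have s3 := chk_ndiv c3.natAbs (3 * 1099511627776 * 1099511627776) (by norm_num)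
  have s4 := chk_ndiv b 1099511627776 (by norm_num)
  simp only [Nat.cast_add, Nat.cast_mul, Nat.cast_ofNat] at s2 s3 s4 ⊢
  linarith

theorem chk_bound (u v : Acc) (x : ℝ) (hx : |x| ≤ 1) :
    chk_F u x + chk_E u - (chk_F v x - chk_E v) ≤ (bound u v : ℝ) := by
  unfold bound
  simp only []
  rw [Int.cast_add, Int.cast_natCast]
  refine le_trans (le_of_eq ?_) (add_le_add le_rfl (chk_fin _ _ _ _ _ x hx))
  unfold chk_F chk_E
  push_cast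
  ring

theorem cellOK_sound (ts : List LT) (M : ℤ) (Y δ : ℕ)
    (h : cellOK (posNT ts) (negNT ts) M Y δ = true) (y : ℝ) (hy : |y - Y| ≤ δ)
    (hq : ∀ t ∈ ts, t.q y ≠ 0) : evalLT ts y ≤ (M : ℝ) / 2 ^ 40 := by
  obtain ⟨x, hx, rfl⟩ : ∃ x : ℝ, |x| ≤ 1 ∧ y = Y + δ * x := by
    rcases Nat.eq_zero_or_pos δ with h0 | h0
    · refine ⟨0, by simp, ?_⟩
      rw [h0, Nat.cast_zero, abs_nonpos_iff] at hy
      linarith
    · have h0' : (0 : ℝ) < δ := by exact_mod_cast h0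
      refine ⟨(y - Y) / δ, ?_, by field_simp; ring⟩
      rw [abs_div, abs_of_pos h0', div_le_one h0']; exact hy
  let z : Acc := ⟨0, 0, 0, 0, 0, 0, 0, 0, 0, 0⟩
  have h' : (valid (chk_run Y δ (posNT ts) z) (chk_run Y δ (negNT ts) z) &&
      decide (bound (chk_run Y δ (posNT ts) z) (chk_run Y δ (negNT ts) z) ≤ M)) = true := h
  rw [Bool.and_eq_true, decide_eq_true_iff] at h'
  obtain ⟨hv, hM⟩ := h'
  have hv' := Nat.eq_of_beq_eq_true hv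
  have hu := chk_up Y δ x hx (ts.filter fun t => decide (0 < t.g)) z
    (fun t ht => hq t (List.mem_of_mem_filter ht)) (by unfold posNT negNT at hv'; omega)
  have hl := chk_low Y δ x hx (ts.filter fun t => decide (t.g < 0)) z
    (fun t ht => hq t (List.mem_of_mem_filter ht)) (by unfold posNT negNT at hv'; omega)
    (by unfold posNT negNT at hv'; omega)
  have hb := chk_bound (chk_run Y δ (posNT ts) z) (chk_run Y δ (negNT ts) z) x hx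
  have hM' : (bound (chk_run Y δ (posNT ts) z) (chk_run Y δ (negNT ts) z) : ℝ) ≤ M := by exact_mod_cast hM
  have hF : chk_F z x = 0 := by simp [chk_F, z]
  have hE : chk_E z = 0 := by simp [chk_E, z]
  have hs := chk_split ts (Y + δ * x)
  rw [hF, hE] at hu hl
  unfold posNT negNT at hb hM'
  rw [le_div_iff₀ (by positivity)]
  linarith

theorem chk_sound (ts : List LT) (M : ℤ) (a : ℕ) (l : List ℕ) (hl : l ≠ [])
    (h : chk ts M a l = true) (y : ℝ) (h1 : (a : ℝ) ≤ y) (h2 : y ≤ (l.getLast hl : ℕ))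
    (hq : ∀ t ∈ ts, t.q y ≠ 0) : evalLT ts y ≤ (M : ℝ) / 2 ^ 40 := by
  induction l generalizing a with
  | nil => exact absurd rfl hl
  | cons b l ih =>
    have h' : (cellOK (posNT ts) (negNT ts) M ((a + b) / 2) (b - (a + b) / 2) && chk ts M b l) = true := h
    rw [Bool.and_eq_true] at h'
    by_cases hyb : y ≤ b
    · refine cellOK_sound ts M _ _ h'.1 y ?_ hq
      have hab : a ≤ b := by exact_mod_cast h1.trans hyb
      have k1 : (a + b) / 2 ≤ b := by omega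
      have k2 : 2 * ((a + b) / 2) ≤ a + b := by omega
      have k2' : (2 : ℝ) * ((a + b) / 2 : ℕ) ≤ a + b := by exact_mod_cast k2
      rw [Nat.cast_sub k1, abs_le]
      constructor <;> linarith
    · have hl' : l ≠ [] := by
        rintro rfl
        exact hyb h2
      rw [List.getLast_cons hl'] at h2
      exact ih b hl' h'.2 (not_le.1 hyb).le h2

theorem chk0_sound (ts : List LT) (M : ℤ) (h : chk0 ts M = true)
    (hq : ∀ t ∈ ts, t.q 0 ≠ 0) : evalLT ts 0 ≤ (M : ℝ) / 2 ^ 40 :=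
  cellOK_sound ts M 0 0 h 0 (by simp) hq

end Crest.Agent.R6
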