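import Mathlib

/-! A kernel-evaluable checker for upper bounds of `∑ g log((c+dy)² + (e+fy)²)` on intervals.
Fixed point scale `T = 2^40 = 1099511627776`. Only `Nat` primitives in the inner loop. -/

set_option autoImplicit false

namespace Crest.Agent.R6

/-- A weighted logarithm `g * log ((c + d y)² + (e + f y)²)`. -/
structure LT where
  g : ℤ
  c : ℤ
  e : ℤ
  d : ℤ
  f : ℤ

/-- The quadratic of a term. -/
noncomputable def LT.q (t : LT) (y : ℝ) : ℝ := (t.c + t.d * y) ^ 2 + (t.e + t.f * y) ^ 2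

/-- The function whose upper bound is certified. -/
noncomputable def evalLT (ts : List LT) (y : ℝ) : ℝ :=
  (ts.map fun t => (t.g : ℝ) * Real.log (t.q y)).sum

/-- Expanded term with natural number fields: weight `g`, quadratic `A y² + (Bp - Bn) y + C`. -/
structure NT where
  g : ℕ
  A : ℕ
  Bp : ℕ
  Bn : ℕ
  C : ℕ

def LT.toNT (t : LT) : NT :=
  ⟨t.g.natAbs, (t.d * t.d + t.f * t.f).toNat, (2 * (t.c * t.d + t.e * t.f)).toNat,
    (-(2 * (t.c * t.d + t.e * t.f))).toNat, (t.c * t.c + t.e * t.e).toNat⟩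

/-- Terms of positive weight. -/
def posNT (ts : List LT) : List NT := (ts.filter fun t => decide (0 < t.g)).map LT.toNT

/-- Terms of negative weight. -/
def negNT (ts : List LT) : List NT := (ts.filter fun t => decide (t.g < 0)).map LT.toNT

/-- A guess for `⌊log₂ x⌋` (correct below `2^128`; never trusted, see `lgBad`). -/
noncomputable def ex (x : ℕ) : ℕ :=
  let s6 := Bool.rec (motive := fun _ => ℕ) 0 64 (Nat.ble 18446744073709551616 x)
  let x6 := Nat.shiftRight x s6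
  let s5 := Bool.rec (motive := fun _ => ℕ) 0 32 (Nat.ble 4294967296 x6)
  let x5 := Nat.shiftRight x6 s5
  let s4 := Bool.rec (motive := fun _ => ℕ) 0 16 (Nat.ble 65536 x5)
  let x4 := Nat.shiftRight x5 s4
  let s3 := Bool.rec (motive := fun _ => ℕ) 0 8 (Nat.ble 256 x4)
  let x3 := Nat.shiftRight x4 s3
  let s2 := Bool.rec (motive := fun _ => ℕ) 0 4 (Nat.ble 16 x3)
  let x2 := Nat.shiftRight x3 s2
  let s1 := Bool.rec (motive := fun _ => ℕ) 0 2 (Nat.ble 4 x2)
  let x1 := Nat.shiftRight x2 s1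
  let s0 := Bool.rec (motive := fun _ => ℕ) 0 1 (Nat.ble 2 x1)
  Nat.add (Nat.add (Nat.add s6 s5) (Nat.add s4 s3)) (Nat.add (Nat.add s2 s1) s0)

/-- With `p = 2^e ≤ x ≤ 2p`: approximately `2^40 * log x`
(`e log 2 + 2 (u + u³/3 + … + u¹¹/11)`, `u = (x-p)/(x+p)`). -/
noncomputable def lgx (x e p : ℕ) : ℕ :=
  let u := Nat.div (Nat.shiftLeft (Nat.sub x p) 40) (Nat.add x p)
  let w := Nat.mul u u
  let h1 := Nat.add (Nat.mul 315 w) (Nat.shiftLeft 385 80)
  let h2 := Nat.add (Nat.mul h1 w) (Nat.shiftLeft 495 160)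
  let h3 := Nat.add (Nat.mul h2 w) (Nat.shiftLeft 693 240)
  let h4 := Nat.add (Nat.mul h3 w) (Nat.shiftLeft 1155 320)
  let h5 := Nat.add (Nat.mul h4 w) (Nat.shiftLeft 3465 400)
  Nat.add (Nat.mul e 762123384785) (Nat.div (Nat.mul u h5) (Nat.shiftLeft 3465 399))

/-- Zero iff `p ≤ x ≤ 2p`. -/
noncomputable def lgBad (x p : ℕ) : ℕ := Nat.add (Nat.sub p x) (Nat.sub x (Nat.add p p))

/-- The accumulated sums over a list of terms. -/
structure Acc where
  a0 : ℕ
  a1 : ℕ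
  a2 : ℕ
  a3 : ℕ
  b1 : ℕ
  b2 : ℕ
  b3 : ℕ
  G : ℕ
  bad : ℕ
  cr : ℕ

/-- One pass over the terms for the cell of centre `Y` and radius `δ`.
A term with `4 A δ² ≤ q(Y)` is expanded to third order (`P1 ≈ T (1 + q'(Y) δ / q(Y))`,
`P2 ≈ T A δ² / q(Y)`); any other term is bounded by `log (2 (q(Y) + A δ²))` and counted in `cr`. -/
noncomputable def run (Y δ : ℕ) (ts : List NT) :
    ℕ → ℕ → ℕ → ℕ → ℕ → ℕ → ℕ → ℕ → ℕ → ℕ → Acc :=
  List.rec (motive := fun _ => ℕ → ℕ → ℕ → ℕ → ℕ → ℕ → ℕ → ℕ → ℕ → ℕ → Acc)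
    (fun a0 a1 a2 a3 b1 b2 b3 G bad cr => ⟨a0, a1, a2, a3, b1, b2, b3, G, bad, cr⟩)
    (fun t _ ih a0 a1 a2 a3 b1 b2 b3 G bad cr =>
      NT.rec (motive := fun _ => Acc) (fun g A Bp Bn C =>
        let AY := Nat.mul A Y
        let q0 := Nat.sub (Nat.add (Nat.mul (Nat.add AY Bp) Y) C) (Nat.mul Bn Y)
        let Ad := Nat.mul A (Nat.mul δ δ)
        let ok := Nat.ble (Nat.mul 4 Ad) q0
        let x := Bool.rec (motive := fun _ => ℕ) (Nat.mul 2 (Nat.add q0 Ad)) q0 ok
        let P1 := Bool.rec (motive := fun _ => ℕ) 1099511627776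
          (Nat.div (Nat.shiftLeft (Nat.sub (Nat.add q0 (Nat.mul (Nat.add (Nat.add AY AY) Bp) δ))
            (Nat.mul Bn δ)) 40) q0) ok
        let P2 := Bool.rec (motive := fun _ => ℕ) 0 (Nat.div (Nat.shiftLeft Ad 40) q0) ok
        let e := ex x
        let p := Nat.shiftLeft 1 e
        let g1 := Nat.mul g P1
        let g2 := Nat.mul g1 P1
        let k1 := Nat.mul g P2
        ih (Nat.add a0 (Nat.mul g (lgx x e p))) (Nat.add a1 g1) (Nat.add a2 g2)
          (Nat.add a3 (Nat.mul g2 P1)) (Nat.add b1 k1) (Nat.add b2 (Nat.mul g1 P2))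
          (Nat.add b3 (Nat.mul k1 P2)) (Nat.add G g) (Nat.add bad (lgBad x p))
          (Nat.add cr (Bool.rec (motive := fun _ => ℕ) 1 0 ok))) t) ts

/-- `2^40` times an upper bound, from the sums over the positive and the negative terms. -/
def bound (u v : Acc) : ℤ :=
  let T : ℤ := 1099511627776
  let A1 : ℤ := (u.a1 : ℤ) - v.a1
  let A2 : ℤ := (u.a2 : ℤ) - v.a2
  let A3 : ℤ := (u.a3 : ℤ) - v.a3
  let B1 : ℤ := (u.b1 : ℤ) - v.b1
  let B2 : ℤ := (u.b2 : ℤ) - v.b2
  let G : ℤ := (u.G : ℤ) - v.G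
  let c1 : ℤ := A1 - T * G
  let c2 : ℤ := 2 * T * B1 - (A2 - 2 * T * A1 + T * T * G)
  let c3 : ℤ := A3 - 3 * T * A2 + 3 * (T * T) * A1 - T * T * T * G - 3 * T * (B2 - T * B1)
  ((u.a0 : ℤ) - v.a0) + (c1.natAbs + c2.toNat / (2 * 1099511627776) +
    c3.natAbs / (3 * 1099511627776 * 1099511627776) + (u.b3 + v.b3) / 1099511627776 + 3 +
    (u.G + v.G) * 262144 : ℕ)

/-- All logarithms had a correct exponent and no negative term was bounded crudely. -/
def valid (u v : Acc) : Bool := Nat.beq (u.bad + v.bad + v.cr) 0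

/-- The check of one cell `[Y - δ, Y + δ]` against `M / 2^40`. -/
noncomputable def cellOK (ps ns : List NT) (M : ℤ) (Y δ : ℕ) : Bool :=
  (fun u v => valid u v && decide (bound u v ≤ M))
    (run Y δ ps 0 0 0 0 0 0 0 0 0 0) (run Y δ ns 0 0 0 0 0 0 0 0 0 0)

/-- The check of the cells between consecutive points `a, l₀, l₁, …`. -/
noncomputable def ptsOK (ps ns : List NT) (M : ℤ) (l : List ℕ) : ℕ → Bool :=
  List.rec (motive := fun _ => ℕ → Bool) (fun _ => true)
    (fun b _ ih a => cellOK ps ns M (Nat.div (Nat.add a b) 2)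
      (Nat.sub b (Nat.div (Nat.add a b) 2)) && ih b) l

/-- The check on `[a, last point of l]`. -/
noncomputable def chk (ts : List LT) (M : ℤ) (a : ℕ) (l : List ℕ) : Bool :=
  ptsOK (posNT ts) (negNT ts) M l a

/-- The check at the single point `y = 0`. -/
noncomputable def chk0 (ts : List LT) (M : ℤ) : Bool := cellOK (posNT ts) (negNT ts) M 0 0

end Crest.Agent.R6
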