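import Crest.Agent.R6.ChkDefs

/-! Accuracy of the fixed-point logarithm, and the third-order expansion. -/

set_option autoImplicit false

namespace Crest.Agent.R6

theorem ex_le (x : ℕ) : ex x ≤ 127 := by
  have key : ∀ (a : ℕ) (b : Bool), Bool.rec (motive := fun _ => ℕ) 0 a b ≤ a := by
    intro a b
    cases b
    · exact Nat.zero_le _
    · exact le_rfl
  have add : ∀ {a b c d : ℕ}, a ≤ c → b ≤ d → Nat.add a b ≤ c + d := fun h1 h2 => Nat.add_le_add h1 h2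
  unfold ex
  exact add (add (add (key 64 _) (key 32 _)) (add (key 16 _) (key 8 _)))
    (add (add (key 4 _) (key 2 _)) (key 1 _))

theorem chklog_pow_sub {u v : ℝ} (hu : 0 ≤ u) (huv : u ≤ v) (hv : v ≤ 1) (k : ℕ) :
    v ^ k - u ^ k ≤ k * (v - u) := by
  induction k with
  | zero => simp
  | succ k ih =>
    have h1 : u ^ k ≤ 1 := pow_le_one₀ hu (huv.trans hv)
    have h2 : 0 ≤ v ^ k - u ^ k := sub_nonneg.2 (pow_le_pow_left₀ hu huv k)
    have h3 : v ^ (k + 1) - u ^ (k + 1) = v * (v ^ k - u ^ k) + u ^ k * (v - u) := by ring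
    have h4 : v * (v ^ k - u ^ k) ≤ v ^ k - u ^ k := mul_le_of_le_one_left h2 hv
    have h5 : u ^ k * (v - u) ≤ v - u := mul_le_of_le_one_left (sub_nonneg.2 huv) h1
    push_cast
    linarith

/-- the truncated series -/
noncomputable def chklog_S (t : ℝ) : ℝ := 2 * (t + t ^ 3 / 3 + t ^ 5 / 5 + t ^ 7 / 7 + t ^ 9 / 9 + t ^ 11 / 11)

theorem chklog_series {u v : ℝ} (hu : 0 ≤ u) (huv : u ≤ v) (hv : v ≤ 1 / 3) :
    chklog_S u ≤ Real.log ((1 + v) / (1 - v)) ∧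
      Real.log ((1 + v) / (1 - v)) ≤ chklog_S u + 12 * (v - u) + 124 / 10 ^ 9 := by
  have hv0 : 0 ≤ v := hu.trans huv
  have hv1 : v < 1 := by linarith
  have h1 := Real.sum_range_le_log_div hv0 hv1 6
  have h2 := Real.log_div_le_sum_range_add hv0 hv1 8
  simp only [Finset.sum_range_succ, Finset.sum_range_zero] at h1 h2
  norm_num at h1 h2
  have m := fun k => pow_le_pow_left₀ hu huv k
  have d := fun k => chklog_pow_sub hu huv hv1.le k
  have b := fun k => pow_le_pow_left₀ hv0 hv k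
  have h3 : v ^ 17 / (1 - v ^ 2) ≤ (1 / 3) ^ 17 / (8 / 9) := by
    have := b 2
    exact div_le_div₀ (by positivity) (b 17) (by norm_num) (by linarith)
  have m3 := m 3
  have m5 := m 5
  have m7 := m 7
  have m9 := m 9
  have m11 := m 11
  have d3 := d 3
  have d5 := d 5
  have d7 := d 7
  have d9 := d 9
  have d11 := d 11
  have b13 := b 13
  have b15 := b 15
  unfold chklog_S
  push_cast at d3 d5 d7 d9 d11
  norm_num at h3 b13 b15
  constructor
  · linarith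
  · linarith

theorem chklog_lg (x e p : ℕ) : lgx x e p = e * 762123384785 +
    ((x - p) * 2 ^ 40 / (x + p)) * (((((315 * (((x - p) * 2 ^ 40 / (x + p)) * ((x - p) * 2 ^ 40 / (x + p))) +
      385 * 2 ^ 80) * (((x - p) * 2 ^ 40 / (x + p)) * ((x - p) * 2 ^ 40 / (x + p))) +
      495 * 2 ^ 160) * (((x - p) * 2 ^ 40 / (x + p)) * ((x - p) * 2 ^ 40 / (x + p))) +
      693 * 2 ^ 240) * (((x - p) * 2 ^ 40 / (x + p)) * ((x - p) * 2 ^ 40 / (x + p))) +
      1155 * 2 ^ 320) * (((x - p) * 2 ^ 40 / (x + p)) * ((x - p) * 2 ^ 40 / (x + p))) +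
      3465 * 2 ^ 400) / (3465 * 2 ^ 399) := by
  simp only [← Nat.shiftLeft_eq]
  rfl

theorem chklog_div (a b : ℕ) (hb : 0 < b) : ((a / b : ℕ) : ℝ) ≤ (a : ℝ) / b ∧ (a : ℝ) / b < (a / b : ℕ) + 1 := by
  refine ⟨Nat.cast_div_le, ?_⟩
  have hb' : (0 : ℝ) < b := by exact_mod_cast hb
  rw [div_lt_iff₀ hb']
  have h := Nat.lt_div_mul_add (a := a) hb
  have h' : (a : ℝ) < ((a / b : ℕ) : ℝ) * b + b := by exact_mod_cast h
  linarith

/-- `log 2 · 2^40 = 762123384785.81…` (`Real.log_two_near_10` is not precise enough alone: the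
error `127 · 2^40 · 10^{-10} ≈ 14000` still fits in the budget `2^17 + 2^16`);
the tail of the series is at most `2 u^13/(13 (1-u²)) ≤ 1.09e-7` for `u ≤ 1/3`. -/
theorem lg_approx (x e : ℕ) (he : e ≤ 127) (h1 : 2 ^ e ≤ x) (h2 : x ≤ 2 * 2 ^ e) :
    |(2 : ℝ) ^ 40 * Real.log x - lgx x e (2 ^ e)| ≤ 196608 := by
  rw [chklog_lg]
  have hp : 0 < 2 ^ e := by positivity
  have hlogp : Real.log ((2 ^ e : ℕ) : ℝ) = e * Real.log 2 := by
    push_cast
    rw [Real.log_pow]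
  generalize 2 ^ e = p at h1 h2 hp hlogp
  have hP : (0 : ℝ) < p := by exact_mod_cast hp
  have h1' : (p : ℝ) ≤ x := by exact_mod_cast h1
  have h2' : (x : ℝ) ≤ 2 * p := by exact_mod_cast h2
  obtain ⟨hU1, hU2⟩ := chklog_div ((x - p) * 2 ^ 40) (x + p) (by omega)
  generalize (x - p) * 2 ^ 40 / (x + p) = U at hU1 hU2
  obtain ⟨hW1, hW2⟩ := chklog_div (U * (((((315 * (U * U) + 385 * 2 ^ 80) * (U * U) + 495 * 2 ^ 160) * (U * U) +
      693 * 2 ^ 240) * (U * U) + 1155 * 2 ^ 320) * (U * U) + 3465 * 2 ^ 400)) (3465 * 2 ^ 399) (by positivity)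
  generalize U * (((((315 * (U * U) + 385 * 2 ^ 80) * (U * U) + 495 * 2 ^ 160) * (U * U) +
      693 * 2 ^ 240) * (U * U) + 1155 * 2 ^ 320) * (U * U) + 3465 * 2 ^ 400) / (3465 * 2 ^ 399) = W at hW1 hW2 ⊢
  obtain ⟨u, hu⟩ : ∃ u : ℝ, u = U / 2 ^ 40 := ⟨_, rfl⟩
  obtain ⟨v, hv⟩ : ∃ v : ℝ, v = (x - p) / (x + p) := ⟨_, rfl⟩
  have hU : (U : ℝ) = 2 ^ 40 * u := by
    rw [hu]
    field_simp
  have hxp : (0 : ℝ) < x + p := by linarith
  have e1 : (((x - p) * 2 ^ 40 : ℕ) : ℝ) / ((x + p : ℕ) : ℝ) = 2 ^ 40 * v := by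
    rw [Nat.cast_mul, Nat.cast_sub h1, hv]
    push_cast
    ring
  have e2 : ((U * (((((315 * (U * U) + 385 * 2 ^ 80) * (U * U) + 495 * 2 ^ 160) * (U * U) +
      693 * 2 ^ 240) * (U * U) + 1155 * 2 ^ 320) * (U * U) + 3465 * 2 ^ 400) : ℕ) : ℝ) /
      ((3465 * 2 ^ 399 : ℕ) : ℝ) = 2 ^ 40 * chklog_S u := by
    rw [div_eq_iff (by positivity)]
    simp only [Nat.cast_mul, Nat.cast_add, Nat.cast_pow, Nat.cast_ofNat, hU, chklog_S]
    have t0 : (2 : ℝ) ^ 399 = (2 ^ 40) ^ 10 / 2 := by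
      rw [← pow_mul, show 40 * 10 = 399 + 1 from rfl, pow_succ _ 399, mul_div_cancel_right₀ _ two_ne_zero]
    rw [t0, show 80 = 40 * 2 from rfl, show 160 = 40 * 4 from rfl, show 240 = 40 * 6 from rfl,
      show 320 = 40 * 8 from rfl, show 400 = 40 * 10 from rfl]
    simp only [pow_mul]
    generalize (2 : ℝ) ^ 40 = T
    ring
  rw [e1, hU] at hU1 hU2
  rw [e2] at hW1 hW2
  have hu0 : 0 ≤ u := by
    rw [hu]
    positivity
  have huv : u ≤ v := by linarith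
  have hv3 : v ≤ 1 / 3 := by
    rw [hv, div_le_iff₀ hxp]
    linarith
  obtain ⟨s1, s2⟩ := chklog_series hu0 huv hv3
  have e3 : (1 + v) / (1 - v) = x / p := by
    have a1 : 1 + v = 2 * x / (x + p) := by
      rw [hv]
      field_simp
      ring
    have a2 : 1 - v = 2 * p / (x + p) := by
      rw [hv]
      field_simp
      ring
    rw [a1, a2]
    field_simp
  have hx : (0 : ℝ) < x := by linarith
  rw [e3, Real.log_div hx.ne' hP.ne', hlogp] at s1 s2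
  have hl := abs_le.1 Real.log_two_near_10
  have he' : (e : ℝ) ≤ 127 := by exact_mod_cast he
  have he0 : (0 : ℝ) ≤ e := Nat.cast_nonneg e
  have l1 : (2 : ℝ) ^ 40 * Real.log 2 - 762123384785 ≤ 112 := by
    norm_num at hl ⊢
    linarith [hl.2]
  have l2 : -112 ≤ (2 : ℝ) ^ 40 * Real.log 2 - 762123384785 := by
    norm_num at hl ⊢
    linarith [hl.1]
  have l3 := mul_le_mul_of_nonneg_left l1 he0
  have l4 := mul_le_mul_of_nonneg_left l2 he0
  push_cast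
  rw [abs_le]
  norm_num at hU1 hU2 hW1 hW2 s1 s2 l3 l4 ⊢
  constructor
  · nlinarith
  · nlinarith

/-- `1 + p₁ x + p₂ x² = |1 + u x|²` with `|u|² = p₂`; `Complex.norm_log_sub_logTaylor_le`. -/
theorem log_taylor3 (p1 p2 x : ℝ) (hd : p1 ^ 2 ≤ 4 * p2) (hp : 4 * p2 ≤ 1) (hx : |x| ≤ 1) :
    |Real.log (1 + p1 * x + p2 * x ^ 2) -
      (p1 * x + (p2 - p1 ^ 2 / 2) * x ^ 2 + (p1 ^ 3 / 3 - p1 * p2) * x ^ 3)| ≤ p2 ^ 2 := by
  obtain ⟨b, hb⟩ : ∃ b : ℝ, b ^ 2 = p2 - p1 ^ 2 / 4 := ⟨√(p2 - p1 ^ 2 / 4), Real.sq_sqrt (by linarith)⟩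
  obtain ⟨z, hz⟩ : ∃ z : ℂ, z = ⟨p1 / 2 * x, b * x⟩ := ⟨_, rfl⟩
  have hre : z.re = p1 / 2 * x := by rw [hz]
  have him : z.im = b * x := by rw [hz]
  have hp0 : 0 ≤ p2 := by nlinarith [sq_nonneg p1]
  have hx2 : x ^ 2 ≤ 1 := by
    rw [← sq_abs]
    exact pow_le_one₀ (abs_nonneg x) hx
  have hn2 : ‖z‖ ^ 2 = p2 * x ^ 2 := by
    rw [Complex.sq_norm, Complex.normSq_apply, hre, him]
    linear_combination x ^ 2 * hb
  have hn3 : ‖z‖ ^ 2 ≤ p2 := by
    rw [hn2]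
    exact mul_le_of_le_one_right hp0 hx2
  have hn : ‖z‖ ≤ 1 / 2 := by
    by_contra h
    push Not at h
    nlinarith
  have h := Complex.norm_log_sub_logTaylor_le 3 (z := z) (by linarith)
  have h1 := (Complex.abs_re_le_norm _).trans h
  have e1 : (Complex.log (1 + z)).re = Real.log (1 + p1 * x + p2 * x ^ 2) / 2 := by
    have : 1 + p1 * x + p2 * x ^ 2 = ‖1 + z‖ ^ 2 := by
      rw [Complex.sq_norm, Complex.normSq_apply, Complex.add_re, Complex.add_im, hre, him]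
      simp only [Complex.one_re, Complex.one_im]
      linear_combination -x ^ 2 * hb
    rw [Complex.log_re, this, Real.log_pow]
    push_cast
    ring
  have e2 : (Complex.logTaylor (3 + 1) z).re =
      (p1 * x + (p2 - p1 ^ 2 / 2) * x ^ 2 + (p1 ^ 3 / 3 - p1 * p2) * x ^ 3) / 2 := by
    have : Complex.logTaylor (3 + 1) z = z - ((1 / 2 : ℝ) : ℂ) * (z * z) + ((1 / 3 : ℝ) : ℂ) * (z * z * z) := by
      simp only [Complex.logTaylor, Finset.sum_range_succ, Finset.sum_range_zero]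
      push_cast
      ring
    rw [this]
    simp only [Complex.add_re, Complex.sub_re, Complex.mul_re, Complex.mul_im, Complex.ofReal_re,
      Complex.ofReal_im, hre, him]
    linear_combination (x ^ 2 / 2 - p1 * x ^ 3 / 2) * hb
  rw [Complex.sub_re, e1, e2, ← sub_div, abs_div, abs_two] at h1
  have h2 : (1 - ‖z‖)⁻¹ ≤ 2 := by
    rw [inv_le_comm₀ (by linarith) (by norm_num)]
    linarith
  have h3 : ‖z‖ ^ (3 + 1) ≤ p2 ^ 2 := by
    rw [show 3 + 1 = 2 * 2 from rfl, pow_mul]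
    exact pow_le_pow_left₀ (by positivity) hn3 2
  have h4 : ‖z‖ ^ (3 + 1) * (1 - ‖z‖)⁻¹ ≤ p2 ^ 2 * 2 :=
    mul_le_mul h3 h2 (inv_nonneg.2 (by linarith)) (by positivity)
  push_cast at h1
  linarith

end Crest.Agent.R6
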