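import Crest.Agent.R6.Mom

/-! The contact `t P / f - D = O(t^L)` and the values of the rows at `t = 2z/(1+z²)`. -/

set_option autoImplicit false

namespace Crest.Agent.R6

open Finset Polynomial

theorem contact_rec (m : ℕ) : ((m : ℚ) + 2) * cc (m + 2) = ((m : ℚ) + 1) * cc m := by
  obtain ⟨l, rfl | rfl⟩ := Nat.even_or_odd' m
  · exact_mod_cast cc_rec l
  · rw [show 2 * l + 1 + 2 = 2 * (l + 1) + 1 by ring, mom_cc_odd, mom_cc_odd, mul_zero, mul_zero]

theorem contact_ode : PowerSeries.derivative ℚ (PowerSeries.mk cc) =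
    PowerSeries.X ^ 2 * PowerSeries.derivative ℚ (PowerSeries.mk cc) +
      PowerSeries.X ^ 1 * PowerSeries.mk cc := by
  ext n
  rw [map_add, PowerSeries.coeff_X_pow_mul', PowerSeries.coeff_X_pow_mul']
  simp only [PowerSeries.coeff_derivative, PowerSeries.coeff_mk]
  rcases n with _ | _ | n
  · simpa using mom_cc_odd 0
  · have := contact_rec 0
    norm_num at this ⊢
    linarith
  · have := contact_rec (n + 1)
    rw [if_pos (by omega), if_pos (by omega), show n + 1 + 1 - 2 = n by omega,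
      show n + 1 + 1 - 1 = n + 1 by omega]
    push_cast at this ⊢
    linarith

/-- `(∑ cc m t^m)² (1 - t²) = 1`. -/
theorem cc_series_sq :
    (PowerSeries.mk cc) ^ 2 * (1 - PowerSeries.X ^ 2) = (1 : PowerSeries ℚ) := by
  refine PowerSeries.derivative.ext ?_ (by simp [mom_cc_zero])
  have h := contact_ode
  simp only [Derivation.leibniz, Derivation.leibniz_pow, map_sub, Derivation.map_one_eq_zero,
    PowerSeries.derivative_X, smul_eq_mul, nsmul_eq_mul]
  push_cast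
  linear_combination (2 * PowerSeries.mk cc) * h

section field
variable {K : Type*} [Field K] [Algebra ℚ K] {t w : K}

theorem contact_T (hw : w ≠ 0) (d : ℤ) :
    2 * aeval ((w + w⁻¹) / 2) (Chebyshev.T ℚ d) = w ^ d + w ^ (-d) := by
  have h2 : (2 : K) ≠ 0 := by
    have : CharZero K := algebraRat.charZero K
    norm_num
  have e : (2 : K) * ((w + w⁻¹) / 2) = w + w⁻¹ := by field_simp
  have hi : w * w⁻¹ = 1 := mul_inv_cancel₀ hw
  have e2 : w ^ (-2 : ℤ) = w⁻¹ * w⁻¹ := by rw [zpow_neg, zpow_two, mul_inv]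
  induction d using Chebyshev.induct' with
  | zero => simp; norm_num
  | one => simp [e]
  | add_two n h1 h0 =>
    rw [Chebyshev.T_add_two]
    simp only [map_sub, map_mul, aeval_X, map_ofNat, e, neg_add, zpow_add₀ hw, zpow_one, zpow_neg_one,
      zpow_two, e2] at h1 ⊢
    linear_combination (w + w⁻¹) * h1 - h0 + (w ^ (n : ℤ) + w ^ (-n : ℤ)) * hi
  | neg n h => rw [Chebyshev.T_neg, h, neg_neg, add_comm]

theorem contact_U (hw : w ≠ 0) (d : ℤ) :
    (w⁻¹ - w) * aeval ((w + w⁻¹) / 2) (Chebyshev.U ℚ (d - 1)) = w ^ (-d) - w ^ d := by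
  have h2 : (2 : K) ≠ 0 := by
    have : CharZero K := algebraRat.charZero K
    norm_num
  have e : (2 : K) * ((w + w⁻¹) / 2) = w + w⁻¹ := by field_simp
  have hi : w * w⁻¹ = 1 := mul_inv_cancel₀ hw
  have e2 : w ^ (-2 : ℤ) = w⁻¹ * w⁻¹ := by rw [zpow_neg, zpow_two, mul_inv]
  induction d using Chebyshev.induct' with
  | zero => simp
  | one => simp
  | add_two n h1 h0 =>
    rw [show (n : ℤ) + 2 - 1 = (n - 1) + 2 by ring, Chebyshev.U_add_two,
      show (n : ℤ) - 1 + 1 = n + 1 - 1 by ring]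
    simp only [map_sub, map_mul, aeval_X, map_ofNat, e, neg_add, zpow_add₀ hw, zpow_one, zpow_neg_one,
      zpow_two, e2] at h1 ⊢
    linear_combination (w + w⁻¹) * h1 - h0 + (w ^ (-n : ℤ) - w ^ (n : ℤ)) * hi
  | neg n h => rw [Chebyshev.U_neg_sub_one, map_neg, mul_neg, h, neg_neg, neg_sub]

theorem contact_reflect (ht : t ≠ 0) {M : ℕ} {p : ℚ[X]} (hp : p.natDegree ≤ M) :
    aeval t (reflect M p) = t ^ M * aeval t⁻¹ p := by
  let _ := invertibleOfNonzero (inv_ne_zero ht)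
  have h := eval₂_reflect_mul_pow (algebraMap ℚ K) t⁻¹ M p hp
  rw [invOf_eq_inv, inv_inv] at h
  rw [aeval_def, aeval_def, ← h, inv_pow]
  field_simp

theorem contact_P (N r : ℕ) (hN : 1 ≤ N) (hr : r < 36 * N) (ht : t ≠ 0) (hw : w ≠ 0)
    (h : t⁻¹ = (w + w⁻¹) / 2) :
    2 * (t * aeval t (rowP N r)) = (1 - t) ^ (2 * N) * t ^ (47 * N) *
      (w ^ ((r : ℤ) - (3 * N : ℕ)) + w ^ (-((r : ℤ) - (3 * N : ℕ)))) := by
  have e : t ^ (47 * N) = t * t ^ (47 * N - 1) := by
    rw [← pow_succ', Nat.sub_add_cancel (by omega)]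
  rw [rowP, map_mul, contact_reflect ht (by rw [Chebyshev.natDegree_T]; omega), h, ← contact_T hw, e]
  simp only [map_pow, map_sub, map_one, aeval_X]
  push_cast
  ring

theorem contact_D (N r : ℕ) (hN : 1 ≤ N) (hr : r < 36 * N) (ht : t ≠ 0) (hw : w ≠ 0)
    (h : t⁻¹ = (w + w⁻¹) / 2) :
    t * (w⁻¹ - w) * aeval t (rowD N r) = (1 - t) ^ (2 * N) * t ^ (47 * N) *
      (w ^ (-((r : ℤ) - (3 * N : ℕ))) - w ^ ((r : ℤ) - (3 * N : ℕ))) := by
  have e : t ^ (47 * N) = t * t ^ (47 * N - 1) := by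
    rw [← pow_succ', Nat.sub_add_cancel (by omega)]
  rw [rowD, map_mul, contact_reflect ht (by rw [Chebyshev.natDegree_U]; omega), h, ← contact_U hw, e]
  simp only [map_pow, map_sub, map_one, aeval_X]
  push_cast
  ring

end field

theorem contact_dvd (N r : ℕ) (hN : 1 ≤ N) (hr : r < 36 * N) :
    (PowerSeries.X : PowerSeries ℚ) ^ (44 * N) ∣
      aeval PowerSeries.X (rowP N r) * (PowerSeries.X * PowerSeries.mk cc) -
        aeval PowerSeries.X (rowD N r) := by
  set c : PowerSeries ℚ := PowerSeries.mk cc with hc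
  set x : PowerSeries ℚ := PowerSeries.X with hx
  have hsq : c ^ 2 * (1 - x ^ 2) = 1 := cc_series_sq
  obtain ⟨W, hW⟩ : x ∣ 1 - (1 - x ^ 2) * c := by
    rw [PowerSeries.X_dvd_iff]
    simp [hc, hx, mom_cc_zero]
  have hx0 : x ≠ 0 := PowerSeries.X_ne_zero
  have hW1 : W * (1 + (1 - x ^ 2) * c) = x := by
    refine mul_left_cancel₀ hx0 ?_
    linear_combination (-(1 + (1 - x ^ 2) * c)) * hW - (1 - x ^ 2) * hsq
  refine ⟨c * (1 - x) ^ (2 * N) * (1 + (1 - x ^ 2) * c) ^ (3 * N) * W ^ r, ?_⟩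
  let φ := IsScalarTower.toAlgHom ℚ (PowerSeries ℚ) (FractionRing (PowerSeries ℚ))
  have hφ : Function.Injective φ := IsFractionRing.injective (PowerSeries ℚ) _
  have h2 : (2 : FractionRing (PowerSeries ℚ)) ≠ 0 := by
    have : CharZero (FractionRing (PowerSeries ℚ)) := algebraRat.charZero _
    norm_num
  have ht : φ x ≠ 0 := (map_ne_zero_iff φ hφ).2 hx0
  have a1 := congrArg φ hW1
  have a2 := congrArg φ hW
  have a3 := congrArg φ hsq
  refine hφ ?_
  simp only [map_mul, map_sub, map_add, map_pow, map_one] at a1 a2 a3 ⊢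
  rw [← aeval_algHom_apply φ x, ← aeval_algHom_apply φ x]
  generalize φ x = t at *
  generalize φ W = w at *
  generalize φ c = k at *
  have hw : w ≠ 0 := by
    rintro rfl
    exact ht (by rw [← a1, zero_mul])
  have b1 : 1 + (1 - t ^ 2) * k = t * w⁻¹ := by
    rw [eq_mul_inv_iff_mul_eq₀ hw, mul_comm, a1]
  have h : t⁻¹ = (w + w⁻¹) / 2 := by
    rw [eq_div_iff h2, inv_mul_eq_iff_eq_mul₀ ht]
    linear_combination a2 + b1
  have hP := contact_P N r hN hr ht hw h
  have hD := contact_D N r hN hr ht hw h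
  have b2 : t * (w⁻¹ - w) * k = 2 := by linear_combination k * a2 - k * b1 + 2 * a3
  have b3 : t ^ (47 * N) * w ^ ((r : ℤ) - (3 * N : ℕ)) = t ^ (44 * N) * (t * w⁻¹) ^ (3 * N) * w ^ r := by
    rw [zpow_sub₀ hw, zpow_natCast, zpow_natCast, mul_pow, inv_pow,
      show 47 * N = 44 * N + 3 * N by ring, pow_add]
    field_simp
  rw [b1]
  refine mul_left_cancel₀ h2 ?_
  linear_combination k * hP - k * hD + aeval t (rowD N r) * b2 + 2 * k * (1 - t) ^ (2 * N) * b3

/-- Coefficients of `t P / f` and of `D` agree below `L = 44 N`. -/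
theorem contact (N r : ℕ) (hN : 1 ≤ N) (hr : r < 36 * N) (j : ℕ) (hj : j < 44 * N) :
    ∑ i ∈ (rowP N r).support, (rowP N r).coeff i * cz ((j : ℤ) - i - 1) = (rowD N r).coeff j := by
  have h := PowerSeries.X_pow_dvd_iff.1 (contact_dvd N r hN hr) j hj
  have e : aeval PowerSeries.X (rowD N r) = (rowD N r : PowerSeries ℚ) := by
    rw [aeval_def, ← eval₂_C_X_eq_coe]
    rfl
  rw [map_sub, e, coeff_coe, sub_eq_zero, aeval_def, eval₂_eq_sum, sum_def, Finset.sum_mul, map_sum] at h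
  rw [← h]
  refine Finset.sum_congr rfl fun i _ => ?_
  rw [mul_assoc, ← mul_assoc (_ ^ _), ← pow_succ, PowerSeries.algebraMap_eq, PowerSeries.coeff_C_mul,
    PowerSeries.coeff_X_pow_mul', cz, PowerSeries.coeff_mk]
  congr 1
  by_cases hi : i + 1 ≤ j
  · rw [if_pos (by omega), if_pos hi]
    congr 1
    omega
  · rw [if_neg (by omega), if_neg hi]

theorem contact_tz {z : ℝ} (hz : z ≠ 0) : tz z ≠ 0 ∧ (tz z)⁻¹ = (z + z⁻¹) / 2 := by
  have h : 1 + z ^ 2 ≠ 0 := by positivity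
  unfold tz
  refine ⟨div_ne_zero (mul_ne_zero two_ne_zero hz) h, ?_⟩
  field_simp
  ring

/-- `t P(t) = (1-t)^h t^C (z^d + z^{-d})/2`, `d = r - g`. -/
theorem rowP_eval (N r : ℕ) (hN : 1 ≤ N) (hr : r < 36 * N) (z : ℝ) (hz : z ≠ 0) :
    tz z * aeval (tz z) (rowP N r) =
      pre N z * ((z ^ ((r : ℤ) - (3 * N : ℕ)) + z ^ (-((r : ℤ) - (3 * N : ℕ)))) / 2) := by
  have h := contact_P N r hN hr (contact_tz hz).1 hz (contact_tz hz).2
  unfold pre
  linear_combination (1 / 2) * h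

/-- `f D(t) = (1-t)^h t^C (z^{-d} - z^d)/2`. -/
theorem rowD_eval (N r : ℕ) (hN : 1 ≤ N) (hr : r < 36 * N) (z : ℝ) (hz : z ≠ 0) :
    ff z * aeval (tz z) (rowD N r) =
      pre N z * ((z ^ (-((r : ℤ) - (3 * N : ℕ))) - z ^ ((r : ℤ) - (3 * N : ℕ))) / 2) := by
  have h := contact_D N r hN hr (contact_tz hz).1 hz (contact_tz hz).2
  have e : tz z * (z⁻¹ - z) = 2 * ff z := by
    have h : 1 + z ^ 2 ≠ 0 := by positivity
    unfold tz ff
    field_simp
  rw [e] at h
  unfold pre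
  linear_combination (1 / 2) * h

end Crest.Agent.R6
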