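import Mathlib

/-! Definitions for the irrationality of Catalan's constant (row 6).

`f(t) = √(1-t²)`, `cc m = [t^m] 1/f`, `ww m = ∫_{-1}^1 |t| t^m / f dt`.
`M(i,j) = ∫_{-1}^1 ∫_0^1 |t| t^i s^j / (f(t) (1-ts)) ds dt
        = M0 i j + 4 G cz (i-j) + (3/2) ζ(2) cz (j-i-1)`,
`Z(i,j) = ∫_0^1 ∫_0^1 t^i s^j/(1-ts) = Z0 i j + ζ(2) [i = j]`.
Parameters: n = 36N, b = 6N, q = 2N, g = 3N, h = 2N, L = n+b+q = 44N, C = L+g = 47N,
H = C+h = 49N. -/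

set_option autoImplicit false

namespace Crest.Agent.R6

open Polynomial Finset

/-- `[t^m] (1-t²)^{-1/2}`. -/
def cc (m : ℕ) : ℚ := if m % 2 = 0 then (Nat.centralBinom (m / 2) : ℚ) / 4 ^ (m / 2) else 0

/-- `cc` extended by zero to negative indices. -/
def cz (d : ℤ) : ℚ := if 0 ≤ d then cc d.toNat else 0

/-- `∫_{-1}^1 |t| t^m / √(1-t²) dt`. -/
def ww (m : ℕ) : ℚ := if m % 2 = 0 then 2 / (((m : ℚ) + 1) * cc m) else 0

/-- `phi0 (2l+3)`. -/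
def phiA (l : ℕ) : ℚ := ww (2 * l) * ∑ k ∈ range (l + 1), cc (2 * k) / (2 * (k : ℚ) + 1)

/-- `phi0 (2l+2)`. -/
def phiB (l : ℕ) : ℚ := cc (2 * l) * ∑ k ∈ range l, ww (2 * k) / (2 * (k : ℚ) + 2)

/-- `phi0 (1-2l)`. -/
def phiC (l : ℕ) : ℚ := -(cc (2 * l) * ∑ k ∈ range l, ww (2 * k) / (2 * (k : ℚ) + 1))

/-- `phi0 (-2e)`. -/
def phiD (e : ℕ) : ℚ := ww (2 * e) * (1 + ∑ k ∈ range e,
  (1 / (2 * (k : ℚ) + 3) - 1 / (2 * (k : ℚ) + 2) - cc (2 * k + 2) / (2 * (k : ℚ) + 2)))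

/-- Rational part of the diagonal constant `φ(d)`, `d = j - i + 1`. -/
def phi0 (d : ℤ) : ℚ :=
  if 2 ≤ d then (if d % 2 = 0 then phiB ((d - 2) / 2).toNat else phiA ((d - 3) / 2).toNat)
  else (if d % 2 = 0 then phiD (-d / 2).toNat else phiC ((1 - d) / 2).toNat)

/-- Rational part of `M(i,j)`; the term with vanishing denominator is `0` (`x / 0 = 0`). -/
def M0 (i j : ℕ) : ℚ :=
  phi0 ((j : ℤ) - i + 1) - ∑ m ∈ range i, ww m / ((m : ℚ) + ((j : ℚ) - i + 1))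

/-- Rational part of `Z(i,j)`. -/
def Z0 (i j : ℕ) : ℚ :=
  if i = j then -∑ k ∈ range i, 1 / ((k : ℚ) + 1) ^ 2
  else (harmonic i - harmonic j) / ((i : ℚ) - j)

/-- The bilinear form on `ℚ[t] × ℚ[s]` with Gram matrix `K` on monomials. -/
noncomputable def pair (K : ℕ → ℕ → ℚ) (P Q : ℚ[X]) : ℚ :=
  ∑ i ∈ P.support, ∑ j ∈ Q.support, P.coeff i * Q.coeff j * K i j

/-- `P_r = (1-t)^h t^{C-1} T_{r-g}(1/t)`. -/
noncomputable def rowP (N r : ℕ) : ℚ[X] :=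
  (1 - X) ^ (2 * N) * reflect (47 * N - 1) (Chebyshev.T ℚ ((r : ℤ) - 3 * N))

/-- `D_r = (1-t)^h t^{C-1} U_{r-g-1}(1/t)` (odd in `r-g`). -/
noncomputable def rowD (N r : ℕ) : ℚ[X] :=
  (1 - X) ^ (2 * N) * reflect (47 * N - 1) (Chebyshev.U ℚ ((r : ℤ) - 3 * N - 1))

/-- Column `s^{b+k} (1-s)^q`. -/
noncomputable def col (N k : ℕ) : ℚ[X] := X ^ (6 * N + k) * (1 - X) ^ (2 * N)

/-- Rational part of the entry `(r,k)`. -/
noncomputable def entA (N r k : ℕ) : ℚ :=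
  pair M0 (rowP N r) (col N k) - 3 / 2 * pair Z0 (rowD N r) (col N k)

/-- Coefficient of Catalan's constant in the entry `(r,k)`. -/
noncomputable def entB (N r k : ℕ) : ℚ :=
  4 * pair (fun i j => cz ((i : ℤ) - j)) (rowP N r) (col N k)

/-- The matrix with a rational value `γ` put for Catalan's constant. -/
noncomputable def matQ (N : ℕ) (γ : ℚ) : Matrix (Fin (36 * N)) (Fin (36 * N)) ℚ :=
  Matrix.of fun r k => entA N r k + γ * entB N r k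

/-- Catalan's constant, as in the statement. -/
noncomputable def catalan : ℝ := ∑' j : ℕ, (-1 : ℝ) ^ j / ((2 * j + 1 : ℝ) ^ 2)

/-- The real matrix. -/
noncomputable def matR (N : ℕ) : Matrix (Fin (36 * N)) (Fin (36 * N)) ℝ :=
  Matrix.of fun r k => (entA N r k : ℝ) + catalan * (entB N r k : ℝ)

end Crest.Agent.R6
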