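import Crest.Agent.R6.Forms

/-! From a certificate to the pointwise bound for one choice of sheets. -/

set_option autoImplicit false

namespace Crest.Agent.R6

open Finset

theorem energy_one_sub_tz (z : ℝ) : 1 - tz z = (1 - z) ^ 2 / (1 + z ^ 2) := by
  have : (1 + z ^ 2) ≠ 0 := by positivity
  unfold tz; field_simp; ring

theorem energy_log_one_sub_tz {z : ℝ} (hz : z < 1) :
    Real.log (1 - tz z) = 2 * Real.log (1 - z) - Real.log (1 + z ^ 2) := by
  have h1 : (1 + z ^ 2) ≠ 0 := by positivity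
  have h2 : (1 - z) ≠ 0 := by linarith [sub_pos.2 hz] |> fun h : (0 : ℝ) < 1 - z => h.ne'
  rw [energy_one_sub_tz, Real.log_div (pow_ne_zero _ h2) h1, Real.log_pow]
  norm_num

theorem energy_log_tz {z : ℝ} (hz : z ≠ 0) :
    Real.log |tz z| = Real.log 2 + Real.log |z| - Real.log (1 + z ^ 2) := by
  have h1 : (1 + z ^ 2) ≠ 0 := by positivity
  rw [Real.log_abs, Real.log_abs, tz, Real.log_div (mul_ne_zero two_ne_zero hz) h1,
    Real.log_mul two_ne_zero hz]

theorem energy_log_le_two {z : ℝ} (hz : z < 1) : Real.log (1 - tz z) ≤ Real.log 2 := by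
  have h1 : (0 : ℝ) < 1 + z ^ 2 := by positivity
  have h2 : (0 : ℝ) < 1 - z := sub_pos.2 hz
  refine Real.log_le_log (by rw [energy_one_sub_tz]; positivity) ?_
  rw [energy_one_sub_tz, div_le_iff₀ h1]
  nlinarith [sq_nonneg (1 + z)]

theorem energy_ff_le {z : ℝ} (hz : z ∈ Set.Ioo (-1 : ℝ) 1) :
    Real.log (1 + z ^ 2) ≤ 1 - ff z := by
  have h1 : (0 : ℝ) < 1 + z ^ 2 := by positivity
  have h2 := Real.log_le_sub_one_of_pos h1
  have h3 : z ^ 2 ≤ 1 := by nlinarith [hz.1, hz.2]
  have h4 : 1 - ff z = 2 * z ^ 2 / (1 + z ^ 2) := by unfold ff; field_simp; ring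
  have h5 : z ^ 2 ≤ 2 * z ^ 2 / (1 + z ^ 2) := by
    rw [le_div_iff₀ h1]; nlinarith [sq_nonneg z]
  rw [h4]; linarith

theorem energy_pre (N : ℕ) {z : ℝ} (hz : z < 1) (h0 : z ≠ 0) :
    |pre N z| = Real.exp (2 * N * Real.log (1 - tz z) + 47 * N * Real.log |tz z|) := by
  have h1 : (0 : ℝ) < 1 + z ^ 2 := by positivity
  have h2 : (0 : ℝ) < 1 - z := sub_pos.2 hz
  have h3 : 0 < 1 - tz z := by rw [energy_one_sub_tz]; positivity
  have h4 : 0 < |tz z| := abs_pos.2 (div_ne_zero (mul_ne_zero two_ne_zero h0) h1.ne')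
  have e1 : (2 * N : ℝ) = ((2 * N : ℕ) : ℝ) := by push_cast; ring
  have e2 : (47 * N : ℝ) = ((47 * N : ℕ) : ℝ) := by push_cast; ring
  rw [Real.exp_add, e1, e2, Real.exp_nat_mul, Real.exp_nat_mul, Real.exp_log h3, Real.exp_log h4,
    pre, abs_mul, abs_pow, abs_pow, abs_of_pos h3]

theorem energy_U_inv (A : Atoms) (him : ∀ k, 0 < (A.a k).im) (hm : A.mass = 1) {z : ℝ}
    (hz : z ≠ 0) : A.U z⁻¹ = A.Ustar z - Real.log |z| := by
  have h : ∀ k, Real.log ‖((z⁻¹ : ℝ) : ℂ) - A.a k‖ =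
      Real.log ‖1 - (z : ℂ) * A.a k‖ - Real.log |z| := by
    intro k
    have hz' : (z : ℂ) ≠ 0 := by exact_mod_cast hz
    have h1 : (1 - (z : ℂ) * A.a k) ≠ 0 := by
      intro h
      have := congrArg Complex.im h
      simp only [Complex.sub_im, Complex.one_im, Complex.mul_im, Complex.ofReal_re,
        Complex.ofReal_im, zero_mul, add_zero, zero_sub, Complex.zero_im, neg_eq_zero,
        mul_eq_zero] at this
      rcases this with h | h
      · exact hz h
      · exact (him k).ne' h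
    have e : ((z⁻¹ : ℝ) : ℂ) - A.a k = (1 - (z : ℂ) * A.a k) / z := by
      push_cast; field_simp
    rw [e, norm_div, Real.log_div (norm_ne_zero_iff.2 h1) (norm_ne_zero_iff.2 hz'),
      Complex.norm_real, Real.norm_eq_abs]
  unfold Atoms.mass at hm
  simp only [Atoms.U, Atoms.Ustar, h, mul_sub, Finset.sum_sub_distrib, ← Finset.sum_mul, hm,
    one_mul]

theorem energy_det_scale {n : ℕ} (x c : Fin n → ℝ) (l : Fin n → ℝ)
    (hc : ∀ i, |c i| = Real.exp (l i)) :
    |(Matrix.of fun (r i : Fin n) => c i * x i ^ (r : ℕ)).det| ≤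
      Real.exp (∑ i, l i + Real.log |(Matrix.of fun (r i : Fin n) => x i ^ (r : ℕ)).det|) := by
  have e := Matrix.det_mul_row c (Matrix.of fun (r i : Fin n) => x i ^ (r : ℕ))
  simp only [Matrix.of_apply] at e
  rw [e, abs_mul, Finset.abs_prod, Real.exp_add, Real.exp_sum]
  simp only [hc]
  exact mul_le_mul_of_nonneg_left (Real.le_exp_log _) (by positivity)

theorem energy_inj {n : ℕ} (z : Fin n → ℝ) (ε : Fin n → Bool)
    (hz : ∀ i, z i ∈ Set.Ioo (-1 : ℝ) 1) (h0 : ∀ i, z i ≠ 0) (hi : Function.Injective z) :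
    Function.Injective fun i => if ε i then z i else (z i)⁻¹ := by
  have key : ∀ i j, z i ≠ (z j)⁻¹ := by
    intro i j h
    have h1 : z i * z j = 1 := by rw [h]; exact inv_mul_cancel₀ (h0 j)
    have h2 := hz i
    have h3 := hz j
    nlinarith [h2.1, h2.2, h3.1, h3.2, mul_pos (sub_pos.2 h2.2) (sub_pos.2 h3.1),
      mul_pos (sub_pos.2 h2.1) (sub_pos.2 h3.2)]
  intro i j h
  simp only at h
  apply hi
  cases hi' : ε i <;> cases hj' : ε j <;> simp only [hi', hj', if_true, if_false,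
    Bool.false_eq_true] at h
  · exact inv_injective h
  · exact absurd h.symm (key j i)
  · exact absurd h (key i j)
  · exact h

/-- `n = 36 N`, `X_i = z_i` (inner, `ε i = true`) or `1/z_i`. Each factor is `0` unless `z`, `s` are
injective. `det (X_i^{r-g}) = ∏ X_i^{-g} V(X)`, `det (colF) = ∏ s^b (1-s)^q V(s)`,
`A.U (1/z) = A.Ustar z - log |z|`, `log |t| = log 2 + log |z| - log (1+z²)`,
`log (1-t) = 2 log (1-z) - log (1+z²) ≤ log 2`, `1/n ≤ eta`, `ff z ≤ 1 - log (1+z²)`. -/
theorem energy (lam : ℝ) (hlam : 0 ≤ lam) (both : Prop) (A B C : Atoms) (m1 m2 : ℝ)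
    (hc : Cert lam both A B C m1 m2) :
    ∃ K : ℝ, ∀ N : ℕ, 500 ≤ N → ∀ (z s : Fin (36 * N) → ℝ) (ε : Fin (36 * N) → Bool),
      (∀ i, z i ∈ Set.Ioo (-1 : ℝ) 1) → (∀ i, z i ≠ 0) → (∀ j, s j ∈ Set.Ioo (0 : ℝ) 1) →
      (∀ i, ε i = true → both) → (lam = 0 ∨ (30 * N - 1 : ℝ) ≤ ∑ i, ff (z i)) →
      (∏ i, |pre N (z i)|) *
        |(Matrix.of fun (r i : Fin (36 * N)) =>
          (if ε i then z i else (z i)⁻¹) ^ (((r : ℕ) : ℤ) - (3 * N : ℕ))).det| *
        (|(Matrix.of fun (i j : Fin (36 * N)) => 1 / (1 - tz (z i) * s j)).det| *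
        |(Matrix.of fun (k j : Fin (36 * N)) => colF N k (s j)).det|) ≤
      Real.exp (-1.9332 * (36 * N : ℝ) ^ 2 + K * (36 * N) * (1 + Real.log (36 * N))) := by
  obtain ⟨KA, hA⟩ := form_vdm A hc.imA hc.massA
  obtain ⟨KB, hB⟩ := form_cauchy B hc.imB hc.normB hc.massB
  obtain ⟨KC, hC⟩ := form_vdm C hc.imC hc.massC
  refine ⟨KA + KB + KC, fun N hN z s ε hz h0 hs hboth hl => ?_⟩
  by_cases hzi : Function.Injective z
  swap
  · obtain ⟨i, j, hij, hne⟩ := Function.not_injective_iff.1 hzi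
    have : (Matrix.of fun (i j : Fin (36 * N)) => 1 / (1 - tz (z i) * s j)).det = 0 :=
      Matrix.det_zero_of_row_eq hne (by funext k; simp only [Matrix.of_apply, hij])
    rw [this, abs_zero, zero_mul, mul_zero]
    exact (Real.exp_pos _).le
  by_cases hsi : Function.Injective s
  swap
  · obtain ⟨i, j, hij, hne⟩ := Function.not_injective_iff.1 hsi
    have : (Matrix.of fun (i j : Fin (36 * N)) => 1 / (1 - tz (z i) * s j)).det = 0 :=
      Matrix.det_zero_of_column_eq hne (fun k => by simp only [Matrix.of_apply, hij])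
    rw [this, abs_zero, zero_mul, mul_zero]
    exact (Real.exp_pos _).le
  set X : Fin (36 * N) → ℝ := fun i => if ε i then z i else (z i)⁻¹ with hX
  have hXi : Function.Injective X := energy_inj z ε hz h0 hzi
  have hX0 : ∀ i, X i ≠ 0 := by
    intro i
    simp only [hX]
    split_ifs
    · exact h0 i
    · exact inv_ne_zero (h0 i)
  have hn1 : 1 ≤ 36 * N := by omega
  have hA' := hA _ hn1 X hXi
  have hB' := hB _ hn1 z s hz hs hzi hsi
  have hC' := hC _ hn1 s hsi
  have hNr : (500 : ℝ) ≤ N := by exact_mod_cast hN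
  have ecast : ((36 * N : ℕ) : ℝ) = 36 * N := by push_cast; ring
  rw [ecast] at hA' hB' hC'
  -- the four factors
  have f1 : ∏ i, |pre N (z i)| = Real.exp (∑ i, (2 * N * Real.log (1 - tz (z i)) +
      47 * N * Real.log |tz (z i)|)) := by
    rw [Real.exp_sum]
    exact Finset.prod_congr rfl fun i _ => energy_pre N (hz i).2 (h0 i)
  have f2 : |(Matrix.of fun (r i : Fin (36 * N)) => X i ^ (((r : ℕ) : ℤ) - (3 * N : ℕ))).det| ≤
      Real.exp (∑ i, -(3 * N * Real.log |X i|) +
        Real.log |(Matrix.of fun (r i : Fin (36 * N)) => X i ^ (r : ℕ)).det|) := by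
    have e : (Matrix.of fun (r i : Fin (36 * N)) => X i ^ (((r : ℕ) : ℤ) - (3 * N : ℕ))) =
        Matrix.of fun (r i : Fin (36 * N)) => (X i ^ (3 * N))⁻¹ * X i ^ (r : ℕ) := by
      ext r i
      simp only [Matrix.of_apply]
      rw [zpow_sub₀ (hX0 i), zpow_natCast, zpow_natCast, div_eq_inv_mul]
    rw [e]
    refine energy_det_scale X _ _ fun i => ?_
    have e3 : (3 * N : ℝ) = ((3 * N : ℕ) : ℝ) := by push_cast; ring
    rw [Real.exp_neg, e3, Real.exp_nat_mul, Real.exp_log (abs_pos.2 (hX0 i)), abs_inv, abs_pow]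
  have f3 := Real.le_exp_log
    |(Matrix.of fun (i j : Fin (36 * N)) => 1 / (1 - tz (z i) * s j)).det|
  have f4 : |(Matrix.of fun (k j : Fin (36 * N)) => colF N k (s j)).det| ≤
      Real.exp (∑ j, (6 * N * Real.log (s j) + 2 * N * Real.log (1 - s j)) +
        Real.log |(Matrix.of fun (r i : Fin (36 * N)) => s i ^ (r : ℕ)).det|) := by
    have e : (Matrix.of fun (k j : Fin (36 * N)) => colF N k (s j)) =
        Matrix.of fun (r i : Fin (36 * N)) =>
          (s i ^ (6 * N) * (1 - s i) ^ (2 * N)) * s i ^ (r : ℕ) := by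
      ext r i
      simp only [Matrix.of_apply, colF]
      ring
    rw [e]
    refine energy_det_scale s _ _ fun i => ?_
    have e6 : (6 * N : ℝ) = ((6 * N : ℕ) : ℝ) := by push_cast; ring
    have e2 : (2 * N : ℝ) = ((2 * N : ℕ) : ℝ) := by push_cast; ring
    have h1 := (hs i).1
    have h2 := sub_pos.2 (hs i).2
    rw [Real.exp_add, e6, e2, Real.exp_nat_mul, Real.exp_nat_mul, Real.exp_log h1,
      Real.exp_log h2, abs_of_pos (by positivity)]
  have heta : 1 ≤ 36 * (N : ℝ) * eta := by unfold eta; linarith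
  have hlog2 : 0 < Real.log 2 := Real.log_pos one_lt_two
  -- pointwise bounds
  have p1 : ∀ i, (2 * N * Real.log (1 - tz (z i)) + 47 * N * Real.log |tz (z i)|) +
      -(3 * N * Real.log |X i|) + 36 * N * A.U (X i) - Real.log (1 - tz (z i)) +
      36 * N * (B.U (z i) + B.Ustar (z i)) ≤
      36 * N * (m1 + (47 / 36 + eta) * Real.log 2) + 36 * N * lam * Real.log (1 + z i ^ 2) := by
    intro i
    have a1 := energy_log_one_sub_tz (hz i).2
    have a2 := energy_log_tz (h0 i)
    have a3 := energy_log_le_two (hz i).2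
    have a4 : (36 * (N : ℝ) * eta - 1) * Real.log (1 - tz (z i)) ≤
        (36 * N * eta - 1) * Real.log 2 := mul_le_mul_of_nonneg_left a3 (by linarith)
    have hN0 : (0 : ℝ) ≤ 36 * N := by positivity
    cases hε : ε i
    · have b1 : X i = (z i)⁻¹ := by simp [hX, hε]
      have b2 := mul_le_mul_of_nonneg_left (hc.out (z i) (hz i) (h0 i)) hN0
      rw [b1, energy_U_inv A hc.imA hc.massA (h0 i), abs_inv, Real.log_inv, a2]
      unfold fld at b2
      rw [a1] at a4 ⊢
      linarith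
    · have b1 : X i = z i := by simp [hX, hε]
      have b2 := mul_le_mul_of_nonneg_left (hc.inn (hboth i hε) (z i) (hz i) (h0 i)) hN0
      rw [b1, a2]
      unfold fld at b2
      rw [a1] at a4 ⊢
      linarith
  have p2 : ∀ j, (6 * N * Real.log (s j) + 2 * N * Real.log (1 - s j)) + 36 * N * C.U (s j) -
      Real.log (1 - s j) - 36 * N * B.Us (s j) ≤ 36 * N * m2 := by
    intro j
    have hN0 : (0 : ℝ) ≤ 36 * N := by positivity
    have b2 := mul_le_mul_of_nonneg_left (hc.sd (s j) (hs j)) hN0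
    have a3 : Real.log (1 - s j) ≤ 0 :=
      Real.log_nonpos (sub_pos.2 (hs j).2).le (by linarith [(hs j).1])
    have a4 : (36 * (N : ℝ) * eta - 1) * Real.log (1 - s j) ≤ 0 :=
      mul_nonpos_of_nonneg_of_nonpos (by linarith) a3
    linarith
  have p3 : lam * ∑ i, Real.log (1 + z i ^ 2) ≤ lam * (36 * N * (6 / 36 + eta)) := by
    rcases hl with hl | hl
    · simp [hl]
    · refine mul_le_mul_of_nonneg_left ?_ hlam
      have := Finset.sum_le_sum fun i (_ : i ∈ (univ : Finset (Fin (36 * N)))) =>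
        energy_ff_le (hz i)
      rw [Finset.sum_sub_distrib] at this
      simp only [Finset.sum_const, Finset.card_univ, Fintype.card_fin, nsmul_eq_mul, ecast,
        mul_one] at this
      linarith
  have q1 := Finset.sum_le_sum fun i (_ : i ∈ (univ : Finset (Fin (36 * N)))) => p1 i
  have q2 := Finset.sum_le_sum fun j (_ : j ∈ (univ : Finset (Fin (36 * N)))) => p2 j
  rw [Finset.sum_add_distrib, Finset.sum_sub_distrib, Finset.sum_add_distrib,
    Finset.sum_add_distrib, ← Finset.mul_sum, ← Finset.mul_sum, Finset.sum_add_distrib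
      (f := fun _ => 36 * (N : ℝ) * (m1 + (47 / 36 + eta) * Real.log 2)), ← Finset.mul_sum
      (f := fun i => Real.log (1 + z i ^ 2))] at q1
  rw [Finset.sum_sub_distrib, Finset.sum_sub_distrib, Finset.sum_add_distrib,
    ← Finset.mul_sum, ← Finset.mul_sum] at q2
  simp only [Finset.sum_const, Finset.card_univ, Fintype.card_fin, nsmul_eq_mul, ecast] at q1 q2
  have htot := mul_le_mul_of_nonneg_left hc.tot (sq_nonneg (36 * (N : ℝ)))
  have p3' := mul_le_mul_of_nonneg_left p3 (show (0 : ℝ) ≤ 36 * N by positivity)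
  rw [f1]
  refine (mul_le_mul (mul_le_mul_of_nonneg_left f2 (Real.exp_pos _).le)
    (mul_le_mul f3 f4 (abs_nonneg _) (Real.exp_pos _).le) (by positivity)
    (by positivity)).trans ?_
  rw [← Real.exp_add, ← Real.exp_add, ← Real.exp_add]
  refine Real.exp_le_exp.2 ?_
  linarith

end Crest.Agent.R6
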