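import Crest.Agent.R6.MomInt

/-! `M(i,j)` and `Z(i,j)` as integrals in `z`. -/

set_option autoImplicit false

namespace Crest.Agent.R6

open Finset MeasureTheory

theorem intmz_pow (n : ℕ) : ∫ s in Set.Ioo (0 : ℝ) 1, s ^ n = 1 / ((n : ℝ) + 1) := by
  rw [momint_Ioo zero_le_one, integral_pow]; simp

theorem kk_hasSum (j : ℕ) (t : ℝ) (ht : |t| < 1) :
    HasSum (fun k : ℕ => t ^ k / ((j : ℝ) + k + 1)) (kk j t) := by
  have h := (momint_series (s := Set.Ioo (0 : ℝ) 1) measurableSet_Ioo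
    (F := fun k s => t ^ k * s ^ (j + k)) (f := fun s => s ^ j / (1 - t * s))
    (fun k => momint_integrableOn (by fun_prop) _ _) ?_ ?_).2
  · have e : (fun k : ℕ => t ^ k / ((j : ℝ) + k + 1)) =
        fun k : ℕ => ∫ s in Set.Ioo (0 : ℝ) 1, t ^ k * s ^ (j + k) := by
      funext k
      rw [integral_const_mul, intmz_pow]; push_cast; ring
    rw [e]; exact h
  · refine Summable.of_nonneg_of_le (fun k => integral_nonneg fun z => norm_nonneg _)
      (fun k => ?_) (summable_geometric_of_lt_one (abs_nonneg t) ht)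
    have e : ∫ s in Set.Ioo (0 : ℝ) 1, ‖t ^ k * s ^ (j + k)‖ =
        ∫ s in Set.Ioo (0 : ℝ) 1, |t| ^ k * s ^ (j + k) := by
      refine setIntegral_congr_fun measurableSet_Ioo fun s hs => ?_
      simp only [Real.norm_eq_abs, abs_mul, abs_pow, abs_of_pos hs.1]
    rw [e, integral_const_mul, intmz_pow]
    apply mul_le_of_le_one_right (by positivity)
    rw [div_le_one (by positivity)]
    linarith [Nat.cast_nonneg (α := ℝ) (j + k)]
  · intro s hs
    have h1 : |t * s| < 1 := by
      rw [abs_mul, abs_of_pos hs.1]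
      exact lt_of_le_of_lt (mul_le_of_le_one_right (abs_nonneg t) hs.2.le) ht
    have h2 := (hasSum_geometric_of_abs_lt_one h1).mul_left (s ^ j)
    rw [← div_eq_mul_inv] at h2
    have e : (fun k : ℕ => t ^ k * s ^ (j + k)) = fun k : ℕ => s ^ j * (t * s) ^ k := by
      funext k; ring
    rw [e]; exact h2

theorem intmz_M (i j : ℕ) :
    IntegrableOn (fun z => |tz z| * tz z ^ i * rho z * kk j (tz z)) (Set.Ioo (-1 : ℝ) 1) ∧
    HasSum (fun k : ℕ => ∫ z in Set.Ioo (-1 : ℝ) 1,
      |tz z| * tz z ^ (i + k) * rho z / ((j : ℝ) + k + 1))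
      (∫ z in Set.Ioo (-1 : ℝ) 1, |tz z| * tz z ^ i * rho z * kk j (tz z)) := by
  have ct := momint_tz_cont
  have cr := momint_rho_cont
  refine momint_series measurableSet_Ioo
    (fun k => momint_integrableOn (by fun_prop) _ _) (summable_int_abs i j) fun z hz => ?_
  have h := (kk_hasSum j (tz z) (momint_abs_tz_lt (abs_lt.2 hz))).mul_left
    (|tz z| * tz z ^ i * rho z)
  have e : (fun k : ℕ => |tz z| * tz z ^ (i + k) * rho z / ((j : ℝ) + k + 1)) =
      fun k : ℕ => |tz z| * tz z ^ i * rho z * (tz z ^ k / ((j : ℝ) + k + 1)) := by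
    funext k; ring
  rw [e]; exact h

theorem integrableOn_M (i j : ℕ) :
    IntegrableOn (fun z => |tz z| * tz z ^ i * rho z * kk j (tz z)) (Set.Ioo (-1 : ℝ) 1) :=
  (intmz_M i j).1

theorem int_M (i j : ℕ) :
    ∫ z in Set.Ioo (-1 : ℝ) 1, |tz z| * tz z ^ i * rho z * kk j (tz z) = MR i j := by
  rw [← (intmz_M i j).2.tsum_eq]
  unfold MR
  congr 1; funext k
  rw [integral_div, int_abs_tz]

theorem intmz_Zterm (i j k : ℕ) :
    ∫ z in Set.Ioo (0 : ℝ) 1, tz z ^ (i + k) * ff z * rho z / ((j : ℝ) + k + 1) =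
      1 / (((i : ℝ) + k + 1) * ((j : ℝ) + k + 1)) := by
  rw [integral_div, int_tz_ff, div_div]; push_cast; rfl

theorem intmz_Z (i j : ℕ) :
    IntegrableOn (fun z => tz z ^ i * ff z * rho z * kk j (tz z)) (Set.Ioo (0 : ℝ) 1) ∧
    HasSum (fun k : ℕ => ∫ z in Set.Ioo (0 : ℝ) 1,
      tz z ^ (i + k) * ff z * rho z / ((j : ℝ) + k + 1))
      (∫ z in Set.Ioo (0 : ℝ) 1, tz z ^ i * ff z * rho z * kk j (tz z)) := by
  have ct := momint_tz_cont
  have cr := momint_rho_cont
  have cf := momint_ff_cont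
  have habs : ∀ z ∈ Set.Ioo (0 : ℝ) 1, |z| < 1 := fun z hz => by
    rw [abs_of_pos hz.1]; exact hz.2
  refine momint_series measurableSet_Ioo
    (fun k => momint_integrableOn (by fun_prop) _ _) ?_ fun z hz => ?_
  · have e : ∀ k : ℕ, ∫ z in Set.Ioo (0 : ℝ) 1,
        ‖tz z ^ (i + k) * ff z * rho z / ((j : ℝ) + k + 1)‖ =
        1 / (((i : ℝ) + k + 1) * ((j : ℝ) + k + 1)) := by
      intro k
      rw [← intmz_Zterm]
      refine setIntegral_congr_fun measurableSet_Ioo fun z hz => ?_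
      have h1 := momint_tz_nonneg hz.1.le
      have h2 := momint_ff_pos (habs z hz)
      have h3 := momint_rho_pos z
      exact Real.norm_of_nonneg (by positivity)
    simp_rw [e]
    have h := (summable_nat_add_iff 1).2 hasSum_zeta_two.summable
    refine Summable.of_nonneg_of_le (fun k => by positivity) (fun k => ?_) h
    apply one_div_le_one_div_of_le (by positivity)
    push_cast
    rw [sq]
    have hi : (0 : ℝ) ≤ i := Nat.cast_nonneg _
    have hj : (0 : ℝ) ≤ j := Nat.cast_nonneg _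
    exact mul_le_mul (by linarith) (by linarith) (by positivity) (by positivity)
  · have h := (kk_hasSum j (tz z) (momint_abs_tz_lt (habs z hz))).mul_left
      (tz z ^ i * ff z * rho z)
    have e : (fun k : ℕ => tz z ^ (i + k) * ff z * rho z / ((j : ℝ) + k + 1)) =
        fun k : ℕ => tz z ^ i * ff z * rho z * (tz z ^ k / ((j : ℝ) + k + 1)) := by
      funext k; ring
    rw [e]; exact h

theorem integrableOn_Z (i j : ℕ) :
    IntegrableOn (fun z => tz z ^ i * ff z * rho z * kk j (tz z)) (Set.Ioo (0 : ℝ) 1) :=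
  (intmz_Z i j).1

theorem int_Z (i j : ℕ) :
    ∫ z in Set.Ioo (0 : ℝ) 1, tz z ^ i * ff z * rho z * kk j (tz z) = ZR i j := by
  rw [← (intmz_Z i j).2.tsum_eq]
  unfold ZR
  congr 1; funext k
  exact intmz_Zterm i j k

end Crest.Agent.R6
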