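import Crest.Agent.R6.PhiTwo

/-! The value `φ(1) = 4G`. -/

set_option autoImplicit false

namespace Crest.Agent.R6

open Finset MeasureTheory

theorem phione_ii (n : ℕ) : IntervalIntegrable (fun y : ℝ => y ^ n * Real.log y) volume 0 1 :=
  intervalIntegral.intervalIntegrable_log'.continuousOn_mul (by fun_prop)

theorem phione_int (n : ℕ) :
    ∫ y in Set.Ioo (0 : ℝ) 1, y ^ n * Real.log y = -(1 / ((n : ℝ) + 1) ^ 2) := by
  have hn : (n : ℝ) + 1 ≠ 0 := by positivity
  rw [momint_Ioo zero_le_one, intervalIntegral.integral_eq_sub_of_hasDerivAt_of_le zero_le_one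
    (f := fun y => y ^ n * (y * Real.log y) / ((n : ℝ) + 1) - y ^ (n + 1) / ((n : ℝ) + 1) ^ 2)
    ?_ ?_ (phione_ii n)]
  · simp
  · have := Real.continuous_mul_log
    exact Continuous.continuousOn (by fun_prop)
  · intro y hy
    have hy0 : y ≠ 0 := hy.1.ne'
    have h1 : HasDerivAt (fun y : ℝ => y ^ (n + 1) * Real.log y / ((n : ℝ) + 1) -
        y ^ (n + 1) / ((n : ℝ) + 1) ^ 2) (y ^ n * Real.log y) y := by
      have h := (((hasDerivAt_pow (n + 1) y).mul (Real.hasDerivAt_log hy0)).div_const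
        ((n : ℝ) + 1)).sub ((hasDerivAt_pow (n + 1) y).div_const (((n : ℝ) + 1) ^ 2))
      refine HasDerivAt.congr_deriv h ?_
      simp only [Nat.add_sub_cancel]
      push_cast; field_simp; ring
    have e : (fun y : ℝ => y ^ n * (y * Real.log y) / ((n : ℝ) + 1) -
        y ^ (n + 1) / ((n : ℝ) + 1) ^ 2) = fun y : ℝ => y ^ (n + 1) * Real.log y / ((n : ℝ) + 1) -
        y ^ (n + 1) / ((n : ℝ) + 1) ^ 2 := by
      funext y; ring
    rw [e]; exact h1

/-- `φ(1) = ∑ w_{2l}/(2l+1) = ∫_0^1 log((1+t)/(1-t)) ρ dz = -4 ∫_0^1 log y/(1+y²) dy`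
(`y = (1-z)/(1+z)`, `(1+t)/(1-t) = y^{-2}`).  The substitution is avoided by `momint_ff_odd`. -/
theorem phiR_one : phiR 1 = 4 * catalan := by
  have cf := momint_ff_cont
  have cr := momint_rho_cont
  have habs : ∀ z ∈ Set.Ioo (0 : ℝ) 1, |z| < 1 := fun z hz => by
    rw [abs_of_pos hz.1]; exact hz.2
  set f : ℝ → ℝ := fun y => -4 * Real.log y / (1 + y ^ 2) with hf
  -- first expansion
  have t1 : ∀ l : ℕ, ∫ z in Set.Ioo (0 : ℝ) 1,
      2 * (1 / (2 * (l : ℝ) + 1)) * (ff z ^ (2 * l + 1) * rho z) =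
      (ww (2 * l) : ℝ) / (2 * (l : ℝ) + ((1 : ℤ) : ℝ)) := by
    intro l
    rw [integral_const_mul, momint_Ioo zero_le_one, momint_ff_odd]; push_cast; ring
  have h1 := (momint_series (s := Set.Ioo (0 : ℝ) 1) measurableSet_Ioo
    (F := fun l z => 2 * (1 / (2 * (l : ℝ) + 1)) * (ff z ^ (2 * l + 1) * rho z)) (f := f)
    (fun k => momint_integrableOn (by fun_prop) _ _) (by
      refine (phitwo_even 1).summable.congr fun l => ?_
      rw [← t1]
      refine setIntegral_congr_fun measurableSet_Ioo fun z hz => ?_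
      have h1 := momint_ff_pos (habs z hz)
      have h3 := momint_rho_pos z
      exact (Real.norm_of_nonneg (by positivity)).symm) (by
      intro z hz
      have hz0 : z ≠ 0 := hz.1.ne'
      have hd := momint_den z
      have a1 : 1 + ff z = 2 / (1 + z ^ 2) := by unfold ff; field_simp; ring
      have a2 : 1 - ff z = 2 / (1 + z ^ 2) * z ^ 2 := by unfold ff; field_simp; ring
      have ht : |ff z| < 1 := by
        rw [abs_of_pos (momint_ff_pos (habs z hz)), ← sub_pos, a2]; positivity
      have h := (Real.hasSum_log_sub_log_of_abs_lt_one ht).mul_right (rho z)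
      have e2 : (Real.log (1 + ff z) - Real.log (1 - ff z)) * rho z = f z := by
        rw [a1, a2, Real.log_mul (by positivity) (by positivity), Real.log_pow, hf]
        unfold rho
        push_cast; ring
      simp only [mul_assoc _ _ (rho z)] at h
      rw [← e2]; exact h)).2
  simp_rw [t1] at h1
  -- second expansion
  have t2 : ∀ k : ℕ, ∫ z in Set.Ioo (0 : ℝ) 1, -4 * (-1) ^ k * (z ^ (2 * k) * Real.log z) =
      4 * ((-1) ^ k / (2 * (k : ℝ) + 1) ^ 2) := by
    intro k
    rw [integral_const_mul, phione_int]; push_cast; ring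
  have h2 := (momint_series (s := Set.Ioo (0 : ℝ) 1) measurableSet_Ioo
    (F := fun k z => -4 * (-1) ^ k * (z ^ (2 * k) * Real.log z)) (f := f)
    (fun k => Integrable.const_mul
      ((intervalIntegrable_iff_integrableOn_Ioo_of_le zero_le_one).1 (phione_ii (2 * k))) _) (by
      refine (phitwo_odd.mul_left 4).summable.congr fun l => ?_
      have e : 4 * (1 / (2 * (l : ℝ) + 1) ^ 2) =
          ∫ z in Set.Ioo (0 : ℝ) 1, -4 * (z ^ (2 * l) * Real.log z) := by
        rw [integral_const_mul, phione_int]; push_cast; ring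
      rw [e]
      refine setIntegral_congr_fun measurableSet_Ioo fun z hz => ?_
      have h1 := hz.1
      have h2 : Real.log z ≤ 0 := Real.log_nonpos hz.1.le hz.2.le
      simp only [Real.norm_eq_abs, abs_mul, abs_pow, abs_neg, abs_one, one_pow, abs_of_pos h1,
        abs_of_nonpos h2]
      norm_num) (by
      intro z hz
      have ht : |-z ^ 2| < 1 := by
        rw [abs_neg, abs_pow]; exact pow_lt_one₀ (abs_nonneg _) (habs z hz) two_ne_zero
      have h := (hasSum_geometric_of_abs_lt_one ht).mul_left (-4 * Real.log z)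
      have e3 : (fun k : ℕ => -4 * (-1) ^ k * (z ^ (2 * k) * Real.log z)) =
          fun k : ℕ => -4 * Real.log z * (-z ^ 2) ^ k := by
        funext k
        rw [neg_pow (z ^ 2), ← pow_mul]; ring
      rw [e3]
      rw [sub_neg_eq_add, ← div_eq_mul_inv] at h
      exact h)).2
  simp_rw [t2] at h2
  have e1 := (phitwo_even 1).unique h1
  rw [e1, ← h2.tsum_eq, tsum_mul_left]
  rfl

end Crest.Agent.R6
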