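import Crest.Agent.R6.MomInt

/-! The value `φ(2) = π²/4`. -/

set_option autoImplicit false

namespace Crest.Agent.R6

open Finset MeasureTheory

theorem phitwo_odd : HasSum (fun k : ℕ => 1 / (2 * (k : ℝ) + 1) ^ 2) (Real.pi ^ 2 / 8) := by
  have hs : Summable (fun k : ℕ => (1 : ℝ) / ((2 * k + 1 : ℕ) : ℝ) ^ 2) :=
    hasSum_zeta_two.summable.comp_injective (i := fun k => 2 * k + 1) fun a b h => by
      simpa using h
  have he : HasSum (fun k : ℕ => (1 : ℝ) / ((2 * k : ℕ) : ℝ) ^ 2) (1 / 4 * (Real.pi ^ 2 / 6)) := by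
    have e : (fun k : ℕ => (1 : ℝ) / ((2 * k : ℕ) : ℝ) ^ 2) =
        fun k : ℕ => 1 / 4 * ((1 : ℝ) / (k : ℝ) ^ 2) := by
      funext k; push_cast; ring
    rw [e]; exact hasSum_zeta_two.mul_left _
  have h := (HasSum.even_add_odd (f := fun n : ℕ => (1 : ℝ) / (n : ℝ) ^ 2) he hs.hasSum).unique
    hasSum_zeta_two
  have h2 := hs.hasSum
  rw [show ∑' k : ℕ, (1 : ℝ) / ((2 * k + 1 : ℕ) : ℝ) ^ 2 = Real.pi ^ 2 / 8 by linarith] at h2
  push_cast at h2
  exact h2

/-- only the even moments contribute -/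
theorem phitwo_even (d : ℤ) : HasSum (fun l : ℕ => (ww (2 * l) : ℝ) / (2 * (l : ℝ) + d)) (phiR d) := by
  have hs : Summable (fun l : ℕ => (ww (2 * l) : ℝ) / (((2 * l : ℕ) : ℝ) + d)) :=
    (summable_ww_div d).comp_injective (i := fun k => 2 * k) fun a b h => by simpa using h
  have ho : HasSum (fun l : ℕ => (ww (2 * l + 1) : ℝ) / (((2 * l + 1 : ℕ) : ℝ) + d)) 0 := by
    simp only [mom_ww_odd, Rat.cast_zero, zero_div]
    exact hasSum_zero
  have h := (HasSum.even_add_odd (f := fun m : ℕ => (ww m : ℝ) / ((m : ℝ) + d)) hs.hasSum ho).unique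
    (summable_ww_div d).hasSum
  have h2 := hs.hasSum
  rw [add_zero] at h
  rw [h] at h2
  push_cast at h2
  exact h2

/-- `φ(2) = ∑ w_{2l}/(2l+2) = -∫_0^1 log(1-t²) dz/z = 2 ∑ 1/(2k+1)²`
(`1 - t² = ff²`, `ρ/t = 1/z`). -/
theorem phiR_two : phiR 2 = Real.pi ^ 2 / 4 := by
  have ct := momint_tz_cont
  have cr := momint_rho_cont
  have habs : ∀ z ∈ Set.Ioo (0 : ℝ) 1, |z| < 1 := fun z hz => by
    rw [abs_of_pos hz.1]; exact hz.2
  set f : ℝ → ℝ := fun z => 2 / z * (Real.log (1 + z ^ 2) - Real.log (1 - z ^ 2)) with hf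
  -- first expansion
  have t1 : ∀ l : ℕ, ∫ z in Set.Ioo (0 : ℝ) 1, tz z ^ (2 * l + 1) * rho z / ((l : ℝ) + 1) =
      (ww (2 * l) : ℝ) / (2 * (l : ℝ) + ((2 : ℤ) : ℝ)) := by
    intro l
    rw [integral_div, int_tz_odd, div_div]; push_cast; congr 1; ring
  have h1 := (momint_series (s := Set.Ioo (0 : ℝ) 1) measurableSet_Ioo
    (F := fun l z => tz z ^ (2 * l + 1) * rho z / ((l : ℝ) + 1)) (f := f)
    (fun k => momint_integrableOn (by fun_prop) _ _) (by
      refine (phitwo_even 2).summable.congr fun l => ?_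
      rw [← t1]
      refine setIntegral_congr_fun measurableSet_Ioo fun z hz => ?_
      have h1 := momint_tz_nonneg hz.1.le
      have h3 := momint_rho_pos z
      exact (Real.norm_of_nonneg (by positivity)).symm) (by
      intro z hz
      have hz0 : z ≠ 0 := hz.1.ne'
      have ht : |tz z ^ 2| < 1 := by
        rw [abs_pow]; exact pow_lt_one₀ (abs_nonneg _) (momint_abs_tz_lt (habs z hz)) two_ne_zero
      have h := (Real.hasSum_pow_div_log_of_abs_lt_one ht).mul_left (1 / z)
      have e1 : 1 - tz z ^ 2 = ff z ^ 2 := by linarith [momint_sq z]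
      have hz2 : 0 < 1 - z ^ 2 := by nlinarith [hz.1, hz.2]
      have e2 : 1 / z * -Real.log (1 - tz z ^ 2) = f z := by
        rw [e1, Real.log_pow, hf]
        unfold ff
        rw [Real.log_div hz2.ne' (momint_den z)]
        push_cast; ring
      have e3 : (fun l : ℕ => tz z ^ (2 * l + 1) * rho z / ((l : ℝ) + 1)) =
          fun l : ℕ => 1 / z * ((tz z ^ 2) ^ (l + 1) / ((l : ℝ) + 1)) := by
        funext l
        have : rho z = 1 / z * tz z := by unfold rho tz; field_simp
        rw [this]; ring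
      rw [e3, ← e2]; exact h)).2
  simp_rw [t1] at h1
  -- second expansion
  have t2 : ∀ k : ℕ, ∫ z in Set.Ioo (0 : ℝ) 1, 4 / (2 * (k : ℝ) + 1) * z ^ (4 * k + 1) =
      2 * (1 / (2 * (k : ℝ) + 1) ^ 2) := by
    intro k
    rw [integral_const_mul, momint_Ioo zero_le_one, integral_pow]
    have : (2 * (k : ℝ) + 1) ≠ 0 := by positivity
    push_cast
    rw [show 4 * (k : ℝ) + 1 + 1 = 2 * (2 * k + 1) by ring]
    simp only [one_pow, ne_eq, Nat.add_eq_zero_iff, one_ne_zero, and_false, not_false_eq_true,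
      zero_pow, sub_zero]
    field_simp; ring
  have h2 := (momint_series (s := Set.Ioo (0 : ℝ) 1) measurableSet_Ioo
    (F := fun k z => 4 / (2 * (k : ℝ) + 1) * z ^ (4 * k + 1)) (f := f)
    (fun k => momint_integrableOn (by fun_prop) _ _) (by
      refine (phitwo_odd.mul_left 2).summable.congr fun l => ?_
      rw [← t2]
      refine setIntegral_congr_fun measurableSet_Ioo fun z hz => ?_
      have h1 := hz.1
      exact (Real.norm_of_nonneg (by positivity)).symm) (by
      intro z hz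
      have hz0 : z ≠ 0 := hz.1.ne'
      have ht : |z ^ 2| < 1 := by
        rw [abs_pow]; exact pow_lt_one₀ (abs_nonneg _) (habs z hz) two_ne_zero
      have h := (Real.hasSum_log_sub_log_of_abs_lt_one ht).mul_left (2 / z)
      have e3 : (fun k : ℕ => 4 / (2 * (k : ℝ) + 1) * z ^ (4 * k + 1)) =
          fun k : ℕ => 2 / z * (2 * (1 / (2 * (k : ℝ) + 1)) * (z ^ 2) ^ (2 * k + 1)) := by
        funext k
        field_simp; ring
      rw [e3]; exact h)).2
  simp_rw [t2] at h2
  have e1 := (phitwo_even 2).unique h1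
  have e2 := h2.unique (phitwo_odd.mul_left 2)
  rw [e1, e2]; ring

end Crest.Agent.R6
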