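import Crest.Agent.R6.RDefs

/-! The series `Z(i,j)` (telescoping, `hasSum_zeta_two`). -/

set_option autoImplicit false

namespace Crest.Agent.R6

open Finset

theorem zval_tel (i : ℕ) :
    HasSum (fun k : ℕ => 1 / ((i : ℝ) + k + 1) - 1 / ((i : ℝ) + k + 2)) (1 / ((i : ℝ) + 1)) := by
  rw [hasSum_iff_tendsto_nat_of_nonneg]
  · have h1 : ∀ n : ℕ, ∑ k ∈ range n, (1 / ((i : ℝ) + k + 1) - 1 / ((i : ℝ) + k + 2)) =
        1 / ((i : ℝ) + 1) - 1 / (((n + i : ℕ) : ℝ) + 1) := by
      intro n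
      induction n with
      | zero => simp
      | succ n ih => rw [Finset.sum_range_succ, ih]; push_cast; ring
    simp_rw [h1]
    have h2 := (Filter.tendsto_add_atTop_iff_nat i).2
      (tendsto_one_div_add_atTop_nhds_zero_nat (𝕜 := ℝ))
    simpa using h2.const_sub (1 / ((i : ℝ) + 1))
  · intro k
    rw [sub_nonneg]
    exact one_div_le_one_div_of_le (by positivity) (by linarith)

theorem zval_harm (i : ℕ) :
    HasSum (fun k : ℕ => 1 / ((k : ℝ) + 1) - 1 / ((i : ℝ) + k + 1)) (harmonic i : ℝ) := by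
  induction i with
  | zero => simpa using hasSum_zero
  | succ i ih =>
    have := ih.add (zval_tel i)
    convert this using 1
    · funext k; push_cast; ring
    · rw [harmonic_succ]; push_cast; ring

theorem ZR_eq (i j : ℕ) : ZR i j = (Z0 i j : ℝ) + if i = j then Real.pi ^ 2 / 6 else 0 := by
  unfold ZR Z0
  split_ifs with h
  · subst h
    have h1 := (hasSum_nat_add_iff' (i + 1)).2 hasSum_zeta_two
    rw [Finset.sum_range_succ'] at h1
    have h2 : (fun k : ℕ => 1 / (((i : ℝ) + k + 1) * ((i : ℝ) + k + 1))) =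
        fun n : ℕ => 1 / ((n + (i + 1) : ℕ) : ℝ) ^ 2 := by
      funext k; push_cast; ring
    rw [h2, h1.tsum_eq]
    push_cast; simp; ring
  · have hne : (i : ℝ) - j ≠ 0 := by
      rw [sub_ne_zero]; exact_mod_cast h
    have h1 := ((zval_harm i).sub (zval_harm j)).div_const ((i : ℝ) - j)
    have h2 : (fun k : ℕ => 1 / (((i : ℝ) + k + 1) * ((j : ℝ) + k + 1))) = fun k : ℕ =>
        (1 / ((k : ℝ) + 1) - 1 / ((i : ℝ) + k + 1) - (1 / ((k : ℝ) + 1) - 1 / ((j : ℝ) + k + 1))) /
          ((i : ℝ) - j) := by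
      funext k; field_simp; ring
    rw [h2, h1.tsum_eq]
    push_cast; ring

end Crest.Agent.R6
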