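import Crest.Agent.R6.Phi
import Crest.Agent.R6.PhiOne
import Crest.Agent.R6.PhiTwo
import Crest.Agent.R6.ZVal
import Crest.Agent.R6.IntMZ
import Crest.Agent.R6.Contact

/-! The entries of `matR` are integrals. -/

set_option autoImplicit false

namespace Crest.Agent.R6

open Finset MeasureTheory Polynomial

theorem entry_supp {N k j : ℕ} (hj : j ∈ (col N k).support) : j ≤ 6 * N + k + 2 * N := by
  refine (Polynomial.le_natDegree_of_mem_supp j hj).trans ?_
  unfold col
  refine Polynomial.natDegree_mul_le.trans (add_le_add (Polynomial.natDegree_X_pow_le _) ?_)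
  refine Polynomial.natDegree_pow_le.trans ?_
  have : (1 - X : ℚ[X]).natDegree ≤ 1 := by compute_degree
  nlinarith

/-- The `ζ(2)` parts cancel by `contact`. -/
theorem entry_series (N r k : ℕ) (hN : 1 ≤ N) (hr : r < 36 * N) (hk : k < 36 * N) :
    (entA N r k : ℝ) + catalan * (entB N r k : ℝ) =
      (∑ i ∈ (rowP N r).support, ∑ j ∈ (col N k).support,
        ((rowP N r).coeff i : ℝ) * ((col N k).coeff j : ℝ) * MR i j) -
      3 / 2 * ∑ i ∈ (rowD N r).support, ∑ j ∈ (col N k).support,
        ((rowD N r).coeff i : ℝ) * ((col N k).coeff j : ℝ) * ZR i j := by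
  have h1 : ∑ i ∈ (rowP N r).support, ∑ j ∈ (col N k).support,
      (rowP N r).coeff i * (col N k).coeff j * cz ((j : ℤ) - i - 1) =
      ∑ j ∈ (col N k).support, (col N k).coeff j * (rowD N r).coeff j := by
    rw [Finset.sum_comm]
    refine Finset.sum_congr rfl fun j hj => ?_
    rw [← contact N r hN hr j (by have := entry_supp hj; omega), Finset.mul_sum]
    exact Finset.sum_congr rfl fun i _ => by ring
  have h2 : ∑ i ∈ (rowD N r).support, ∑ j ∈ (col N k).support,
      ((rowD N r).coeff i : ℝ) * ((col N k).coeff j : ℝ) * (if i = j then Real.pi ^ 2 / 6 else 0) =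
      Real.pi ^ 2 / 6 * ∑ j ∈ (col N k).support, ((col N k).coeff j : ℝ) * ((rowD N r).coeff j : ℝ) := by
    rw [Finset.sum_comm, Finset.mul_sum]
    refine Finset.sum_congr rfl fun j _ => ?_
    simp only [mul_ite, mul_zero, Finset.sum_ite_eq', Polynomial.mem_support_iff]
    split_ifs with h
    · ring
    · rw [not_not.1 h]; simp
  have h3 : ∑ i ∈ (rowP N r).support, ∑ j ∈ (col N k).support,
      ((rowP N r).coeff i : ℝ) * ((col N k).coeff j : ℝ) * (cz ((j : ℤ) - i - 1) : ℝ) =
      ∑ j ∈ (col N k).support, ((col N k).coeff j : ℝ) * ((rowD N r).coeff j : ℝ) := by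
    exact_mod_cast h1
  have h4 : ∀ i j : ℕ, ((rowP N r).coeff i : ℝ) * ((col N k).coeff j : ℝ) * MR i j =
      ((rowP N r).coeff i : ℝ) * ((col N k).coeff j : ℝ) * (M0 i j : ℝ) +
        4 * catalan * (((rowP N r).coeff i : ℝ) * ((col N k).coeff j : ℝ) * (cz ((i : ℤ) - j) : ℝ)) +
        Real.pi ^ 2 / 4 * (((rowP N r).coeff i : ℝ) * ((col N k).coeff j : ℝ) *
          (cz ((j : ℤ) - i - 1) : ℝ)) := fun i j => by
    rw [MR_eq, phiR_one, phiR_two]; ring
  simp only [h4, ZR_eq, mul_add, Finset.sum_add_distrib, ← Finset.mul_sum, h2, h3, entA, entB, pair]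
  push_cast
  ring

theorem entry_tz {z : ℝ} (hz : z ∈ Set.Ioo (-1 : ℝ) 1) : |tz z| < 1 := by
  unfold tz
  have h0 : (0 : ℝ) < 1 + z ^ 2 := by positivity
  rw [abs_lt, lt_div_iff₀ h0, div_lt_iff₀ h0]
  constructor <;> nlinarith [hz.1, hz.2]

theorem entry_aeval (P : ℚ[X]) (x : ℝ) : aeval x P = ∑ i ∈ P.support, (P.coeff i : ℝ) * x ^ i := by
  rw [aeval_def, eval₂_eq_sum, Polynomial.sum_def]
  rfl

theorem colK_eq (N k : ℕ) (z : ℝ) (hz : z ∈ Set.Ioo (-1 : ℝ) 1) :
    colK N k z = ∑ j ∈ (col N k).support, ((col N k).coeff j : ℝ) * kk j (tz z) := by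
  have ht := entry_tz hz
  unfold colK kk
  have hi : ∀ j : ℕ, IntegrableOn (fun s : ℝ => s ^ j / (1 - tz z * s)) (Set.Ioo (0 : ℝ) 1) := fun j => by
    refine (ContinuousOn.integrableOn_Icc (a := 0) (b := 1) ?_).mono_set Set.Ioo_subset_Icc_self
    refine ContinuousOn.div (by fun_prop) (by fun_prop) fun s hs => ?_
    have h1 := (abs_lt.1 ht).2
    have h2 := hs.1
    have h3 := hs.2
    rcases le_total (tz z) 0 with h4 | h4 <;> nlinarith
  simp only [← integral_const_mul]
  rw [← integral_finsetSum _ fun j _ => (hi j).const_mul _]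
  refine integral_congr_ae (Filter.Eventually.of_forall fun s => ?_)
  have e : colF N k s = aeval s (col N k) := by simp [colF, col]
  simp only [e, entry_aeval, Finset.sum_mul]
  exact Finset.sum_congr rfl fun j _ => by ring

theorem entry_row (N r : ℕ) (hN : 1 ≤ N) (hr : r < 36 * N) (z : ℝ) (hz : z ∈ Set.Ioo (-1 : ℝ) 1) :
    rowF N r z = rho z * (|tz z| * aeval (tz z) (rowP N r)) -
      3 / 2 * (if z ∈ Set.Ioo (0 : ℝ) 1 then rho z * (ff z * aeval (tz z) (rowD N r)) else 0) := by
  have h0 : (0 : ℝ) < 1 + z ^ 2 := by positivity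
  rcases lt_trichotomy z 0 with h | rfl | h
  · have h1 : tz z < 0 := div_neg_of_neg_of_pos (by linarith) h0
    rw [if_neg (fun h' => absurd h'.1 h.not_gt), abs_of_neg h1, neg_mul, rowP_eval N r hN hr z h.ne]
    simp only [rowF, om, two, cs, if_neg h.not_gt]
    ring
  · have : 47 * N ≠ 0 := by omega
    simp [rowF, pre, tz, this]
  · have h1 : 0 < tz z := div_pos (by linarith) h0
    rw [if_pos ⟨h, hz.2⟩, abs_of_pos h1, rowP_eval N r hN hr z h.ne', rowD_eval N r hN hr z h.ne']
    simp only [rowF, om, two, cs, if_pos h]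
    ring

theorem entry_pt (N r k : ℕ) (hN : 1 ≤ N) (hr : r < 36 * N) (z : ℝ) (hz : z ∈ Set.Ioo (-1 : ℝ) 1) :
    rowF N r z * colK N k z =
      (∑ i ∈ (rowP N r).support, ∑ j ∈ (col N k).support,
        ((rowP N r).coeff i : ℝ) * ((col N k).coeff j : ℝ) *
          (|tz z| * tz z ^ i * rho z * kk j (tz z))) -
      3 / 2 * ∑ i ∈ (rowD N r).support, ∑ j ∈ (col N k).support,
        ((rowD N r).coeff i : ℝ) * ((col N k).coeff j : ℝ) *
          (Set.Ioo (0 : ℝ) 1).indicator (fun z => tz z ^ i * ff z * rho z * kk j (tz z)) z := by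
  rw [entry_row N r hN hr z hz, colK_eq N k z hz, entry_aeval, entry_aeval, sub_mul]
  congr 1
  · simp only [Finset.mul_sum, Finset.sum_mul]
    rw [Finset.sum_comm]
    exact Finset.sum_congr rfl fun i _ => Finset.sum_congr rfl fun j _ => by ring
  · rw [mul_assoc]
    congr 1
    by_cases h : z ∈ Set.Ioo (0 : ℝ) 1
    · simp only [if_pos h, Set.indicator_of_mem h, Finset.mul_sum, Finset.sum_mul]
      rw [Finset.sum_comm]
      exact Finset.sum_congr rfl fun i _ => Finset.sum_congr rfl fun j _ => by ring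
    · simp only [if_neg h, Set.indicator_of_notMem h, mul_zero, zero_mul, Finset.sum_const_zero]

theorem entry_ind (i j : ℕ) :
    IntegrableOn ((Set.Ioo (0 : ℝ) 1).indicator fun z => tz z ^ i * ff z * rho z * kk j (tz z))
      (Set.Ioo (-1 : ℝ) 1) ∧
    ∫ z in Set.Ioo (-1 : ℝ) 1, (Set.Ioo (0 : ℝ) 1).indicator
      (fun z => tz z ^ i * ff z * rho z * kk j (tz z)) z = ZR i j := by
  refine ⟨((integrable_indicator_iff measurableSet_Ioo).2 (integrableOn_Z i j)).integrableOn, ?_⟩
  rw [setIntegral_indicator measurableSet_Ioo, Set.inter_eq_right.2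
    (Set.Ioo_subset_Ioo_left (by norm_num)), int_Z]

theorem integrableOn_entry (N r k : ℕ) (hN : 1 ≤ N) (hr : r < 36 * N) :
    IntegrableOn (fun z => rowF N r z * colK N k z) (Set.Ioo (-1 : ℝ) 1) := by
  refine IntegrableOn.congr_fun ?_ (fun z hz => (entry_pt N r k hN hr z hz).symm) measurableSet_Ioo
  exact (integrable_finsetSum _ fun i _ => integrable_finsetSum _ fun j _ =>
    (integrableOn_M i j).const_mul _).sub ((integrable_finsetSum _ fun i _ =>
      integrable_finsetSum _ fun j _ => (entry_ind i j).1.const_mul _).const_mul _)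

theorem entry_eq (N : ℕ) (hN : 1 ≤ N) (r k : Fin (36 * N)) :
    matR N r k = ∫ z in Set.Ioo (-1 : ℝ) 1, rowF N r z * colK N k z := by
  have h1 : matR N r k = (entA N r k : ℝ) + catalan * (entB N r k : ℝ) := rfl
  rw [h1, entry_series N r k hN r.2 k.2,
    setIntegral_congr_fun measurableSet_Ioo fun z hz => entry_pt N r k hN r.2 z hz,
    integral_sub (integrable_finsetSum _ fun i _ => integrable_finsetSum _ fun j _ =>
      (integrableOn_M i j).const_mul _) ((integrable_finsetSum _ fun i _ =>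
        integrable_finsetSum _ fun j _ => (entry_ind i j).1.const_mul _).const_mul _),
    integral_const_mul,
    integral_finsetSum _ fun i _ => integrable_finsetSum _ fun j _ => (integrableOn_M i j).const_mul _,
    integral_finsetSum _ fun i _ => integrable_finsetSum _ fun j _ => (entry_ind i j).1.const_mul _]
  congr 1
  · refine Finset.sum_congr rfl fun i _ => ?_
    rw [integral_finsetSum _ fun j _ => (integrableOn_M i j).const_mul _]
    exact Finset.sum_congr rfl fun j _ => by rw [integral_const_mul, int_M]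
  · congr 1
    refine Finset.sum_congr rfl fun i _ => ?_
    rw [integral_finsetSum _ fun j _ => (entry_ind i j).1.const_mul _]
    exact Finset.sum_congr rfl fun j _ => by rw [integral_const_mul, (entry_ind i j).2]

end Crest.Agent.R6
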