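import Crest.Agent.R6.HP

/-! The linearised energy inequality for real points. -/

set_option autoImplicit false

namespace Crest.Agent.R6

open Finset

theorem hp2_shift {w : ℂ} {m η : ℝ} (hm : 0 < m) (hw : m ≤ ‖w‖) (hi : 0 ≤ w.im) (hη : 0 ≤ η) :
    Real.log ‖w‖ ≤ Real.log ‖w + η * Complex.I‖ ∧
      Real.log ‖w + η * Complex.I‖ ≤ Real.log ‖w‖ + η / m := by
  have h0 : 0 < ‖w‖ := lt_of_lt_of_le hm hw
  have h1 : ‖w‖ ≤ ‖w + η * Complex.I‖ := by
    rw [← sq_le_sq₀ (norm_nonneg _) (norm_nonneg _), Complex.sq_norm, Complex.sq_norm,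
      Complex.normSq_apply, Complex.normSq_apply]
    simp
    nlinarith
  have h2 : ‖w + η * Complex.I‖ ≤ ‖w‖ * (1 + η / m) := by
    refine (norm_add_le _ _).trans ?_
    have h3 : η ≤ ‖w‖ * (η / m) := by
      rw [← mul_div_assoc, le_div_iff₀ hm]
      nlinarith
    rw [norm_mul, Complex.norm_I, Complex.norm_real, Real.norm_of_nonneg hη]
    linarith
  have h3 : 0 < 1 + η / m := by positivity
  refine ⟨Real.log_le_log h0 h1, (Real.log_le_log (lt_of_lt_of_le h0 h1) h2).trans ?_⟩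
  rw [Real.log_mul h0.ne' h3.ne']
  have := Real.log_le_sub_one_of_pos h3
  linarith

theorem hp2_opp {d η : ℝ} (hd : 1 / 2 ≤ |d|) :
    Real.log ‖(d : ℂ) + (2 * η : ℝ) * Complex.I‖ ≤ Real.log |d| + 8 * η ^ 2 := by
  have h0 : 0 < |d| := by linarith
  have h1 : ‖(d : ℂ) + (2 * η : ℝ) * Complex.I‖ ≤ |d| * (1 + 8 * η ^ 2) := by
    rw [← sq_le_sq₀ (norm_nonneg _) (by positivity), Complex.sq_norm, Complex.normSq_add_mul_I,
      mul_pow |d|, sq_abs]
    have h2 : 1 / 4 ≤ d ^ 2 := by rw [← sq_abs]; nlinarith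
    nlinarith [sq_nonneg η, sq_nonneg (η ^ 2), mul_nonneg (sq_nonneg d) (sq_nonneg (η ^ 2)),
      mul_le_mul_of_nonneg_right h2 (sq_nonneg η)]
  have h2 : 0 < ‖(d : ℂ) + (2 * η : ℝ) * Complex.I‖ := by
    refine lt_of_lt_of_le h0 ?_
    simpa using Complex.abs_re_le_norm ((d : ℂ) + (2 * η : ℝ) * Complex.I)
  have h3 : 0 < 1 + 8 * η ^ 2 := by positivity
  refine (Real.log_le_log h2 h1).trans ?_
  rw [Real.log_mul h0.ne' h3.ne']
  have := Real.log_le_sub_one_of_pos h3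
  linarith

theorem hp2_pair {d η e e' : ℝ} (hη : 0 ≤ η) (he : e = 1 ∨ e = -1) (he' : e' = 1 ∨ e' = -1)
    (hd : d ≠ 0) (h : e ≠ e' → 1 / 2 ≤ |d|) :
    e * e' * Real.log |d| ≤ e * e' * Real.log ‖(d : ℂ) + (2 * η : ℝ) * Complex.I‖ + 8 * η ^ 2 := by
  by_cases h1 : e = e'
  · have h2 : e * e' = 1 := by rcases he with rfl | rfl <;> rw [← h1] <;> norm_num
    have h3 := (hp2_shift (w := d) (η := 2 * η) (abs_pos.2 hd) (by simp) (by simp) (by positivity)).1
    rw [Complex.norm_real, Real.norm_eq_abs] at h3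
    rw [h2]
    nlinarith [sq_nonneg η]
  · have h2 : e * e' = -1 := by
      rcases he with rfl | rfl <;> rcases he' with rfl | rfl <;> simp at h1 ⊢
    have h3 := hp2_opp (η := η) (h h1)
    rw [h2]
    linarith

theorem hp2_cross (y : ℝ) {a : ℂ} (ha : 0 < a.im) {η : ℝ} (hη : 0 ≤ η) :
    |Real.log ‖(y : ℂ) + η * Complex.I - (starRingEnd ℂ) a‖ - Real.log ‖(y : ℂ) - a‖| ≤
      η / a.im := by
  have e1 : ‖(y : ℂ) - a‖ = ‖(y : ℂ) - (starRingEnd ℂ) a‖ := by
    rw [← Complex.norm_conj, map_sub, Complex.conj_ofReal]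
  have h1 : a.im ≤ ‖(y : ℂ) - (starRingEnd ℂ) a‖ := by
    simpa using Complex.im_le_norm ((y : ℂ) - (starRingEnd ℂ) a)
  obtain ⟨h2, h3⟩ := hp2_shift (η := η) ha h1 (by simpa using ha.le) hη
  rw [e1, add_sub_right_comm, abs_of_nonneg (by linarith)]
  linarith

/-- Apply `hp_energy_nonpos` on `ι ⊕ κ` to the points `y p + I/n` (charge `e p`) and `a k`
(charge `-n γ k`). Diagonal: `-(card ι) log (2/n)`; equal signs:
`log |y - y'| ≤ log ‖y - y' + 2I/n‖`; opposite signs: the loss is `≤ 8/n²` each;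
`|log ‖y - conj a + I/n‖ - log ‖y - a‖| ≤ 1/(n im a)`. -/
theorem energy_bound {κ : Type} [Fintype κ] (a : κ → ℂ) (ha : ∀ k, 0 < (a k).im) (γ : κ → ℝ) :
    ∃ K : ℝ, ∀ n : ℕ, 1 ≤ n → ∀ {ι : Type} [Fintype ι] [DecidableEq ι] (y e : ι → ℝ),
      Fintype.card ι ≤ 2 * n → (∀ p, e p = 1 ∨ e p = -1) → Function.Injective y →
      (∀ p p', e p ≠ e p' → 1 / 2 ≤ |y p - y p'|) → ∑ p, e p = n * ∑ k, γ k →
      1 / 2 * ∑ p, ∑ p' ∈ univ.erase p, e p * e p' * Real.log |y p - y p'| ≤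
        n * ∑ p, e p * ∑ k, γ k * Real.log ‖(y p : ℂ) - a k‖ -
        (n : ℝ) ^ 2 / 2 * ∑ k, ∑ l, γ k * γ l * Real.log ‖a k - (starRingEnd ℂ) (a l)‖ +
        K * n * (1 + Real.log n) := by
  set B := ∑ k, |γ k| / (a k).im with hB
  have hB0 : 0 ≤ B := sum_nonneg fun k _ => div_nonneg (abs_nonneg _) (ha k).le
  refine ⟨2 * B + 17, fun n hn ι _ _ y e hcard he hy hsep hsum => ?_⟩
  have hn1 : (1 : ℝ) ≤ n := by exact_mod_cast hn
  have hn0 : (0 : ℝ) < n := by linarith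
  have hc : (Fintype.card ι : ℝ) ≤ 2 * n := by exact_mod_cast hcard
  set η : ℝ := 1 / n with hη
  have hη0 : 0 < η := by positivity
  have hηn : η * n = 1 := by rw [hη]; field_simp
  have hlog : 0 ≤ Real.log n := Real.log_nonneg hn1
  have h := hp_energy_nonpos (ι := ι ⊕ κ) (Sum.elim e fun k => -(n * γ k))
    (by simp [hsum, mul_sum]) (Sum.elim (fun p => (y p : ℂ) + η * Complex.I) a)
    (by rintro (p | k) <;> simp [hη0, ha])
  simp only [Fintype.sum_sum_type, Sum.elim_inl, Sum.elim_inr, sum_add_distrib] at h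
  set S2 := ∑ p, e p * ∑ k, γ k *
    Real.log ‖(y p : ℂ) + η * Complex.I - (starRingEnd ℂ) (a k)‖ with hS2
  set S3 := ∑ k, ∑ l, γ k * γ l * Real.log ‖a k - (starRingEnd ℂ) (a l)‖ with hS3
  set S1 := ∑ p, ∑ p', e p * e p' *
    Real.log ‖((y p - y p' : ℝ) : ℂ) + (2 * η : ℝ) * Complex.I‖ with hS1
  have e1 : ∑ p, ∑ p', e p * e p' * Real.log ‖(y p : ℂ) + η * Complex.I -
      (starRingEnd ℂ) ((y p' : ℂ) + η * Complex.I)‖ = S1 := by
    refine sum_congr rfl fun p _ => sum_congr rfl fun p' _ => ?_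
    congr 3
    simp
    ring
  have e2 : ∑ p, ∑ k, e p * -(n * γ k) *
      Real.log ‖(y p : ℂ) + η * Complex.I - (starRingEnd ℂ) (a k)‖ = -(n * S2) := by
    simp only [hS2, mul_sum, ← sum_neg_distrib]
    exact sum_congr rfl fun p _ => sum_congr rfl fun k _ => by ring
  have e3 : ∑ k, ∑ p, -(n * γ k) * e p *
      Real.log ‖a k - (starRingEnd ℂ) ((y p : ℂ) + η * Complex.I)‖ = -(n * S2) := by
    rw [sum_comm, ← e2]
    refine sum_congr rfl fun p _ => sum_congr rfl fun k _ => ?_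
    rw [← Complex.norm_conj (a k - _), map_sub, Complex.conj_conj, norm_sub_rev]
    ring
  have e4 : ∑ k, ∑ l, -(n * γ k) * -(n * γ l) * Real.log ‖a k - (starRingEnd ℂ) (a l)‖ =
      n ^ 2 * S3 := by
    simp only [hS3, mul_sum]
    exact sum_congr rfl fun p _ => sum_congr rfl fun k _ => by ring
  rw [e1, e2, e3, e4] at h
  have h1 : ∑ p, ∑ p' ∈ univ.erase p, e p * e p' * Real.log |y p - y p'| ≤
      S1 + Fintype.card ι * (Real.log n + 16 * η) := by
    rw [hS1, ← card_univ, ← nsmul_eq_mul, ← sum_const, ← sum_add_distrib]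
    refine sum_le_sum fun p _ => ?_
    rw [← add_sum_erase _ _ (mem_univ p)]
    have h2 : e p * e p = 1 := by rcases he p with h | h <;> rw [h] <;> norm_num
    have h3 : -Real.log n ≤ Real.log ‖((y p - y p : ℝ) : ℂ) + (2 * η : ℝ) * Complex.I‖ := by
      rw [sub_self, Complex.ofReal_zero, zero_add, norm_mul, Complex.norm_I, mul_one,
        Complex.norm_real, Real.norm_of_nonneg (by positivity), ← Real.log_inv]
      refine Real.log_le_log (by positivity) ?_
      rw [← one_div]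
      linarith
    have h4 := sum_le_sum fun p' (hp' : p' ∈ univ.erase p) => hp2_pair hη0.le (he p) (he p')
      (sub_ne_zero.2 fun h => (mem_erase.1 hp').1 (hy h).symm) (hsep p p')
    rw [sum_add_distrib, sum_const, nsmul_eq_mul] at h4
    have h5 : ((univ.erase p).card : ℝ) ≤ 2 * n :=
      le_trans (by exact_mod_cast card_le_univ _) hc
    have h6 : ((univ.erase p).card : ℝ) * (8 * η ^ 2) ≤ 16 * η := by
      calc _ ≤ 2 * n * (8 * η ^ 2) := by gcongr
        _ = 16 * η * (η * n) := by ring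
        _ = _ := by rw [hηn, mul_one]
    rw [h2]
    linarith
  have h2 : S2 ≤ ∑ p, e p * ∑ k, γ k * Real.log ‖(y p : ℂ) - a k‖ + Fintype.card ι * (η * B) := by
    rw [hS2, ← card_univ, ← nsmul_eq_mul, ← sum_const, ← sum_add_distrib]
    refine sum_le_sum fun p _ => ?_
    rw [← sub_le_iff_le_add', ← mul_sub, ← sum_sub_distrib]
    refine (le_abs_self _).trans ?_
    have h3 : |e p| = 1 := by rcases he p with h | h <;> rw [h] <;> norm_num
    rw [abs_mul, h3, one_mul, hB, mul_sum]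
    refine (abs_sum_le_sum_abs _ _).trans (sum_le_sum fun k _ => ?_)
    rw [← mul_sub, abs_mul]
    calc _ ≤ |γ k| * (η / (a k).im) :=
          mul_le_mul_of_nonneg_left (hp2_cross (y p) (ha k) hη0.le) (abs_nonneg _)
      _ = _ := by ring
  have h3 : (Fintype.card ι : ℝ) * (Real.log n + 16 * η) ≤ 2 * n * Real.log n + 32 := by
    calc _ ≤ 2 * n * (Real.log n + 16 * η) := by gcongr
      _ = 2 * n * Real.log n + 32 * (η * n) := by ring
      _ = _ := by rw [hηn, mul_one]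
  have h4 : (Fintype.card ι : ℝ) * (η * B) ≤ 2 * B := by
    calc _ ≤ 2 * n * (η * B) := by gcongr
      _ = 2 * B * (η * n) := by ring
      _ = _ := by rw [hηn, mul_one]
  have h5 := mul_le_mul_of_nonneg_left (h2.trans (add_le_add le_rfl h4)) hn0.le
  have h6 : 0 ≤ B * (n * Real.log n) := by positivity
  have h7 : 0 ≤ n * Real.log n := by positivity
  nlinarith

end Crest.Agent.R6
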