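import Crest.Agent.R6.RDefs
import Crest.Agent.R6.Cauchy
import Crest.Agent.R6.HP2

/-! The three determinants bounded by trial potentials. -/

set_option autoImplicit false

namespace Crest.Agent.R6

open Finset

/-- the Möbius-type change of variables -/
noncomputable def forms_a (u : ℂ) : ℂ := (1 + u ^ 2) / (1 - u) ^ 2 - 1 / 4

theorem forms_ne {u : ℂ} (h : ‖u‖ < 1) : 1 - u ≠ 0 := fun h0 => by
  rw [← sub_eq_zero.1 h0, norm_one] at h
  exact lt_irrefl _ h

theorem forms_ne2 {u v : ℂ} (hu : ‖u‖ < 1) (hv : ‖v‖ < 1) : 1 - u * v ≠ 0 :=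
  forms_ne (by
    rw [norm_mul]
    exact mul_lt_one_of_nonneg_of_lt_one_left (norm_nonneg _) hu hv.le)

theorem forms_log {u v : ℂ} (hu : ‖u‖ < 1) (hv : ‖v‖ < 1) (h : u - v ≠ 0) :
    Real.log ‖forms_a u - forms_a v‖ = Real.log 2 + Real.log ‖u - v‖ + Real.log ‖1 - u * v‖ -
      2 * Real.log ‖1 - u‖ - 2 * Real.log ‖1 - v‖ := by
  have h1 := forms_ne hu
  have h2 := forms_ne hv
  have h3 := forms_ne2 hu hv
  have e : forms_a u - forms_a v = 2 * (u - v) * (1 - u * v) / ((1 - u) ^ 2 * (1 - v) ^ 2) := by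
    unfold forms_a
    field_simp
    ring
  have a1 := norm_pos_iff.2 h1
  have a2 := norm_pos_iff.2 h2
  have a3 := norm_pos_iff.2 h3
  have a4 := norm_pos_iff.2 h
  rw [e, norm_div, norm_mul, norm_mul, norm_mul, norm_pow, norm_pow, Complex.norm_ofNat,
    Real.log_div (by positivity) (by positivity), Real.log_mul (by positivity) a3.ne',
    Real.log_mul (by positivity) a4.ne', Real.log_mul (by positivity) (by positivity), Real.log_pow,
    Real.log_pow]
  push_cast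
  ring

theorem forms_im {u : ℂ} (hu : ‖u‖ < 1) (hi : 0 < u.im) : 0 < (forms_a u).im := by
  have h1 := forms_ne hu
  have h2 : u.re ^ 2 + u.im ^ 2 < 1 := by
    have h3 := Complex.sq_norm u
    rw [Complex.normSq_apply] at h3
    nlinarith [norm_nonneg u]
  have h3 : 0 < Complex.normSq ((1 - u) ^ 2) := Complex.normSq_pos.2 (pow_ne_zero 2 h1)
  have e : (forms_a u).im = 2 * u.im * (1 - (u.re ^ 2 + u.im ^ 2)) / Complex.normSq ((1 - u) ^ 2) := by
    rw [forms_a, Complex.sub_im, Complex.div_im, ← sub_div]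
    simp [sq]
    congr 1
    ring
  rw [e]
  have : 0 < 1 - (u.re ^ 2 + u.im ^ 2) := by linarith
  positivity

theorem forms_log2 {u : ℂ} (hu : ‖u‖ < 1) (hi : 0 < u.im) {s : ℝ} (hs : s < 1) :
    Real.log ‖((-(1 / (1 - s) - 3 / 4) : ℝ) : ℂ) - forms_a u‖ =
      Real.log ‖1 + u ^ 2 - 2 * u * (s : ℂ)‖ - Real.log (1 - s) - 2 * Real.log ‖1 - u‖ := by
  have h1 := forms_ne hu
  have h2 : 0 < 1 - s := by linarith
  have h3 : (1 : ℂ) - s ≠ 0 := by exact_mod_cast h2.ne'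
  have e : ((-(1 / (1 - s) - 3 / 4) : ℝ) : ℂ) - forms_a u =
      -(1 + u ^ 2 - 2 * u * (s : ℂ)) / (((1 - s : ℝ) : ℂ) * (1 - u) ^ 2) := by
    unfold forms_a
    push_cast
    field_simp
    ring
  have h4 : 1 + u ^ 2 - 2 * u * (s : ℂ) ≠ 0 := fun h => by
    rw [h, neg_zero, zero_div] at e
    have := congrArg Complex.im e
    rw [Complex.sub_im, Complex.ofReal_im, Complex.zero_im] at this
    linarith [forms_im hu hi]
  have a1 := norm_pos_iff.2 h1
  have a4 := norm_pos_iff.2 h4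
  rw [e, norm_div, norm_neg, norm_mul, norm_pow, Complex.norm_real, Real.norm_of_nonneg h2.le,
    Real.log_div a4.ne' (by positivity), Real.log_mul h2.ne' (by positivity), Real.log_pow]
  push_cast
  ring

theorem forms_cast (z : ℝ) : (((1 + z ^ 2) / (1 - z) ^ 2 - 1 / 4 : ℝ) : ℂ) = forms_a z := by
  unfold forms_a
  push_cast
  rfl

theorem forms_tau {z : ℝ} (hz : z ∈ Set.Ioo (-1 : ℝ) 1) : 1 / 4 ≤ (1 + z ^ 2) / (1 - z) ^ 2 - 1 / 4 := by
  have h1 : 0 < 1 - z := by linarith [hz.2]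
  have : 1 / 2 ≤ (1 + z ^ 2) / (1 - z) ^ 2 := by
    rw [le_div_iff₀ (by positivity)]
    nlinarith [sq_nonneg (1 + z)]
  linarith

theorem forms_sig {s : ℝ} (hs : s ∈ Set.Ioo (0 : ℝ) 1) : 1 / 4 ≤ 1 / (1 - s) - 3 / 4 := by
  have h1 : 0 < 1 - s := by linarith [hs.2]
  have : 1 ≤ 1 / (1 - s) := by
    rw [le_div_iff₀ h1]
    linarith [hs.1]
  linarith

theorem forms_tz {z : ℝ} : 1 - tz z = (1 - z) ^ 2 / (1 + z ^ 2) := by
  unfold tz
  field_simp
  ring

theorem forms_entry {z s : ℝ} (hz : z ∈ Set.Ioo (-1 : ℝ) 1) (hs : s ∈ Set.Ioo (0 : ℝ) 1) :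
    1 / (1 - tz z * s) = (1 - tz z)⁻¹ *
      ((1 - s)⁻¹ * (1 / ((1 + z ^ 2) / (1 - z) ^ 2 - 1 / 4 + (1 / (1 - s) - 3 / 4)))) := by
  have h1 : 1 - z ≠ 0 := by linarith [hz.2]
  have h2 : 1 - s ≠ 0 := by linarith [hs.2]
  have h3 : 1 + z ^ 2 ≠ 0 := by positivity
  have e : 1 - tz z * s = (1 - tz z) * ((1 - s) *
      ((1 + z ^ 2) / (1 - z) ^ 2 - 1 / 4 + (1 / (1 - s) - 3 / 4))) := by
    rw [forms_tz]
    unfold tz
    field_simp
    ring
  rw [e]
  simp only [one_div, mul_inv]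

theorem forms_erase {ι : Type} [Fintype ι] [DecidableEq ι] (y : ι → ℝ) (c : ι → ℝ) (p : ι) :
    ∑ p' ∈ univ.erase p, c p' * Real.log |y p - y p'| = ∑ p', c p' * Real.log |y p - y p'| :=
  sum_erase _ (by simp)

/-- Vandermonde (`log_det_vandermonde`, `energy_bound` with `e = 1`). -/
theorem form_vdm (A : Atoms) (him : ∀ k, 0 < (A.a k).im) (hm : A.mass = 1) :
    ∃ K : ℝ, ∀ n : ℕ, 1 ≤ n → ∀ x : Fin n → ℝ, Function.Injective x →
      Real.log |(Matrix.of fun (r i : Fin n) => x i ^ (r : ℕ)).det| ≤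
        n * ∑ i, A.U (x i) - (n : ℝ) ^ 2 / 2 * A.L + K * n * (1 + Real.log n) := by
  obtain ⟨K, hK⟩ := energy_bound A.a him A.γ
  refine ⟨K, fun n hn x hx => ?_⟩
  have h := hK n hn x (fun _ => 1) (by simp; omega) (fun _ => Or.inl rfl) hx (fun _ _ h => absurd rfl h)
    (by
      have : ∑ k, A.γ k = 1 := hm
      simp [this])
  simp only [one_mul] at h
  rw [log_det_vandermonde x hx]
  exact h

/-- Cauchy. Put `τ_i = (1+z_i²)/(1-z_i)² - 1/4 ≥ 1/4`, `σ_j = 1/(1-s_j) - 3/4 ≥ 1/4`, so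
`τ + σ = (1 - t s)/((1-t)(1-s))`; apply `log_det_cauchy` and `energy_bound` on `Fin n ⊕ Fin n` to
the points `τ_i` (sign `+`), `-σ_j` (sign `-`), with atoms `(1+ζ²)/(1-ζ)² - 1/4`, and use
`(1+z²)/(1-z)² - (1+ζ²)/(1-ζ)² = 2 (z-ζ)(1-zζ)/((1-z)²(1-ζ)²)`,
`-s/(1-s) - (1+ζ²)/(1-ζ)² = -(1+ζ²-2ζs)/((1-s)(1-ζ)²)` and `mass = 0`. -/
theorem form_cauchy (B : Atoms) (him : ∀ k, 0 < (B.a k).im) (hn : ∀ k, ‖B.a k‖ < 1)
    (hm : B.mass = 0) :
    ∃ K : ℝ, ∀ n : ℕ, 1 ≤ n → ∀ z s : Fin n → ℝ, (∀ i, z i ∈ Set.Ioo (-1 : ℝ) 1) →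
      (∀ j, s j ∈ Set.Ioo (0 : ℝ) 1) → Function.Injective z → Function.Injective s →
      Real.log |(Matrix.of fun (i j : Fin n) => 1 / (1 - tz (z i) * s j)).det| ≤
        -∑ i, Real.log (1 - tz (z i)) - ∑ j, Real.log (1 - s j) +
        n * ∑ i, (B.U (z i) + B.Ustar (z i)) - n * ∑ j, B.Us (s j) -
        (n : ℝ) ^ 2 / 2 * (B.L + B.Lstar) + K * n * (1 + Real.log n) := by
  obtain ⟨K, hK⟩ := energy_bound (fun k => forms_a (B.a k)) (fun k => forms_im (hn k) (him k)) B.γ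
  refine ⟨K, fun n h1 z s hz hs iz is => ?_⟩
  have hm' : ∑ k, B.γ k = 0 := hm
  set τ : Fin n → ℝ := fun i => (1 + z i ^ 2) / (1 - z i) ^ 2 - 1 / 4 with hτ
  set σ : Fin n → ℝ := fun j => 1 / (1 - s j) - 3 / 4 with hσ
  have τ0 : ∀ i, 1 / 4 ≤ τ i := fun i => forms_tau (hz i)
  have σ0 : ∀ j, 1 / 4 ≤ σ j := fun j => forms_sig (hs j)
  have z1 : ∀ i, 0 < 1 - z i := fun i => by linarith [(hz i).2]
  have s1 : ∀ j, 0 < 1 - s j := fun j => by linarith [(hs j).2]
  have zn : ∀ i, ‖(z i : ℂ)‖ < 1 := fun i => by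
    rw [Complex.norm_real, Real.norm_eq_abs]
    exact abs_lt.2 (hz i)
  have iτ : Function.Injective τ := by
    intro i j h
    apply iz
    have a1 := z1 i
    have a2 := z1 j
    have a3 : (1 + z i ^ 2) / (1 - z i) ^ 2 = (1 + z j ^ 2) / (1 - z j) ^ 2 := by
      simpa [hτ] using h
    rw [div_eq_div_iff (by positivity) (by positivity)] at a3
    have a4 : (z i - z j) * (1 - z i * z j) = 0 := by linarith
    have a5 : 0 < 1 - z i * z j := by nlinarith [(hz i).1, (hz j).1]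
    exact sub_eq_zero.1 ((mul_eq_zero.1 a4).resolve_right a5.ne')
  have iσ : Function.Injective σ := by
    intro i j h
    apply is
    have a3 : 1 / (1 - s i) = 1 / (1 - s j) := by
      have : σ i = σ j := h
      simp only [hσ] at this
      linarith
    rw [div_eq_div_iff (s1 i).ne' (s1 j).ne'] at a3
    linarith
  obtain ⟨c1, c2⟩ := log_det_cauchy τ σ iτ iσ fun i j => by linarith [τ0 i, σ0 j]
  have h := hK n h1 (ι := Fin n ⊕ Fin n) (Sum.elim τ fun j => -σ j) (Sum.elim (fun _ => 1) fun _ => -1)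
    (by simp; omega) (by rintro (i | j) <;> simp)
    (iτ.sumElim (fun i j h => iσ (neg_injective h)) fun i j => by linarith [τ0 i, σ0 j])
    (by
      rintro (i | i) (j | j) h
      · exact absurd rfl h
      · exact le_trans (by simp only [Sum.elim_inl, Sum.elim_inr]; linarith [τ0 i, σ0 j]) (le_abs_self _)
      · exact le_trans (by simp only [Sum.elim_inl, Sum.elim_inr]; linarith [τ0 j, σ0 i]) (neg_le_abs _)
      · exact absurd rfl h)
    (by simp [hm'])
  simp only [forms_erase, Fintype.sum_sum_type, Sum.elim_inl, Sum.elim_inr, sum_add_distrib] at h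
  have t0 : ∀ i, 0 < 1 - tz (z i) := fun i => by
    rw [forms_tz]
    have := z1 i
    positivity
  have d1 : (Matrix.of fun (i j : Fin n) => 1 / (1 - tz (z i) * s j)) =
      Matrix.of fun i j => (1 - tz (z i))⁻¹ * (Matrix.of fun i j => (1 - s j)⁻¹ *
        (Matrix.of fun i j => 1 / (τ i + σ j)) i j) i j := by
    ext i j
    exact forms_entry (hz i) (hs j)
  have d2 : Real.log |(Matrix.of fun (i j : Fin n) => 1 / (1 - tz (z i) * s j)).det| =
      -∑ i, Real.log (1 - tz (z i)) - ∑ j, Real.log (1 - s j) +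
        Real.log |(Matrix.of fun i j => 1 / (τ i + σ j)).det| := by
    have n1 : ∀ i ∈ (univ : Finset (Fin n)), (1 - tz (z i))⁻¹ ≠ 0 := fun i _ => inv_ne_zero (t0 i).ne'
    have n2 : ∀ j ∈ (univ : Finset (Fin n)), (1 - s j)⁻¹ ≠ 0 := fun j _ => inv_ne_zero (s1 j).ne'
    rw [d1, Matrix.det_mul_column, Matrix.det_mul_row, Real.log_abs, Real.log_abs,
      Real.log_mul (prod_ne_zero_iff.2 n1) (mul_ne_zero (prod_ne_zero_iff.2 n2) c1),
      Real.log_mul (prod_ne_zero_iff.2 n2) c1, Real.log_prod n1, Real.log_prod n2]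
    simp only [Real.log_inv, sum_neg_distrib]
    ring
  set W := ∑ k, B.γ k * Real.log ‖1 - B.a k‖ with hW
  have u1 : ∀ i, ∑ k, B.γ k * Real.log ‖(τ i : ℂ) - forms_a (B.a k)‖ =
      B.U (z i) + B.Ustar (z i) - 2 * W := by
    intro i
    have e : ∀ k, B.γ k * Real.log ‖(τ i : ℂ) - forms_a (B.a k)‖ =
        B.γ k * (Real.log 2 - 2 * Real.log ‖1 - (z i : ℂ)‖) + (B.γ k * Real.log ‖(z i : ℂ) - B.a k‖ +
          B.γ k * Real.log ‖1 - (z i : ℂ) * B.a k‖ - 2 * (B.γ k * Real.log ‖1 - B.a k‖)) := by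
      intro k
      rw [hτ]
      dsimp only
      rw [forms_cast, forms_log (zn i) (hn k) fun h => by
        have := congrArg Complex.im h
        simp at this
        linarith [him k]]
      ring
    simp only [e, sum_add_distrib, sum_sub_distrib, ← sum_mul, ← mul_sum, hm', zero_mul, zero_add]
    rfl
  have u2 : ∀ j, ∑ k, B.γ k * Real.log ‖((-σ j : ℝ) : ℂ) - forms_a (B.a k)‖ = B.Us (s j) - 2 * W := by
    intro j
    have e : ∀ k, B.γ k * Real.log ‖((-σ j : ℝ) : ℂ) - forms_a (B.a k)‖ =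
        B.γ k * (-Real.log (1 - s j)) + (B.γ k * Real.log ‖1 + B.a k ^ 2 - 2 * B.a k * (s j : ℂ)‖ -
          2 * (B.γ k * Real.log ‖1 - B.a k‖)) := by
      intro k
      rw [hσ]
      dsimp only
      rw [forms_log2 (hn k) (him k) (hs j).2]
      ring
    simp only [e, sum_add_distrib, sum_sub_distrib, ← sum_mul, ← mul_sum, hm', zero_mul, zero_add]
    rfl
  have u3 : ∑ k, ∑ l, B.γ k * B.γ l * Real.log ‖forms_a (B.a k) - (starRingEnd ℂ) (forms_a (B.a l))‖ =
      B.L + B.Lstar := by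
    have e : ∀ k l, B.γ k * B.γ l * Real.log ‖forms_a (B.a k) - (starRingEnd ℂ) (forms_a (B.a l))‖ =
        B.γ k * (Real.log 2 - 2 * Real.log ‖1 - B.a k‖) * B.γ l +
          B.γ k * (B.γ l * (-2 * Real.log ‖1 - B.a l‖)) +
          (B.γ k * B.γ l * Real.log ‖B.a k - (starRingEnd ℂ) (B.a l)‖ +
          B.γ k * B.γ l * Real.log ‖1 - B.a k * (starRingEnd ℂ) (B.a l)‖) := by
      intro k l
      have e1 : (starRingEnd ℂ) (forms_a (B.a l)) = forms_a ((starRingEnd ℂ) (B.a l)) := by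
        simp [forms_a, map_ofNat]
      have e2 : ‖1 - (starRingEnd ℂ) (B.a l)‖ = ‖1 - B.a l‖ := by
        rw [← Complex.norm_conj (1 - B.a l), map_sub, map_one]
      rw [e1, forms_log (hn k) (by rw [Complex.norm_conj]; exact hn l) fun h => by
        have := congrArg Complex.im h
        simp at this
        linarith [him k, him l], e2]
      ring
    simp only [e, sum_add_distrib, ← mul_sum, ← sum_mul, hm', zero_mul, mul_zero, zero_add, sum_const_zero]
    rfl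
  have w1 : ∀ i j, Real.log |τ i - -σ j| = Real.log |τ i + σ j| := fun i j => by rw [sub_neg_eq_add]
  have w2 : ∀ i j, Real.log |-σ j - τ i| = Real.log |τ i + σ j| := fun i j => by
    rw [← abs_neg]
    congr 2
    ring
  have w3 : ∀ i j, Real.log |-σ i - -σ j| = Real.log |σ i - σ j| := fun i j => by
    rw [← abs_neg]
    congr 2
    ring
  have w4 := fun i => forms_erase τ (fun _ => 1) i
  have w5 := fun i => forms_erase σ (fun _ => 1) i
  simp only [one_mul] at w4 w5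
  simp only [u1, u2, u3, w1, w2, w3, mul_one, one_mul, mul_neg, neg_mul, neg_neg, sum_neg_distrib,
    sum_sub_distrib, sum_const] at h
  rw [sum_comm (f := fun j i => Real.log |τ i + σ j|)] at h
  simp only [w4, w5] at c2
  rw [d2, c2]
  linarith

end Crest.Agent.R6
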