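import Crest.Agent.R6.GlueDefs
import Crest.Agent.R6.Chk

/-! From checked integer data to the clauses of `Cert`. `log S⁴ = 96 log 2`. -/

set_option autoImplicit false

namespace Crest.Agent.R6

theorem Bd.trans {ts : List LT} {M : ℤ} {a b c : ℕ} (h1 : Bd ts M a b) (h2 : Bd ts M b c) :
    Bd ts M a c := fun y ha hc hq => by
  rcases le_total y b with h | h
  · exact h1 y ha h hq
  · exact h2 y h hc hq

theorem Bd.of_chk {ts : List LT} {M : ℤ} {a b : ℕ} {l : List ℕ}
    (h : chk ts M a (l ++ [b]) = true) : Bd ts M a b := fun y ha hb hq =>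
  chk_sound ts M a (l ++ [b]) (by simp) h y ha (by simpa using hb) hq

/-- the point of an atom -/
noncomputable def gluePt (t : At) : ℂ := ((t.u : ℂ) + (t.v : ℂ) * Complex.I) / 16777216

theorem glue_re (t : At) : (gluePt t).re = t.u / 16777216 := by simp [gluePt]

theorem glue_im (t : At) : (gluePt t).im = t.v / 16777216 := by simp [gluePt]

theorem glue_a (l : List At) (k : Fin (ofList l).m) : (ofList l).a k = gluePt (l[k.1]'k.2) := rfl

theorem glue_ok {l : List At} {m : ℤ} (h : atomsOK l m = true) :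
    (∀ t ∈ l, 0 < t.v) ∧ (l.map At.g).sum = m := by
  simpa [atomsOK] using h

theorem glue_sum (l : List At) (f : At → ℝ) :
    ∑ k : Fin (ofList l).m, f (l[k.1]'k.2) = (l.map f).sum := Fin.sum_univ_fun_getElem l f

theorem glue_norm {l : List At} (h : discOK l = true) {t : At} (ht : t ∈ l) : ‖gluePt t‖ < 1 := by
  have h1 : t.u * t.u + t.v * t.v < 16777216 * 16777216 := by
    simp only [discOK, List.all_eq_true, decide_eq_true_eq] at h
    exact h t ht
  have h2 : (t.u : ℝ) * t.u + t.v * t.v < 16777216 * 16777216 := by exact_mod_cast h1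
  rw [← sq_lt_one_iff₀ (norm_nonneg _), Complex.sq_norm, Complex.normSq_apply, glue_re, glue_im]
  linarith

theorem glue_log {q N : ℝ} (hN : N ≠ 0) (h : q = 16777216 ^ 4 * N) :
    q ≠ 0 ∧ Real.log q = 96 * Real.log 2 + Real.log N := by
  refine ⟨by rw [h]; positivity, ?_⟩
  rw [h, Real.log_mul (by norm_num) hN, show (16777216 : ℝ) ^ 4 = 2 ^ 96 by norm_num, Real.log_pow]
  norm_num

theorem glue_log2 {q N : ℝ} (hN : N ≠ 0) (h : q = 16777216 ^ 4 * N ^ 2) :
    q ≠ 0 ∧ Real.log q = 96 * Real.log 2 + 2 * Real.log N := by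
  have := glue_log (pow_ne_zero 2 hN) h
  rw [Real.log_pow] at this
  exact_mod_cast this

theorem glue_append (ts ts' : List LT) (y : ℝ) : evalLT (ts ++ ts') y = evalLT ts y + evalLT ts' y := by
  simp [evalLT]

theorem glue_eval (l : List At) (F : At → LT) (c : ℝ) (φ : At → ℂ) (y : ℝ)
    (hg : ∀ t, ((F t).g : ℝ) = c * t.g)
    (hq : ∀ t, (F t).q y = 16777216 ^ 4 * ((φ t).re * (φ t).re + (φ t).im * (φ t).im))
    (h0 : ∀ t ∈ l, φ t ≠ 0) :
    (∀ x ∈ l.map F, x.q y ≠ 0) ∧ evalLT (l.map F) y =
      c * (96 * Real.log 2 * (((l.map At.g).sum : ℤ) : ℝ) + 2 * 2415919104 *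
        (l.map fun t => (t.g : ℝ) / 2415919104 * Real.log ‖φ t‖).sum) := by
  have key : ∀ t ∈ l, (F t).q y ≠ 0 ∧ Real.log ((F t).q y) = 96 * Real.log 2 + 2 * Real.log ‖φ t‖ :=
    fun t ht => glue_log2 (norm_ne_zero_iff.2 (h0 t ht))
      (by rw [hq, Complex.sq_norm, Complex.normSq_apply])
  refine ⟨fun x hx => ?_, ?_⟩
  · obtain ⟨t, ht, rfl⟩ := List.mem_map.1 hx
    exact (key t ht).1
  · clear h0
    induction l with
    | nil => simp [evalLT]
    | cons t l ih =>
      have h1 := ih fun s hs => key s (List.mem_cons_of_mem _ hs)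
      unfold evalLT at h1 ⊢
      simp only [List.map_cons, List.sum_cons, h1, hg, (key t List.mem_cons_self).2]
      push_cast
      ring

theorem glue_U {l : List At} {m : ℤ} (h : atomsOK l m = true) (z : ℝ) :
    (∀ x ∈ l.map ltU, x.q (16777216 * (z + 1)) ≠ 0) ∧ evalLT (l.map ltU) (16777216 * (z + 1)) =
      96 * Real.log 2 * m + 2 * 2415919104 * (ofList l).U z := by
  have := glue_eval l ltU 1 (fun t => (z : ℂ) - gluePt t) (16777216 * (z + 1)) (fun t => by simp [ltU])
    (fun t => by
      simp only [LT.q, ltU, Complex.sub_re, Complex.sub_im, Complex.ofReal_re, Complex.ofReal_im,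
        glue_re, glue_im]
      push_cast; ring)
    (fun t ht h0 => by
      have h1 := congrArg Complex.im h0
      have h2 : (0 : ℝ) < t.v := by exact_mod_cast (glue_ok h).1 t ht
      simp only [Complex.sub_im, Complex.ofReal_im, glue_im, Complex.zero_im] at h1
      linarith)
  rw [(glue_ok h).2, one_mul, ← glue_sum] at this
  exact this

theorem glue_C {l : List At} {m : ℤ} (h : atomsOK l m = true) (z : ℝ) :
    (∀ x ∈ l.map ltC, x.q (16777216 * z) ≠ 0) ∧ evalLT (l.map ltC) (16777216 * z) =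
      96 * Real.log 2 * m + 2 * 2415919104 * (ofList l).U z := by
  have := glue_eval l ltC 1 (fun t => (z : ℂ) - gluePt t) (16777216 * z) (fun t => by simp [ltC])
    (fun t => by
      simp only [LT.q, ltC, Complex.sub_re, Complex.sub_im, Complex.ofReal_re, Complex.ofReal_im,
        glue_re, glue_im]
      push_cast; ring)
    (fun t ht h0 => by
      have h1 := congrArg Complex.im h0
      have h2 : (0 : ℝ) < t.v := by exact_mod_cast (glue_ok h).1 t ht
      simp only [Complex.sub_im, Complex.ofReal_im, glue_im, Complex.zero_im] at h1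
      linarith)
  rw [(glue_ok h).2, one_mul, ← glue_sum] at this
  exact this

theorem glue_Ustar {l : List At} {m : ℤ} (h : atomsOK l m = true) {z : ℝ} (hz : z ≠ 0) :
    (∀ x ∈ l.map ltUstar, x.q (16777216 * (z + 1)) ≠ 0) ∧
      evalLT (l.map ltUstar) (16777216 * (z + 1)) =
        96 * Real.log 2 * m + 2 * 2415919104 * (ofList l).Ustar z := by
  have := glue_eval l ltUstar 1 (fun t => 1 - (z : ℂ) * gluePt t) (16777216 * (z + 1))
    (fun t => by simp [ltUstar])
    (fun t => by
      simp only [LT.q, ltUstar, Complex.sub_re, Complex.sub_im, Complex.mul_re, Complex.mul_im,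
        Complex.one_re, Complex.one_im, Complex.ofReal_re, Complex.ofReal_im, glue_re, glue_im]
      push_cast; ring)
    (fun t ht h0 => by
      have h1 := congrArg Complex.im h0
      have h2 : (0 : ℝ) < t.v := by exact_mod_cast (glue_ok h).1 t ht
      simp only [Complex.sub_im, Complex.mul_im, Complex.one_im, Complex.ofReal_re, Complex.ofReal_im,
        glue_im, Complex.zero_im] at h1
      have h3 : z * (t.v / 16777216) ≠ 0 := by positivity
      exact h3 (by linarith))
  rw [(glue_ok h).2, one_mul, ← glue_sum] at this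
  exact this

theorem glue_Us {l : List At} {m : ℤ} (h : atomsOK l m = true) (hd : discOK l = true) (s : ℝ) :
    (∀ x ∈ l.map ltUs, x.q (16777216 * s) ≠ 0) ∧ evalLT (l.map ltUs) (16777216 * s) =
      -1 * (96 * Real.log 2 * m + 2 * 2415919104 * (ofList l).Us s) := by
  have := glue_eval l ltUs (-1) (fun t => 1 + gluePt t ^ 2 - 2 * gluePt t * (s : ℂ)) (16777216 * s)
    (fun t => by simp [ltUs])
    (fun t => by
      simp only [LT.q, ltUs, pow_two, Complex.sub_re, Complex.sub_im, Complex.add_re, Complex.add_im,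
        Complex.mul_re, Complex.mul_im, Complex.re_ofNat, Complex.im_ofNat,
        Complex.one_re, Complex.one_im, Complex.ofReal_re, Complex.ofReal_im, glue_re, glue_im]
      push_cast; ring)
    (fun t ht h0 => by
      have h1 := congrArg Complex.im h0
      have h1' := congrArg Complex.re h0
      have h2 : 0 < (gluePt t).im := by
        have : (0 : ℝ) < t.v := by exact_mod_cast (glue_ok h).1 t ht
        rw [glue_im]; positivity
      have h3 := glue_norm hd ht
      rw [← sq_lt_one_iff₀ (norm_nonneg _), Complex.sq_norm, Complex.normSq_apply] at h3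
      simp only [pow_two, Complex.sub_re, Complex.sub_im, Complex.add_re, Complex.add_im,
        Complex.mul_re, Complex.mul_im, Complex.re_ofNat, Complex.im_ofNat, Complex.zero_re,
        Complex.zero_im, Complex.one_re, Complex.one_im, Complex.ofReal_re, Complex.ofReal_im] at h1 h1'
      have h4 : (gluePt t).re = s := by
        have : (gluePt t).im * ((gluePt t).re - s) = 0 := by linarith
        rcases mul_eq_zero.1 this with h5 | h5
        · exact absurd h5 h2.ne'
        · linarith
      rw [h4] at h1' h3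
      linarith)
  rw [(glue_ok h).2, ← glue_sum] at this
  exact this

theorem glue_fld (k lamW : ℤ) {z : ℝ} (hz : z ∈ Set.Ioo (-1 : ℝ) 1) (h0 : z ≠ 0) :
    (∀ x ∈ zFld k lamW, x.q (16777216 * (z + 1)) ≠ 0) ∧ evalLT (zFld k lamW) (16777216 * (z + 1)) =
      96 * Real.log 2 * ((k - 94) * 67108864 - 2 * lamW) +
        2 * 2415919104 * (k / 36 * Real.log |z| + fld ((lamW : ℝ) / 2415919104) z) := by
  have h1 := glue_log2 (q := LT.q ⟨k * 67108864, -(16777216 * 16777216), 0, 16777216, 0⟩
    (16777216 * (z + 1))) (N := |z|) (abs_ne_zero.2 h0) (by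
      simp only [LT.q, sq_abs]; push_cast; ring)
  have h2 := glue_log2 (q := LT.q ⟨2 * (2 * 67108864 - 147456), 2 * 16777216 * 16777216, 0, -16777216, 0⟩
    (16777216 * (z + 1))) (N := 1 - z) (sub_pos.2 hz.2).ne' (by
      simp only [LT.q]; push_cast; ring)
  have h3 := glue_log (q := LT.q ⟨-(2 * (49 * 67108864 - 147456 + lamW)), 16777216 * 16777216,
    -(16777216 * 16777216), 0, 16777216⟩ (16777216 * (z + 1))) (N := 1 + z ^ 2) (by positivity) (by
      simp only [LT.q]; push_cast; ring)
  refine ⟨?_, ?_⟩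
  · simp only [zFld, List.forall_mem_cons, List.not_mem_nil, IsEmpty.forall_iff, implies_true, and_true]
    exact ⟨h1.1, h2.1, h3.1⟩
  · simp only [evalLT, zFld, List.map_cons, List.map_nil, List.sum_cons, List.sum_nil, h1.2, h2.2, h3.2,
      fld, eta]
    push_cast
    ring

theorem glue_rows (f : At → List LT) (l : List At) (Ms : List ℤ) (h : chkRows f l Ms = true)
    (hq : ∀ t ∈ l, ∀ x ∈ f t, x.q 0 ≠ 0) :
    (l.map fun t => evalLT (f t) 0).sum ≤ ((Ms.map fun M : ℤ => (M : ℝ)).sum) / 2 ^ 40 := by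
  induction l generalizing Ms with
  | nil =>
    have : Ms = [] := by simpa [chkRows] using h
    simp [this]
  | cons t l ih =>
    cases Ms with
    | nil => simp [chkRows] at h
    | cons M Ms =>
      have h' : (chk0 (f t) M && chkRows f l Ms) = true := h
      rw [Bool.and_eq_true] at h'
      have h1 := chk0_sound _ _ h'.1 (hq t List.mem_cons_self)
      have h2 := ih Ms h'.2 fun s hs => hq s (List.mem_cons_of_mem _ hs)
      simp only [List.map_cons, List.sum_cons, add_div]
      exact add_le_add h1 h2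

theorem glue_double {l : List At} {m : ℤ} {Ms : List ℤ} (hl : atomsOK l m = true)
    (F : At → At → LT) (φ : ℂ → ℂ → ℂ) (hg : ∀ t r, (F t r).g = -(t.g * r.g))
    (hq : ∀ t r, (F t r).q 0 = 16777216 ^ 4 * ((φ (gluePt t) (gluePt r)).re * (φ (gluePt t) (gluePt r)).re +
      (φ (gluePt t) (gluePt r)).im * (φ (gluePt t) (gluePt r)).im))
    (h0 : ∀ t ∈ l, ∀ r ∈ l, φ (gluePt t) (gluePt r) ≠ 0)
    (h : chkRows (fun t => l.map (F t)) l Ms = true) :
    -(∑ k, ∑ j, (ofList l).γ k * (ofList l).γ j * Real.log ‖φ ((ofList l).a k) ((ofList l).a j)‖) ≤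
      (Ms.sum : ℝ) / 2 ^ 40 / (2 * 2415919104 ^ 2) + 48 * Real.log 2 * ((m : ℝ) / 2415919104) ^ 2 := by
  have key := fun t (ht : t ∈ l) => glue_eval l (F t) (-t.g) (fun r => φ (gluePt t) (gluePt r)) 0
    (fun r => by rw [hg]; push_cast; ring) (hq t) (h0 t ht)
  have h1 := glue_rows _ l Ms h fun t ht => (key t ht).1
  rw [← Int.cast_list_sum, ← glue_sum] at h1
  have h2 : ∑ k : Fin (ofList l).m, evalLT (l.map (F (l[k.1]'k.2))) 0 =
      ∑ k : Fin (ofList l).m, (-(96 * Real.log 2 * m * 2415919104) * (ofList l).γ k -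
        2 * 2415919104 ^ 2 * ∑ j, (ofList l).γ k * (ofList l).γ j *
          Real.log ‖φ ((ofList l).a k) ((ofList l).a j)‖) := by
    refine Finset.sum_congr rfl fun k _ => ?_
    rw [(key _ (List.getElem_mem k.2)).2, (glue_ok hl).2, ← glue_sum]
    have e : ∑ j, (ofList l).γ k * (ofList l).γ j * Real.log ‖φ ((ofList l).a k) ((ofList l).a j)‖ =
        ((l[k.1]'k.2).g : ℝ) / 2415919104 * ∑ j : Fin (ofList l).m, ((l[j.1]'j.2).g : ℝ) / 2415919104 *
          Real.log ‖φ (gluePt (l[k.1]'k.2)) (gluePt (l[j.1]'j.2))‖ := by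
      rw [Finset.mul_sum]
      exact Finset.sum_congr rfl fun j _ => mul_assoc _ _ _
    have e' : (ofList l).γ k = ((l[k.1]'k.2).g : ℝ) / 2415919104 := rfl
    rw [e, e']
    ring
  have h3 : ∑ k, (ofList l).γ k = (m : ℝ) / 2415919104 := by
    have := glue_sum l fun t => (t.g : ℝ) / 2415919104
    rw [← (glue_ok hl).2, Int.cast_list_sum, List.map_map, div_eq_mul_inv, ← List.sum_map_mul_right]
    exact this
  rw [h2, Finset.sum_sub_distrib, ← Finset.mul_sum, ← Finset.mul_sum, h3] at h1
  linarith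

theorem ofList_im {l : List At} {m : ℤ} (h : atomsOK l m = true) (k : Fin (ofList l).m) :
    0 < ((ofList l).a k).im := by
  rw [glue_a, glue_im]
  have : (0 : ℝ) < (l[k.1]'k.2).v := by exact_mod_cast (glue_ok h).1 _ (List.getElem_mem k.2)
  positivity

theorem ofList_mass {l : List At} {m : ℤ} (h : atomsOK l m = true) :
    (ofList l).mass = (m : ℝ) / 2415919104 := by
  have := glue_sum l fun t => (t.g : ℝ) / 2415919104
  rw [← (glue_ok h).2, Int.cast_list_sum, List.map_map, div_eq_mul_inv, ← List.sum_map_mul_right]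
  exact this

theorem ofList_norm {l : List At} (h : discOK l = true) (k : Fin (ofList l).m) :
    ‖(ofList l).a k‖ < 1 := by
  exact glue_norm h (List.getElem_mem k.2)

theorem out_of_Bd {A B : List At} {lamW M : ℤ} (hA : atomsOK A 2415919104 = true)
    (hB : atomsOK B 0 = true) (h : Bd (zOut A B lamW) M 0 33554432)
    (z : ℝ) (hz : z ∈ Set.Ioo (-1 : ℝ) 1) (h0 : z ≠ 0) :
    (ofList A).Ustar z + (ofList B).U z + (ofList B).Ustar z + 14 / 36 * Real.log |z| +
        fld ((lamW : ℝ) / 2415919104) z ≤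
      (M : ℝ) / 2 ^ 40 / (2 * 2415919104) +
        48 * Real.log 2 * (44 / 36 + 2 * ((lamW : ℝ) / 2415919104)) := by
  have a0 := glue_fld 14 lamW hz h0
  have a1 := glue_Ustar hA h0
  have a2 := glue_U hB z
  have a3 := glue_Ustar hB h0
  have h1 := h (16777216 * (z + 1)) (by push_cast; linarith [hz.1]) (by push_cast; linarith [hz.2])
    (by
      simp only [zOut, List.forall_mem_append]
      exact ⟨⟨⟨a0.1, a1.1⟩, a2.1⟩, a3.1⟩)
  unfold zOut at h1
  rw [glue_append, glue_append, glue_append, a0.2, a1.2, a2.2, a3.2] at h1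
  push_cast at h1
  linarith

theorem inn_of_Bd {A B : List At} {lamW M : ℤ} (hA : atomsOK A 2415919104 = true)
    (hB : atomsOK B 0 = true) (h : Bd (zInn A B lamW) M 0 33554432)
    (z : ℝ) (hz : z ∈ Set.Ioo (-1 : ℝ) 1) (h0 : z ≠ 0) :
    (ofList A).U z + (ofList B).U z + (ofList B).Ustar z + 44 / 36 * Real.log |z| +
        fld ((lamW : ℝ) / 2415919104) z ≤
      (M : ℝ) / 2 ^ 40 / (2 * 2415919104) +
        48 * Real.log 2 * (14 / 36 + 2 * ((lamW : ℝ) / 2415919104)) := by
  have a0 := glue_fld 44 lamW hz h0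
  have a1 := glue_U hA z
  have a2 := glue_U hB z
  have a3 := glue_Ustar hB h0
  have h1 := h (16777216 * (z + 1)) (by push_cast; linarith [hz.1]) (by push_cast; linarith [hz.2])
    (by
      simp only [zInn, List.forall_mem_append]
      exact ⟨⟨⟨a0.1, a1.1⟩, a2.1⟩, a3.1⟩)
  unfold zInn at h1
  rw [glue_append, glue_append, glue_append, a0.2, a1.2, a2.2, a3.2] at h1
  push_cast at h1
  linarith

theorem sd_of_Bd {B C : List At} {M : ℤ} (hB : atomsOK B 0 = true) (hd : discOK B = true)
    (hC : atomsOK C 2415919104 = true) (h : Bd (sSide B C) M 0 16777216)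
    (s : ℝ) (hs : s ∈ Set.Ioo (0 : ℝ) 1) :
    (ofList C).U s - (ofList B).Us s + 6 / 36 * Real.log s + (2 / 36 - eta) * Real.log (1 - s) ≤
      (M : ℝ) / 2 ^ 40 / (2 * 2415919104) - 48 * Real.log 2 * (44 / 36 - eta) := by
  have a1 := glue_C hC s
  have a2 := glue_Us hB hd s
  have h1 := glue_log2 (q := LT.q ⟨6 * 67108864, 0, 0, 16777216, 0⟩ (16777216 * s)) (N := s) hs.1.ne' (by
    simp only [LT.q]; push_cast; ring)
  have h2 := glue_log2 (q := LT.q ⟨2 * 67108864 - 147456, 16777216 * 16777216, 0, -16777216, 0⟩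
    (16777216 * s)) (N := 1 - s) (sub_pos.2 hs.2).ne' (by simp only [LT.q]; push_cast; ring)
  have h3 := h (16777216 * s) (by push_cast; linarith [hs.1]) (by push_cast; linarith [hs.2])
    (by
      simp only [sSide, List.forall_mem_append, List.forall_mem_cons, List.not_mem_nil,
        IsEmpty.forall_iff, implies_true, and_true]
      exact ⟨⟨⟨h1.1, h2.1⟩, a1.1⟩, a2.1⟩)
  unfold sSide at h3
  rw [glue_append, glue_append, a1.2, a2.2] at h3
  simp only [evalLT, List.map_cons, List.map_nil, List.sum_cons, List.sum_nil, h1.2, h2.2] at h3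
  push_cast at h3
  unfold eta
  linarith

theorem L_of_rows {l : List At} {m : ℤ} {Ms : List ℤ} (hl : atomsOK l m = true)
    (h : chkRows (rowL l) l Ms = true) :
    -(ofList l).L ≤ (Ms.sum : ℝ) / 2 ^ 40 / (2 * 2415919104 ^ 2) +
      48 * Real.log 2 * ((m : ℝ) / 2415919104) ^ 2 := by
  refine glue_double hl _ (fun a b => a - (starRingEnd ℂ) b) (fun _ _ => rfl) (fun t r => ?_)
    (fun t ht r hr h0 => ?_) h
  · simp only [LT.q, Complex.sub_re, Complex.sub_im, Complex.conj_re, Complex.conj_im, glue_re, glue_im]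
    push_cast; ring
  · have h1 := congrArg Complex.im h0
    have h2 : (0 : ℝ) < t.v := by exact_mod_cast (glue_ok hl).1 t ht
    have h3 : (0 : ℝ) < r.v := by exact_mod_cast (glue_ok hl).1 r hr
    simp only [Complex.sub_im, Complex.conj_im, glue_im, Complex.zero_im] at h1
    linarith

theorem Lstar_of_rows {l : List At} {Ms : List ℤ} (hl : atomsOK l 0 = true)
    (hd : discOK l = true) (h : chkRows (rowLstar l) l Ms = true) :
    -(ofList l).Lstar ≤ (Ms.sum : ℝ) / 2 ^ 40 / (2 * 2415919104 ^ 2) := by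
  have := glue_double hl _ (fun a b => 1 - a * (starRingEnd ℂ) b) (fun _ _ => rfl) (fun t r => ?_)
    (fun t ht r hr h0 => ?_) h
  · simpa [Atoms.Lstar] using this
  · simp only [LT.q, Complex.sub_re, Complex.sub_im, Complex.mul_re, Complex.mul_im, Complex.one_re,
      Complex.one_im, Complex.conj_re, Complex.conj_im, glue_re, glue_im]
    push_cast; ring
  · have h1 : ‖gluePt t * (starRingEnd ℂ) (gluePt r)‖ < 1 := by
      rw [norm_mul, Complex.norm_conj]
      exact mul_lt_one_of_nonneg_of_lt_one_left (norm_nonneg _) (glue_norm hd ht) (glue_norm hd hr).le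
    rw [← sub_eq_zero.1 h0] at h1
    simp at h1

end Crest.Agent.R6
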