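import Crest.Agent.R6.RDefs
import Crest.Agent.R6.ChkDefs

/-! Integer data for certificates. An atom `(u, v, g)` is the point `(u + v i)/S` with charge
`g/W`, `S = 2^24 = 16777216`, `W = 36 · 2^26 = 2415919104`. Every quadratic below is `S⁴` times
the square of a modulus; `Y = S (z + 1)` on the `z` side and `Y = S s` on the `s` side. -/

set_option autoImplicit false

namespace Crest.Agent.R6

structure At where
  u : ℤ
  v : ℤ
  g : ℤ

noncomputable def ofList (l : List At) : Atoms where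
  m := l.length
  a k := ((l[k].u : ℂ) + (l[k].v : ℂ) * Complex.I) / 16777216
  γ k := (l[k].g : ℝ) / 2415919104

/-- `|z - a|² S⁴`. -/
def ltU (t : At) : LT :=
  ⟨t.g, -(16777216 * (16777216 + t.u)), 16777216 * t.v, 16777216, 0⟩

/-- `|1 - z a|² S⁴`. -/
def ltUstar (t : At) : LT :=
  ⟨t.g, 16777216 * (16777216 + t.u), 16777216 * t.v, -t.u, -t.v⟩

/-- `|s - a|² S⁴`. -/
def ltC (t : At) : LT := ⟨t.g, -(16777216 * t.u), 16777216 * t.v, 16777216, 0⟩

/-- `|1 + a² - 2 a s|² S⁴`, with the opposite weight. -/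
def ltUs (t : At) : LT :=
  ⟨-t.g, 16777216 * 16777216 + t.u * t.u - t.v * t.v, 2 * t.u * t.v, -(2 * t.u), -(2 * t.v)⟩

/-- The fields on the `z` side: `k · 2^26 log (z² S⁴)`, `(1-z)² S⁴`, `(1+z²) S⁴`;
`W eta = 147456`, `lamW = W lam`. -/
def zFld (k lamW : ℤ) : List LT :=
  [⟨k * 67108864, -(16777216 * 16777216), 0, 16777216, 0⟩,
   ⟨2 * (2 * 67108864 - 147456), 2 * 16777216 * 16777216, 0, -16777216, 0⟩,
   ⟨-(2 * (49 * 67108864 - 147456 + lamW)), 16777216 * 16777216, -(16777216 * 16777216), 0,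
     16777216⟩]

def zOut (A B : List At) (lamW : ℤ) : List LT :=
  zFld 14 lamW ++ A.map ltUstar ++ B.map ltU ++ B.map ltUstar

def zInn (A B : List At) (lamW : ℤ) : List LT :=
  zFld 44 lamW ++ A.map ltU ++ B.map ltU ++ B.map ltUstar

def sSide (B C : List At) : List LT :=
  [⟨6 * 67108864, 0, 0, 16777216, 0⟩,
   ⟨2 * 67108864 - 147456, 16777216 * 16777216, 0, -16777216, 0⟩] ++ C.map ltC ++ B.map ltUs

/-- Row of `-L`. -/
def rowL (l : List At) (t : At) : List LT :=
  l.map fun r => ⟨-(t.g * r.g), 16777216 * (t.u - r.u), 16777216 * (t.v + r.v), 0, 0⟩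

/-- Row of `-Lstar`. -/
def rowLstar (l : List At) (t : At) : List LT :=
  l.map fun r => ⟨-(t.g * r.g), 16777216 * 16777216 - t.u * r.u - t.v * r.v,
    t.v * r.u - t.u * r.v, 0, 0⟩

/-- Each row `f t` is checked against the bound in the same position of `Ms`. -/
noncomputable def chkRows (f : At → List LT) (l : List At) : List ℤ → Bool :=
  List.rec (motive := fun _ => List ℤ → Bool) (fun Ms => Ms.isEmpty)
    (fun t _ ih Ms => match Ms with
      | [] => false
      | M :: Ms => chk0 (f t) M && ih Ms) l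

/-- Positive imaginary parts and total charge `m / W`. -/
def atomsOK (l : List At) (m : ℤ) : Bool :=
  l.all (fun t => decide (0 < t.v)) && decide ((l.map At.g).sum = m)

/-- Inside the unit disc. -/
def discOK (l : List At) : Bool :=
  l.all fun t => decide (t.u * t.u + t.v * t.v < 16777216 * 16777216)

/-- The bound `M/2^40` holds on `[a, b]` where no quadratic vanishes. -/
def Bd (ts : List LT) (M : ℤ) (a b : ℕ) : Prop :=
  ∀ y : ℝ, (a : ℝ) ≤ y → y ≤ b → (∀ t ∈ ts, t.q y ≠ 0) → evalLT ts y ≤ (M : ℝ) / 2 ^ 40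

end Crest.Agent.R6
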