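import Mathlib

/-! Negativity of the logarithmic energy of neutral charges, and its linearised form. -/

set_option autoImplicit false

namespace Crest.Agent.R6

open Finset

/-- In the disc: `∑ c_i c_j log |1 - w_i conj w_j| = -∑_k |∑ c_i w_i^k|² / k`. -/
theorem disc_energy_nonpos {ι : Type} [Fintype ι] (c : ι → ℝ) (w : ι → ℂ) (hw : ∀ i, ‖w i‖ < 1) :
    ∑ i, ∑ j, c i * c j * Real.log ‖1 - w i * (starRingEnd ℂ) (w j)‖ ≤ 0 := by
  have h1 : ∀ i j, HasSum (fun n : ℕ => c i * c j * ((w i * (starRingEnd ℂ) (w j)) ^ n / n).re)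
      (-(c i * c j * Real.log ‖1 - w i * (starRingEnd ℂ) (w j)‖)) := by
    intro i j
    have hz : ‖w i * (starRingEnd ℂ) (w j)‖ < 1 := by
      rw [norm_mul, Complex.norm_conj]
      exact mul_lt_one_of_nonneg_of_lt_one_left (norm_nonneg _) (hw i) (hw j).le
    have h := (Complex.hasSum_re (Complex.hasSum_taylorSeries_neg_log hz)).mul_left (c i * c j)
    rwa [Complex.neg_re, Complex.log_re, mul_neg] at h
  have h2 := hasSum_sum fun i (_ : i ∈ univ) => hasSum_sum fun j (_ : j ∈ univ) => h1 i j
  have h3 := h2.nonneg fun n => by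
    have e : ∑ i, ∑ j, c i * c j * ((w i * (starRingEnd ℂ) (w j)) ^ n / n).re =
        Complex.normSq (∑ i, c i * w i ^ n) / n := by
      have e1 : ((Complex.normSq (∑ i, c i * w i ^ n) / n : ℝ) : ℂ) =
          ∑ i, ∑ j, ((c i * c j : ℝ) : ℂ) * ((w i * (starRingEnd ℂ) (w j)) ^ n / n) := by
        push_cast
        rw [← Complex.mul_conj, map_sum, sum_mul_sum, sum_div]
        refine sum_congr rfl fun i _ => ?_
        rw [sum_div]
        refine sum_congr rfl fun j _ => ?_
        rw [map_mul, map_pow, Complex.conj_ofReal, mul_pow]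
        ring
      have e2 := congrArg Complex.re e1
      rw [Complex.ofReal_re] at e2
      simp only [e2, Complex.re_sum, Complex.re_ofReal_mul]
    rw [e]
    exact div_nonneg (Complex.normSq_nonneg _) (Nat.cast_nonneg _)
  simp only [sum_neg_distrib] at h3
  linarith

/-- In the upper half plane (`w = (a - I)/(a + I)`). -/
theorem hp_energy_nonpos {ι : Type} [Fintype ι] (c : ι → ℝ) (hc : ∑ i, c i = 0) (a : ι → ℂ)
    (ha : ∀ i, 0 < (a i).im) :
    ∑ i, ∑ j, c i * c j * Real.log ‖a i - (starRingEnd ℂ) (a j)‖ ≤ 0 := by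
  have h0 : ∀ i, a i + Complex.I ≠ 0 := fun i h => by
    have := congrArg Complex.im h
    simp at this
    linarith [ha i]
  have h1 := disc_energy_nonpos c (fun i => (a i - Complex.I) / (a i + Complex.I)) fun i => by
    rw [norm_div, div_lt_one (norm_pos_iff.2 (h0 i)), ← sq_lt_sq₀ (norm_nonneg _) (norm_nonneg _),
      Complex.sq_norm, Complex.sq_norm, Complex.normSq_apply, Complex.normSq_apply]
    simp
    nlinarith [ha i]
  have h2 : ∀ i j, Real.log ‖1 - (a i - Complex.I) / (a i + Complex.I) *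
      (starRingEnd ℂ) ((a j - Complex.I) / (a j + Complex.I))‖ =
      Real.log ‖a i - (starRingEnd ℂ) (a j)‖ +
        (Real.log 2 - Real.log ‖a i + Complex.I‖) - Real.log ‖a j + Complex.I‖ := by
    intro i j
    have h3 : (starRingEnd ℂ) (a j + Complex.I) ≠ 0 := (map_ne_zero _).2 (h0 j)
    have h4 : a i - (starRingEnd ℂ) (a j) ≠ 0 := fun h => by
      have := congrArg Complex.im h
      simp at this
      linarith [ha i, ha j]
    have e : 1 - (a i - Complex.I) / (a i + Complex.I) *
        (starRingEnd ℂ) ((a j - Complex.I) / (a j + Complex.I)) =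
        (a i - (starRingEnd ℂ) (a j)) * (-2 * Complex.I) / (a i + Complex.I) /
          (starRingEnd ℂ) (a j + Complex.I) := by
      have h5 := h0 i
      rw [map_div₀]
      field_simp
      simp only [map_add, map_sub, Complex.conj_I]
      ring
    have h5 := norm_pos_iff.2 (h0 i)
    have h6 := norm_pos_iff.2 (h0 j)
    have h7 := norm_pos_iff.2 h4
    rw [e, norm_div, norm_div, norm_mul, Complex.norm_conj,
      show ‖(-2 * Complex.I : ℂ)‖ = 2 by simp, Real.log_div (by positivity) h6.ne',
      Real.log_div (by positivity) h5.ne', Real.log_mul h7.ne' two_ne_zero]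
    ring
  simp only [h2, mul_sub, mul_add, sum_sub_distrib, sum_add_distrib] at h1
  have h3 : ∀ f : ι → ℝ, ∑ i, ∑ j, c i * c j * f i = 0 := fun f => by
    refine sum_eq_zero fun i _ => ?_
    rw [← sum_mul, ← mul_sum, hc, mul_zero, zero_mul]
  have h4 : ∀ f : ι → ℝ, ∑ i, ∑ j, c i * c j * f j = 0 := fun f => by
    rw [sum_comm, ← h3 f]
    exact sum_congr rfl fun i _ => sum_congr rfl fun j _ => by ring
  rw [h3 fun _ => Real.log 2, h3 fun i => Real.log ‖a i + Complex.I‖,
    h4 fun i => Real.log ‖a i + Complex.I‖] at h1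
  linarith

end Crest.Agent.R6
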