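import Crest.Agent.R6.RDefs

/-! Moments: the sequences `cc`, `ww` and the integrals of powers of `t`. -/

set_option autoImplicit false

namespace Crest.Agent.R6

open Finset MeasureTheory

theorem mom_cc_even (l : ℕ) : cc (2 * l) = (Nat.centralBinom l : ℚ) / 4 ^ l := by
  unfold cc
  rw [if_pos (by omega), show 2 * l / 2 = l by omega]

theorem mom_cc_odd (l : ℕ) : cc (2 * l + 1) = 0 := by
  unfold cc
  rw [if_neg (by omega)]

theorem mom_ww_even (l : ℕ) : ww (2 * l) = 2 / ((2 * (l : ℚ) + 1) * cc (2 * l)) := by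
  unfold ww
  rw [if_pos (by omega)]; push_cast; rfl

theorem mom_ww_odd (l : ℕ) : ww (2 * l + 1) = 0 := by
  unfold ww
  rw [if_neg (by omega)]

theorem cc_pos (l : ℕ) : 0 < cc (2 * l) := by
  rw [mom_cc_even]
  have : (0 : ℚ) < Nat.centralBinom l := by exact_mod_cast Nat.centralBinom_pos l
  positivity

theorem cc_rec (l : ℕ) : (2 * (l : ℚ) + 2) * cc (2 * l + 2) = (2 * (l : ℚ) + 1) * cc (2 * l) := by
  rw [show 2 * l + 2 = 2 * (l + 1) by ring, mom_cc_even, mom_cc_even]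
  have h : ((l : ℚ) + 1) * Nat.centralBinom (l + 1) = 2 * (2 * l + 1) * Nat.centralBinom l := by
    exact_mod_cast Nat.succ_mul_centralBinom_succ l
  rw [pow_succ]
  field_simp
  linarith

theorem mom_cc_zero : cc 0 = 1 := by
  have := mom_cc_even 0
  simpa using this

theorem mom_ww_zero : ww 0 = 2 := by
  have := mom_ww_even 0
  simpa [mom_cc_zero] using this

theorem mom_ww_one : ww 1 = 0 := mom_ww_odd 0

theorem ww_nonneg (m : ℕ) : 0 ≤ ww m := by
  obtain ⟨l, rfl | rfl⟩ := Nat.even_or_odd' m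
  · rw [mom_ww_even]; have := cc_pos l; positivity
  · rw [mom_ww_odd]

/-- `w_{2l} (2l+1) c_{2l} = 2` -/
theorem mom_ww_cc (l : ℕ) : ww (2 * l) * ((2 * (l : ℚ) + 1) * cc (2 * l)) = 2 := by
  rw [mom_ww_even]; have := cc_pos l; field_simp

theorem ww_rec (m : ℕ) : ((m : ℚ) + 3) * ww (m + 2) = ((m : ℚ) + 2) * ww m := by
  obtain ⟨l, rfl | rfl⟩ := Nat.even_or_odd' m
  · have h1 := mom_ww_cc l
    have h2 := mom_ww_cc (l + 1)
    rw [show 2 * (l + 1) = 2 * l + 2 by ring] at h2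
    have h3 := cc_rec l
    have h4 := cc_pos (l + 1)
    rw [show 2 * (l + 1) = 2 * l + 2 by ring] at h4
    rw [← h3] at h1
    apply mul_right_cancel₀ h4.ne'
    push_cast at h2 ⊢
    linarith
  · rw [show 2 * l + 1 + 2 = 2 * (l + 1) + 1 by ring, mom_ww_odd, mom_ww_odd]; simp

theorem mom_ww_sq (m : ℕ) : (ww m) ^ 2 * ((m : ℚ) + 2) ≤ 8 := by
  induction m using Nat.twoStepInduction with
  | zero => rw [mom_ww_zero]; norm_num
  | one => rw [mom_ww_one]; norm_num
  | more m ih _ =>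
    have h := ww_rec m
    have hm : (0 : ℚ) ≤ m := Nat.cast_nonneg m
    have h3 : (0 : ℚ) < ((m : ℚ) + 3) ^ 2 := by positivity
    apply le_of_mul_le_mul_right _ h3
    push_cast
    have e : ww (m + 2) ^ 2 * ((m : ℚ) + 2 + 2) * ((m : ℚ) + 3) ^ 2 =
        (ww m ^ 2 * ((m : ℚ) + 2)) * (((m : ℚ) + 2) * ((m : ℚ) + 4)) := by
      have : (((m : ℚ) + 3) * ww (m + 2)) ^ 2 = (((m : ℚ) + 2) * ww m) ^ 2 := by rw [h]
      linear_combination ((m : ℚ) + 4) * this
    rw [e]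
    calc _ ≤ 8 * (((m : ℚ) + 2) * ((m : ℚ) + 4)) := mul_le_mul_of_nonneg_right ih (by positivity)
      _ ≤ _ := by nlinarith

/-- `w_m ≤ 4/√(m+1)` (hint: `w_m² (m+2) ≤ 8` by induction in steps of two). -/
theorem ww_sq_le (m : ℕ) : (ww m) ^ 2 * ((m : ℚ) + 1) ≤ 16 := by
  have := mom_ww_sq m
  nlinarith [sq_nonneg (ww m)]

theorem mom_ww_nonneg (m : ℕ) : (0 : ℝ) ≤ ww m := by exact_mod_cast ww_nonneg m

theorem mom_ww_rec (m : ℕ) : ((m : ℝ) + 3) * ww (m + 2) = ((m : ℝ) + 2) * ww m := by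
  exact_mod_cast ww_rec m

theorem mom_tel (m : ℕ) : (ww (m + 2) : ℝ) / ((m : ℝ) + 2) = ww m - ww (m + 2) := by
  have := mom_ww_rec m
  rw [div_eq_iff (by positivity)]
  linarith

theorem mom_sum_tel (n : ℕ) :
    ∑ m ∈ range n, (ww (m + 2) : ℝ) / ((m : ℝ) + 2) = 2 - (ww n + ww (n + 1)) := by
  induction n with
  | zero => simp [mom_ww_zero, mom_ww_one]
  | succ n ih => rw [Finset.sum_range_succ, ih, mom_tel]; ring

theorem mom_summable2 : Summable fun m : ℕ => (ww (m + 2) : ℝ) / ((m : ℝ) + 2) := by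
  apply summable_of_sum_range_le (c := 2)
  · intro m; have := mom_ww_nonneg (m + 2); positivity
  · intro n
    rw [mom_sum_tel]
    linarith [mom_ww_nonneg n, mom_ww_nonneg (n + 1)]

theorem summable_ww_div (d : ℤ) : Summable fun m : ℕ => (ww m : ℝ) / ((m : ℝ) + d) := by
  rw [← summable_nat_add_iff (2 * d.natAbs + 2)]
  have h := ((summable_nat_add_iff (2 * d.natAbs)).2 mom_summable2).mul_left 2
  have hd : -(d.natAbs : ℝ) ≤ d := by
    have : -(d.natAbs : ℤ) ≤ d := by omega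
    exact_mod_cast this
  have h0 : (0 : ℝ) ≤ d.natAbs := Nat.cast_nonneg _
  refine Summable.of_nonneg_of_le (fun m => ?_) (fun m => ?_) h
  · apply div_nonneg (mom_ww_nonneg _)
    have : (0 : ℝ) ≤ m := Nat.cast_nonneg _
    push_cast [-Nat.cast_natAbs]; linarith
  · have hm : (0 : ℝ) ≤ m := Nat.cast_nonneg _
    have hw := mom_ww_nonneg (m + 2 * d.natAbs + 2)
    rw [← add_assoc, ← mul_div_assoc]
    push_cast [-Nat.cast_natAbs]
    rw [div_le_div_iff₀ (by linarith) (by linarith)]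
    nlinarith

theorem ww_tendsto : Filter.Tendsto (fun m : ℕ => (ww m : ℝ)) Filter.atTop (nhds 0) := by
  have h1 : Filter.Tendsto (fun m : ℕ => √(16 * (1 / ((m : ℝ) + 1)))) Filter.atTop (nhds 0) := by
    have := (tendsto_one_div_add_atTop_nhds_zero_nat (𝕜 := ℝ)).const_mul 16
    simpa using this.sqrt
  refine squeeze_zero (fun m => mom_ww_nonneg m) (fun m => ?_) h1
  apply Real.le_sqrt_of_sq_le
  have h : ((ww m : ℝ)) ^ 2 * ((m : ℝ) + 1) ≤ 16 := by exact_mod_cast ww_sq_le m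
  rw [mul_one_div, le_div_iff₀ (by positivity)]
  exact h

end Crest.Agent.R6
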