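import Crest.Agent.R6.Mom

/-! Integrals of powers of `t` in the variable `z`. -/

set_option autoImplicit false

namespace Crest.Agent.R6

open Finset MeasureTheory

/-- termwise integration, with integrability of the sum -/
theorem momint_series {s : Set ℝ} (hs : MeasurableSet s) {F : ℕ → ℝ → ℝ} {f : ℝ → ℝ}
    (hF : ∀ k, IntegrableOn (F k) s) (hsum : Summable fun k => ∫ z in s, ‖F k z‖)
    (hlim : ∀ z ∈ s, HasSum (fun k => F k z) (f z)) :
    IntegrableOn f s ∧ HasSum (fun k => ∫ z in s, F k z) (∫ z in s, f z) := by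
  have hae : ∀ᵐ z ∂(volume.restrict s), HasSum (fun k => F k z) (f z) :=
    (ae_restrict_iff' hs).2 (Filter.Eventually.of_forall hlim)
  constructor
  · refine ⟨?_, ?_⟩
    · refine aestronglyMeasurable_of_tendsto_ae Filter.atTop
        (f := fun n z => ∑ k ∈ range n, F k z) (fun n => ?_) (hae.mono fun z hz => hz.tendsto_sum_nat)
      exact (integrable_finsetSum _ fun k _ => hF k).1
    · have h1 : ∫⁻ z in s, ‖f z‖ₑ ≤ ∫⁻ z in s, ∑' k, ‖F k z‖ₑ :=
        lintegral_mono_ae (hae.mono fun z hz => by rw [← hz.tsum_eq]; exact enorm_tsum_le_tsum_enorm)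
      rw [lintegral_tsum fun k => (hF k).1.enorm] at h1
      refine lt_of_le_of_lt h1 ?_
      have h2 : ∀ k, ∫⁻ z in s, ‖F k z‖ₑ = ENNReal.ofReal (∫ z in s, ‖F k z‖) := fun k =>
        (ofReal_integral_norm_eq_lintegral_enorm (hF k)).symm
      simp_rw [h2]
      rw [← ENNReal.ofReal_tsum_of_nonneg (fun k => integral_nonneg fun z => norm_nonneg _) hsum]
      exact ENNReal.ofReal_lt_top
  · have h := hasSum_integral_of_summable_integral_norm hF hsum
    rwa [setIntegral_congr_fun hs (g := f) fun z hz => (hlim z hz).tsum_eq] at h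

theorem momint_den (z : ℝ) : 1 + z ^ 2 ≠ 0 := by positivity

theorem momint_tz_deriv (z : ℝ) : HasDerivAt tz (ff z * rho z) z := by
  have h1 : HasDerivAt (fun z : ℝ => 2 * z) 2 z := by simpa using (hasDerivAt_id z).const_mul 2
  have h2 : HasDerivAt (fun z : ℝ => 1 + z ^ 2) (2 * z) z := by
    simpa using (hasDerivAt_pow 2 z).const_add 1
  have h := h1.div h2 (momint_den z)
  have e : ff z * rho z = (2 * (1 + z ^ 2) - 2 * z * (2 * z)) / (1 + z ^ 2) ^ 2 := by
    unfold ff rho; have := momint_den z; field_simp; ring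
  rw [e]; exact h

theorem momint_ff_deriv (z : ℝ) : HasDerivAt ff (-(tz z * rho z)) z := by
  have h1 : HasDerivAt (fun z : ℝ => 1 - z ^ 2) (-(2 * z)) z := by
    simpa using (hasDerivAt_pow 2 z).const_sub 1
  have h2 : HasDerivAt (fun z : ℝ => 1 + z ^ 2) (2 * z) z := by
    simpa using (hasDerivAt_pow 2 z).const_add 1
  have h := h1.div h2 (momint_den z)
  have e : -(tz z * rho z) =
      (-(2 * z) * (1 + z ^ 2) - (1 - z ^ 2) * (2 * z)) / (1 + z ^ 2) ^ 2 := by
    unfold tz rho; have := momint_den z; field_simp; ring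
  rw [e]; exact h

theorem momint_sq (z : ℝ) : tz z ^ 2 + ff z ^ 2 = 1 := by
  unfold tz ff; have := momint_den z; field_simp; ring

theorem momint_tz_cont : Continuous tz :=
  continuous_iff_continuousAt.2 fun z => (momint_tz_deriv z).continuousAt

theorem momint_ff_cont : Continuous ff :=
  continuous_iff_continuousAt.2 fun z => (momint_ff_deriv z).continuousAt

theorem momint_rho_cont : Continuous rho := by
  unfold rho
  exact continuous_const.div (by fun_prop) momint_den

theorem momint_rho_pos (z : ℝ) : 0 < rho z := by unfold rho; positivity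

theorem momint_tz_zero : tz 0 = 0 := by simp [tz]

theorem momint_tz_one : tz 1 = 1 := by norm_num [tz]

theorem momint_ff_zero : ff 0 = 1 := by simp [ff]

theorem momint_ff_one : ff 1 = 0 := by simp [ff]

theorem momint_tz_neg (z : ℝ) : tz (-z) = -tz z := by unfold tz; rw [neg_sq]; ring

theorem momint_rho_neg (z : ℝ) : rho (-z) = rho z := by unfold rho; rw [neg_sq]

theorem momint_abs_tz_le (z : ℝ) : |tz z| ≤ 1 := by
  rw [← sq_le_one_iff_abs_le_one]
  nlinarith [momint_sq z, sq_nonneg (ff z)]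

theorem momint_ff_pos {z : ℝ} (hz : |z| < 1) : 0 < ff z := by
  unfold ff
  have : z ^ 2 < 1 := (sq_lt_one_iff_abs_lt_one z).2 hz
  apply div_pos (by linarith) (by positivity)

theorem momint_abs_tz_lt {z : ℝ} (hz : |z| < 1) : |tz z| < 1 := by
  rw [← sq_lt_one_iff_abs_lt_one]
  nlinarith [momint_sq z, momint_ff_pos hz]

theorem momint_tz_nonneg {z : ℝ} (hz : 0 ≤ z) : 0 ≤ tz z := by unfold tz; positivity

theorem momint_Ioo {a b : ℝ} (hab : a ≤ b) (f : ℝ → ℝ) :
    ∫ z in Set.Ioo a b, f z = ∫ z in a..b, f z := by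
  rw [intervalIntegral.integral_of_le hab, integral_Ioc_eq_integral_Ioo]

theorem momint_integrableOn {f : ℝ → ℝ} (hf : Continuous f) (a b : ℝ) :
    IntegrableOn f (Set.Ioo a b) :=
  (hf.integrableOn_Icc (a := a) (b := b)).mono_set Set.Ioo_subset_Icc_self

/-- the Wallis recurrence for a pair `u, v` with `u' = ε v ρ`, `v' = -ε u ρ`, `u² + v² = 1` -/
theorem momint_gen {u v : ℝ → ℝ} {ε : ℝ} (hε : ε ≠ 0)
    (hu : ∀ z, HasDerivAt u (ε * (v z * rho z)) z) (hv : ∀ z, HasDerivAt v (-(ε * (u z * rho z))) z)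
    (huv : ∀ z, u z ^ 2 + v z ^ 2 = 1) (h0 : u 0 * v 0 = 0) (h1 : u 1 * v 1 = 0)
    (h2 : v 0 - v 1 = ε) (l : ℕ) :
    ∫ z in (0 : ℝ)..1, u z ^ (2 * l + 1) * rho z = (ww (2 * l) : ℝ) / 2 := by
  have cu : Continuous u := continuous_iff_continuousAt.2 fun z => (hu z).continuousAt
  have cr := momint_rho_cont
  induction l with
  | zero =>
    have h := intervalIntegral.integral_eq_sub_of_hasDerivAt (a := 0) (b := 1) (fun z _ => hv z)
      (Continuous.intervalIntegrable (by fun_prop) _ _)
    rw [intervalIntegral.integral_neg, intervalIntegral.integral_const_mul] at h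
    apply mul_left_cancel₀ hε
    simp only [mul_zero, zero_add, pow_one, mom_ww_zero]
    push_cast; linarith
  | succ l ih =>
    have hd : ∀ z, HasDerivAt (fun z => u z ^ (2 * l + 2) * v z)
        (ε * ((2 * l + 2) * (u z ^ (2 * l + 1) * rho z) -
          (2 * l + 3) * (u z ^ (2 * (l + 1) + 1) * rho z))) z := by
      intro z
      have h := ((hu z).pow (2 * l + 2)).mul (hv z)
      refine HasDerivAt.congr_deriv h ?_
      simp only [Pi.pow_apply, show 2 * l + 2 - 1 = 2 * l + 1 by omega]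
      push_cast
      linear_combination (ε * (2 * l + 2) * u z ^ (2 * l + 1) * rho z) * huv z
    have h := intervalIntegral.integral_eq_sub_of_hasDerivAt (a := 0) (b := 1) (fun z _ => hd z)
      (Continuous.intervalIntegrable (by fun_prop) _ _)
    rw [intervalIntegral.integral_const_mul, intervalIntegral.integral_sub
      (Continuous.intervalIntegrable (by fun_prop) _ _)
      (Continuous.intervalIntegrable (by fun_prop) _ _), intervalIntegral.integral_const_mul,
      intervalIntegral.integral_const_mul, ih, pow_succ (u 1), pow_succ (u 0), mul_assoc, mul_assoc,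
      h0, h1, mul_zero, mul_zero, sub_zero] at h
    have h3 := (mul_eq_zero.1 h).resolve_left hε
    have h4 := mom_ww_rec (2 * l)
    push_cast at h4
    have h5 : (2 * (l : ℝ) + 3) ≠ 0 := by positivity
    apply mul_left_cancel₀ h5
    rw [show 2 * (l + 1) = 2 * l + 2 by ring] at h3 ⊢
    linarith

theorem momint_tz_odd (l : ℕ) :
    ∫ z in (0 : ℝ)..1, tz z ^ (2 * l + 1) * rho z = (ww (2 * l) : ℝ) / 2 :=
  momint_gen (v := ff) one_ne_zero (by simpa using momint_tz_deriv) (by simpa using momint_ff_deriv)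
    momint_sq (by simp [momint_tz_zero]) (by simp [momint_ff_one])
    (by simp [momint_ff_one, momint_ff_zero]) l

theorem momint_ff_odd (l : ℕ) :
    ∫ z in (0 : ℝ)..1, ff z ^ (2 * l + 1) * rho z = (ww (2 * l) : ℝ) / 2 :=
  momint_gen (v := tz) (ε := -1) (by norm_num) (by simpa using momint_ff_deriv)
    (by simpa using momint_tz_deriv) (fun z => by rw [add_comm]; exact momint_sq z)
    (by simp [momint_tz_zero]) (by simp [momint_ff_one])
    (by simp [momint_tz_one, momint_tz_zero]) l

/-- `∫_0^1 t^{2l+1} ρ dz = w_{2l}/2`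
(use `d/dz (t^m ff) = (m t^{m-1} - (m+1) t^{m+1}) ρ`). -/
theorem int_tz_odd (l : ℕ) :
    ∫ z in Set.Ioo (0 : ℝ) 1, tz z ^ (2 * l + 1) * rho z = (ww (2 * l) : ℝ) / 2 := by
  rw [momint_Ioo zero_le_one, momint_tz_odd]

/-- `∫_{-1}^1 |t| t^m ρ dz = w_m`. -/
theorem int_abs_tz (m : ℕ) :
    ∫ z in Set.Ioo (-1 : ℝ) 1, |tz z| * tz z ^ m * rho z = (ww m : ℝ) := by
  have ct := momint_tz_cont
  have cr := momint_rho_cont
  rw [momint_Ioo (by norm_num), ← intervalIntegral.integral_add_adjacent_intervals (b := 0)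
    (Continuous.intervalIntegrable (by fun_prop) _ _)
    (Continuous.intervalIntegrable (by fun_prop) _ _)]
  have h1 : ∫ z in (0 : ℝ)..1, |tz z| * tz z ^ m * rho z =
      ∫ z in (0 : ℝ)..1, tz z ^ (m + 1) * rho z := by
    refine intervalIntegral.integral_congr fun z hz => ?_
    rw [Set.uIcc_of_le zero_le_one] at hz
    simp only [abs_of_nonneg (momint_tz_nonneg hz.1)]
    ring
  have h2 : ∫ z in (-1 : ℝ)..0, |tz z| * tz z ^ m * rho z =
      (-1) ^ m * ∫ z in (0 : ℝ)..1, |tz z| * tz z ^ m * rho z := by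
    have := intervalIntegral.integral_comp_neg (a := 0) (b := 1)
      (fun z => |tz z| * tz z ^ m * rho z)
    rw [neg_zero] at this
    rw [← this, ← intervalIntegral.integral_const_mul]
    refine intervalIntegral.integral_congr fun z _ => ?_
    simp only [momint_tz_neg, momint_rho_neg, abs_neg]
    rw [neg_pow]; ring
  rw [h2, h1]
  obtain ⟨l, rfl | rfl⟩ := Nat.even_or_odd' m
  · rw [momint_tz_odd, pow_mul]; norm_num
  · rw [mom_ww_odd, pow_succ, pow_mul]; norm_num

theorem momint_abs_le (m : ℕ) :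
    ∫ z in Set.Ioo (-1 : ℝ) 1, |tz z| * |tz z| ^ (m + 1) * rho z ≤ ww m + ww (m + 1) := by
  have ct := momint_tz_cont
  have cr := momint_rho_cont
  obtain ⟨l, rfl | rfl⟩ := Nat.even_or_odd' m
  · rw [mom_ww_odd, ← int_abs_tz]
    push_cast; rw [add_zero]
    refine setIntegral_mono (momint_integrableOn (by fun_prop) _ _)
      (momint_integrableOn (by fun_prop) _ _) fun z => ?_
    have h1 : |tz z| ^ (2 * l + 1) ≤ tz z ^ (2 * l) := by
      rw [pow_succ, pow_mul, pow_mul, sq_abs]
      exact mul_le_of_le_one_right (by positivity) (momint_abs_tz_le z)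
    exact mul_le_mul_of_nonneg_right (mul_le_mul_of_nonneg_left h1 (abs_nonneg _))
      (momint_rho_pos z).le
  · rw [mom_ww_odd, ← int_abs_tz]
    push_cast; rw [zero_add]
    refine le_of_eq ?_
    congr 1; funext z
    rw [show 2 * l + 1 + 1 = 2 * (l + 1) by ring, pow_mul, pow_mul, sq_abs]

theorem momint_summable_shift (i : ℕ) (d : ℤ) :
    Summable fun k : ℕ => (ww (i + k) : ℝ) / ((k : ℝ) + d) := by
  have h := (summable_nat_add_iff i).2 (summable_ww_div (d - i))
  refine h.congr fun k => ?_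
  rw [add_comm k i]; congr 1; push_cast; ring

/-- `∫_{-1}^1 |t|^{m+1} ρ dz ≤ 4/√m`-type bound, in the form used for dominated convergence. -/
theorem summable_int_abs (i j : ℕ) : Summable fun k : ℕ =>
    ∫ z in Set.Ioo (-1 : ℝ) 1, ‖|tz z| * tz z ^ (i + k) * rho z / ((j : ℝ) + k + 1)‖ := by
  rw [← summable_nat_add_iff 1]
  have h := (momint_summable_shift i (j + 2)).add (momint_summable_shift (i + 1) (j + 2))
  refine Summable.of_nonneg_of_le (fun k => integral_nonneg fun z => norm_nonneg _)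
    (fun k => ?_) h
  have hp : (0 : ℝ) < (k : ℝ) + ((j + 2 : ℤ) : ℝ) := by push_cast; positivity
  have e : ∀ z, ‖|tz z| * tz z ^ (i + (k + 1)) * rho z / ((j : ℝ) + (k + 1 : ℕ) + 1)‖ =
      |tz z| * |tz z| ^ (i + k + 1) * rho z / ((k : ℝ) + ((j + 2 : ℤ) : ℝ)) := by
    intro z
    have : (j : ℝ) + (k + 1 : ℕ) + 1 = (k : ℝ) + ((j + 2 : ℤ) : ℝ) := by push_cast; ring
    rw [this, Real.norm_eq_abs, abs_div, abs_of_pos hp, abs_mul, abs_mul, abs_abs, abs_pow,
      abs_of_pos (momint_rho_pos z), add_assoc i k 1]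
  simp_rw [e]
  rw [integral_div, ← add_div, show i + 1 + k = i + k + 1 by ring]
  exact div_le_div_of_nonneg_right (momint_abs_le (i + k)) hp.le

/-- `∫_0^1 t^i dt = 1/(i+1)` (`d/dz t^{i+1} = (i+1) t^i ff ρ`). -/
theorem int_tz_ff (i : ℕ) :
    ∫ z in Set.Ioo (0 : ℝ) 1, tz z ^ i * ff z * rho z = 1 / ((i : ℝ) + 1) := by
  have ct := momint_tz_cont
  have cr := momint_rho_cont
  have cf := momint_ff_cont
  have hi : (i : ℝ) + 1 ≠ 0 := by positivity
  have hd : ∀ z, HasDerivAt (fun z => tz z ^ (i + 1) / ((i : ℝ) + 1)) (tz z ^ i * ff z * rho z) z := by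
    intro z
    have h := ((momint_tz_deriv z).pow (i + 1)).div_const ((i : ℝ) + 1)
    refine HasDerivAt.congr_deriv h ?_
    simp only [Nat.add_sub_cancel]
    push_cast; field_simp
  rw [momint_Ioo zero_le_one, intervalIntegral.integral_eq_sub_of_hasDerivAt (fun z _ => hd z)
    (Continuous.intervalIntegrable (by fun_prop) _ _), momint_tz_zero, momint_tz_one]
  simp

end Crest.Agent.R6
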