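import Crest.Agent.R6.NVTab
import Mathlib

/-! # R6 nonvanishing: kernel checks of the tables modulo 53. -/

set_option autoImplicit false

namespace Crest.Agent.R6.NVT

open Finset

/-- table lookup -/
def lk (T i : ℕ) : ℕ := (T >>> (6 * i)) % 64

def iv (z : ℕ) : ℕ := lk ivT (z % 53)

theorem iv_chk : ∀ z < 53, lk ivT z * z % 53 = (if z = 0 then 0 else 1) % 53 ∧ lk ivT 0 = 0 := by
  decide +kernel

theorem c_chk : lk cT 0 = 1 ∧ lk cT 1 = 0 ∧
    ∀ m < 48, lk cT (m + 2) % 53 = (m + 1) * lk cT m * iv (m + 2) % 53 := by decide +kernel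

theorem w_chk : lk wT 0 = 2 ∧ lk wT 1 = 0 ∧
    ∀ m < 48, lk wT (m + 2) % 53 = (m + 2) * lk wT m * iv (m + 3) % 53 := by decide +kernel

theorem h_chk : lk hT 0 = 0 ∧ ∀ m < 49, lk hT (m + 1) % 53 = (lk hT m + iv (m + 1)) % 53 := by
  decide +kernel

def pA (l : ℕ) : ℕ := lk wT (2 * l) * ∑ k ∈ range (l + 1), lk cT (2 * k) * iv (2 * k + 1)
def pB (l : ℕ) : ℕ := lk cT (2 * l) * ∑ k ∈ range l, lk wT (2 * k) * iv (2 * k + 2)
def pC (l : ℕ) : ℕ := 52 * (lk cT (2 * l) * ∑ k ∈ range l, lk wT (2 * k) * iv (2 * k + 1))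
def pD (l : ℕ) : ℕ := lk wT (2 * l) * (1 + ∑ k ∈ range l,
  (iv (2 * k + 3) + 52 * iv (2 * k + 2) + 52 * (lk cT (2 * k + 2) * iv (2 * k + 2))))

theorem p_chk : ∀ n < 94, lk pT n % 53 =
    (if 50 ≤ n then (if n % 2 = 0 then pB ((n - 50) / 2) else pA ((n - 51) / 2))
    else (if n % 2 = 0 then pD ((48 - n) / 2) else pC ((49 - n) / 2))) % 53 := by decide +kernel

theorem M_chk : ∀ i < 49, ∀ j < 44, lk MT (i * 44 + j) % 53 =
    (lk pT (j + 49 - i) + 52 * ∑ m ∈ range i, lk wT m * iv (m + j + 54 - i)) % 53 := by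
  decide +kernel

theorem Z_chk : ∀ i < 49, ∀ j < 44, lk ZT (i * 44 + j) % 53 =
    (if i = j then 52 * ∑ k ∈ range i, iv (k + 1) * iv (k + 1)
      else (lk hT i + 52 * lk hT j) * iv (i + 53 - j)) % 53 := by
  decide +kernel

def sg (a : ℕ) : ℕ := if a = 1 then 51 else 1

def KN (T l k : ℕ) : ℕ :=
  ∑ a ∈ range 3, ∑ b ∈ range 3, sg a * sg b * lk T ((46 - l + a) * 44 + (6 + k + b))

theorem PZ_chk : ∀ l < 34, ∀ k < 36, lk PZT (l * 36 + k) % 53 = KN ZT l k % 53 := by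
  decide +kernel

theorem R_chk : ∀ i < 37, ∀ k < 36, lk RT (i * 36 + k) % 53 =
    (if i ≤ 33 then KN MT i k + 25 * ∑ m ∈ range 30,
        (if m + 4 ≤ i then lk cT (i - 4 - m) else 0) * lk PZT ((3 + m) * 36 + k)
      else 25 * lk PZT ((i - 34) * 36 + k)) % 53 := by
  decide +kernel

def vN (c i : ℕ) : ℕ :=
  if c = 0 then (if i = 33 then 1 else 0)
  else if c = 1 then (if i ≤ 33 then 1 else 0) else (if i ≤ 33 then 52 ^ i else 0)

def MN (c i k : ℕ) : ℕ := if k < 36 then lk RT (i * 36 + k) else vN c i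

def IT (c : ℕ) : ℕ := if c = 0 then I0 else if c = 1 then I1 else I2

theorem I_chk : ∀ c < 3, ∀ i < 37, ∀ j < 37,
    (∑ k ∈ range 37, MN c i k * lk (IT c) (k * 37 + j)) % 53 = (if i = j then 1 else 0) % 53 := by
  decide +kernel

end Crest.Agent.R6.NVT
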