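import Crest.Agent.R6.ABound

/-! # R6 nonvanishing: the fixed matrices. -/

set_option autoImplicit false
set_option linter.unusedSectionVars false

namespace Crest.Agent.R6

open Polynomial Finset

/-- The fixed `37 × 36` matrix: rows `i ≤ 33` belong to `P = τ^i` (with the part of `D` of degree `≥ 3` forced by the contact),
rows `34, 35, 36` to `P = 0`, `D = 1, τ, τ²`. -/
def Rfix (i k : ℕ) : ℚ :=
  if i ≤ 33 then KM M0 1 i k - 3 / 2 * ∑ m ∈ Ico (3 : ℕ) 33, cz ((i : ℤ) - 1 - (m : ℕ)) * KM Z0 1 m k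
  else -(3 / 2) * KM Z0 1 (i - 34) k

def vfix (c : ℕ) (i : ℕ) : ℚ :=
  if c = 0 then (if i = 33 then 1 else 0)
  else if c = 1 then (if i ≤ 33 then 1 else 0) else (if i ≤ 33 then (-1) ^ i else 0)

def Mfix (c : ℕ) : Matrix (Fin 37) (Fin 37) ℚ :=
  Matrix.of fun i k => if (k : ℕ) < 36 then Rfix i k else vfix c i

/-- the three facts about the left kernel of `Rfix` modulo `p` -/
def KerFacts (p : ℕ) [Fact p.Prime] : Prop :=
  ∀ s : ℕ → ZMod p, (∀ k < 36, ∑ i ∈ range 37, s i * ((Rfix i k : ℚ) : ZMod p) = 0) →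
    (s 33 = 0 ∨ ∑ i ∈ range 34, s i = 0 ∨ ∑ i ∈ range 34, (-1) ^ i * s i = 0) →
    ∀ i < 37, s i = 0

section
variable {p : ℕ} [hp : Fact p.Prime]

theorem nrm_KM_M0_one (h : 50 ≤ p) {l k : ℕ} (hk : k < 36) : nrm p (KM M0 1 l k) ≤ 1 := by
  have h2 : p ≠ 2 := by omega
  refine nrm_sum_le zero_le_one fun a ha => nrm_sum_le zero_le_one fun b hb => ?_
  rw [mem_range] at ha hb
  refine nrm_mul_le_right (nrm_mul_le_right (nrm_mul_le_right (by simp) (nrm_nat_le _))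
    (nrm_nat_le _)) ?_
  have := nrm_M0_le (p := p) h2 (i := 47 * 1 - 1 - l + a) (j := 6 * 1 + k + b) (M := 49)
    (by omega) (by omega)
  rwa [lg_of_lt (by omega), one_pow] at this

theorem nrm_KM_Z0_one (h : 50 ≤ p) {l k : ℕ} (hk : k < 36) : nrm p (KM Z0 1 l k) ≤ 1 := by
  refine nrm_sum_le zero_le_one fun a ha => nrm_sum_le zero_le_one fun b hb => ?_
  rw [mem_range] at ha hb
  refine nrm_mul_le_right (nrm_mul_le_right (nrm_mul_le_right (by simp) (nrm_nat_le _))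
    (nrm_nat_le _)) ?_
  have := nrm_Z0_le (p := p) (i := 47 * 1 - 1 - l + a) (j := 6 * 1 + k + b) (M := 49)
    (by omega) (by omega)
  rwa [lg_of_lt (by omega), one_pow] at this

theorem nrm_three_halves (h2 : p ≠ 2) : nrm p (3 / 2) ≤ 1 := by
  rw [nrm_div, nrm_two_eq_one h2, div_one]; exact_mod_cast nrm_nat_le (p := p) 3

theorem nrm_Rfix (h : 50 ≤ p) {i k : ℕ} (hk : k < 36) : nrm p (Rfix i k) ≤ 1 := by
  have h2 : p ≠ 2 := by omega
  unfold Rfix
  split_ifs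
  · exact nrm_sub_le (nrm_KM_M0_one h hk) (nrm_mul_le_right (nrm_three_halves h2)
      (nrm_sum_le zero_le_one fun m _ =>
        nrm_mul_le_right (nrm_cz_le_one h2 _) (nrm_KM_Z0_one h hk)))
  · exact nrm_mul_le_right (by rw [nrm_neg]; exact nrm_three_halves h2) (nrm_KM_Z0_one h hk)

theorem nrm_vfix (c i : ℕ) : nrm p (vfix c i) ≤ 1 := by
  unfold vfix
  split_ifs <;> simp

theorem nrm_Mfix (h : 50 ≤ p) (c : ℕ) (i k : Fin 37) : nrm p (Mfix c i k) ≤ 1 := by
  unfold Mfix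
  rw [Matrix.of_apply]
  split_ifs with h1
  · exact nrm_Rfix h h1
  · exact nrm_vfix c i
end

end Crest.Agent.R6
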