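import Crest.Agent.R6.NVDefs
import Crest.Agent.R6.NVChk

/-! # R6 nonvanishing: the three fixed determinants are nonzero (checked modulo 53). -/

set_option autoImplicit false
set_option maxHeartbeats 200000
set_option linter.unusedSectionVars false

namespace Crest.Agent.R6

open Polynomial Finset

namespace NVT

attribute [local irreducible] lk iv pA pB pC pD KN ivT cT wT hT pT MT ZT PZT RT I0 I1 I2 IT
  Rfix KM vfix MN vN cc ww M0 Z0 phi0 cz

instance fact53 : Fact (Nat.Prime 53) := ⟨by norm_num⟩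

theorem cast_of_mod {a b : ℕ} (h : a % 53 = b % 53) : (a : ZMod 53) = (b : ZMod 53) :=
  (ZMod.natCast_eq_natCast_iff' a b 53).2 h

theorem iv_spec (z : ℕ) : ((iv z : ℕ) : ZMod 53) = (z : ZMod 53)⁻¹ := by
  have h := iv_chk (z % 53) (Nat.mod_lt _ (by norm_num))
  have e : (z : ZMod 53) = ((z % 53 : ℕ) : ZMod 53) := cast_of_mod (by simp)
  rw [e, iv]
  by_cases h0 : z % 53 = 0
  · rw [h0, h.2]; simp
  · have h1 := cast_of_mod h.1
    rw [if_neg h0, Nat.cast_mul, Nat.cast_one] at h1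
    exact eq_inv_of_mul_eq_one_left h1

theorem h52 : ((52 : ℕ) : ZMod 53) = -1 := by decide

theorem ndvd {z : ℤ} (hz : z.natAbs < 53) : z = 0 ∨ ¬ ((53 : ℕ) : ℤ) ∣ z := by
  push_cast; omega

theorem red_div' {x y : ℚ} (hx : nrm 53 x ≤ 1) (z : ℤ) (hy : y = z) (hz : z.natAbs < 53) (n : ℕ)
    (hn : (n : ℤ) = z ∨ (n : ℤ) = z + 53) :
    ((x / y : ℚ) : ZMod 53) = (x : ZMod 53) * (iv n : ℕ) := by
  rw [hy, red_div_int hx (ndvd hz), iv_spec, div_eq_mul_inv]
  congr 2
  have e : (n : ZMod 53) = ((n : ℤ) : ZMod 53) := by simp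
  rw [e]
  rcases hn with hn | hn
  · rw [hn]
  · rw [hn]; push_cast
    have : (53 : ZMod 53) = 0 := by decide
    rw [this, add_zero]

theorem nrm_div' {x y : ℚ} (hx : nrm 53 x ≤ 1) (z : ℤ) (hy : y = z) (hz : z.natAbs < 53) :
    nrm 53 (x / y) ≤ 1 := by
  rw [hy, div_eq_mul_inv]; exact nrm_mul_le_right hx (nrm_inv_int_le_one (ndvd hz))

theorem n_cc (m : ℕ) : nrm 53 (cc m) ≤ 1 := nrm_cc_le_one (by norm_num) m
theorem n_ww {m : ℕ} (h : m < 52) : nrm 53 (ww m) ≤ 1 := by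
  have := nrm_ww_le (p := 53) m
  rwa [lg_of_lt (by omega)] at this
theorem n_h {m : ℕ} (h : m < 53) : nrm 53 (harmonic m) ≤ 1 := by
  have := nrm_harmonic_le (p := 53) m
  rwa [lg_of_lt h] at this

theorem c_spec (m : ℕ) (h : m < 50) : ((cc m : ℚ) : ZMod 53) = (lk cT m : ℕ) := by
  induction m using Nat.twoStepInduction with
  | zero => rw [c_chk.1]; simp
  | one => rw [c_chk.2.1, cc_odd (by norm_num)]; simp
  | more m ih _ =>
    have h1 : cc (m + 2) = ((m + 1 : ℕ) : ℚ) * cc m / ((m : ℚ) + 2) := by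
      rw [eq_div_iff (by positivity)]; push_cast; linear_combination cc_add_two m
    rw [h1, red_div' (nrm_mul_le_right (nrm_nat_le _) (n_cc m)) ((m : ℤ) + 2) (by push_cast; ring)
      (by omega) (m + 2) (by omega), red_mul (nrm_nat_le _) (n_cc m), ih (by omega),
      cast_of_mod (c_chk.2.2 m (by omega)), Rat.cast_natCast, Nat.cast_mul, Nat.cast_mul]

theorem w_spec (m : ℕ) (h : m < 50) : ((ww m : ℚ) : ZMod 53) = (lk wT m : ℕ) := by
  induction m using Nat.twoStepInduction with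
  | zero => rw [w_chk.1]; simp
  | one => rw [w_chk.2.1, ww_odd (by norm_num)]; simp
  | more m ih _ =>
    have h1 : ww (m + 2) = ((m + 2 : ℕ) : ℚ) * ww m / ((m : ℚ) + 3) := by
      rw [eq_div_iff (by positivity)]; push_cast; linear_combination ww_add_two m
    rw [h1, red_div' (nrm_mul_le_right (nrm_nat_le _) (n_ww (by omega))) ((m : ℤ) + 3)
      (by push_cast; ring) (by omega) (m + 3) (by omega), red_mul (nrm_nat_le _) (n_ww (by omega)),
      ih (by omega), cast_of_mod (w_chk.2.2 m (by omega)), Rat.cast_natCast, Nat.cast_mul,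
      Nat.cast_mul]

theorem h_spec (m : ℕ) (h : m < 50) : ((harmonic m : ℚ) : ZMod 53) = (lk hT m : ℕ) := by
  induction m with
  | zero => rw [h_chk.1]; simp
  | succ m ih =>
    rw [harmonic_succ, red_add (n_h (by omega)) (nrm_inv_nat_le_one (by omega)), ih (by omega),
      cast_of_mod (h_chk.2 m (by omega)), Rat.cast_inv_nat, Nat.cast_add (lk hT m), iv_spec]

theorem pA_spec {l : ℕ} (h : l < 25) : ((phiA l : ℚ) : ZMod 53) = (pA l : ℕ) := by
  have hs : ∀ k ∈ range (l + 1), nrm 53 (cc (2 * k) / (2 * (k : ℚ) + 1)) ≤ 1 := fun k hk =>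
    nrm_div' (n_cc _) (2 * k + 1) (by push_cast; ring) (by rw [mem_range] at hk; omega)
  rw [phiA, pA, red_mul (n_ww (by omega)) (nrm_sum_le zero_le_one hs), red_sum hs,
    w_spec _ (by omega), Nat.cast_mul, Nat.cast_sum]
  congr 1
  refine sum_congr rfl fun k hk => ?_
  rw [mem_range] at hk
  rw [red_div' (n_cc _) (2 * k + 1) (by push_cast; ring) (by omega) (2 * k + 1) (by omega),
    c_spec _ (by omega), Nat.cast_mul]

theorem pB_spec {l : ℕ} (h : l < 25) : ((phiB l : ℚ) : ZMod 53) = (pB l : ℕ) := by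
  have hs : ∀ k ∈ range l, nrm 53 (ww (2 * k) / (2 * (k : ℚ) + 2)) ≤ 1 := fun k hk => by
    rw [mem_range] at hk
    exact nrm_div' (n_ww (by omega)) (2 * k + 2) (by push_cast; ring) (by omega)
  rw [phiB, pB, red_mul (n_cc _) (nrm_sum_le zero_le_one hs), red_sum hs,
    c_spec _ (by omega), Nat.cast_mul, Nat.cast_sum]
  congr 1
  refine sum_congr rfl fun k hk => ?_
  rw [mem_range] at hk
  rw [red_div' (n_ww (by omega)) (2 * k + 2) (by push_cast; ring) (by omega) (2 * k + 2) (by omega),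
    w_spec _ (by omega), Nat.cast_mul]

theorem pC_spec {l : ℕ} (h : l < 25) : ((phiC l : ℚ) : ZMod 53) = (pC l : ℕ) := by
  have hs : ∀ k ∈ range l, nrm 53 (ww (2 * k) / (2 * (k : ℚ) + 1)) ≤ 1 := fun k hk => by
    rw [mem_range] at hk
    exact nrm_div' (n_ww (by omega)) (2 * k + 1) (by push_cast; ring) (by omega)
  rw [phiC, pC, red_neg, red_mul (n_cc _) (nrm_sum_le zero_le_one hs), red_sum hs,
    c_spec _ (by omega), Nat.cast_mul, h52, Nat.cast_mul, Nat.cast_sum, neg_one_mul]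
  congr 2
  refine sum_congr rfl fun k hk => ?_
  rw [mem_range] at hk
  rw [red_div' (n_ww (by omega)) (2 * k + 1) (by push_cast; ring) (by omega) (2 * k + 1) (by omega),
    w_spec _ (by omega), Nat.cast_mul]

theorem pD_spec {l : ℕ} (h : l < 25) : ((phiD l : ℚ) : ZMod 53) = (pD l : ℕ) := by
  have h1 : ∀ k < l, nrm 53 (1 / (2 * (k : ℚ) + 3)) ≤ 1 := fun k hk =>
    nrm_div' (by simp) (2 * k + 3) (by push_cast; ring) (by omega)
  have h2 : ∀ k < l, nrm 53 (1 / (2 * (k : ℚ) + 2)) ≤ 1 := fun k hk =>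
    nrm_div' (by simp) (2 * k + 2) (by push_cast; ring) (by omega)
  have h3 : ∀ k < l, nrm 53 (cc (2 * k + 2) / (2 * (k : ℚ) + 2)) ≤ 1 := fun k hk =>
    nrm_div' (n_cc _) (2 * k + 2) (by push_cast; ring) (by omega)
  have hs : ∀ k ∈ range l, nrm 53 (1 / (2 * (k : ℚ) + 3) - 1 / (2 * (k : ℚ) + 2) -
      cc (2 * k + 2) / (2 * (k : ℚ) + 2)) ≤ 1 := fun k hk => by
    rw [mem_range] at hk
    exact nrm_sub_le (nrm_sub_le (h1 k hk) (h2 k hk)) (h3 k hk)
  rw [phiD, pD, red_mul (n_ww (by omega)) (nrm_add_le (by simp) (nrm_sum_le zero_le_one hs)),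
    red_add (by simp) (nrm_sum_le zero_le_one hs), red_sum hs,
    w_spec _ (by omega), Nat.cast_mul, Nat.cast_add, Nat.cast_sum, Rat.cast_one, Nat.cast_one]
  refine congrArg₂ (· * ·) rfl (congrArg₂ (· + ·) rfl (sum_congr rfl fun k hk => ?_))
  rw [mem_range] at hk
  rw [red_sub (nrm_sub_le (h1 k hk) (h2 k hk)) (h3 k hk), red_sub (h1 k hk) (h2 k hk),
    red_div' (by simp) (2 * k + 3) (by push_cast; ring) (by omega) (2 * k + 3) (by omega),
    red_div' (by simp) (2 * k + 2) (by push_cast; ring) (by omega) (2 * k + 2) (by omega),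
    red_div' (n_cc _) (2 * k + 2) (by push_cast; ring) (by omega) (2 * k + 2) (by omega),
    c_spec _ (by omega), Nat.cast_add, Nat.cast_add, Nat.cast_mul, Nat.cast_mul, Nat.cast_mul, h52]
  simp only [Rat.cast_one]; ring

theorem p_spec {n : ℕ} (h : n < 94) {d : ℤ} (hd : d = n - 48) :
    ((phi0 d : ℚ) : ZMod 53) = (lk pT n : ℕ) := by
  rw [cast_of_mod (p_chk n h), phi0]
  by_cases h1 : 50 ≤ n <;> by_cases h2 : n % 2 = 0
  · rw [if_pos (by omega), if_pos (by omega), if_pos h1, if_pos h2,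
      show ((d - 2) / 2).toNat = (n - 50) / 2 by omega, pB_spec (by omega)]
  · rw [if_pos (by omega), if_neg (by omega), if_pos h1, if_neg h2,
      show ((d - 3) / 2).toNat = (n - 51) / 2 by omega, pA_spec (by omega)]
  · rw [if_neg (by omega), if_pos (by omega), if_neg h1, if_pos h2,
      show (-d / 2).toNat = (48 - n) / 2 by omega, pD_spec (by omega)]
  · rw [if_neg (by omega), if_neg (by omega), if_neg h1, if_neg h2,
      show ((1 - d) / 2).toNat = (49 - n) / 2 by omega, pC_spec (by omega)]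

theorem M_spec {i j : ℕ} (hi : i < 49) (hj : j < 44) :
    ((M0 i j : ℚ) : ZMod 53) = (lk MT (i * 44 + j) : ℕ) := by
  have hs : ∀ m ∈ range i, nrm 53 (ww m / ((m : ℚ) + ((j : ℚ) - i + 1))) ≤ 1 := fun m hm => by
    rw [mem_range] at hm
    exact nrm_div' (n_ww (by omega)) (m + j - i + 1) (by push_cast; ring) (by omega)
  have hφ : nrm 53 (phi0 ((j : ℤ) - i + 1)) ≤ 1 := by
    have := nrm_phi0_le (p := 53) (by norm_num) (e := (j : ℤ) - i) (M := 50) (by omega)
    rwa [lg_of_lt (by omega), one_pow] at this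
  rw [cast_of_mod (M_chk i hi j hj), M0, red_sub hφ (nrm_sum_le zero_le_one hs), red_sum hs,
    p_spec (n := j + 49 - i) (by omega) (by omega), Nat.cast_add, Nat.cast_mul, h52, Nat.cast_sum,
    neg_one_mul, sub_eq_add_neg]
  congr 2
  refine sum_congr rfl fun m hm => ?_
  rw [mem_range] at hm
  rw [red_div' (n_ww (by omega)) (m + j - i + 1) (by push_cast; ring) (by omega) (m + j + 54 - i)
    (by omega), w_spec _ (by omega), Nat.cast_mul]

theorem Z_spec {i j : ℕ} (hi : i < 49) (hj : j < 44) :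
    ((Z0 i j : ℚ) : ZMod 53) = (lk ZT (i * 44 + j) : ℕ) := by
  rw [cast_of_mod (Z_chk i hi j hj), Z0]
  split_ifs with h
  · have h1 : ∀ k < i, nrm 53 (1 / ((k : ℚ) + 1)) ≤ 1 := fun k hk =>
      nrm_div' (by simp) (k + 1) (by push_cast; ring) (by omega)
    have e : ∀ k : ℕ, 1 / ((k : ℚ) + 1) ^ 2 = 1 / ((k : ℚ) + 1) * (1 / ((k : ℚ) + 1)) := fun k => by
      field_simp
    simp only [e]
    rw [red_neg, red_sum fun k hk => nrm_mul_le_right (h1 k (mem_range.1 hk)) (h1 k (mem_range.1 hk)),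
      Nat.cast_mul, h52, Nat.cast_sum, neg_one_mul]
    congr 1
    refine sum_congr rfl fun k hk => ?_
    rw [mem_range] at hk
    rw [red_mul (h1 k hk) (h1 k hk),
      red_div' (by simp) (k + 1) (by push_cast; ring) (by omega) (k + 1) (by omega)]
    simp
  · rw [red_div' (nrm_sub_le (n_h (by omega)) (n_h (by omega))) (i - j) (by push_cast; ring)
      (by omega) (i + 53 - j) (by omega), red_sub (n_h (by omega)) (n_h (by omega)),
      h_spec _ (by omega), h_spec _ (by omega), Nat.cast_mul, Nat.cast_add, Nat.cast_mul, h52]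
    ring

theorem sg_spec : ∀ a < 3, ∀ b < 3, ((sg a * sg b : ℕ) : ZMod 53) =
    (-1) ^ (a + b) * ((2 * 1).choose a : ℕ) * ((2 * 1).choose b : ℕ) := by decide

theorem KN_spec {K : ℕ → ℕ → ℚ} {T : ℕ} (hn : ∀ i < 49, ∀ j < 44, nrm 53 (K i j) ≤ 1)
    (hK : ∀ i < 49, ∀ j < 44, ((K i j : ℚ) : ZMod 53) = (lk T (i * 44 + j) : ℕ)) (l : ℕ) {k : ℕ}
    (hk : k < 36) : ((KM K 1 l k : ℚ) : ZMod 53) = (KN T l k : ℕ) := by
  have h1 : ∀ a b : ℕ, nrm 53 ((-1) ^ (a + b) * ((2 * 1).choose a : ℚ) * ((2 * 1).choose b : ℚ)) ≤ 1 :=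
    fun a b => nrm_mul_le_right (nrm_mul_le_right (by simp) (nrm_nat_le _)) (nrm_nat_le _)
  have h2 : ∀ a ∈ range (2 * 1 + 1), ∀ b ∈ range (2 * 1 + 1),
      nrm 53 ((-1) ^ (a + b) * ((2 * 1).choose a : ℚ) * ((2 * 1).choose b : ℚ) *
        K (47 * 1 - 1 - l + a) (6 * 1 + k + b)) ≤ 1 := fun a ha b hb => by
    rw [mem_range] at ha hb
    exact nrm_mul_le_right (h1 a b) (hn _ (by omega) _ (by omega))
  rw [KM, KN, red_sum fun a ha => nrm_sum_le zero_le_one (h2 a ha), Nat.cast_sum]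
  refine sum_congr rfl fun a ha => ?_
  rw [red_sum (h2 a ha), Nat.cast_sum]
  refine sum_congr rfl fun b hb => ?_
  rw [mem_range] at ha hb
  rw [red_mul (h1 a b) (hn _ (by omega) _ (by omega)), hK _ (by omega) _ (by omega), Nat.cast_mul,
    sg_spec a ha b hb, red_mul (nrm_mul_le_right (by simp) (nrm_nat_le _)) (nrm_nat_le _),
    red_mul (by simp) (nrm_nat_le _), red_pow (by simp)]
  simp

theorem KM_spec (l : ℕ) {k : ℕ} (hk : k < 36) :
    ((KM M0 1 l k : ℚ) : ZMod 53) = (KN MT l k : ℕ) :=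
  KN_spec (fun i hi j hj => by
    have := nrm_M0_le (p := 53) (by norm_num) (i := i) (j := j) (M := 50) (by omega) (by omega)
    rwa [lg_of_lt (by omega), one_pow] at this) (fun i hi j hj => M_spec hi hj) l hk

theorem KZ_spec {l k : ℕ} (hl : l < 34) (hk : k < 36) :
    ((KM Z0 1 l k : ℚ) : ZMod 53) = (lk PZT (l * 36 + k) : ℕ) := by
  rw [cast_of_mod (PZ_chk l hl k hk)]
  exact KN_spec (fun i hi j hj => by
    have := nrm_Z0_le (p := 53) (i := i) (j := j) (M := 50) (by omega) (by omega)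
    rwa [lg_of_lt (by omega), one_pow] at this) (fun i hi j hj => Z_spec hi hj) l hk

theorem h25 : ((3 / 2 : ℚ) : ZMod 53) = -((25 : ℕ) : ZMod 53) := by
  rw [red_div' (x := 3) (by exact_mod_cast nrm_nat_le (p := 53) 3) 2 (by norm_num) (by norm_num) 2
    (by norm_num), iv_spec]
  have : ((3 : ℚ) : ZMod 53) = 3 := by exact_mod_cast Rat.cast_natCast (α := ZMod 53) 3
  rw [this, ← div_eq_mul_inv, div_eq_iff (by decide)]
  decide

theorem R_spec {i k : ℕ} (hi : i < 37) (hk : k < 36) :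
    ((Rfix i k : ℚ) : ZMod 53) = (lk RT (i * 36 + k) : ℕ) := by
  have h32 : nrm 53 (3 / 2) ≤ 1 := nrm_three_halves (by norm_num)
  rw [cast_of_mod (R_chk i hi k hk), Rfix]
  split_ifs with h
  · have hs : ∀ m ∈ Ico (3 : ℕ) 33, nrm 53 (cz ((i : ℤ) - 1 - (m : ℕ)) * KM Z0 1 m k) ≤ 1 :=
      fun m _ => nrm_mul_le_right (nrm_cz_le_one (by norm_num) _) (nrm_KM_Z0_one (by norm_num) hk)
    rw [red_sub (nrm_KM_M0_one (by norm_num) hk) (nrm_mul_le_right h32 (nrm_sum_le zero_le_one hs)),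
      red_mul h32 (nrm_sum_le zero_le_one hs), red_sum hs, KM_spec i hk, h25, Nat.cast_add,
      Nat.cast_mul, Nat.cast_sum, neg_mul, sub_neg_eq_add, Finset.sum_Ico_eq_sum_range]
    refine congrArg₂ (· + ·) rfl (congrArg₂ (· * ·) rfl (sum_congr rfl fun m hm => ?_))
    rw [mem_range] at hm
    rw [red_mul (nrm_cz_le_one (by norm_num) _) (nrm_KM_Z0_one (by norm_num) hk),
      KZ_spec (by omega) hk, Nat.cast_mul]
    refine congrArg₂ (· * ·) ?_ rfl
    split_ifs with h4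
    · rw [cz_of_nonneg (by omega), show ((i : ℤ) - 1 - ((3 + m : ℕ) : ℤ)).toNat = i - 4 - m by omega,
        c_spec _ (by omega)]
    · rw [cz_of_neg (by omega)]; simp
  · rw [red_mul (by rw [nrm_neg]; exact h32) (nrm_KM_Z0_one (by norm_num) hk), red_neg, h25,
      KZ_spec (by omega) hk, neg_neg, Nat.cast_mul]

theorem v_spec (c i : ℕ) : ((vfix c i : ℚ) : ZMod 53) = (vN c i : ℕ) := by
  unfold vfix vN
  split_ifs
  all_goals first
    | (rw [red_pow (by simp), Nat.cast_pow, h52]; simp)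
    | simp

theorem Mfix_spec (c : ℕ) (i k : Fin 37) : ((Mfix c i k : ℚ) : ZMod 53) = (MN c i k : ℕ) := by
  rw [Mfix, Matrix.of_apply, MN]
  split_ifs with h
  · exact R_spec i.2 h
  · exact v_spec c i

theorem det_ne_of_mul {n : ℕ} (M : Matrix (Fin n) (Fin n) ℚ) (hM : ∀ i j, nrm 53 (M i j) ≤ 1)
    (A B : ℕ → ℕ → ℕ) (hA : ∀ i j, ((M i j : ℚ) : ZMod 53) = (A i j : ℕ))
    (h : ∀ i < n, ∀ j < n, (∑ k ∈ range n, A i k * B k j) % 53 = (if i = j then 1 else 0) % 53) :
    M.det ≠ 0 := by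
  intro h0
  have h1 := red_det (p := 53) (M := M) hM
  rw [h0, Rat.cast_zero] at h1
  have h2 : (Matrix.of fun i j => ((M i j : ℚ) : ZMod 53)) *
      (Matrix.of fun (k j : Fin n) => ((B k j : ℕ) : ZMod 53)) = 1 := by
    ext i j
    have h3 := cast_of_mod (h i i.2 j j.2)
    rw [Nat.cast_sum, ← Fin.sum_univ_eq_sum_range
      (fun k => ((A i k * B k j : ℕ) : ZMod 53)) n] at h3
    rw [Matrix.mul_apply, Matrix.one_apply]
    refine Eq.trans (sum_congr rfl fun k _ => ?_) (h3.trans ?_)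
    · rw [Matrix.of_apply, Matrix.of_apply, Nat.cast_mul, hA]
    · by_cases h : i = j
      · rw [if_pos h, if_pos (congrArg Fin.val h), Nat.cast_one]
      · rw [if_neg h, if_neg (fun h' => h (Fin.ext h')), Nat.cast_zero]
  have h4 := congrArg Matrix.det h2
  rw [Matrix.det_mul, ← h1, zero_mul, Matrix.det_one] at h4
  exact zero_ne_one h4

end NVT

open NVT in
theorem Mfix_det_ne_zero {c : ℕ} (hc : c < 3) : (Mfix c).det ≠ 0 :=
  det_ne_of_mul (Mfix c) (nrm_Mfix (by norm_num) c) (MN c) (fun k j => lk (IT c) (k * 37 + j))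
    (Mfix_spec c) (I_chk c hc)

end Crest.Agent.R6
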