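import Crest.Agent.R6.NVM0

/-! # R6 nonvanishing: reduction of the blocks `KM` for `N = p`. -/

set_option autoImplicit false
set_option linter.unusedSectionVars false

namespace Crest.Agent.R6

open Polynomial Finset

variable {p : ℕ} [hp : Fact p.Prime]

/-- Lucas: `choose (2p) a ≡ choose 2 (a/p)` if `p ∣ a`, else `0`; `(-1)^{p a'} = (-1)^{a'}`. So only `a ∈ {0, p, 2p}` survive. -/
theorem sum_choose_two_p (h2 : p ≠ 2) (F : ℕ → ZMod p) :
    ∑ a ∈ range (2 * p + 1), (-1) ^ a * ((2 * p).choose a : ZMod p) * F a =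
      ∑ a ∈ range 3, (-1) ^ a * ((2 : ℕ).choose a : ZMod p) * F (p * a) := by
  have hp0 := hp.out.pos
  have hc : ∀ a, ((2 * p).choose a : ZMod p) =
      (((0 : ℕ).choose (a % p) * (2 : ℕ).choose (a / p) : ℕ) : ZMod p) := fun a => by
    have h := Choose.choose_modEq_choose_mod_mul_choose_div_nat (n := 2 * p) (k := a) (p := p)
    rw [Nat.mul_mod_left, Nat.mul_div_cancel _ hp0] at h
    exact (ZMod.natCast_eq_natCast_iff _ _ _).2 h
  symm
  refine sum_of_injOn (fun a => p * a) (fun a _ b _ h => Nat.eq_of_mul_eq_mul_left hp0 h)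
    (fun a ha => ?_) (fun a ha h => ?_) fun a _ => ?_
  · rw [mem_coe, mem_range] at ha ⊢
    beta_reduce
    have : p * a ≤ p * 2 := Nat.mul_le_mul_left p (by omega)
    omega
  · have h1 : a % p ≠ 0 := fun h1 => by
      obtain ⟨b, rfl⟩ := Nat.dvd_of_mod_eq_zero h1
      refine h ⟨b, ?_, rfl⟩
      rw [mem_range] at ha
      have : b ≤ 2 := Nat.le_of_mul_le_mul_left (by omega : p * b ≤ p * 2) hp0
      simpa using Nat.lt_succ_of_le this
    rw [hc, Nat.choose_eq_zero_of_lt (Nat.pos_of_ne_zero h1)]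
    simp
  · rw [hc, Nat.mul_mod_right, Nat.mul_div_cancel_left _ hp0, pow_mul,
      (hp.out.odd_of_ne_two h2).neg_one_pow]
    simp

theorem nvkm_sum (n : ℕ) (F : ℕ → ℕ → ℚ) (hF : ∀ a < n + 1, ∀ b < n + 1, nrm p (F a b) ≤ 1) :
    nrm p (∑ a ∈ range (n + 1), ∑ b ∈ range (n + 1),
      (-1) ^ (a + b) * (n.choose a : ℚ) * (n.choose b : ℚ) * F a b) ≤ 1 ∧
    ((∑ a ∈ range (n + 1), ∑ b ∈ range (n + 1),
      (-1) ^ (a + b) * (n.choose a : ℚ) * (n.choose b : ℚ) * F a b : ℚ) : ZMod p) =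
      ∑ a ∈ range (n + 1), (-1) ^ a * (n.choose a : ZMod p) *
        ∑ b ∈ range (n + 1), (-1) ^ b * (n.choose b : ZMod p) * (F a b : ZMod p) := by
  have e : ∀ a b, (-1) ^ (a + b) * (n.choose a : ℚ) * (n.choose b : ℚ) =
      (((-1) ^ (a + b) * n.choose a * n.choose b : ℤ) : ℚ) := fun a b => by push_cast; rfl
  have h1 : ∀ a ∈ range (n + 1), ∀ b ∈ range (n + 1),
      nrm p ((-1) ^ (a + b) * (n.choose a : ℚ) * (n.choose b : ℚ) * F a b) ≤ 1 :=
    fun a ha b hb => by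
      rw [e]
      exact nrm_mul_le_right (nrm_int_le _) (hF a (mem_range.1 ha) b (mem_range.1 hb))
  refine ⟨nrm_sum_le zero_le_one fun a ha => nrm_sum_le zero_le_one (h1 a ha), ?_⟩
  rw [red_sum fun a ha => nrm_sum_le zero_le_one (h1 a ha)]
  refine sum_congr rfl fun a ha => ?_
  rw [red_sum (h1 a ha), mul_sum]
  refine sum_congr rfl fun b hb => ?_
  rw [e, red_mul (nrm_int_le _) (hF a (mem_range.1 ha) b (mem_range.1 hb)), Rat.cast_intCast]
  push_cast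
  ring

theorem nvkm_mul (c : ℚ) (K : ℕ → ℕ → ℚ) (N l k : ℕ) :
    c * KM K N l k = ∑ a ∈ range (2 * N + 1), ∑ b ∈ range (2 * N + 1),
      (-1) ^ (a + b) * ((2 * N).choose a : ℚ) * ((2 * N).choose b : ℚ) *
        (c * K (47 * N - 1 - l + a) (6 * N + k + b)) := by
  simp only [KM, mul_sum]
  exact sum_congr rfl fun a _ => sum_congr rfl fun b _ => mul_left_comm _ _ _

theorem nvkm_sq (hp' : 100 ≤ p) {x : ℚ} (hx : nrm p x ≤ lg p (49 * p) ^ 2) :
    nrm p ((p : ℚ) ^ 2 * x) ≤ 1 := by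
  refine nrm_p_sq_mul_le (hx.trans ?_)
  rw [mul_one]
  exact pow_le_pow_left₀ (lg_pos _).le (lg_le_p (by nlinarith)) 2

theorem nvkm_one (hp' : 100 ≤ p) {x : ℚ} (hx : nrm p x ≤ lg p 49 ^ 2) : nrm p x ≤ 1 := by
  rwa [lg_of_lt (by omega), one_pow] at hx

theorem nvkm_red (h2 : p ≠ 2) {K : ℕ → ℕ → ℚ} {l k : ℕ}
    (hK : ∀ a < 2 * p + 1, ∀ b < 2 * p + 1,
      nrm p ((p : ℚ) ^ 2 * K (47 * p - 1 - l + a) (6 * p + k + b)) ≤ 1) :
    (((p : ℚ) ^ 2 * KM K p l k : ℚ) : ZMod p) =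
      ∑ a ∈ range 3, (-1) ^ a * ((2 : ℕ).choose a : ZMod p) *
        ∑ b ∈ range 3, (-1) ^ b * ((2 : ℕ).choose b : ZMod p) *
          (((p : ℚ) ^ 2 * K (47 * p - 1 - l + p * a) (6 * p + k + p * b) : ℚ) : ZMod p) := by
  rw [nvkm_mul, (nvkm_sum _ _ hK).2, sum_choose_two_p h2]
  refine sum_congr rfl fun a _ => ?_
  rw [sum_choose_two_p h2]

theorem nrm_KM_M0 (hp' : 100 ≤ p) (l k : ℕ) (hk : k < 36 * p) :
    nrm p ((p : ℚ) ^ 2 * KM M0 p l k) ≤ 1 := by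
  rw [nvkm_mul]
  exact (nvkm_sum _ _ fun a ha b hb =>
    nvkm_sq hp' (nrm_M0_le (by omega) (by omega) (by omega))).1

theorem nrm_KM_Z0 (hp' : 100 ≤ p) (l k : ℕ) (hk : k < 36 * p) :
    nrm p ((p : ℚ) ^ 2 * KM Z0 p l k) ≤ 1 := by
  rw [nvkm_mul]
  exact (nvkm_sum _ _ fun a ha b hb => nvkm_sq hp' (nrm_Z0_le (by omega) (by omega))).1

/-- `red_sum`, `sum_choose_two_p` twice, then `red_M0` with `i = 47p-1-l+pa`, `e = 46-l'+a`, `j' = 6+k'+b`. -/
theorem red_KM_M0 (hp' : 100 ≤ p) {l l' lam ρ k' : ℕ} (hρ : ρ < p) (hlam : lam < p)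
    (hl : lam + p * l' = ρ + l) (hl' : l' ≤ 33) (hk : k' < 36) :
    (((p : ℚ) ^ 2 * KM M0 p l (ρ + p * k') : ℚ) : ZMod p) =
      ((cc lam : ℚ) : ZMod p) * ((KM M0 1 l' k' : ℚ) : ZMod p) := by
  have h2 : p ≠ 2 := by omega
  have hk' : p * k' ≤ p * 35 := Nat.mul_le_mul_left p (by omega)
  obtain ⟨d, hd⟩ : ∃ d, l' + d = 33 := ⟨33 - l', by omega⟩
  have h1 : p * l' + p * d = 33 * p := by rw [← mul_add, hd, mul_comm]
  rw [nvkm_red h2 fun a ha b hb => nvkm_sq hp' (nrm_M0_le h2 (by omega) (by omega)), KM,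
    (nvkm_sum (2 * 1) _ fun a ha b hb => nvkm_one hp' (nrm_M0_le h2 (by omega) (by omega))).2,
    mul_sum]
  refine sum_congr rfl fun a ha => ?_
  rw [mul_left_comm, mul_sum _ _ ((cc lam : ℚ) : ZMod p)]
  refine congrArg _ (sum_congr rfl fun b hb => ?_)
  rw [mem_range] at ha hb
  rw [mul_left_comm, show 6 * p + (ρ + p * k') + p * b = ρ + p * (6 * 1 + k' + b) by ring,
    red_M0 h2 hρ hlam (e := 47 * 1 - 1 - l' + a) ?_ (by omega) (by omega)]
  rw [show 47 * 1 - 1 - l' + a + 1 = 14 + d + a by omega, mul_add, mul_add]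
  omega

/-- `47p-1-(a+pl')+pa' = (p-1-a) + p(46-l'+a')`; `red_Z0`. -/
theorem red_KM_Z0 (hp' : 100 ≤ p) {a l' ρ k' : ℕ} (hρ : ρ < p) (ha : a < p) (hl' : l' ≤ 33)
    (hk : k' < 36) :
    (((p : ℚ) ^ 2 * KM Z0 p (a + p * l') (ρ + p * k') : ℚ) : ZMod p) =
      if a + ρ + 1 = p then ((KM Z0 1 l' k' : ℚ) : ZMod p) else 0 := by
  have h2 : p ≠ 2 := by omega
  have hk' : p * k' ≤ p * 35 := Nat.mul_le_mul_left p (by omega)
  obtain ⟨d, hd⟩ : ∃ d, l' + d = 33 := ⟨33 - l', by omega⟩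
  have h1 : p * l' + p * d = 33 * p := by rw [← mul_add, hd, mul_comm]
  have key : ∀ a' ∈ range 3, ∀ b ∈ range 3,
      (((p : ℚ) ^ 2 * Z0 (47 * p - 1 - (a + p * l') + p * a') (6 * p + (ρ + p * k') + p * b) : ℚ) :
        ZMod p) = if a + ρ + 1 = p then
          ((Z0 (47 * 1 - 1 - l' + a') (6 * 1 + k' + b) : ℚ) : ZMod p) else 0 := by
    intro a' ha' b hb
    rw [mem_range] at ha' hb
    have e1 : 47 * p - 1 - (a + p * l') + p * a' = (p - 1 - a) + p * (47 * 1 - 1 - l' + a') := by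
      rw [show 47 * 1 - 1 - l' + a' = 13 + d + a' by omega, mul_add, mul_add]
      omega
    rw [e1, show 6 * p + (ρ + p * k') + p * b = ρ + p * (6 * 1 + k' + b) by ring,
      red_Z0 (by omega) hρ (by omega) (by omega)]
    exact if_congr (by omega) rfl rfl
  rw [nvkm_red h2 fun a ha b hb => nvkm_sq hp' (nrm_Z0_le (by omega) (by omega)),
    sum_congr rfl fun a' ha' => by rw [sum_congr rfl fun b hb => by rw [key a' ha' b hb]]]
  split_ifs
  · rw [KM, (nvkm_sum (2 * 1) _ fun a ha b hb =>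
      nvkm_one hp' (nrm_Z0_le (by omega) (by omega))).2]
  · simp

end Crest.Agent.R6
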