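import Crest.Agent.R6.NVFix

/-! # R6 nonvanishing: kernel facts modulo large primes. -/

set_option autoImplicit false
set_option linter.unusedSectionVars false

namespace Crest.Agent.R6

open Polynomial Finset

private theorem nvker_red {p : ℕ} [hp : Fact p.Prime] {x : ℚ} (hx : x ≠ 0) (h1 : nrm p x ≤ 1)
    (h2 : x.num.natAbs < p) : (x : ZMod p) ≠ 0 := by
  rw [Rat.cast_def]
  refine div_ne_zero (fun h => ?_) (den_ne_zero h1)
  rw [ZMod.intCast_zmod_eq_zero_iff_dvd, Int.natCast_dvd] at h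
  exact (Nat.le_of_dvd (Int.natAbs_pos.2 (Rat.num_ne_zero.2 hx)) h).not_gt h2

private theorem nvker_ker {p : ℕ} [hp : Fact p.Prime] (h50 : 50 ≤ p) {c : ℕ} (hc : c < 3)
    (h2 : (Mfix c).det.num.natAbs < p) (s : ℕ → ZMod p)
    (hs : ∀ k < 36, ∑ i ∈ range 37, s i * ((Rfix i k : ℚ) : ZMod p) = 0)
    (hv : ∑ i ∈ range 37, s i * ((vfix c i : ℚ) : ZMod p) = 0) : ∀ i < 37, s i = 0 := by
  have h1 := nvker_red (Mfix_det_ne_zero hc) (nrm_det_le_one (nrm_Mfix h50 c)) h2
  rw [red_det (nrm_Mfix h50 c)] at h1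
  have h3 := Matrix.eq_zero_of_vecMul_eq_zero h1 (v := fun i : Fin 37 => s i) (by
    funext k
    simp only [Matrix.vecMul, dotProduct, Matrix.of_apply, Mfix, Pi.zero_apply]
    by_cases hk : (k : ℕ) < 36
    · simp only [if_pos hk]
      rw [← hs k hk]
      exact Fin.sum_univ_eq_sum_range (fun i => s i * ((Rfix i k : ℚ) : ZMod p)) 37
    · simp only [if_neg hk]
      rw [← hv]
      exact Fin.sum_univ_eq_sum_range (fun i => s i * ((vfix c i : ℚ) : ZMod p)) 37)
  intro i hi
  exact congrFun h3 ⟨i, hi⟩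

private theorem nvker_sum {R : Type} [AddCommMonoid R] (f g : ℕ → R) (h1 : ∀ i ≤ 33, f i = g i)
    (h2 : ∀ i, 33 < i → f i = 0) : ∑ i ∈ range 37, f i = ∑ i ∈ range 34, g i := by
  rw [sum_range_succ, sum_range_succ, sum_range_succ, h2 34 (by norm_num), h2 35 (by norm_num),
    h2 36 (by norm_num), add_zero, add_zero, add_zero]
  exact sum_congr rfl fun i hi => h1 i (by have := mem_range.1 hi; omega)

/-- For `p ≥ 50` and `p > |num (det (Mfix c))|`, `c < 3`: `red_det` + `nrm_Mfix` and `Rat.cast_def` give that the reduced matrix has nonzero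
determinant; a vector `s` as in `KerFacts` satisfies `vecMul s (reduced Mfix c) = 0` for the suitable `c`, hence vanishes
(`Matrix.eq_zero_of_vecMul_eq_zero`; convert `Fin 37` sums with `Fin.sum_univ_eq_sum_range`). -/
theorem kerFacts : ∃ p0 : ℕ, ∀ (p : ℕ) [Fact p.Prime], p0 ≤ p → KerFacts p := by
  refine ⟨50 + (Mfix 0).det.num.natAbs + (Mfix 1).det.num.natAbs + (Mfix 2).det.num.natAbs,
    fun p _ hp s hs h => ?_⟩
  rcases h with h | h | h
  · refine nvker_ker (c := 0) (by omega) (by norm_num) (by omega) s hs ?_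
    refine sum_eq_zero fun i _ => ?_
    by_cases hi : i = 33
    · rw [hi, h, zero_mul]
    · simp [vfix, hi]
  · refine nvker_ker (c := 1) (by omega) (by norm_num) (by omega) s hs ?_
    rw [← h]
    exact nvker_sum _ _ (fun i hi => by simp [vfix, hi]) fun i hi => by simp [vfix, hi.not_ge]
  · refine nvker_ker (c := 2) (by omega) (by norm_num) (by omega) s hs ?_
    rw [← h]
    refine nvker_sum _ _ (fun i hi => ?_) fun i hi => by simp [vfix, hi.not_ge]
    have e : vfix 2 i = ((((-1) ^ i : ℤ)) : ℚ) := by simp [vfix, hi]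
    rw [e, Rat.cast_intCast]
    push_cast
    ring

end Crest.Agent.R6
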