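import Crest.Agent.R6.ABound

/-! # R6 nonvanishing: Lucas congruences for `cc` and `ww`. All casts are `ℚ → ZMod p` (see `red_*` in `ABase`). -/

set_option autoImplicit false
set_option linter.unusedSectionVars false

namespace Crest.Agent.R6

open Polynomial Finset

variable {p : ℕ} [hp : Fact p.Prime]

private theorem nvl_odd (h2 : p ≠ 2) : ∃ κ, p = 2 * κ + 1 := hp.out.odd_of_ne_two h2

private theorem nvl_nat {z : ℕ} (h0 : 0 < z) (h : z < p) : (z : ZMod p) ≠ 0 := by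
  rw [Ne, ZMod.natCast_eq_zero_iff]
  exact fun hd => absurd (Nat.le_of_dvd h0 hd) (by omega)

private theorem nvl_two (h2 : p ≠ 2) : (2 : ZMod p) ≠ 0 := by
  have := hp.out.two_le
  exact_mod_cast nvl_nat (p := p) (z := 2) (by norm_num) (by omega)

private theorem nvl_four (h2 : p ≠ 2) : (4 : ZMod p) ≠ 0 := by
  rw [show (4 : ZMod p) = 2 * 2 by norm_num]; exact mul_ne_zero (nvl_two h2) (nvl_two h2)

private theorem nvl_cc (h2 : p ≠ 2) (k : ℕ) :
    ((cc (2 * k) : ℚ) : ZMod p) = ((2 * k).choose k : ZMod p) / 4 ^ k := by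
  have h : ¬ p ∣ 4 ^ k := by
    rw [← ZMod.natCast_eq_zero_iff]; push_cast; exact pow_ne_zero _ (nvl_four h2)
  have := red_div_nat (p := p) (nrm_nat_le (Nat.centralBinom k)) (z := 4 ^ k) (Or.inr h)
  rw [cc_two_mul]
  push_cast at this
  rw [this, Nat.centralBinom]

private theorem nvl_lucas (a b : ℕ) {l j : ℕ} (hl : l < p) (hj : j < p) :
    (((p * a + l).choose (p * b + j) : ℕ) : ZMod p) = (l.choose j : ZMod p) * (a.choose b) := by
  have h := Choose.choose_modEq_choose_mod_mul_choose_div_nat (n := p * a + l) (k := p * b + j)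
    (p := p)
  have hp0 := hp.out.pos
  rw [Nat.mul_add_mod, Nat.mul_add_mod, Nat.mod_eq_of_lt hl, Nat.mod_eq_of_lt hj,
    Nat.mul_add_div hp0, Nat.mul_add_div hp0, Nat.div_eq_of_lt hl, Nat.div_eq_of_lt hj,
    add_zero, add_zero] at h
  have := (ZMod.natCast_eq_natCast_iff _ _ _).2 h
  rw [this]; push_cast; rfl

private theorem nvl_cc_step (h2 : p ≠ 2) (m : ℕ) :
    ((m : ZMod p) + 2) * ((cc (m + 2) : ℚ) : ZMod p) =
      ((m : ZMod p) + 1) * ((cc m : ℚ) : ZMod p) := by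
  have h := congrArg (fun x : ℚ => (x : ZMod p)) (cc_add_two m)
  have e2 : ((m : ℚ) + 2) = ((m + 2 : ℕ) : ℚ) := by push_cast; ring
  have e1 : ((m : ℚ) + 1) = ((m + 1 : ℕ) : ℚ) := by push_cast; ring
  simp only [e1, e2] at h
  rw [red_mul (nrm_nat_le _) (nrm_cc_le_one h2 _), red_mul (nrm_nat_le _) (nrm_cc_le_one h2 _),
    Rat.cast_natCast, Rat.cast_natCast] at h
  push_cast at h
  exact h

/-- Lucas (`Choose.choose_modEq_choose_mod_mul_choose_div_nat`) for `choose (pa+l) ((pa+l)/2)`. `a, l` even: the digits are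
`(l, l/2)` and `(a, a/2)`, and `4^{p a/2} = 4^{a/2}` (`ZMod.pow_card`). `a, l` odd: last digits `(l, (p+l)/2)`, so `0`.
Mixed parity: both sides vanish (`cc_odd`). -/
theorem red_cc_lucas (h2 : p ≠ 2) (a : ℕ) {l : ℕ} (hl : l < p) :
    ((cc (p * a + l) : ℚ) : ZMod p) = ((cc a : ℚ) : ZMod p) * ((cc l : ℚ) : ZMod p) := by
  obtain ⟨κ, hκ⟩ := nvl_odd h2
  rcases Nat.even_or_odd' a with ⟨a', rfl | rfl⟩ <;> rcases Nat.even_or_odd' l with ⟨l', rfl | rfl⟩
  · rw [show p * (2 * a') + 2 * l' = 2 * (p * a' + l') by ring, nvl_cc h2, nvl_cc h2, nvl_cc h2,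
      show 2 * (p * a' + l') = p * (2 * a') + 2 * l' by ring, nvl_lucas _ _ hl (by omega : l' < p),
      pow_add, pow_mul, ZMod.pow_card]
    have := nvl_four h2
    field_simp
  · rw [cc_odd (m := 2 * l' + 1) (by omega), cc_odd (m := p * (2 * a') + (2 * l' + 1))
      (by rw [show p * (2 * a') + (2 * l' + 1) = 2 * (p * a' + l') + 1 by ring]; omega)]
    simp
  · rw [cc_odd (m := 2 * a' + 1) (by omega), cc_odd (m := p * (2 * a' + 1) + 2 * l')
      (by rw [show p * (2 * a' + 1) + 2 * l' = 2 * (p * a' + l' + κ) + 1 by rw [hκ]; ring]; omega)]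
    simp
  · have e : p * (2 * a' + 1) + (2 * l' + 1) = 2 * (p * a' + (κ + l' + 1)) := by rw [hκ]; ring
    rw [e, nvl_cc h2, ← e, nvl_lucas _ _ hl (by omega : κ + l' + 1 < p),
      Nat.choose_eq_zero_of_lt (by omega : 2 * l' + 1 < κ + l' + 1),
      cc_odd (m := 2 * a' + 1) (by omega)]
    simp

/-- induction on `i` with `cc_add_two`, `Nat.choose_succ_right_eq` and `2κ = -1`, `κ = (p-1)/2` -/
theorem red_cc_eq_choose (h2 : p ≠ 2) {i : ℕ} (hi : 2 * i < p) :
    ((cc (2 * i) : ℚ) : ZMod p) = (-1) ^ i * (((p - 1) / 2).choose i : ZMod p) := by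
  obtain ⟨κ, hκ⟩ := nvl_odd h2
  have e : (p - 1) / 2 = κ := by omega
  rw [e]
  induction i with
  | zero => simp
  | succ i ih =>
    have h1 := nvl_cc_step h2 (2 * i)
    rw [ih (by omega)] at h1
    have h3 : ((κ.choose (i + 1) : ℕ) : ZMod p) * ((i : ZMod p) + 1) =
        (κ.choose i : ZMod p) * ((κ : ZMod p) - i) := by
      have := congrArg (fun x : ℕ => (x : ZMod p)) (Nat.choose_succ_right_eq κ i)
      simp only [Nat.cast_mul, Nat.cast_sub (by omega : i ≤ κ)] at this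
      exact_mod_cast this
    have h4 : 2 * (κ : ZMod p) + 1 = 0 := by
      have : ((2 * κ + 1 : ℕ) : ZMod p) = 0 := by rw [← hκ]; simp
      exact_mod_cast this
    have h5 : ((2 * i + 2 : ℕ) : ZMod p) ≠ 0 := nvl_nat (by omega) (by omega)
    push_cast at h1 h5
    apply mul_left_cancel₀ h5
    rw [show 2 * (i + 1) = 2 * i + 2 by ring, h1, pow_succ]
    linear_combination (2 * (-1) ^ i) * h3 + ((-1) ^ i * (κ.choose i : ZMod p)) * h4

/-- `Nat.choose_symm`; for odd `l` both sides vanish -/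
theorem red_cc_refl (h2 : p ≠ 2) {l : ℕ} (hl : l < p) :
    ((cc (p - 1 - l) : ℚ) : ZMod p) * ((cc (p - 1) : ℚ) : ZMod p) = ((cc l : ℚ) : ZMod p) := by
  obtain ⟨κ, hκ⟩ := nvl_odd h2
  have e : (p - 1) / 2 = κ := by omega
  rcases Nat.even_or_odd' l with ⟨i, rfl | rfl⟩
  · obtain ⟨j, hj⟩ : ∃ j, κ = i + j := ⟨κ - i, by omega⟩
    rw [show p - 1 - 2 * i = 2 * j by omega, show p - 1 = 2 * κ by omega,
      red_cc_eq_choose h2 (by omega), red_cc_eq_choose h2 (by omega),
      red_cc_eq_choose h2 (by omega), e, Nat.choose_self, hj, Nat.choose_symm_add, pow_add]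
    have : ((-1 : ZMod p) ^ j) * (-1) ^ j = 1 := by rw [← mul_pow]; simp
    push_cast
    linear_combination ((-1) ^ i * ((i + j).choose j : ZMod p)) * this
  · rw [cc_odd (m := 2 * i + 1) (by omega), cc_odd (m := p - 1 - (2 * i + 1)) (by omega)]
    simp

theorem red_cc_sq (h2 : p ≠ 2) :
    ((cc (p - 1) : ℚ) : ZMod p) * ((cc (p - 1) : ℚ) : ZMod p) = 1 := by
  simpa using red_cc_refl h2 (l := 0) hp.out.pos

/-- binomial theorem -/
theorem coeff_E (h2 : p ≠ 2) (s : ℕ) :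
    (((X : (ZMod p)[X]) ^ 2 - 1) ^ ((p - 1) / 2)).coeff s =
      if s < p then ((cc (p - 1 - s) : ℚ) : ZMod p) else 0 := by
  obtain ⟨κ, hκ⟩ := nvl_odd h2
  have e : (p - 1) / 2 = κ := by omega
  have h1 : ((X : (ZMod p)[X]) ^ 2 - 1) ^ κ = expand (ZMod p) 2 ((X + C (-1)) ^ κ) := by
    simp [sub_eq_add_neg]
  rw [e, h1, coeff_expand (by norm_num), coeff_X_add_C_pow]
  rcases Nat.even_or_odd' s with ⟨i, rfl | rfl⟩
  · rw [if_pos (by omega), show 2 * i / 2 = i by omega]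
    split_ifs with h
    · rw [show p - 1 - 2 * i = 2 * (κ - i) by omega, red_cc_eq_choose h2 (by omega), e,
        Nat.choose_symm (by omega)]
    · rw [Nat.choose_eq_zero_of_lt (by omega)]; simp
  · rw [if_neg (by omega)]
    split_ifs with h
    · rw [cc_odd (by omega)]; simp
    · rfl

private theorem nvl_ww_int {j : ℕ} (hj : j + 1 < p) : nrm p (ww j) ≤ 1 := by
  have := nrm_ww_le (p := p) j
  rwa [lg_of_lt hj] at this

private theorem nvl_red_ww (h2 : p ≠ 2) {j : ℕ} (h0 : j % 2 = 0) (hj : j + 1 < p) :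
    ((ww j : ℚ) : ZMod p) * (((j : ZMod p) + 1) * ((cc j : ℚ) : ZMod p)) = 2 := by
  have h := congrArg (fun x : ℚ => (x : ZMod p)) (ww_mul_cc h0)
  have e1 : ((j : ℚ) + 1) = ((j + 1 : ℕ) : ℚ) := by push_cast; ring
  simp only [e1] at h
  rw [red_mul (nvl_ww_int hj) (nrm_mul_le_right (nrm_nat_le _) (nrm_cc_le_one h2 _)),
    red_mul (nrm_nat_le _) (nrm_cc_le_one h2 _), Rat.cast_natCast] at h
  push_cast at h
  exact h

private theorem nvl_unit (h2 : p ≠ 2) {j : ℕ} (h0 : j % 2 = 0) (hj : j + 1 < p) :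
    ((j : ZMod p) + 1) ≠ 0 ∧ ((cc j : ℚ) : ZMod p) ≠ 0 := by
  have h := nvl_red_ww h2 h0 hj
  have h' : ((j : ZMod p) + 1) * ((cc j : ℚ) : ZMod p) ≠ 0 := by
    intro h0; rw [h0, mul_zero] at h; exact nvl_two h2 h.symm
  exact mul_ne_zero_iff.1 h'

private theorem nvl_pww {m : ℕ} (hm : m + 1 < p ^ 2) : nrm p ((p : ℚ) * ww m) ≤ 1 :=
  nrm_p_mul_le (by simpa using (nrm_ww_le (p := p) m).trans (lg_le_p hm))

private theorem nvl_ww_even (h2 : p ≠ 2) {e' : ℕ} (he : 2 * e' + 2 < p) (t : ℕ) (ht : 2 * t < p) :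
    ∀ m, m + 1 = p * (2 * e' + 1) + 2 * t → (((p : ℚ) * ww m : ℚ) : ZMod p) =
      ((ww (2 * e') : ℚ) : ZMod p) * ((cc (p - 1) : ℚ) : ZMod p) *
        ((cc (2 * t) : ℚ) : ZMod p) := by
  obtain ⟨κ, hκ⟩ := nvl_odd h2
  have hsq : p * (2 * e' + 1) + p ≤ p ^ 2 := by nlinarith
  induction t with
  | zero =>
    intro m hm
    have hpar : p * (2 * e' + 1) = 2 * (p * e') + p := by ring
    have hm2 : m % 2 = 0 := by omega
    have h1 : (p : ℚ) * ww m * (((2 * e' + 1 : ℕ) : ℚ) * cc m) = 2 := by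
      have h3 : (m : ℚ) + 1 = p * ((2 * e' + 1 : ℕ) : ℚ) := by exact_mod_cast hm
      rw [← ww_mul_cc hm2, h3]; ring
    have h := congrArg (fun x : ℚ => (x : ZMod p)) h1
    have e1 : m = p * (2 * e') + (p - 1) := by
      have : p * (2 * e') = 2 * (p * e') := by ring
      omega
    have hc : ((cc m : ℚ) : ZMod p) = ((cc (2 * e') : ℚ) : ZMod p) * ((cc (p - 1) : ℚ) : ZMod p) := by
      rw [e1, red_cc_lucas h2 _ (by omega)]
    rw [red_mul (nvl_pww (by omega)) (nrm_mul_le_right (nrm_nat_le _) (nrm_cc_le_one h2 _)),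
      red_mul (nrm_nat_le _) (nrm_cc_le_one h2 _), Rat.cast_natCast, hc] at h
    have h4 := nvl_red_ww h2 (j := 2 * e') (by omega) (by omega)
    have h5 := nvl_unit h2 (j := 2 * e') (by omega) (by omega)
    have h6 := red_cc_sq (p := p) h2
    push_cast at h h4 h5
    apply mul_left_cancel₀ (mul_ne_zero h5.1 h5.2)
    simp only [mul_zero, cc_zero, Rat.cast_one, mul_one]
    linear_combination ((cc (p - 1) : ℚ) : ZMod p) * (h - h4) -
      ((((p : ℚ) * ww m : ℚ) : ZMod p) * (2 * (e' : ZMod p) + 1) * ((cc (2 * e') : ℚ) : ZMod p)) * h6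
  | succ t ih =>
    intro m hm
    have hp1 : 1 ≤ p * (2 * e' + 1) := Nat.mul_pos hp.out.pos (by omega)
    obtain ⟨k, rfl⟩ : ∃ k, m = k + 2 := ⟨m - 2, by omega⟩
    have hk : k + 1 = p * (2 * e' + 1) + 2 * t := by omega
    have h1 : ((k + 3 : ℕ) : ℚ) * ((p : ℚ) * ww (k + 2)) = ((k + 2 : ℕ) : ℚ) * ((p : ℚ) * ww k) := by
      push_cast; linear_combination (p : ℚ) * ww_add_two k
    have h := congrArg (fun x : ℚ => (x : ZMod p)) h1
    rw [red_mul (nrm_nat_le _) (nvl_pww (by omega)), red_mul (nrm_nat_le _) (nvl_pww (by omega)),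
      Rat.cast_natCast, Rat.cast_natCast, ih (by omega) k hk,
      show k + 3 = p * (2 * e' + 1) + (2 * t + 2) by omega,
      show k + 2 = p * (2 * e' + 1) + (2 * t + 1) by omega] at h
    have h3 := nvl_cc_step h2 (2 * t)
    have h5 : ((2 * t + 2 : ℕ) : ZMod p) ≠ 0 := nvl_nat (by omega) (by omega)
    rw [show k + 2 = p * (2 * e' + 1) + (2 * t + 1) by omega, show 2 * (t + 1) = 2 * t + 2 by ring]
    rw [Nat.cast_add (p * _), Nat.cast_add (p * _), Nat.cast_mul p, ZMod.natCast_self, zero_mul,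
      zero_add, zero_add] at h
    push_cast at h h3 h5
    apply mul_left_cancel₀ h5
    linear_combination h - ((ww (2 * e') : ℚ) : ZMod p) * ((cc (p - 1) : ℚ) : ZMod p) * h3

/-- Write `m + 1 = p(e+1) + t`, `t = p-1-l`. Odd `m`: both sides vanish (one of `e`, `l` is odd). `m` even:
`t = 0`: `ww m · (m+1) cc m = 2` (`ww_mul_cc`), `cc m ≡ cc e · cc (p-1)`, `ww e (e+1) cc e = 2`, `red_cc_sq`; `cc e` is a unit as `e < p`.
`t` even (so `e` even): induction on `t` in steps of two with `ww_add_two`/`cc_add_two` gives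
`p ww m ≡ ww e · cc (p-1) · cc t`, then `red_cc_refl`. `t` odd (so `l`, `e` odd): `(m+1) cc m` is a unit
(`red_cc_lucas`, `m = p(e+1) + (t-1)`), so `ww m` is integral and `red_p_mul` gives `0`. -/
theorem red_p_ww (h2 : p ≠ 2) {m e l : ℕ} (hl : l < p) (he : e + 2 < p)
    (hm : m + 2 + l = p * (e + 2)) :
    (((p : ℚ) * ww m : ℚ) : ZMod p) = ((cc l : ℚ) : ZMod p) * ((ww e : ℚ) : ZMod p) := by
  obtain ⟨κ, hκ⟩ := nvl_odd h2
  have hpe : p * (e + 2) = p * (e + 1) + p := by ring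
  rcases Nat.mod_two_eq_zero_or_one m with hm2 | hm2
  · rcases Nat.even_or_odd' e with ⟨e', rfl | rfl⟩
    · have hpar : p * (2 * e' + 2) = 2 * (p * (e' + 1)) := by ring
      have h := nvl_ww_even h2 he ((p - 1 - l) / 2) (by omega) m (by omega)
      rw [h, show 2 * ((p - 1 - l) / 2) = p - 1 - l by omega, ← red_cc_refl h2 hl]
      ring
    · have hpar : p * (2 * e' + 1 + 1) = 2 * (p * (e' + 1)) := by ring
      rw [ww_odd (m := 2 * e' + 1) (by omega), Rat.cast_zero, mul_zero]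
      refine red_p_mul ?_
      have e1 : m = p * (2 * e' + 1 + 1) + (p - 1 - l - 1) := by omega
      have h1 : ((cc m : ℚ) : ZMod p) ≠ 0 := by
        rw [e1, red_cc_lucas h2 _ (by omega)]
        exact mul_ne_zero (nvl_unit h2 (by omega) (by omega)).2 (nvl_unit h2 (by omega) (by omega)).2
      have h3 : ¬ p ∣ m + 1 := by
        rw [show m + 1 = p * (2 * e' + 1 + 1) + (p - 1 - l) by omega]
        intro hd
        have := Nat.le_of_dvd (by omega) ((Nat.dvd_add_right (dvd_mul_right _ _)).1 hd)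
        omega
      have h4 := congrArg (nrm p) (ww_mul_cc hm2)
      have h5 := nrm_nat_eq_one h3
      push_cast at h5
      rw [nrm_mul, nrm_mul, h5, nrm_eq_one_of_red_ne_zero (nrm_cc_le_one h2 _) h1,
        nrm_two_eq_one h2] at h4
      linarith
  · rw [ww_odd hm2]
    rcases Nat.even_or_odd' e with ⟨e', rfl | rfl⟩
    · have hpar : p * (2 * e' + 2) = 2 * (p * (e' + 1)) := by ring
      rw [cc_odd (m := l) (by omega)]; simp
    · rw [ww_odd (m := 2 * e' + 1) (by omega)]; simp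

/-- a simple pole -/
theorem red_p_mul_div {x : ℚ} (hx : nrm p x ≤ 1) {z : ℤ} (hz : z.natAbs < p ^ 2) :
    (((p : ℚ) * (x / z) : ℚ) : ZMod p) =
      if (p : ℤ) ∣ z then (x : ZMod p) / ((z / p : ℤ) : ZMod p) else 0 := by
  have hp0 : (p : ℚ) ≠ 0 := by exact_mod_cast hp.out.ne_zero
  split_ifs with h
  · obtain ⟨y, rfl⟩ := h
    have hp1 : (p : ℤ) ≠ 0 := by exact_mod_cast hp.out.ne_zero
    rw [Int.mul_ediv_cancel_left _ hp1]
    have e : (p : ℚ) * (x / (((p : ℤ) * y : ℤ) : ℚ)) = x / y := by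
      push_cast
      rcases eq_or_ne (y : ℚ) 0 with h0 | h0
      · simp [h0]
      · field_simp
    rw [e]
    refine red_div_int hx ?_
    rcases eq_or_ne y 0 with h0 | h0
    · exact Or.inl h0
    · refine Or.inr fun hd => ?_
      have h1 : p ≤ y.natAbs :=
        Nat.le_of_dvd (Int.natAbs_pos.2 h0) (by simpa using Int.natAbs_dvd_natAbs.2 hd)
      rw [Int.natAbs_mul, Int.natAbs_natCast, sq] at hz
      exact absurd (Nat.mul_le_mul_left p h1) (not_le.2 hz)
  · refine red_p_mul ?_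
    rw [div_eq_mul_inv]
    exact nrm_mul_le_right hx (nrm_inv_int_le_one (Or.inr h))

/-- a double pole: apply `red_p_mul_div` to `p x` -/
theorem red_p_sq_mul_div {x : ℚ} (hx : nrm p x ≤ p) {z : ℤ} (hz : z.natAbs < p ^ 2) :
    (((p : ℚ) ^ 2 * (x / z) : ℚ) : ZMod p) =
      if (p : ℤ) ∣ z then (((p : ℚ) * x : ℚ) : ZMod p) / ((z / p : ℤ) : ZMod p) else 0 := by
  rw [← red_p_mul_div (x := (p : ℚ) * x) (nrm_p_mul_le (by simpa using hx)) hz]
  congr 1; ring

/-- `p h_{pa+l} ≡ h_a` -/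
theorem red_p_harmonic {a l : ℕ} (hl : l < p) (ha : a < p) :
    (((p : ℚ) * harmonic (p * a + l) : ℚ) : ZMod p) = ((harmonic a : ℚ) : ZMod p) := by
  have hp0 := hp.out.pos
  have key : ∀ n, n < p ^ 2 →
      (((p : ℚ) * harmonic n : ℚ) : ZMod p) = ((harmonic (n / p) : ℚ) : ZMod p) := by
    intro n
    induction n with
    | zero => simp
    | succ n ih =>
      intro hn
      have hH : ∀ k, k < p ^ 2 → nrm p ((p : ℚ) * harmonic k) ≤ 1 := fun k hk =>
        nrm_p_mul_le (by simpa using (nrm_harmonic_le (p := p) k).trans (lg_le_p hk))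
      have h1 := red_p_mul_div (p := p) (x := 1) (by simp) (z := ((n + 1 : ℕ) : ℤ))
        (by rwa [Int.natAbs_natCast])
      have e : (p : ℚ) * harmonic (n + 1) =
          (p : ℚ) * harmonic n + (p : ℚ) * (1 / (((n + 1 : ℕ) : ℤ) : ℚ)) := by
        rw [harmonic_succ]; push_cast; ring
      have h2 : nrm p ((p : ℚ) * (1 / (((n + 1 : ℕ) : ℤ) : ℚ))) ≤ 1 := by
        refine nrm_p_mul_le ?_
        rw [one_div, mul_one]
        exact (nrm_inv_int_le (M := n + 1) (by rw [Int.natAbs_natCast])).trans (lg_le_p hn)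
      rw [e, red_add (hH n (by omega)) h2, ih (by omega), h1, Nat.succ_div]
      by_cases hd : p ∣ n + 1
      · have hd' : (p : ℤ) ∣ ((n + 1 : ℕ) : ℤ) := by exact_mod_cast hd
        have h3 : (n + 1) / p = n / p + 1 := by rw [Nat.succ_div, if_pos hd]
        have h4 : n / p + 1 < p := by
          rw [← h3, Nat.div_lt_iff_lt_mul hp0]; simpa [sq] using hn
        have h5 : nrm p (harmonic (n / p)) ≤ 1 := by
          have := nrm_harmonic_le (p := p) (n / p)
          rwa [lg_of_lt (by omega)] at this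
        rw [if_pos hd', if_pos hd, harmonic_succ, red_add h5 (nrm_inv_nat_le_one (Or.inr fun h =>
          absurd (Nat.le_of_dvd (Nat.succ_pos _) h) (by omega))), Rat.cast_inv_nat, ← Int.natCast_div, h3,
          Int.cast_natCast, Rat.cast_one, one_div]
      · have hd' : ¬ (p : ℤ) ∣ ((n + 1 : ℕ) : ℤ) := by exact_mod_cast hd
        rw [if_neg hd', if_neg hd]; simp
  rw [key _ (by nlinarith), Nat.mul_add_div hp0, Nat.div_eq_of_lt hl, add_zero]

end Crest.Agent.R6
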