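import Crest.Agent.R6.NVLucas

/-! # R6 nonvanishing: Lucas congruence for `phi0` at arguments `≤ 1`. -/

set_option autoImplicit false
set_option linter.unusedSectionVars false

namespace Crest.Agent.R6

open Polynomial Finset

variable {p : ℕ} [hp : Fact p.Prime]

/-- numerators of the sum in `phiD` -/
def pnG (n : ℕ) : ℚ := if n % 2 = 1 then 1 else -(1 + cc n)

/-- the sum in `phiC` -/
def pnA (d : ℕ) : ℚ := ∑ n ∈ range (d + 1), ww (n - 1) / n

/-- the sum in `phiD` -/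
def pnB (d : ℕ) : ℚ := ∑ n ∈ range (d + 1), pnG n / n

theorem pnA_even (l : ℕ) : pnA (2 * l) = ∑ k ∈ range l, ww (2 * k) / (2 * (k : ℚ) + 1) := by
  induction l with
  | zero => simp [pnA]
  | succ l ih =>
    rw [sum_range_succ, ← ih, pnA, pnA, show 2 * (l + 1) + 1 = 2 * l + 1 + 1 + 1 by ring,
      sum_range_succ _ (2 * l + 1 + 1), sum_range_succ _ (2 * l + 1),
      ww_odd (m := 2 * l + 1 + 1 - 1) (by omega), Nat.add_sub_cancel]
    push_cast
    ring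

theorem pnB_odd (e : ℕ) : pnB (2 * e + 1) = 1 + ∑ k ∈ range e,
    (1 / (2 * (k : ℚ) + 3) - 1 / (2 * (k : ℚ) + 2) - cc (2 * k + 2) / (2 * (k : ℚ) + 2)) := by
  induction e with
  | zero => simp [pnB, pnG, sum_range_succ]
  | succ e ih =>
    rw [sum_range_succ, ← add_assoc, ← ih, pnB, pnB,
      show 2 * (e + 1) + 1 + 1 = 2 * e + 2 + 1 + 1 by ring,
      sum_range_succ _ (2 * e + 2 + 1), sum_range_succ _ (2 * e + 2), pnG, pnG,
      if_neg (by omega), if_pos (by omega)]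
    push_cast
    ring

theorem pn_phi0 (d : ℕ) : phi0 (1 - (d : ℤ)) = ww (d - 1) * pnB d - cc d * pnA d := by
  unfold phi0
  rw [if_neg (by omega)]
  rcases Nat.even_or_odd' d with ⟨l, rfl | rfl⟩
  · rw [if_neg (by omega), show ((1 - (1 - ((2 * l : ℕ) : ℤ))) / 2).toNat = l by omega, phiC, pnA_even]
    rcases Nat.eq_zero_or_pos l with rfl | hl
    · simp [pnB]
    · rw [ww_odd (m := 2 * l - 1) (by omega)]
      ring
  · rw [if_pos (by omega), show (-(1 - ((2 * l + 1 : ℕ) : ℤ)) / 2).toNat = l by omega, phiD, pnB_odd,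
      cc_odd (m := 2 * l + 1) (by omega), Nat.add_sub_cancel]
    ring

theorem pn_reindex {R : Type*} [AddCommMonoid R] (F : ℕ → R) (a : ℕ) {t : ℕ} (ht : t < p) :
    (∑ n ∈ range (p * a + t + 1), if p ∣ n then F n else 0) = ∑ s ∈ range (a + 1), F (p * s) := by
  have hp0 := hp.out.pos
  rw [← sum_filter]
  refine sum_nbij' (fun n => n / p) (fun s => p * s) ?_ ?_ ?_ ?_ ?_
  · intro n hn
    have h1 := mem_range.1 (mem_filter.1 hn).1
    rw [mem_range, Nat.div_lt_iff_lt_mul hp0]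
    nlinarith
  · intro s hs
    have h1 := Nat.mul_le_mul_left p (Nat.lt_succ_iff.1 (mem_range.1 hs))
    exact mem_filter.2 ⟨mem_range.2 (by omega), dvd_mul_right _ _⟩
  · intro n hn
    exact Nat.mul_div_cancel' (mem_filter.1 hn).2
  · intro s _
    exact Nat.mul_div_cancel_left s hp0
  · intro n hn
    rw [Nat.mul_div_cancel' (mem_filter.1 hn).2]

theorem pn_red1 {x : ℚ} (hx : nrm p x ≤ 1) {n : ℕ} (hn : n < p ^ 2) :
    (((p : ℚ) * (x / n) : ℚ) : ZMod p) =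
      if p ∣ n then (x : ZMod p) / ((n / p : ℕ) : ZMod p) else 0 := by
  have h := red_p_mul_div hx (z := n) (by simpa using hn)
  rw [← Int.natCast_div, Int.cast_natCast, Int.cast_natCast] at h
  simpa only [Int.natCast_dvd_natCast] using h

theorem pn_red2 {x : ℚ} (hx : nrm p x ≤ p) {n : ℕ} (hn : n < p ^ 2) :
    (((p : ℚ) ^ 2 * (x / n) : ℚ) : ZMod p) =
      if p ∣ n then (((p : ℚ) * x : ℚ) : ZMod p) / ((n / p : ℕ) : ZMod p) else 0 := by
  have h := red_p_sq_mul_div hx (z := n) (by simpa using hn)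
  rw [← Int.natCast_div, Int.cast_natCast, Int.cast_natCast] at h
  simpa only [Int.natCast_dvd_natCast] using h

theorem pn_nrm_G (h2 : p ≠ 2) (n : ℕ) : nrm p (pnG n) ≤ 1 := by
  unfold pnG
  split_ifs
  · simp
  · rw [nrm_neg]
    exact nrm_add_le (by simp) (nrm_cc_le_one h2 n)

theorem pn_red_G (h2 : p ≠ 2) (s : ℕ) : ((pnG (p * s) : ℚ) : ZMod p) = ((pnG s : ℚ) : ZMod p) := by
  have h1 : p % 2 = 1 := hp.out.eq_two_or_odd.resolve_left h2
  have h3 : p * s % 2 = s % 2 := by rw [Nat.mul_mod, h1, one_mul, Nat.mod_mod]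
  unfold pnG
  rw [h3]
  split_ifs
  · rfl
  · have h4 := red_cc_lucas h2 s hp.out.pos
    rw [add_zero, cc_zero, Rat.cast_one, mul_one] at h4
    rw [red_neg, red_neg, red_add (by simp) (nrm_cc_le_one h2 _), red_add (by simp) (nrm_cc_le_one h2 _),
      h4]

theorem pn_not_dvd {s : ℕ} (hs : s < p) : s = 0 ∨ ¬ p ∣ s :=
  (Nat.eq_zero_or_pos s).imp_right fun h => Nat.not_dvd_of_pos_of_lt h hs

theorem pn_nrm_div {x : ℚ} {A : ℝ} (hx : nrm p x ≤ A) {n M : ℕ} (hn : n ≤ M) :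
    nrm p (x / n) ≤ A * lg p M := by
  rw [div_eq_mul_inv]
  exact nrm_mul_le hx (nrm_inv_nat_le hn)

theorem pn_nrm_ww {n M : ℕ} (hn : n ≤ M) : nrm p (ww (n - 1)) ≤ lg p (M + 1) :=
  (nrm_ww_le _).trans (lg_mono (by omega))

/-- `d = pa+t`. `d = 2λ` even: `phi0 (1-d) = phiC λ = -cc d ∑_{k<λ} ww(2k)/(2k+1)`, `cc d ≡ cc a cc t` (zero if `a,t` odd, and then
`cc (p-1-t) = 0`); in `p² ∑` only `2k+1 = ps`, `s` odd `< a`, survives (`red_p_sq_mul_div`), `p ww (ps-1) ≡ cc (p-1) ww (s-1)` (`red_p_ww`, `l = p-1`);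
`cc t cc (p-1) ≡ cc (p-1-t)` (`red_cc_refl`). `d = 2e+1` odd: `phi0 (1-d) = phiD e = ww (d-1) (1 + ∑ …)`,
`p ww (pa+t-1) ≡ cc (p-1-t) ww (a-1)` (`a ≥ 1`; `a = 0`: `0` by `red_p_mul`); zero if `t` is odd; for `a` odd
`p (1 + ∑ …) ≡ ∑_{s odd ≤ a} 1/s - ∑_{s even, 2 ≤ s ≤ a} (1/s + cc s/s)` (`red_p_mul_div`, `cc (ps) ≡ cc s`).
Reindexing hint: prove `∑_{k<K} (if p ∣ 2k+c then F((2k+c)/p) else 0)` formulas by induction on `K` or `Finset.sum_nbij'`. -/
theorem red_phi_neg (h2 : p ≠ 2) {a t : ℕ} (ht : t < p) (ha : a + 3 < p) :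
    (((p : ℚ) ^ 2 * phi0 (1 - ((p * a + t : ℕ) : ℤ)) : ℚ) : ZMod p) =
      ((cc (p - 1 - t) : ℚ) : ZMod p) * ((phi0 (1 - (a : ℤ)) : ℚ) : ZMod p) := by
  have hp0 := hp.out.pos
  have hd : p * a + t + 1 < p ^ 2 := by nlinarith
  have hl1 : lg p (p * a + t + 1) ≤ p := lg_le_p hd
  have hl2 : lg p (a + 1) = 1 := lg_of_lt (by omega)
  have hpr : (0 : ℝ) ≤ p := p_pos_real.le
  -- integrality
  have iw : ∀ n, n ≤ p * a + t → nrm p (ww (n - 1)) ≤ p := fun n hn => (pn_nrm_ww hn).trans hl1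
  have iw' : ∀ s, s ≤ a → nrm p (ww (s - 1)) ≤ 1 := fun s hs => (pn_nrm_ww hs).trans hl2.le
  have iB : ∀ n ∈ range (p * a + t + 1), nrm p ((p : ℚ) * (pnG n / n)) ≤ 1 := fun n hn =>
    nrm_p_mul_le ((pn_nrm_div (pn_nrm_G h2 n) (mem_range.1 hn).le).trans (by linarith))
  have iA : ∀ n ∈ range (p * a + t + 1), nrm p ((p : ℚ) ^ 2 * (ww (n - 1) / n)) ≤ 1 := fun n hn =>
    nrm_p_sq_mul_le ((pn_nrm_div (iw n (Nat.lt_succ_iff.1 (mem_range.1 hn))) (mem_range.1 hn).le).trans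
      (by rw [mul_one, sq]; exact mul_le_mul_of_nonneg_left hl1 hpr))
  have iB' : ∀ s ∈ range (a + 1), nrm p (pnG s / s) ≤ 1 := fun s hs =>
    (pn_nrm_div (pn_nrm_G h2 s) (mem_range.1 hs).le).trans (by rw [hl2, one_mul])
  have iA' : ∀ s ∈ range (a + 1), nrm p (ww (s - 1) / s) ≤ 1 := fun s hs =>
    (pn_nrm_div (iw' s (Nat.lt_succ_iff.1 (mem_range.1 hs))) (mem_range.1 hs).le).trans
      (by rw [hl2, one_mul])
  -- the two sums
  have eB : (((p : ℚ) * pnB (p * a + t) : ℚ) : ZMod p) = ((pnB a : ℚ) : ZMod p) := by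
    rw [pnB, pnB, mul_sum, red_sum iB, red_sum iB',
      sum_congr rfl fun n hn => pn_red1 (pn_nrm_G h2 n) ((mem_range.1 hn).trans hd), pn_reindex _ a ht]
    refine sum_congr rfl fun s hs => ?_
    have := mem_range.1 hs
    rw [pn_red_G h2, Nat.mul_div_cancel_left s hp0, red_div_nat (pn_nrm_G h2 s) (pn_not_dvd (by omega))]
  have eA : (((p : ℚ) ^ 2 * pnA (p * a + t) : ℚ) : ZMod p) =
      ((cc (p - 1) : ℚ) : ZMod p) * ((pnA a : ℚ) : ZMod p) := by
    rw [pnA, pnA, mul_sum, red_sum iA, red_sum iA', mul_sum,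
      sum_congr rfl fun n hn => pn_red2 (iw n (Nat.lt_succ_iff.1 (mem_range.1 hn)))
        ((mem_range.1 hn).trans hd), pn_reindex _ a ht]
    refine sum_congr rfl fun s hs => ?_
    have hs' := mem_range.1 hs
    rw [Nat.mul_div_cancel_left s hp0, red_div_nat (iw' s (by omega)) (pn_not_dvd (by omega))]
    rcases s with _ | s
    · simp
    · rw [red_p_ww h2 (m := p * (s + 1) - 1) (e := s) (l := p - 1) (by omega) (by omega)
        (by rw [mul_add, mul_add]; omega), Nat.add_sub_cancel, mul_div_assoc]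
  have jB : nrm p ((p : ℚ) * pnB (p * a + t)) ≤ 1 := by
    rw [pnB, mul_sum]
    exact nrm_sum_le zero_le_one iB
  have jA : nrm p ((p : ℚ) ^ 2 * pnA (p * a + t)) ≤ 1 := by
    rw [pnA, mul_sum]
    exact nrm_sum_le zero_le_one iA
  have jB' : nrm p (pnB a) ≤ 1 := nrm_sum_le zero_le_one iB'
  have jA' : nrm p (pnA a) ≤ 1 := nrm_sum_le zero_le_one iA'
  have jw : nrm p ((p : ℚ) * ww (p * a + t - 1)) ≤ 1 :=
    nrm_p_mul_le ((iw _ le_rfl).trans (by rw [mul_one]))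
  have e1 : (p : ℚ) ^ 2 * phi0 (1 - ((p * a + t : ℕ) : ℤ)) =
      ((p : ℚ) * ww (p * a + t - 1)) * ((p : ℚ) * pnB (p * a + t)) -
        cc (p * a + t) * ((p : ℚ) ^ 2 * pnA (p * a + t)) := by
    rw [pn_phi0]
    ring
  have e2 := red_cc_refl h2 (l := p - 1 - t) (by omega)
  rw [show p - 1 - (p - 1 - t) = t by omega] at e2
  have e3 : (((p : ℚ) * ww (p * a + t - 1) : ℚ) : ZMod p) * ((pnB a : ℚ) : ZMod p) =
      ((cc (p - 1 - t) : ℚ) : ZMod p) * ((ww (a - 1) : ℚ) : ZMod p) * ((pnB a : ℚ) : ZMod p) := by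
    rcases a with _ | a
    · simp [pnB]
    · rw [red_p_ww h2 (m := p * (a + 1) + t - 1) (e := a) (l := p - 1 - t) (by omega) (by omega)
        (by rw [mul_add, mul_add]; omega), Nat.add_sub_cancel]
  rw [e1, pn_phi0, red_sub (nrm_mul_le_right jw jB) (nrm_mul_le_right (nrm_cc_le_one h2 _) jA),
    red_mul jw jB, red_mul (nrm_cc_le_one h2 _) jA, eA, eB, red_cc_lucas h2 a ht,
    red_sub (nrm_mul_le_right (iw' a le_rfl) jB') (nrm_mul_le_right (nrm_cc_le_one h2 _) jA'),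
    red_mul (iw' a le_rfl) jB', red_mul (nrm_cc_le_one h2 _) jA', e3, ← e2]
  ring

end Crest.Agent.R6
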