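import Crest.Agent.R6.NVPhiPos
import Crest.Agent.R6.NVPhiNeg

/-! # R6 nonvanishing: Lucas congruences for `M0`, `Z0`. -/

set_option autoImplicit false
set_option linter.unusedSectionVars false

namespace Crest.Agent.R6

open Polynomial Finset

variable {p : ℕ} [hp : Fact p.Prime]

private theorem m0_small {z : ℤ} (h : z.natAbs < p) : z = 0 ∨ ¬ (p : ℤ) ∣ z := by
  by_cases hz : z = 0
  · exact Or.inl hz
  · refine Or.inr fun hd => ?_
    have := Int.natAbs_le_of_dvd_ne_zero hd hz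
    rw [Int.natAbs_natCast] at this
    omega

private theorem m0_inv_le {z : ℤ} (hz : z.natAbs < p ^ 2) : nrm p (z : ℚ)⁻¹ ≤ p :=
  (nrm_inv_int_le le_rfl).trans (lg_le_p hz)

private theorem m0_ww_small {m : ℕ} (h : m + 1 < p) : nrm p (ww m) ≤ 1 :=
  (nrm_ww_le m).trans (lg_of_lt h).le

/-- the diagonal constant -/
private theorem m0_phi (h2 : p ≠ 2) {i ρ l e j' : ℕ} (hl : l < p)
    (hi : i + 1 + l = ρ + p * (e + 1)) (he : e + 4 < p) (hj : j' + 4 < p) :
    (((p : ℚ) ^ 2 * phi0 (((ρ + p * j' : ℕ) : ℤ) - i + 1) : ℚ) : ZMod p) =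
      ((cc l : ℚ) : ZMod p) * ((phi0 ((j' : ℤ) - e + 1) : ℚ) : ZMod p) := by
  have hi' : (i : ℤ) + 1 + l = ρ + p * (e + 1) := by exact_mod_cast hi
  rcases Nat.lt_or_ge e j' with h | h
  · obtain ⟨a, rfl⟩ := Nat.exists_eq_add_of_lt h
    have e1 : ((ρ + p * (e + a + 1) : ℕ) : ℤ) - i + 1 = ((p * a + l + 2 : ℕ) : ℤ) := by
      push_cast; linear_combination -hi'
    have e2 : ((e + a + 1 : ℕ) : ℤ) - e + 1 = ((a + 2 : ℕ) : ℤ) := by push_cast; ring
    rw [e1, e2]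
    exact red_phi_pos h2 hl (by omega)
  · obtain ⟨a, rfl⟩ := Nat.exists_eq_add_of_le h
    obtain ⟨t, ht⟩ : ∃ t, p = l + t + 1 := Nat.exists_eq_add_of_lt hl
    have ht' : (p : ℤ) = l + t + 1 := by exact_mod_cast ht
    have e1 : ((ρ + p * j' : ℕ) : ℤ) - i + 1 = 1 - ((p * a + t : ℕ) : ℤ) := by
      push_cast at hi' ⊢; linear_combination -hi' - ht'
    have e2 : (j' : ℤ) - ((j' + a : ℕ) : ℤ) + 1 = 1 - (a : ℤ) := by push_cast; ring
    have e3 : p - 1 - t = l := by omega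
    rw [e1, e2, red_phi_neg h2 (by omega) (by omega), e3]

/-- the sum -/
private theorem m0_sum (h2 : p ≠ 2) {i ρ l e j' : ℕ} (hρ : ρ < p) (hl : l < p)
    (hi : i + 1 + l = ρ + p * (e + 1)) (he : e + 4 < p) (hj : j' + 4 < p) :
    ∑ m ∈ range i, (((p : ℚ) ^ 2 * (ww m / (((m : ℤ) + (((ρ + p * j' : ℕ) : ℤ) - i + 1) : ℤ) : ℚ)) : ℚ) : ZMod p) =
      ∑ s ∈ range e, ((cc l : ℚ) : ZMod p) *
        ((ww s / (((s : ℤ) + ((j' : ℤ) - e + 1) : ℤ) : ℚ) : ℚ) : ZMod p) := by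
  have hi' : (i : ℤ) + 1 + l = ρ + p * (e + 1) := by exact_mod_cast hi
  have hp0 : 0 < p := hp.out.pos
  have k1 : p * (e + 2) ≤ p * p := Nat.mul_le_mul_left _ (by omega)
  have k2 : p * (j' + 1) ≤ p * p := Nat.mul_le_mul_left _ (by omega)
  have hip : i < p ^ 2 := by rw [sq]; nlinarith
  have hjp : ρ + p * j' < p ^ 2 := by rw [sq]; nlinarith
  have key : ∀ m < i,
      (((p : ℚ) ^ 2 * (ww m / (((m : ℤ) + (((ρ + p * j' : ℕ) : ℤ) - i + 1) : ℤ) : ℚ)) : ℚ) : ZMod p) =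
      if (p : ℤ) ∣ (m : ℤ) + (((ρ + p * j' : ℕ) : ℤ) - i + 1) then (((p : ℚ) * ww m : ℚ) : ZMod p) /
        ((((m : ℤ) + (((ρ + p * j' : ℕ) : ℤ) - i + 1)) / p : ℤ) : ZMod p) else 0 := by
    intro m hm
    refine red_p_sq_mul_div ((nrm_ww_le m).trans (lg_le_p (by omega))) ?_
    generalize ρ + p * j' = j at hjp ⊢
    omega
  have hz : ∀ m : ℕ, (m : ℤ) + (((ρ + p * j' : ℕ) : ℤ) - i + 1) = (m + 2 + l) + p * ((j' : ℤ) - e - 1) := by
    intro m; push_cast; linear_combination -hi'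
  symm
  refine sum_of_injOn (fun s => p * (s + 2) - (2 + l)) (fun s _ s' _ h => ?_) (fun s hs => ?_)
    (fun m hm hm' => ?_) (fun s hs => ?_)
  · have a1 : p * 2 ≤ p * (s + 2) := Nat.mul_le_mul_left _ (by omega)
    have a2 : p * 2 ≤ p * (s' + 2) := Nat.mul_le_mul_left _ (by omega)
    have a3 : p * (s + 2) = p * (s' + 2) := by dsimp only at h; omega
    have := Nat.eq_of_mul_eq_mul_left hp0 a3
    omega
  · have hs' : s < e := by simpa using hs
    have a1 : p * (s + 2) ≤ p * (e + 1) := Nat.mul_le_mul_left _ (by omega)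
    have a2 : p * 2 ≤ p * (s + 2) := Nat.mul_le_mul_left _ (by omega)
    simp only [coe_range, Set.mem_Iio]
    omega
  · have hm0 : m < i := mem_range.1 hm
    rw [key m hm0]
    split_ifs with hd
    · rw [hz, dvd_add_left (dvd_mul_right _ _)] at hd
      have hd' : p ∣ m + 2 + l := by exact_mod_cast hd
      obtain ⟨s, hs⟩ := hd'
      have b1 : s < e + 2 := by
        refine Nat.lt_of_mul_lt_mul_left (a := p) ?_
        rw [← hs, show p * (e + 2) = p * (e + 1) + p by ring]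
        omega
      obtain _ | _ | s := s
      · omega
      · rw [red_p_mul (m0_ww_small (by omega)), zero_div]
      · refine absurd ⟨s, by simp only [coe_range, Set.mem_Iio]; omega, ?_⟩ hm'
        dsimp only
        have : p * (s + 2) = m + 2 + l := hs.symm
        omega
    · rfl
  · have hs' : s < e := mem_range.1 hs
    have a1 : p * (s + 2) ≤ p * (e + 1) := Nat.mul_le_mul_left _ (by omega)
    have a2 : p * 2 ≤ p * (s + 2) := Nat.mul_le_mul_left _ (by omega)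
    obtain ⟨m, hm, hm'⟩ : ∃ m, p * (s + 2) - (2 + l) = m ∧ m + 2 + l = p * (s + 2) := ⟨_, rfl, by omega⟩
    have hm'' : (m : ℤ) + 2 + l = p * (s + 2) := by exact_mod_cast hm'
    have e1 : (m : ℤ) + (((ρ + p * j' : ℕ) : ℤ) - i + 1) = p * ((s : ℤ) + ((j' : ℤ) - e + 1)) := by
      rw [hz, hm'']; ring
    rw [hm, key m (by omega), e1, if_pos (dvd_mul_right _ _),
      Int.mul_ediv_cancel_left _ (by exact_mod_cast hp0.ne'), red_p_ww h2 hl (by omega) hm',
      red_div_int (m0_ww_small (by omega)) (m0_small (by omega)), mul_div_assoc]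

private theorem m0_M0 (i j : ℕ) : M0 i j = phi0 ((j : ℤ) - i + 1) -
    ∑ m ∈ range i, ww m / (((m : ℤ) + ((j : ℤ) - i + 1) : ℤ) : ℚ) := by
  unfold M0; push_cast; rfl

private theorem m0_diag {σ i' : ℕ} (hσ : σ < p) (hi : i' < p) :
    (((p : ℚ) ^ 2 * ∑ k ∈ range (σ + p * i'), 1 / ((k : ℚ) + 1) ^ 2 : ℚ) : ZMod p) =
      ((∑ k ∈ range i', 1 / ((k : ℚ) + 1) ^ 2 : ℚ) : ZMod p) := by
  have hp0 : 0 < p := hp.out.pos
  have k1 : p * (i' + 1) ≤ p * p := Nat.mul_le_mul_left _ (by omega)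
  have hip : σ + p * i' < p ^ 2 := by rw [sq]; nlinarith
  have e1 : ∀ k : ℕ, (p : ℚ) ^ 2 * (1 / ((k : ℚ) + 1) ^ 2) = (p * (1 / (((k : ℤ) + 1 : ℤ) : ℚ))) ^ 2 := by
    intro k; push_cast; rw [mul_pow, one_div_pow]
  have e2 : ∀ k : ℕ, 1 / ((k : ℚ) + 1) ^ 2 = (1 / (((k : ℤ) + 1 : ℤ) : ℚ)) ^ 2 := by
    intro k; push_cast; rw [one_div_pow]
  have n1 : ∀ k < σ + p * i', nrm p (p * (1 / (((k : ℤ) + 1 : ℤ) : ℚ))) ≤ 1 := by
    intro k hk
    refine nrm_p_mul_le ?_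
    rw [one_div, mul_one]
    exact m0_inv_le (by omega)
  have n2 : ∀ k < i', nrm p (1 / (((k : ℤ) + 1 : ℤ) : ℚ)) ≤ 1 := by
    intro k hk
    rw [one_div]
    exact nrm_inv_int_le_one (m0_small (by omega))
  have key : ∀ k < σ + p * i', (((p * (1 / (((k : ℤ) + 1 : ℤ) : ℚ))) ^ 2 : ℚ) : ZMod p) =
      (if (p : ℤ) ∣ (k : ℤ) + 1 then ((1 : ℚ) : ZMod p) / ((((k : ℤ) + 1) / p : ℤ) : ZMod p) else 0) ^ 2 := by
    intro k hk
    rw [red_pow (n1 k hk), red_p_mul_div nrm_one.le (by omega)]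
  rw [mul_sum]
  simp only [e1]
  simp only [e2]
  rw [red_sum fun k hk => nrm_pow_le_one (n1 k (mem_range.1 hk)) 2,
    red_sum fun k hk => nrm_pow_le_one (n2 k (mem_range.1 hk)) 2]
  symm
  refine sum_of_injOn (fun s => p * (s + 1) - 1) (fun s _ s' _ h => ?_) (fun s hs => ?_)
    (fun m hm hm' => ?_) (fun s hs => ?_)
  · have a1 : p * 1 ≤ p * (s + 1) := Nat.mul_le_mul_left _ (by omega)
    have a2 : p * 1 ≤ p * (s' + 1) := Nat.mul_le_mul_left _ (by omega)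
    have a3 : p * (s + 1) = p * (s' + 1) := by dsimp only at h; omega
    have := Nat.eq_of_mul_eq_mul_left hp0 a3
    omega
  · have hs' : s < i' := by simpa using hs
    have a1 : p * (s + 1) ≤ p * i' := Nat.mul_le_mul_left _ (by omega)
    have a2 : p * 1 ≤ p * (s + 1) := Nat.mul_le_mul_left _ (by omega)
    simp only [coe_range, Set.mem_Iio]
    omega
  · have hm0 : m < σ + p * i' := mem_range.1 hm
    rw [key m hm0]
    split_ifs with hd
    · have hd' : p ∣ m + 1 := by exact_mod_cast hd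
      obtain ⟨s, hs⟩ := hd'
      have b1 : s < i' + 1 := by
        refine Nat.lt_of_mul_lt_mul_left (a := p) ?_
        rw [← hs, show p * (i' + 1) = p * i' + p by ring]
        omega
      obtain _ | s := s
      · omega
      · refine absurd ⟨s, by simp only [coe_range, Set.mem_Iio]; omega, ?_⟩ hm'
        dsimp only
        omega
    · exact zero_pow two_ne_zero
  · have hs' : s < i' := mem_range.1 hs
    have a1 : p * (s + 1) ≤ p * i' := Nat.mul_le_mul_left _ (by omega)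
    have a2 : p * 1 ≤ p * (s + 1) := Nat.mul_le_mul_left _ (by omega)
    obtain ⟨m, hm, hm'⟩ : ∃ m, p * (s + 1) - 1 = m ∧ m + 1 = p * (s + 1) := ⟨_, rfl, by omega⟩
    have hm'' : (m : ℤ) + 1 = p * (s + 1) := by exact_mod_cast hm'
    rw [hm, key m (by omega), hm'', if_pos (dvd_mul_right _ _),
      Int.mul_ediv_cancel_left _ (by exact_mod_cast hp0.ne'), red_pow (n2 s hs'),
      red_div_int nrm_one.le (m0_small (by omega))]

/-- `δ = j-i+1 = p(j'-e-1) + l + 2`: `red_phi_pos` (`a = j'-e-1 ≥ 0`) or `red_phi_neg` (`a = e-j'`, `t = p-1-l`).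
In `p² ∑_{m<i} ww m/(m+δ)` only `p ∣ m+δ` survives (`red_p_sq_mul_div`), i.e. `m+2+l = p(e'+2)` with `e' < e`
(`red_p_ww`; `(m+δ)/p = e' + j' - e + 1`), or `m+2+l = p` where `ww m` is integral (`red_p_mul`). -/
theorem red_M0 (h2 : p ≠ 2) {i ρ l e j' : ℕ} (hρ : ρ < p) (hl : l < p)
    (hi : i + 1 + l = ρ + p * (e + 1)) (he : e + 4 < p) (hj : j' + 4 < p) :
    (((p : ℚ) ^ 2 * M0 i (ρ + p * j') : ℚ) : ZMod p) =
      ((cc l : ℚ) : ZMod p) * ((M0 e j' : ℚ) : ZMod p) := by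
  have k1 : p * (e + 2) ≤ p * p := Nat.mul_le_mul_left _ (by omega)
  have k2 : p * (j' + 1) ≤ p * p := Nat.mul_le_mul_left _ (by omega)
  have hip : i < p ^ 2 := by rw [sq]; nlinarith
  have hjp : ρ + p * j' < p ^ 2 := by rw [sq]; nlinarith
  have hp0 : (0 : ℝ) < p := p_pos_real
  have n1 : nrm p ((p : ℚ) ^ 2 * phi0 (((ρ + p * j' : ℕ) : ℤ) - i + 1)) ≤ 1 := by
    refine nrm_p_sq_mul_le ((nrm_phi0_le h2 le_rfl).trans ?_)
    rw [mul_one]
    refine pow_le_pow_left₀ (lg_pos _).le (lg_le_p ?_) 2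
    generalize ρ + p * j' = j at hjp ⊢
    omega
  have n2 : ∀ m ∈ range i,
      nrm p ((p : ℚ) ^ 2 * (ww m / (((m : ℤ) + (((ρ + p * j' : ℕ) : ℤ) - i + 1) : ℤ) : ℚ))) ≤ 1 := by
    intro m hm
    have hm' := mem_range.1 hm
    refine nrm_p_sq_mul_le ?_
    rw [mul_one, sq, div_eq_mul_inv]
    refine nrm_mul_le ((nrm_ww_le m).trans (lg_le_p (by omega))) (m0_inv_le ?_)
    generalize ρ + p * j' = j at hjp ⊢
    omega
  have n3 : nrm p (phi0 ((j' : ℤ) - e + 1)) ≤ 1 := by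
    refine (nrm_phi0_le h2 le_rfl).trans ?_
    rw [lg_of_lt (by omega), one_pow]
  have n4 : ∀ s ∈ range e, nrm p (ww s / (((s : ℤ) + ((j' : ℤ) - e + 1) : ℤ) : ℚ)) ≤ 1 := by
    intro s hs
    have hs' := mem_range.1 hs
    rw [div_eq_mul_inv]
    exact nrm_mul_le_right (m0_ww_small (by omega)) (nrm_inv_int_le_one (m0_small (by omega)))
  rw [m0_M0, m0_M0, mul_sub, mul_sum, red_sub n1 (nrm_sum_le zero_le_one n2), red_sum n2,
    red_sub n3 (nrm_sum_le zero_le_one n4), red_sum n4, m0_phi h2 hl hi he hj, m0_sum h2 hρ hl hi he hj,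
    mul_sub, mul_sum]

/-- `σ ≠ ρ`: `i-j` is prime to `p` and `p (h_i - h_j)` is integral. `σ = ρ`, `i' ≠ j'`: `red_p_harmonic`.
Diagonal: `p²/(k+1)²` survives only for `k+1 = ps`, `s ≤ i'`. -/
theorem red_Z0 {σ ρ i' j' : ℕ} (hσ : σ < p) (hρ : ρ < p) (hi : i' < p) (hj : j' < p) :
    (((p : ℚ) ^ 2 * Z0 (σ + p * i') (ρ + p * j') : ℚ) : ZMod p) =
      if σ = ρ then ((Z0 i' j' : ℚ) : ZMod p) else 0 := by
  have hp0 : 0 < p := hp.out.pos
  have hq0 : (p : ℚ) ≠ 0 := by exact_mod_cast hp0.ne'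
  have nh : ∀ {a l : ℕ}, l < p → a < p → nrm p ((p : ℚ) * harmonic (l + p * a)) ≤ 1 := by
    intro a l hl ha
    have k1 : p * (a + 1) ≤ p * p := Nat.mul_le_mul_left _ (by omega)
    refine nrm_p_mul_le ((nrm_harmonic_le _).trans ?_)
    rw [mul_one]
    exact lg_le_p (by rw [sq]; nlinarith)
  have nh' : ∀ {a : ℕ}, a < p → nrm p (harmonic a) ≤ 1 := fun ha =>
    (nrm_harmonic_le _).trans (lg_of_lt ha).le
  split_ifs with h
  · subst h
    by_cases hij : i' = j'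
    · subst hij
      unfold Z0
      rw [if_pos rfl, if_pos rfl, mul_neg, red_neg, red_neg, m0_diag hσ hi]
    · have hne : σ + p * i' ≠ σ + p * j' := fun h =>
        hij (Nat.eq_of_mul_eq_mul_left hp0 (Nat.add_left_cancel h))
      have hq : (i' : ℚ) - j' ≠ 0 := sub_ne_zero.2 (by exact_mod_cast hij)
      have e1 : (p : ℚ) ^ 2 * Z0 (σ + p * i') (σ + p * j') =
          (p * harmonic (σ + p * i') - p * harmonic (σ + p * j')) / (((i' : ℤ) - j' : ℤ) : ℚ) := by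
        unfold Z0
        rw [if_neg hne]
        push_cast
        rw [add_sub_add_left_eq_sub, ← mul_sub]
        field_simp
      have e2 : Z0 i' j' = (harmonic i' - harmonic j') / (((i' : ℤ) - j' : ℤ) : ℚ) := by
        unfold Z0
        rw [if_neg hij]
        push_cast
        rfl
      have hz : ((i' : ℤ) - j') = 0 ∨ ¬ (p : ℤ) ∣ (i' : ℤ) - j' := m0_small (by omega)
      rw [e1, e2, red_div_int (nrm_sub_le (nh hσ hi) (nh hσ hj)) hz,
        red_div_int (nrm_sub_le (nh' hi) (nh' hj)) hz, red_sub (nh hσ hi) (nh hσ hj),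
        red_sub (nh' hi) (nh' hj), add_comm σ, add_comm σ, red_p_harmonic hσ hi, red_p_harmonic hσ hj]
  · have hd : ¬ (p : ℤ) ∣ ((σ + p * i' : ℕ) : ℤ) - ((ρ + p * j' : ℕ) : ℤ) := by
      have e : ((σ + p * i' : ℕ) : ℤ) - ((ρ + p * j' : ℕ) : ℤ) = ((σ : ℤ) - ρ) + p * ((i' : ℤ) - j') := by
        push_cast; ring
      rw [e, dvd_add_left (dvd_mul_right _ _)]
      exact (m0_small (by omega)).resolve_left (by omega)
    have hne : σ + p * i' ≠ ρ + p * j' := fun h' => hd (by rw [h', sub_self]; exact dvd_zero _)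
    have e1 : (p : ℚ) ^ 2 * Z0 (σ + p * i') (ρ + p * j') =
        p * ((p * harmonic (σ + p * i') - p * harmonic (ρ + p * j')) *
          ((((σ + p * i' : ℕ) : ℤ) - ((ρ + p * j' : ℕ) : ℤ) : ℤ) : ℚ)⁻¹) := by
      unfold Z0
      rw [if_neg hne]
      push_cast
      ring
    rw [e1]
    exact red_p_mul (nrm_mul_le_right (nrm_sub_le (nh hσ hi) (nh hρ hj)) (nrm_inv_int_le_one (Or.inr hd)))

end Crest.Agent.R6
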