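import Crest.Agent.R6.NVPoly
import Crest.Agent.R6.NVKer
import Crest.Agent.R6.AContact
import Crest.Agent.R6.AOddApp

/-! # R6 nonvanishing: the determinant is nonzero for `N = p` a large prime. -/

set_option autoImplicit false
set_option linter.unusedSectionVars false

namespace Crest.Agent.R6

open Polynomial Finset

variable {p : ℕ} [hp : Fact p.Prime]

/-- the coefficients over `ℚ` reduce to those over `ZMod p` (both come from `ℤ`: `Chebyshev.map_T`, `map_U`) -/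
theorem red_T_coeff (u : ℤ) (l : ℕ) :
    (((Chebyshev.T ℚ u).coeff l : ℚ) : ZMod p) = (Chebyshev.T (ZMod p) u).coeff l := by
  rw [← Chebyshev.map_T (Int.castRingHom ℚ), ← Chebyshev.map_T (Int.castRingHom (ZMod p)),
    coeff_map, coeff_map, eq_intCast, eq_intCast, Rat.cast_intCast]
theorem red_U_coeff (u : ℤ) (l : ℕ) :
    (((Chebyshev.U ℚ u).coeff l : ℚ) : ZMod p) = (Chebyshev.U (ZMod p) u).coeff l := by
  rw [← Chebyshev.map_U (Int.castRingHom ℚ), ← Chebyshev.map_U (Int.castRingHom (ZMod p)),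
    coeff_map, coeff_map, eq_intCast, eq_intCast, Rat.cast_intCast]

/-- `T_coeff_eq_zero`, `U_coeff_eq_zero`, and `contact_tau` (cast with `red_sum`, `red_mul`), summed over `r` -/
theorem rowPair_comb (h2 : p ≠ 2) (v : Fin (36 * p) → ZMod p) :
    RowPair p (∑ r, C (v r) * Chebyshev.T (ZMod p) ((r : ℤ) - 3 * p))
      (∑ r, C (v r) * Chebyshev.U (ZMod p) ((r : ℤ) - 3 * p - 1)) := by
  refine ⟨fun l hl => ?_, fun l hl => ?_, fun m hm => ?_⟩
  · rw [finsetSum_coeff]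
    exact sum_eq_zero fun r _ => by rw [coeff_C_mul, T_coeff_eq_zero r.2 hl, mul_zero]
  · rw [finsetSum_coeff]
    exact sum_eq_zero fun r _ => by rw [coeff_C_mul, U_coeff_eq_zero r.2 hl, mul_zero]
  · simp only [finsetSum_coeff, coeff_C_mul, mul_sum]
    rw [sum_comm]
    refine sum_congr rfl fun r _ => ?_
    have h0 := r.2
    have h1 := hp.out.pos
    rw [← red_U_coeff, contact_tau ((r : ℤ) - 3 * p) (m := m) (B := 33 * p) (by omega) (by omega),
      red_sum fun l _ => nrm_mul_le_right (nrm_cz_le_one h2 _) (nrm_T_coeff _ _), mul_sum]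
    refine sum_congr rfl fun l _ => ?_
    rw [red_mul (nrm_cz_le_one h2 _) (nrm_T_coeff _ _), red_T_coeff]
    ring

omit hp in
/-- `W u = T_u(τ) + (x - τ) U_{u-1}(τ)` satisfies `W (u+1) = x W u` when `2τx = x² + 1`. -/
private theorem nvmain_step {R K : Type*} [CommRing R] [CommRing K] [Algebra R K] {x τ : K}
    (h : 2 * τ * x = x ^ 2 + 1) (u : ℤ) (n : ℕ) :
    aeval τ (Chebyshev.T R (u + n)) + (x - τ) * aeval τ (Chebyshev.U R (u + n - 1)) =
      x ^ n * (aeval τ (Chebyshev.T R u) + (x - τ) * aeval τ (Chebyshev.U R (u - 1))) := by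
  induction n with
  | zero => simp
  | succ n ih =>
    have e1 := Chebyshev.T_eq_X_mul_T_sub_pol_U R (u + n - 1)
    have e2 := Chebyshev.U_eq_X_mul_U_add_T R (u + n - 1)
    rw [show u + n - 1 + 2 = u + (n + 1 : ℕ) by push_cast; ring, sub_add_cancel] at e1
    rw [sub_add_cancel] at e2
    rw [show u + (n + 1 : ℕ) - 1 = u + n by push_cast; ring, e1, e2, pow_succ' x n, mul_assoc x, ← ih]
    simp only [map_sub, map_add, map_mul, map_pow, map_one, aeval_X]
    linear_combination (aeval τ (Chebyshev.U R (u + n - 1))) * h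

/-- `T_u + (X - Y) U_{u-1}`-free proof: the pairs `(T_u, U_{u-1})`, `u = r - 3p`, are independent. E.g. take `u₀ = max |u|` with `v ≠ 0`:
the coefficient of `X^{u₀}` in the first sum is `2^{u₀-1}(v_{u₀} + v_{-u₀})`, that of `X^{u₀-1}` in the second is `2^{u₀-1}(v_{u₀} - v_{-u₀})`
(`leadingCoeff_T`, `natDegree_T`, `leadingCoeff_U_natCast`, `U_neg_sub_one`; `u₀ = 0`: `T_0 = 1`).
Alternative: map to Laurent polynomials / the field `RatFunc`, `τ = (x+x⁻¹)/2`, where `T_u(τ) + (x - τ) U_{u-1}(τ) = x^u` (induction on `u`),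
and the `x^u` are independent. -/
theorem comb_eq_zero (h2 : p ≠ 2) (v : Fin (36 * p) → ZMod p)
    (hP : ∑ r, C (v r) * Chebyshev.T (ZMod p) ((r : ℤ) - 3 * p) = 0)
    (hD : ∑ r, C (v r) * Chebyshev.U (ZMod p) ((r : ℤ) - 3 * p - 1) = 0) : v = 0 := by
  set x : RatFunc (ZMod p) := RatFunc.X with hx
  have hx0 : x ≠ 0 := RatFunc.X_ne_zero
  have h20 : (2 : RatFunc (ZMod p)) ≠ 0 := by
    have h3 : (2 : ZMod p) ≠ 0 := fun h => h2 ((Nat.prime_dvd_prime_iff_eq hp.out Nat.prime_two).1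
      ((ZMod.natCast_eq_zero_iff 2 p).1 (by exact_mod_cast h)))
    rw [← map_ofNat (algebraMap (ZMod p) (RatFunc (ZMod p))) 2]
    exact (_root_.map_ne_zero _).2 h3
  set τ : RatFunc (ZMod p) := (x + x⁻¹) / 2 with hτ
  have h : 2 * τ * x = x ^ 2 + 1 := by
    rw [hτ]
    field_simp
  set w := aeval τ (Chebyshev.T (ZMod p) (-(3 * p))) +
    (x - τ) * aeval τ (Chebyshev.U (ZMod p) (-(3 * p) - 1)) with hw
  have h1 : x ^ (3 * p) * w = 1 := by
    rw [hw, ← nvmain_step h, show -(3 * (p : ℤ)) + ((3 * p : ℕ) : ℤ) = 0 by push_cast; ring]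
    simp
  have h3 : algebraMap (ZMod p)[X] (RatFunc (ZMod p)) (∑ r, C (v r) * X ^ (r : ℕ)) * w = 0 := by
    have e1 := congrArg (aeval τ) hP
    have e2 := congrArg (fun Q => (x - τ) * aeval τ Q) hD
    simp only [map_sum, map_mul, aeval_C, map_zero, mul_zero, mul_sum] at e1 e2
    rw [← add_zero (0 : RatFunc (ZMod p))]
    nth_rewrite 1 [← e1]
    rw [← e2, ← sum_add_distrib, map_sum, sum_mul]
    refine sum_congr rfl fun r _ => ?_
    rw [map_mul, map_pow, RatFunc.algebraMap_X, ← hx, mul_assoc, hw, ← nvmain_step h,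
      show -(3 * (p : ℤ)) + ((r : ℕ) : ℤ) = (r : ℤ) - 3 * p by ring, RatFunc.algebraMap_C,
      RatFunc.algebraMap_eq_C]
    ring
  have h4 : (∑ r, C (v r) * X ^ (r : ℕ) : (ZMod p)[X]) = 0 := by
    have hw0 : w ≠ 0 := right_ne_zero_of_mul_eq_one h1
    exact (map_eq_zero_iff _ (IsFractionRing.injective _ _)).1 ((mul_eq_zero.1 h3).resolve_right hw0)
  funext r
  have h5 := congrArg (fun Q => coeff Q r) h4
  simp only [finsetSum_coeff, coeff_C_mul_X_pow, coeff_zero] at h5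
  rw [sum_eq_single r (fun b _ hb => if_neg fun e => hb (Fin.ext e).symm) (by simp), if_pos rfl] at h5
  exact h5

/-- `A = p² • matQ` has integral entries, `A r k = ∑_l T_l (p² KM M0) - (3/2) ∑_l U_l (p² KM Z0) + p² γ entB` (`pair_rowP`, `pair_rowD`), and the last
term reduces to `0` (`nrm_entB_le`, `red_p_mul`). If `det matQ = 0` then `det A = 0`, the reduced matrix is singular (`red_det`), so there is
`v ≠ 0` with `vecMul v Ā = 0` (`Matrix.exists_vecMul_eq_zero_iff`); `sec_ker`, `rowPair_eq_zero`, `comb_eq_zero` give `v = 0`. -/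
theorem det_ne_zero_of (hp' : 100 ≤ p) (hK : KerFacts p) {γ : ℚ} (hγ : nrm p γ ≤ 1) :
    (matQ p γ).det ≠ 0 := by
  intro h0
  have h2 : p ≠ 2 := by omega
  have hA : ∀ r k : Fin (36 * p), (p : ℚ) ^ 2 * matQ p γ r k =
      (∑ l ∈ range (33 * p), (Chebyshev.T ℚ ((r : ℤ) - 3 * p)).coeff l * ((p : ℚ) ^ 2 * KM M0 p l k) -
        3 / 2 * ∑ l ∈ range (33 * p),
          (Chebyshev.U ℚ ((r : ℤ) - 3 * p - 1)).coeff l * ((p : ℚ) ^ 2 * KM Z0 p l k)) +
        p * (p * (γ * entB p r k)) := fun r k => by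
    simp only [mul_left_comm _ ((p : ℚ) ^ 2), ← mul_sum]
    rw [matQ, Matrix.of_apply, entA, pair_rowP _ r.2, pair_rowD _ r.2]
    ring
  have n1 : ∀ (r k : Fin (36 * p)) (l : ℕ), nrm p ((Chebyshev.T ℚ ((r : ℤ) - 3 * p)).coeff l *
      ((p : ℚ) ^ 2 * KM M0 p l k)) ≤ 1 := fun r k l =>
    nrm_mul_le_right (nrm_T_coeff _ _) (nrm_KM_M0 hp' l k k.2)
  have n2 : ∀ (r k : Fin (36 * p)) (l : ℕ), nrm p ((Chebyshev.U ℚ ((r : ℤ) - 3 * p - 1)).coeff l *
      ((p : ℚ) ^ 2 * KM Z0 p l k)) ≤ 1 := fun r k l =>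
    nrm_mul_le_right (nrm_U_coeff _ _) (nrm_KM_Z0 hp' l k k.2)
  have n3 : ∀ r k : Fin (36 * p), nrm p (p * (γ * entB p r k)) ≤ 1 := fun r k =>
    nrm_mul_le_right (nrm_nat_le p) (nrm_mul_le_right hγ (nrm_entB_le h2 _ _ _))
  have s1 := fun r k : Fin (36 * p) =>
    nrm_sum_le (s := range (33 * p)) zero_le_one fun l _ => n1 r k l
  have s2 := fun r k : Fin (36 * p) =>
    nrm_sum_le (s := range (33 * p)) zero_le_one fun l _ => n2 r k l
  have s3 := fun r k : Fin (36 * p) =>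
    nrm_sub_le (s1 r k) (nrm_mul_le_right (nrm_three_halves h2) (s2 r k))
  have hn : ∀ r k, nrm p ((((p : ℚ) ^ 2) • matQ p γ) r k) ≤ 1 := fun r k => by
    rw [Matrix.smul_apply, smul_eq_mul, hA]
    exact nrm_add_le (s3 r k) (nrm_mul_le_right (nrm_nat_le p) (n3 r k))
  have hd := red_det hn
  rw [Matrix.det_smul, h0, mul_zero, Rat.cast_zero] at hd
  obtain ⟨v, hv0, hv⟩ := Matrix.exists_vecMul_eq_zero_iff.2 hd.symm
  have hR := rowPair_comb h2 v
  have hz := rowPair_eq_zero h2 hK hR fun a ha => sec_ker hp' hR (fun k hk => ?_) ha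
  · exact hv0 (comb_eq_zero h2 v hz.1 hz.2)
  have e := congrFun hv ⟨k, hk⟩
  simp only [Matrix.vecMul, dotProduct, Matrix.of_apply, Matrix.smul_apply, smul_eq_mul,
    Pi.zero_apply] at e
  rw [← e]
  simp only [finsetSum_coeff, coeff_C_mul, sum_mul]
  rw [sum_comm, sum_comm (s := range (33 * p)), mul_sum, ← sum_sub_distrib]
  refine sum_congr rfl fun r _ => ?_
  rw [hA, red_add (s3 r _) (nrm_mul_le_right (nrm_nat_le p) (n3 r _)), red_p_mul (n3 r _), add_zero,
    red_sub (s1 r _) (nrm_mul_le_right (nrm_three_halves h2) (s2 r _)),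
    red_mul (nrm_three_halves h2) (s2 r _), red_sum fun l _ => n1 r _ l, red_sum fun l _ => n2 r _ l,
    mul_sub, mul_left_comm (v r), mul_sum (a := v r), mul_sum (a := v r)]
  congr 1
  · refine sum_congr rfl fun l _ => ?_
    rw [red_mul (nrm_T_coeff _ _) (nrm_KM_M0 hp' l _ hk), red_T_coeff, mul_assoc]
  · refine congrArg _ (sum_congr rfl fun l _ => ?_)
    rw [red_mul (nrm_U_coeff _ _) (nrm_KM_Z0 hp' l _ hk), red_U_coeff, mul_assoc]

omit hp in
theorem det_ne_zero (γ : ℚ) : ∀ᶠ N in Filter.atTop, N.Prime → (matQ N γ).det ≠ 0 := by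
  obtain ⟨p0, h0⟩ := kerFacts
  filter_upwards [Filter.eventually_ge_atTop p0, Filter.eventually_ge_atTop 100,
    Filter.eventually_gt_atTop γ.den] with N h1 h2 h3 hN
  haveI := Fact.mk hN
  exact det_ne_zero_of h2 (h0 N h1)
    (nrm_le_one_iff.2 fun h => absurd (Nat.le_of_dvd γ.den_pos h) (not_le.2 h3))

end Crest.Agent.R6
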