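import Crest.Agent.R6.NVLucas

/-! # R6 nonvanishing: Lucas congruence for `phi0` at positive arguments. -/

set_option autoImplicit false
set_option linter.unusedSectionVars false

namespace Crest.Agent.R6

open Polynomial Finset

variable {p : ℕ} [hp : Fact p.Prime]

/-- shifted `ww` -/
private def w1 (i : ℕ) : ℚ := if i = 0 then 0 else ww (i - 1)

private theorem w1_succ (i : ℕ) : w1 (i + 1) = ww i := by simp [w1]

private theorem w1_even (k : ℕ) : w1 (2 * k) = 0 := by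
  unfold w1
  split_ifs
  exacts [rfl, ww_odd (by omega)]

private theorem phi_eq (n : ℕ) : phi0 ((n + 2 : ℕ) : ℤ) =
    cc n * ∑ i ∈ range n, w1 i / ((i + 1 : ℕ) : ℤ) + w1 n * ∑ i ∈ range n, cc i / ((i + 1 : ℕ) : ℤ) := by
  rw [phi0, if_pos (by omega)]
  obtain ⟨k, rfl | rfl⟩ := Nat.even_or_odd' n
  · rw [if_pos (by omega), show ((((2 * k + 2 : ℕ) : ℤ) - 2) / 2).toNat = k by omega, w1_even,
      zero_mul, add_zero, phiB]
    congr 1
    induction k with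
    | zero => simp
    | succ k ih =>
      rw [sum_range_succ, ih, mul_add, mul_one, sum_range_succ, sum_range_succ, w1_even, w1_succ]
      push_cast
      ring
  · rw [if_neg (by omega), show ((((2 * k + 1 + 2 : ℕ) : ℤ) - 3) / 2).toNat = k by omega,
      cc_odd (by omega), zero_mul, zero_add, w1_succ, phiA]
    congr 1
    induction k with
    | zero => simp
    | succ k ih =>
      rw [sum_range_succ, ih, mul_add, mul_one, sum_range_succ _ (2 * k + 2),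
        sum_range_succ _ (2 * k + 1), cc_odd (m := 2 * k + 1) (by omega)]
      push_cast
      ring

private theorem nrm_w1 (i : ℕ) : nrm p (w1 i) ≤ lg p i := by
  rcases i with _ | i
  · simpa [w1] using (lg_pos (p := p) 0).le
  · rw [w1_succ]
    exact nrm_ww_le i

private theorem red_w1 (h2 : p ≠ 2) {a l : ℕ} (hl : l < p) (ha : a + 1 < p) :
    (((p : ℚ) * w1 (p * a + l) : ℚ) : ZMod p) = ((cc (p - 1 - l) : ℚ) : ZMod p) * (w1 a : ℚ) := by
  rcases a with _ | a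
  · rw [mul_zero, zero_add, red_p_mul ((nrm_w1 l).trans (lg_of_lt hl).le)]
    simp [w1]
  · have e : p * (a + 1) + l = p * a + p + l - 1 + 1 := by rw [mul_add]; omega
    rw [e, w1_succ, w1_succ]
    exact red_p_ww h2 (by omega) ha (by rw [mul_add]; omega)

private theorem sum_dvd (F : ℕ → ZMod p) (a : ℕ) {l : ℕ} (hl : l < p) :
    ∑ i ∈ range (p * a + l), (if (p : ℤ) ∣ ((i + 1 : ℕ) : ℤ) then
      F i / ((((i + 1 : ℕ) : ℤ) / p : ℤ) : ZMod p) else 0) =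
      ∑ e ∈ range a, F (p * e + (p - 1)) / (((e + 1 : ℕ) : ℤ) : ZMod p) := by
  have hp0 := hp.out.pos
  rw [← sum_filter]
  symm
  refine sum_bij (fun e _ => p * e + (p - 1)) (fun e he => ?_) (fun e _ e' _ h => ?_)
    (fun i hi => ?_) fun e _ => ?_
  · have := Nat.mul_le_mul_left p (Nat.succ_le_of_lt (mem_range.1 he))
    rw [Nat.mul_succ] at this
    exact mem_filter.2 ⟨mem_range.2 (by omega), Int.natCast_dvd_natCast.2
      ⟨e + 1, by rw [mul_add]; omega⟩⟩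
  · exact Nat.eq_of_mul_eq_mul_left hp0 (by omega)
  · obtain ⟨h1, h3⟩ := mem_filter.1 hi
    obtain ⟨_ | c, hc⟩ := Int.natCast_dvd_natCast.1 h3
    · omega
    · rw [mem_range] at h1
      rw [mul_add] at hc
      exact ⟨c, mem_range.2 (Nat.lt_of_mul_lt_mul_left (a := p) (by omega)), by omega⟩
  · rw [show p * e + (p - 1) + 1 = p * (e + 1) by rw [mul_add]; omega, Nat.cast_mul,
      Int.mul_ediv_cancel_left _ (Nat.cast_ne_zero.2 hp0.ne')]

/-- `δ = pa+l+2`. `pa+l = 2λ` even: `phi0 δ = phiB λ = cc (pa+l) ∑_{k<λ} ww(2k)/(2k+2)`; `cc (pa+l) ≡ cc a cc l` (`red_cc_lucas`; zero if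
`a, l` are odd); in `p² ∑` only `2k+2 = 2ps` survives (`red_p_sq_mul_div`), `p ww(2ps-2) ≡ cc 0 · ww (2s-2)` (`red_p_ww`, `l = 0`), `1 ≤ s ≤ a/2`.
`pa+l = 2λ+1` odd: `phi0 δ = phiA λ = ww (pa+l-1) ∑_{k ≤ λ} cc(2k)/(2k+1)`; `p ww (pa+l-1) ≡ cc (p-1-l) ww (a-1)` (`a ≥ 1`; for `a = 0` it is
`0` by `red_p_mul`), zero if `l` is odd; `p ∑ ≡ ∑_{s odd ≤ a} cc (ps-1)/s`, `cc (p(s-1) + p-1) ≡ cc (s-1) cc (p-1)`; finish with `red_cc_refl`.
Reindexing hint: prove `∑_{k<K} (if p ∣ 2k+2 then F((2k+2)/p) else 0) = ∑_{s < K/p} F(2s+2)` and the odd analogue by induction on `K`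
or `Finset.sum_bij`/`sum_nbij'` after `sum_filter`. -/
theorem red_phi_pos (h2 : p ≠ 2) {a l : ℕ} (hl : l < p) (ha : a + 3 < p) :
    (((p : ℚ) ^ 2 * phi0 ((p * a + l + 2 : ℕ) : ℤ) : ℚ) : ZMod p) =
      ((cc l : ℚ) : ZMod p) * ((phi0 ((a + 2 : ℕ) : ℤ) : ℚ) : ZMod p) := by
  have hp0 := hp.out.pos
  have hn : p * a + l < p ^ 2 := by nlinarith
  have hc := nrm_cc_le_one (p := p) h2
  have hw : ∀ i, i < p ^ 2 → nrm p (w1 i) ≤ p := fun i hi => (nrm_w1 i).trans (lg_le_p hi)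
  have hw' : ∀ i ≤ a, nrm p (w1 i) ≤ 1 := fun i hi => (nrm_w1 i).trans (lg_of_lt (by omega)).le
  have hd : ∀ i < a, ¬ (p : ℤ) ∣ ((i + 1 : ℕ) : ℤ) := fun i hi h =>
    absurd (Nat.le_of_dvd i.succ_pos (Int.natCast_dvd_natCast.1 h)) (by omega)
  have hi : ∀ i < p * a + l, nrm p (((i + 1 : ℕ) : ℤ) : ℚ)⁻¹ ≤ p := fun i hi =>
    (nrm_inv_int_le (M := p * a + l) (by omega)).trans (lg_le_p hn)
  have n1 : ∀ i ∈ range (p * a + l), nrm p ((p : ℚ) ^ 2 * (w1 i / ((i + 1 : ℕ) : ℤ))) ≤ 1 :=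
    fun i h => nrm_p_sq_mul_le (by
      rw [div_eq_mul_inv, mul_one, sq]
      exact nrm_mul_le (hw i ((mem_range.1 h).trans hn)) (hi i (mem_range.1 h)))
  have n2 : ∀ i ∈ range (p * a + l), nrm p ((p : ℚ) * (cc i / ((i + 1 : ℕ) : ℤ))) ≤ 1 :=
    fun i h => nrm_p_mul_le (by
      rw [div_eq_mul_inv, mul_one]
      exact nrm_mul_le_right (hc i) (hi i (mem_range.1 h)))
  have n3 : ∀ i ∈ range a, nrm p (w1 i / ((i + 1 : ℕ) : ℤ)) ≤ 1 := fun i h => by
    rw [div_eq_mul_inv]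
    exact nrm_mul_le_right (hw' i (mem_range.1 h).le) (nrm_inv_int_le_one (Or.inr (hd i (mem_range.1 h))))
  have n4 : ∀ i ∈ range a, nrm p (cc i / ((i + 1 : ℕ) : ℤ)) ≤ 1 := fun i h => by
    rw [div_eq_mul_inv]
    exact nrm_mul_le_right (hc i) (nrm_inv_int_le_one (Or.inr (hd i (mem_range.1 h))))
  have n5 : nrm p ((p : ℚ) * w1 (p * a + l)) ≤ 1 := nrm_p_mul_le (by rw [mul_one]; exact hw _ hn)
  have s1 : ((∑ i ∈ range (p * a + l), (p : ℚ) ^ 2 * (w1 i / ((i + 1 : ℕ) : ℤ)) : ℚ) : ZMod p) =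
      ((∑ i ∈ range a, w1 i / ((i + 1 : ℕ) : ℤ) : ℚ) : ZMod p) := by
    rw [red_sum n1, red_sum n3, sum_congr rfl fun i h => red_p_sq_mul_div
      (hw i ((mem_range.1 h).trans hn)) (by have := mem_range.1 h; omega),
      sum_dvd (fun i => (((p : ℚ) * w1 i : ℚ) : ZMod p)) a hl]
    refine sum_congr rfl fun e he => ?_
    rw [mem_range] at he
    rw [red_w1 h2 (by omega) (by omega), Nat.sub_self, cc_zero, Rat.cast_one, one_mul,
      red_div_int (hw' e he.le) (Or.inr (hd e he))]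
  have s2 : ((∑ i ∈ range (p * a + l), (p : ℚ) * (cc i / ((i + 1 : ℕ) : ℤ)) : ℚ) : ZMod p) =
      ((cc (p - 1) : ℚ) : ZMod p) * ((∑ i ∈ range a, cc i / ((i + 1 : ℕ) : ℤ) : ℚ) : ZMod p) := by
    rw [red_sum n2, red_sum n4, sum_congr rfl fun i h => red_p_mul_div (hc i)
      (by have := mem_range.1 h; omega), sum_dvd (fun i => ((cc i : ℚ) : ZMod p)) a hl, mul_sum]
    refine sum_congr rfl fun e he => ?_
    rw [red_cc_lucas h2 e (by omega), red_div_int (hc e) (Or.inr (hd e (mem_range.1 he)))]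
    ring
  have e : (p : ℚ) ^ 2 * phi0 ((p * a + l + 2 : ℕ) : ℤ) =
      cc (p * a + l) * ∑ i ∈ range (p * a + l), (p : ℚ) ^ 2 * (w1 i / ((i + 1 : ℕ) : ℤ)) +
      p * w1 (p * a + l) * ∑ i ∈ range (p * a + l), (p : ℚ) * (cc i / ((i + 1 : ℕ) : ℤ)) := by
    rw [phi_eq, ← mul_sum, ← mul_sum]
    ring
  have t1 := nrm_sum_le zero_le_one n1
  have t2 := nrm_sum_le zero_le_one n2
  have t3 := nrm_sum_le zero_le_one n3
  have t4 := nrm_sum_le zero_le_one n4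
  rw [e, phi_eq, red_add (nrm_mul_le_right (hc _) t1) (nrm_mul_le_right n5 t2), red_mul (hc _) t1,
    red_mul n5 t2, red_add (nrm_mul_le_right (hc _) t3) (nrm_mul_le_right (hw' a le_rfl) t4),
    red_mul (hc _) t3, red_mul (hw' a le_rfl) t4, s1, s2, red_cc_lucas h2 a hl,
    red_w1 h2 hl (by omega), ← red_cc_refl h2 hl]
  ring

end Crest.Agent.R6
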