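import Crest.Agent.R6.NVSec

/-! # R6 nonvanishing: the polynomial argument. -/

set_option autoImplicit false
set_option linter.unusedSectionVars false

namespace Crest.Agent.R6

open Polynomial Finset

variable {p : ℕ} [hp : Fact p.Prime]

private theorem nvpoly_sum {M : Type} [AddCommMonoid M] (p B : ℕ) (f : ℕ → M) :
    ∑ n ∈ range (p * B), f n = ∑ a ∈ range p, ∑ l ∈ range B, f (a + p * l) := by
  induction B with
  | zero => simp
  | succ B ih =>
    rw [Nat.mul_succ, sum_range_add, ih, ← sum_add_distrib]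
    exact sum_congr rfl fun a _ => by rw [sum_range_succ, add_comm a]

private theorem nvpoly_coeff {R : Type} [Semiring R] (n : ℕ) (f : ℕ → R) (m : ℕ) :
    (∑ a ∈ range n, C (f a) * X ^ a).coeff m = if m < n then f m else 0 := by
  simp only [finsetSum_coeff, coeff_C_mul_X_pow, sum_ite_eq, mem_range]

private theorem nvpoly_E : Epoly p = (X - C 1) ^ ((p - 1) / 2) * (X - C (-1)) ^ ((p - 1) / 2) := by
  rw [Epoly, ← mul_pow, map_neg, map_one]
  congr 1
  ring

private theorem nvpoly_degE : (Epoly p).natDegree = 2 * ((p - 1) / 2) := by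
  rw [nvpoly_E, ((monic_X_sub_C _).pow _).natDegree_mul ((monic_X_sub_C _).pow _), natDegree_pow,
    natDegree_pow, natDegree_X_sub_C, natDegree_X_sub_C]
  ring

/-- `X^{a+pl} ≡ c^l X^a` modulo `X^p - c = (X - c)^p` (`sub_pow_char`, `ZMod.pow_card`, `sub_dvd_pow_sub_pow`). -/
theorem dvd_sub_fold (Q : (ZMod p)[X]) (c : ZMod p) {B : ℕ} (hQ : ∀ l, p * B ≤ l → Q.coeff l = 0) :
    (X - C c) ^ p ∣ Q - ∑ a ∈ range p,
      C (∑ l ∈ range B, c ^ l * Q.coeff (a + p * l)) * X ^ a := by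
  have e : Q = ∑ a ∈ range p, ∑ l ∈ range B, C (Q.coeff (a + p * l)) * X ^ (a + p * l) := by
    rw [← nvpoly_sum p B fun n => C (Q.coeff n) * X ^ n]
    ext m
    rw [nvpoly_coeff]
    split_ifs with h
    · rfl
    · exact hQ m (not_lt.1 h)
  have e2 : (X - C c) ^ p = X ^ p - C c := by rw [sub_pow_char, ← map_pow, ZMod.pow_card]
  nth_rewrite 1 [e]
  rw [← sum_sub_distrib, e2]
  refine dvd_sum fun a _ => ?_
  rw [map_sum, sum_mul, ← sum_sub_distrib]
  refine dvd_sum fun l _ => ?_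
  have e3 : C (Q.coeff (a + p * l)) * X ^ (a + p * l) - C (c ^ l * Q.coeff (a + p * l)) * X ^ a =
      ((X ^ p) ^ l - C c ^ l) * (C (Q.coeff (a + p * l)) * X ^ a) := by
    rw [map_mul, map_pow, pow_add, pow_mul]
    ring
  rw [e3]
  exact (sub_dvd_pow_sub_pow _ _ _).mul_right _

/-- Let `s_a = sec p P D a`, `π₊(s) = ∑_{i<34} s i`, `π₋(s) = ∑_{i<34} (-1)^i s i`. `s_{p-1} 33 = 0` (`deg (P E) ≤ 34p-2`), so `s_{p-1} = 0`.
Suppose `s_{a₀} ≠ 0`; then `π₊(a₀), π₋(a₀) ≠ 0`. For each `a`, `π₊(a₀) s_a - π₊(a) s_{a₀}` is in the kernel with `π₊ = 0`, so it vanishes and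
`π₊(a₀) π₋(a) = π₊(a) π₋(a₀)`. With `Π± = ∑_{a<p} π±(a) X^a`: `(X-1)^κ ∣ Π₊`, `(X+1)^κ ∣ Π₋` (`dvd_sub_fold` for `Q = P E`, `c = ±1`, `κ = (p-1)/2`,
`E = (X-1)^κ (X+1)^κ`), `Π₋` and `Π₊` are proportional, so `E ∣ Π₊` (coprime), `deg Π₊ ≤ p-2 < deg E`, `Π₊ = 0`: contradiction.
Hence all `s_a = 0`: `P E = 0`, `P = 0`; `D_m = 0` for `m < 3p` from `sec`, for `m ≥ 3p` from `contact`. -/
theorem rowPair_eq_zero (h2 : p ≠ 2) (hK : KerFacts p) {P D : (ZMod p)[X]} (h : RowPair p P D)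
    (hs : ∀ a < p, ∀ k < 36, ∑ i ∈ range 37, sec p P D a i * ((Rfix i k : ℚ) : ZMod p) = 0) :
    P = 0 ∧ D = 0 := by
  have hp2 := hp.out.two_le
  have hodd := hp.out.eq_two_or_odd.resolve_left h2
  have hQ : ∀ l, 34 * p ≤ l + 1 → (P * Epoly p).coeff l = 0 := fun l hl => by
    rw [coeff_mul]
    refine sum_eq_zero fun x hx => ?_
    rw [HasAntidiagonal.mem_antidiagonal] at hx
    by_cases h1 : 33 * p ≤ x.1
    · rw [h.degP _ h1, zero_mul]
    · rw [coeff_eq_zero_of_natDegree_lt (p := Epoly p) (by rw [nvpoly_degE]; omega), mul_zero]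
  have hall : ∀ a < p, ∀ i < 37, sec p P D a i = 0 := by
    by_contra! hcon
    obtain ⟨a0, ha0, i0, hi0, hne⟩ := hcon
    set πp : ℕ → ZMod p := fun a => ∑ i ∈ range 34, sec p P D a i with hπp
    set πm : ℕ → ZMod p := fun a => ∑ i ∈ range 34, (-1) ^ i * sec p P D a i with hπm
    have hlast : ∀ i < 37, sec p P D (p - 1) i = 0 :=
      hK _ (hs _ (by omega)) (Or.inl (by rw [sec, if_pos le_rfl]; exact hQ _ (by omega)))
    have np : πp a0 ≠ 0 := fun h0 => hne (hK _ (hs _ ha0) (Or.inr (Or.inl h0)) i0 hi0)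
    have nm : πm a0 ≠ 0 := fun h0 => hne (hK _ (hs _ ha0) (Or.inr (Or.inr h0)) i0 hi0)
    have rel : ∀ a < p, πp a0 * πm a = πm a0 * πp a := fun a ha => by
      have h3 := hK (fun i => πp a0 * sec p P D a i - πp a * sec p P D a0 i) (fun k hk => by
        simp only [sub_mul, mul_assoc, sum_sub_distrib, ← mul_sum, hs a ha k hk, hs a0 ha0 k hk,
          mul_zero, sub_zero]) (Or.inr (Or.inl (by
            rw [sum_sub_distrib, ← mul_sum, ← mul_sum]
            exact sub_eq_zero.2 (mul_comm _ _))))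
      rw [mul_comm (πm a0)]
      simp only [hπm]
      rw [mul_sum, mul_sum]
      refine sum_congr rfl fun i hi => ?_
      have h4 := h3 i (by have := mem_range.1 hi; omega)
      linear_combination (-1) ^ i * h4
    have hfold : ∀ c : ZMod p, (X - C c) ^ ((p - 1) / 2) ∣ Epoly p → (X - C c) ^ ((p - 1) / 2) ∣
        ∑ a ∈ range p, C (∑ i ∈ range 34, c ^ i * sec p P D a i) * X ^ a := fun c hc => by
      have h3 := (pow_dvd_pow _ (by omega : (p - 1) / 2 ≤ p)).trans
        (dvd_sub_fold (P * Epoly p) c (B := 34) fun l hl => hQ l (by omega))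
      have h4 := dvd_sub (hc.mul_left P) h3
      rw [sub_sub_cancel] at h4
      convert h4 using 5 with a _ i hi
      rw [sec, if_pos (by have := mem_range.1 hi; omega)]
    have d1 := hfold 1 (nvpoly_E (p := p) ▸ dvd_mul_right _ _)
    have d2 := hfold (-1) (nvpoly_E (p := p) ▸ dvd_mul_left _ _)
    simp only [one_pow, one_mul] at d1
    have e : C (πp a0) * ∑ a ∈ range p, C (πm a) * X ^ a =
        C (πm a0) * ∑ a ∈ range p, C (πp a) * X ^ a := by
      rw [mul_sum, mul_sum]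
      exact sum_congr rfl fun a ha => by
        rw [← mul_assoc, ← mul_assoc, ← map_mul, ← map_mul, rel a (mem_range.1 ha)]
    have d3 : (X - C (-1)) ^ ((p - 1) / 2) ∣ ∑ a ∈ range p, C (πp a) * X ^ a := by
      rw [← (isUnit_C.2 (IsUnit.mk0 _ nm)).dvd_mul_left, ← e]
      exact d2.mul_left _
    have hcop : IsCoprime (X - C (1 : ZMod p)) (X - C (-1)) := by
      refine isCoprime_X_sub_C_of_isUnit_sub (IsUnit.mk0 _ fun h0 => h2 ?_)
      have h5 : ((2 : ℕ) : ZMod p) = 0 := by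
        push_cast
        linear_combination h0
      rw [ZMod.natCast_eq_zero_iff] at h5
      exact (Nat.prime_dvd_prime_iff_eq hp.out Nat.prime_two).1 h5
    have d4 := hcop.pow.mul_dvd d1 d3
    rw [← nvpoly_E] at d4
    have h6 := eq_zero_of_dvd_of_natDegree_lt d4 (by
      refine lt_of_le_of_lt (natDegree_le_iff_coeff_eq_zero.2 fun n hn => ?_)
        (by rw [nvpoly_degE]; omega : p - 2 < _)
      rw [nvpoly_coeff]
      split_ifs with h7
      · rw [show n = p - 1 by omega]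
        exact sum_eq_zero fun i hi => hlast i (by have := mem_range.1 hi; omega)
      · rfl)
    have h8 := congrArg (coeff · a0) h6
    simp only [nvpoly_coeff, if_pos ha0, coeff_zero] at h8
    exact np h8
  have hP : P = 0 := by
    refine (mul_eq_zero.1 (?_ : P * Epoly p = 0)).resolve_right fun h0 => ?_
    · ext l
      by_cases hl : 34 * p ≤ l
      · exact hQ l (by omega)
      · have h3 : l / p < 34 := (Nat.div_lt_iff_lt_mul hp.out.pos).2 (not_le.1 hl)
        have h4 := hall (l % p) (Nat.mod_lt _ hp.out.pos) (l / p) (by omega)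
        rwa [sec, if_pos (by omega), Nat.mod_add_div] at h4
    · have h3 := nvpoly_degE (p := p)
      rw [h0, natDegree_zero] at h3
      omega
  refine ⟨hP, ?_⟩
  ext m
  by_cases hm : 3 * p ≤ m
  · rw [h.contact m hm, hP]
    simp
  · have h3 : m / p < 3 := (Nat.div_lt_iff_lt_mul hp.out.pos).2 (not_le.1 hm)
    have h4 := hall (m % p) (Nat.mod_lt _ hp.out.pos) (34 + m / p) (by omega)
    rwa [sec, if_neg (Nat.lt_add_right _ (by norm_num)).not_ge, Nat.add_sub_cancel_left, Nat.mod_add_div] at h4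

end Crest.Agent.R6
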