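import Crest.Agent.R6.NVKM
import Crest.Agent.R6.NVDefs

/-! # R6 nonvanishing: the sections of a kernel vector lie in the kernel of the fixed matrix. -/

set_option autoImplicit false
set_option linter.unusedSectionVars false

namespace Crest.Agent.R6

open Polynomial Finset

/-- `E = (τ²-1)^{(p-1)/2}` -/
noncomputable def Epoly (p : ℕ) : (ZMod p)[X] := (X ^ 2 - 1) ^ ((p - 1) / 2)

/-- the `a`-th section of `(P E, D)` in the coordinates of `Rfix` -/
noncomputable def sec (p : ℕ) (P D : (ZMod p)[X]) (a i : ℕ) : ZMod p :=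
  if i ≤ 33 then (P * Epoly p).coeff (a + p * i) else D.coeff (a + p * (i - 34))

/-- degrees and contact of a pair in the row space modulo `p` -/
structure RowPair (p : ℕ) [Fact p.Prime] (P D : (ZMod p)[X]) : Prop where
  degP : ∀ l, 33 * p ≤ l → P.coeff l = 0
  degD : ∀ l, 33 * p ≤ l + 1 → D.coeff l = 0
  contact : ∀ m, 3 * p ≤ m → D.coeff m =
    ∑ l ∈ range (33 * p), ((cz ((l : ℤ) - 1 - m) : ℚ) : ZMod p) * P.coeff l

variable {p : ℕ} [hp : Fact p.Prime]

private theorem nvsec_coeff_mul {R : Type} [CommRing R] {P : R[X]} {B : ℕ}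
    (hP : ∀ l, B ≤ l → P.coeff l = 0) (E : R[X]) (n : ℕ) :
    (P * E).coeff n = ∑ l ∈ range B, P.coeff l * (if l ≤ n then E.coeff (n - l) else 0) := by
  rw [coeff_mul, Finset.Nat.sum_antidiagonal_eq_sum_range_succ fun i j => P.coeff i * E.coeff j]
  have e1 : ∑ l ∈ range n.succ, P.coeff l * E.coeff (n - l) =
      ∑ l ∈ range (n + 1 + B), P.coeff l * (if l ≤ n then E.coeff (n - l) else 0) := by
    refine Eq.trans ?_ (sum_subset (s₁ := range n.succ) (range_subset_range.2 (by omega)) ?_)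
    · refine sum_congr rfl fun l hl => ?_
      rw [if_pos (by have := mem_range.1 hl; omega)]
    · intro l _ hl
      rw [if_neg (by rw [mem_range] at hl; omega), mul_zero]
  rw [e1]
  refine (sum_subset (range_subset_range.2 (by omega)) fun l _ hl => ?_).symm
  rw [hP l (by rw [mem_range] at hl; omega), zero_mul]

private theorem nvsec_div {l a : ℕ} (ha : a < p) (hl : l < 33 * p) :
    (l + p - 1 - a) % p < p ∧ (l + p - 1 - a) % p + p * ((l + p - 1 - a) / p) = (p - 1 - a) + l ∧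
      (l + p - 1 - a) / p ≤ 33 := by
  refine ⟨Nat.mod_lt _ hp.out.pos, ?_, ?_⟩
  · rw [Nat.mod_add_div]; omega
  · exact Nat.lt_succ_iff.1 ((Nat.div_lt_iff_lt_mul hp.out.pos).2 (by omega))

private theorem nvsec_reindex {R : Type} [AddCommMonoid R] (q B : ℕ) (f : ℕ → R) :
    ∑ l ∈ range (B * q), f l = ∑ m ∈ range B, ∑ a ∈ range q, f (a + q * m) := by
  induction B with
  | zero => simp
  | succ B ih =>
    rw [Nat.succ_mul, sum_range_add, ih, sum_range_succ]
    congr 1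
    refine sum_congr rfl fun a _ => ?_
    congr 1
    ring

/-- For `l < 33p` and `a < p` there is exactly one `l' ≤ 33` with `l ≤ a + p l' < l + p` (namely `l' = (l+p-1-a)/p`), and
`(P E)_{a+pl'} = ∑_l P_l E_{a+pl'-l}` with `E_s = cc (p-1-s)` (`coeff_mul`, `coeff_E`). So both sides are
`∑_l P_l cc(λ_l) G(l'_l)`, `λ_l = (l+p-1-a) % p`. -/
theorem sum_sec (h2 : p ≠ 2) {P : (ZMod p)[X]} (hP : ∀ l, 33 * p ≤ l → P.coeff l = 0) {a : ℕ}
    (ha : a < p) (G : ℕ → ZMod p) :
    ∑ l' ∈ range 34, (P * Epoly p).coeff (a + p * l') * G l' =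
      ∑ l ∈ range (33 * p), P.coeff l *
        (((cc ((l + p - 1 - a) % p) : ℚ) : ZMod p) * G ((l + p - 1 - a) / p)) := by
  simp only [nvsec_coeff_mul hP, sum_mul]
  rw [sum_comm]
  refine sum_congr rfl fun l hl => ?_
  obtain ⟨h1, h3, h4⟩ := nvsec_div ha (mem_range.1 hl)
  rw [sum_eq_single ((l + p - 1 - a) / p)]
  · generalize (l + p - 1 - a) / p = q at *
    generalize (l + p - 1 - a) % p = r at *
    rw [if_pos (by omega), Epoly, coeff_E h2, if_pos (by omega),
      show p - 1 - (a + p * q - l) = r by omega, mul_assoc]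
  · intro l' _ hne
    by_cases c1 : l ≤ a + p * l'
    · rw [if_pos c1, Epoly, coeff_E h2, if_neg, mul_zero, zero_mul]
      intro c2
      refine hne ?_
      have e : l + p - 1 - a = (l + p - 1 - a - p * l') + p * l' := by omega
      rw [e, Nat.add_mul_div_left _ _ hp.out.pos, Nat.div_eq_of_lt (by omega), zero_add]
    · rw [if_neg c1, mul_zero, zero_mul]
  · intro h
    exact absurd (mem_range.2 (by omega)) h

/-- reduced contact: `contact` at `m = a + p m'`, `sum_sec`, and `red_cc_lucas`: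
`l - 1 - (a+pm') = λ + p (l' - 1 - m')` (both indices are negative together). -/
theorem sec_contact (h2 : p ≠ 2) {P D : (ZMod p)[X]} (h : RowPair p P D) {a m' : ℕ} (ha : a < p)
    (hm : 3 ≤ m') : D.coeff (a + p * m') = ∑ l' ∈ range 34,
      (P * Epoly p).coeff (a + p * l') * ((cz ((l' : ℤ) - 1 - m') : ℚ) : ZMod p) := by
  have h3 : 3 * p ≤ a + p * m' := by nlinarith
  rw [h.contact _ h3, sum_sec h2 h.degP ha fun l' => ((cz ((l' : ℤ) - 1 - m') : ℚ) : ZMod p)]
  refine sum_congr rfl fun l hl => ?_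
  obtain ⟨h1, h4, -⟩ := nvsec_div ha (mem_range.1 hl)
  generalize (l + p - 1 - a) / p = q at *
  generalize (l + p - 1 - a) % p = r at *
  rw [mul_comm]
  congr 1
  have h5 : (r : ℤ) + p * q = p - 1 - a + l := by
    have : r + p * q + a + 1 = p + l := by omega
    have h6 : ((r + p * q + a + 1 : ℕ) : ℤ) = ((p + l : ℕ) : ℤ) := by rw [this]
    push_cast at h6
    linarith
  rcases Nat.lt_or_ge m' q with c | c
  · obtain ⟨j, rfl⟩ : ∃ j, q = m' + 1 + j := ⟨q - (m' + 1), by omega⟩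
    have e1 : (l : ℤ) - 1 - ((a + p * m' : ℕ) : ℤ) = ((p * j + r : ℕ) : ℤ) := by
      push_cast at h5 ⊢
      linarith
    have e2 : ((m' + 1 + j : ℕ) : ℤ) - 1 - m' = (j : ℤ) := by push_cast; ring
    rw [e1, e2, cz_natCast, cz_natCast, red_cc_lucas h2 j h1, mul_comm]
  · have c' : (q : ℤ) ≤ m' := by exact_mod_cast c
    have h1' : (r : ℤ) < p := by exact_mod_cast h1
    have hp0 : (0 : ℤ) ≤ p := by positivity
    have c2 : (p : ℤ) * q ≤ p * m' := mul_le_mul_of_nonneg_left c' hp0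
    rw [cz_of_neg (by push_cast; linarith), cz_of_neg (by linarith)]
    simp

/-- Take the equation of the column `k = ρ + p k'`, `ρ = p-1-a`. First sum: `red_KM_M0` and `sum_sec`. Second sum: write
`l = a' + p m'`, `red_KM_Z0` leaves `a' = a`, `m' < 33`; for `m' ≥ 3` insert `sec_contact`. Cast `Rfix` with `red_sub, red_mul,
red_sum` (`nrm_KM_M0_one`, `nrm_KM_Z0_one`, `nrm_cz_le_one`, `nrm_three_halves`). -/
theorem sec_ker (hp' : 100 ≤ p) {P D : (ZMod p)[X]} (h : RowPair p P D)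
    (heq : ∀ k < 36 * p,
      ∑ l ∈ range (33 * p), P.coeff l * (((p : ℚ) ^ 2 * KM M0 p l k : ℚ) : ZMod p) -
        ((3 / 2 : ℚ) : ZMod p) *
          ∑ l ∈ range (33 * p), D.coeff l * (((p : ℚ) ^ 2 * KM Z0 p l k : ℚ) : ZMod p) = 0)
    {a : ℕ} (ha : a < p) :
    ∀ k < 36, ∑ i ∈ range 37, sec p P D a i * ((Rfix i k : ℚ) : ZMod p) = 0 := by
  intro k hk
  have h2 : p ≠ 2 := by omega
  have h50 : 50 ≤ p := by omega
  have hρ : p - 1 - a < p := by omega
  have e0 := heq (p - 1 - a + p * k) (by nlinarith)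
  have e1 : ∑ l ∈ range (33 * p),
      P.coeff l * (((p : ℚ) ^ 2 * KM M0 p l (p - 1 - a + p * k) : ℚ) : ZMod p) =
      ∑ l' ∈ range 34, (P * Epoly p).coeff (a + p * l') * ((KM M0 1 l' k : ℚ) : ZMod p) := by
    rw [sum_sec h2 h.degP ha fun l' => ((KM M0 1 l' k : ℚ) : ZMod p)]
    refine sum_congr rfl fun l hl => ?_
    obtain ⟨h1, h3, h4⟩ := nvsec_div ha (mem_range.1 hl)
    rw [red_KM_M0 hp' hρ h1 h3 h4 hk]
  have e2 : ∑ l ∈ range (33 * p),
      D.coeff l * (((p : ℚ) ^ 2 * KM Z0 p l (p - 1 - a + p * k) : ℚ) : ZMod p) =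
      ∑ m ∈ range 33, D.coeff (a + p * m) * ((KM Z0 1 m k : ℚ) : ZMod p) := by
    rw [nvsec_reindex]
    refine sum_congr rfl fun m hm => ?_
    have hm' : m ≤ 33 := (mem_range.1 hm).le
    rw [sum_eq_single a]
    · rw [red_KM_Z0 hp' hρ ha hm' hk, if_pos (by omega)]
    · intro a' ha' hne
      rw [red_KM_Z0 hp' hρ (mem_range.1 ha') hm' hk, if_neg (by omega), mul_zero]
    · intro h'
      exact absurd (mem_range.2 ha) h'
  rw [e1, e2] at e0
  have e3 : ∑ i ∈ range 34, sec p P D a i * ((Rfix i k : ℚ) : ZMod p) =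
      ∑ l' ∈ range 34, (P * Epoly p).coeff (a + p * l') * ((KM M0 1 l' k : ℚ) : ZMod p) -
        ((3 / 2 : ℚ) : ZMod p) *
          ∑ m ∈ Ico 3 33, D.coeff (a + p * m) * ((KM Z0 1 m k : ℚ) : ZMod p) := by
    have e4 : ∑ m ∈ Ico 3 33, D.coeff (a + p * m) * ((KM Z0 1 m k : ℚ) : ZMod p) =
        ∑ l' ∈ range 34, (P * Epoly p).coeff (a + p * l') *
          ∑ m ∈ Ico (3 : ℕ) 33, ((cz ((l' : ℤ) - 1 - (m : ℕ)) : ℚ) : ZMod p) *
            ((KM Z0 1 m k : ℚ) : ZMod p) := by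
      simp only [mul_sum]
      rw [sum_comm]
      refine sum_congr rfl fun m hm => ?_
      rw [sec_contact h2 h ha (mem_Ico.1 hm).1, sum_mul]
      exact sum_congr rfl fun l' _ => mul_assoc _ _ _
    rw [e4, mul_sum, ← sum_sub_distrib]
    refine sum_congr rfl fun i hi => ?_
    have hi' : i ≤ 33 := by have := mem_range.1 hi; omega
    have hs : ∀ m ∈ Ico (3 : ℕ) 33, nrm p (cz ((i : ℤ) - 1 - (m : ℕ)) * KM Z0 1 m k) ≤ 1 :=
      fun m _ => nrm_mul_le_right (nrm_cz_le_one h2 _) (nrm_KM_Z0_one h50 hk)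
    have hs' : nrm p (∑ m ∈ Ico (3 : ℕ) 33, cz ((i : ℤ) - 1 - (m : ℕ)) * KM Z0 1 m k) ≤ 1 :=
      nrm_sum_le zero_le_one hs
    rw [sec, if_pos hi', Rfix, if_pos hi', red_sub (nrm_KM_M0_one h50 hk)
      (nrm_mul_le_right (nrm_three_halves h2) hs'), red_mul (nrm_three_halves h2) hs', red_sum hs,
      sum_congr rfl fun m _ => red_mul (nrm_cz_le_one h2 _) (nrm_KM_Z0_one h50 hk)]
    ring
  have e5 : ∑ j ∈ range 3, sec p P D a (34 + j) * ((Rfix (34 + j) k : ℚ) : ZMod p) =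
      -(((3 / 2 : ℚ) : ZMod p) *
        ∑ m ∈ range 3, D.coeff (a + p * m) * ((KM Z0 1 m k : ℚ) : ZMod p)) := by
    rw [mul_sum, ← sum_neg_distrib]
    refine sum_congr rfl fun j _ => ?_
    rw [sec, if_neg (by omega), Rfix, if_neg (by omega), Nat.add_sub_cancel_left,
      red_mul (by rw [nrm_neg]; exact nrm_three_halves h2) (nrm_KM_Z0_one h50 hk), red_neg]
    ring
  rw [show (37 : ℕ) = 34 + 3 from rfl, sum_range_add, e3, e5, ← e0,
    ← sum_range_add_sum_Ico _ (show 3 ≤ 33 by norm_num)]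
  ring

end Crest.Agent.R6
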