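import Crest.Agent.R6.Mom

/-! Closed forms of the series `φ(d)`, `M(i,j)`. -/

set_option autoImplicit false

namespace Crest.Agent.R6

open Finset

theorem phi_tel_hasSum : HasSum (fun m : ℕ => (ww (m + 2) : ℝ) / ((m : ℝ) + 2)) 2 := by
  rw [hasSum_iff_tendsto_nat_of_nonneg]
  · simp_rw [mom_sum_tel]
    have h2 := (Filter.tendsto_add_atTop_iff_nat 1).2 ww_tendsto
    simpa using (ww_tendsto.add h2).const_sub 2
  · intro m; have := mom_ww_nonneg (m + 2); positivity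

theorem phi_hasSum (d : ℤ) : HasSum (fun m : ℕ => (ww m : ℝ) / ((m : ℝ) + d)) (phiR d) :=
  (summable_ww_div d).hasSum

theorem phi_hasSum2 (d : ℤ) :
    HasSum (fun m : ℕ => (ww (m + 2) : ℝ) / ((m : ℝ) + 2 + d)) (phiR d - 2 / d) := by
  have h := (hasSum_nat_add_iff' 2).2 (phi_hasSum d)
  simp only [Finset.sum_range_succ, Finset.sum_range_zero, mom_ww_zero, mom_ww_one] at h
  push_cast at h
  simpa only [zero_add, zero_div, add_zero] using h

theorem phi_term (d : ℤ) (m : ℕ) :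
    (d : ℝ) * ((ww m : ℝ) / ((m : ℝ) + ((d + 2 : ℤ) : ℝ))) =
      ((d : ℝ) - 1) * ((ww (m + 2) : ℝ) / ((m : ℝ) + 2 + d)) + (ww (m + 2) : ℝ) / ((m : ℝ) + 2) -
        if (m : ℤ) + 2 + d = 0 then (ww (m + 2) : ℝ) / ((m : ℝ) + 2) else 0 := by
  have e : (m : ℝ) + ((d + 2 : ℤ) : ℝ) = (m : ℝ) + 2 + d := by push_cast; ring
  rw [e]
  split_ifs with h
  · have : (m : ℝ) + 2 + d = 0 := by exact_mod_cast h
    rw [this]; simp
  · have h1 : (m : ℝ) + 2 + d ≠ 0 := by exact_mod_cast h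
    have h2 : (m : ℝ) + 2 ≠ 0 := by positivity
    have h3 : (ww m : ℝ) = ((m : ℝ) + 3) * ww (m + 2) / ((m : ℝ) + 2) := by
      rw [mom_ww_rec]; field_simp
    rw [h3]; field_simp; ring

theorem phi_gen (d : ℤ) (c : ℝ) (hc : HasSum (fun m : ℕ =>
    if (m : ℤ) + 2 + d = 0 then (ww (m + 2) : ℝ) / ((m : ℝ) + 2) else 0) c) :
    (d : ℝ) * phiR (d + 2) = ((d : ℝ) - 1) * (phiR d - 2 / d) + 2 - c := by
  have h1 := (phi_hasSum (d + 2)).mul_left (d : ℝ)
  have h2 := (((phi_hasSum2 d).mul_left ((d : ℝ) - 1)).add phi_tel_hasSum).sub hc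
  simp_rw [phi_term] at h1
  exact h1.unique h2

/-- Telescoping: `w_m/m = w_{m-2} - w_m`. -/
theorem phiR_zero : phiR 0 = 2 := by
  have := (phi_hasSum2 0).unique (by simpa using phi_tel_hasSum)
  simpa using this

/-- `d φ(d+2) = (d-1) φ(d) + 2/d` when no denominator `m + d` (`m` even) vanishes;
use `d (m+1)/(m (m+d)) = (d-1)/(m+d) + 1/m` and `ww_rec`. -/
theorem phiR_rec (d : ℤ) (hd : 0 < d ∨ d % 2 = 1) :
    (d : ℝ) * phiR (d + 2) = ((d : ℝ) - 1) * phiR d + 2 / (d : ℝ) := by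
  have hd0 : (d : ℝ) ≠ 0 := by
    have : d ≠ 0 := by omega
    exact_mod_cast this
  have h := phi_gen d 0 (by
    convert hasSum_zero using 2 with m
    split_ifs with h
    · obtain ⟨l, rfl | rfl⟩ := Nat.even_or_odd' m
      · exfalso; push_cast at h; omega
      · rw [show 2 * l + 1 + 2 = 2 * (l + 1) + 1 by ring, mom_ww_odd]; simp
    · rfl)
  rw [h]; field_simp; ring

/-- The same recurrence at `d = -2e-2`, corrected for the omitted terms. -/
theorem phiR_rec_neg (e : ℕ) :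
    (2 * (e : ℝ) + 3) * phiR (-(2 * (e : ℤ) + 2)) =
      (ww (2 * e + 2) : ℝ) - (ww (2 * e) : ℝ) - 1 / ((e : ℝ) + 1) +
        (2 * (e : ℝ) + 2) * phiR (-(2 * (e : ℤ))) := by
  have h := phi_gen (-(2 * (e : ℤ) + 2)) ((ww (2 * e) : ℝ) - ww (2 * e + 2)) (by
    rw [← mom_tel (2 * e)]
    convert hasSum_ite_eq (2 * e) ((ww (2 * e + 2) : ℝ) / (((2 * e : ℕ) : ℝ) + 2)) using 2 with m
    by_cases hm : m = 2 * e
    · subst hm
      rw [if_pos (by push_cast; ring), if_pos rfl]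
    · rw [if_neg (by omega), if_neg hm])
  rw [show -(2 * (e : ℤ) + 2) + 2 = -(2 * (e : ℤ)) by ring] at h
  push_cast at h
  have h1 : (2 * (e : ℝ) + 3) * (2 / -(2 * (e : ℝ) + 2)) = -(2 + 1 / ((e : ℝ) + 1)) := by
    have : (e : ℝ) + 1 ≠ 0 := by positivity
    rw [show -(2 * (e : ℝ) + 2) = -2 * ((e : ℝ) + 1) by ring]
    field_simp; ring
  linear_combination h + h1

theorem phi_cc_rec (l : ℕ) :
    (2 * (l : ℝ) + 2) * cc (2 * l + 2) = (2 * (l : ℝ) + 1) * cc (2 * l) := by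
  exact_mod_cast cc_rec l

theorem phi_ww_cc (l : ℕ) : (ww (2 * l) : ℝ) * ((2 * (l : ℝ) + 1) * cc (2 * l)) = 2 := by
  exact_mod_cast mom_ww_cc l

theorem phi_caseB (l : ℕ) : phiR (2 * l + 2) = (phiB l : ℝ) + phiR 2 * cc (2 * l) := by
  induction l with
  | zero => simp [phiB, mom_cc_zero]
  | succ l ih =>
    have h := phiR_rec (2 * l + 2) (Or.inl (by omega))
    rw [ih] at h
    rw [show (2 * ((l + 1 : ℕ) : ℤ) + 2) = 2 * l + 2 + 2 by push_cast; ring]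
    unfold phiB at h ⊢
    rw [Finset.sum_range_succ, show 2 * (l + 1) = 2 * l + 2 by ring]
    push_cast at h ⊢
    have h1 := phi_cc_rec l
    have h2 := phi_ww_cc l
    have hl : (2 * (l : ℝ) + 2) ≠ 0 := by positivity
    apply mul_left_cancel₀ hl
    rw [h]
    generalize ∑ k ∈ range l, (ww (2 * k) : ℝ) / (2 * (k : ℝ) + 2) = S
    have h3 : (2 * (l : ℝ) + 2) * ((cc (2 * l + 2) : ℝ) * (ww (2 * l) / (2 * (l : ℝ) + 2))) =
        2 / (2 * (l : ℝ) + 2) := by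
      rw [← mul_assoc, h1, ← mul_div_assoc, mul_comm, h2]
    linear_combination -(S + phiR 2) * h1 - h3

theorem phi_caseA (l : ℕ) : phiR (2 * l + 3) = (phiA l : ℝ) := by
  induction l with
  | zero =>
    have h := phiR_rec 1 (Or.inl one_pos)
    simp only [phiA]
    norm_num [mom_cc_zero, mom_ww_zero] at h ⊢
    exact h
  | succ l ih =>
    have h := phiR_rec (2 * l + 3) (Or.inl (by omega))
    rw [ih] at h
    rw [show (2 * ((l + 1 : ℕ) : ℤ) + 3) = 2 * l + 3 + 2 by push_cast; ring]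
    unfold phiA at h ⊢
    have h2 := phi_ww_cc (l + 1)
    rw [Finset.sum_range_succ _ (l + 1)]
    rw [show 2 * (l + 1) = 2 * l + 2 by ring] at h2 ⊢
    have h1 := mom_ww_rec (2 * l)
    push_cast at h h1 h2 ⊢
    have hl : (2 * (l : ℝ) + 3) ≠ 0 := by positivity
    apply mul_left_cancel₀ hl
    rw [h]
    generalize ∑ k ∈ range (l + 1), (cc (2 * k) : ℝ) / (2 * (k : ℝ) + 1) = S
    have h3 : (2 * (l : ℝ) + 3) * ((ww (2 * l + 2) : ℝ) *
        (cc (2 * l + 2) / (2 * ((l : ℝ) + 1) + 1))) = 2 / (2 * (l : ℝ) + 3) := by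
      rw [show 2 * ((l : ℝ) + 1) + 1 = 2 * l + 3 by ring] at h2 ⊢
      rw [eq_div_iff hl]
      field_simp
      linarith
    linear_combination -S * h1 - h3

theorem phi_caseC (l : ℕ) : phiR (1 - 2 * l) = (phiC l : ℝ) + phiR 1 * cc (2 * l) := by
  induction l with
  | zero => simp [phiC, mom_cc_zero]
  | succ l ih =>
    have h := phiR_rec (1 - 2 * ((l + 1 : ℕ) : ℤ)) (Or.inr (by omega))
    rw [show 1 - 2 * ((l + 1 : ℕ) : ℤ) + 2 = 1 - 2 * l by push_cast; ring, ih] at h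
    generalize phiR (1 - 2 * ((l + 1 : ℕ) : ℤ)) = P at h ⊢
    unfold phiC at h ⊢
    rw [Finset.sum_range_succ, show 2 * (l + 1) = 2 * l + 2 by ring]
    push_cast at h ⊢
    have h1 := phi_cc_rec l
    have h2 := phi_ww_cc l
    have hl : (2 * (l : ℝ) + 2) ≠ 0 := by positivity
    have hl' : (2 * (l : ℝ) + 1) ≠ 0 := by positivity
    apply mul_left_cancel₀ hl
    generalize ∑ k ∈ range l, (ww (2 * k) : ℝ) / (2 * (k : ℝ) + 1) = S at h ⊢
    have h3 : (2 * (l : ℝ) + 2) * ((cc (2 * l + 2) : ℝ) * (ww (2 * l) / (2 * (l : ℝ) + 1))) =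
        2 / (2 * (l : ℝ) + 1) := by
      rw [← mul_assoc, h1, ← mul_div_assoc, mul_comm, h2]
    have h4 : 2 / (1 - 2 * ((l : ℝ) + 1)) = -(2 / (2 * (l : ℝ) + 1)) := by
      rw [show 1 - 2 * ((l : ℝ) + 1) = -(2 * l + 1) by ring, div_neg]
    rw [h4] at h
    linear_combination h + (S - phiR 1) * h1 + h3

theorem phi_caseD (e : ℕ) : phiR (-(2 * (e : ℤ))) = (phiD e : ℝ) := by
  induction e with
  | zero => simp [phiD, mom_ww_zero, phiR_zero]
  | succ e ih =>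
    have h := phiR_rec_neg e
    rw [ih] at h
    rw [show -(2 * ((e + 1 : ℕ) : ℤ)) = -(2 * (e : ℤ) + 2) by push_cast; ring]
    unfold phiD at h ⊢
    have h2 := phi_ww_cc (e + 1)
    rw [Finset.sum_range_succ]
    rw [show 2 * (e + 1) = 2 * e + 2 by ring] at h2 ⊢
    have h1 := mom_ww_rec (2 * e)
    push_cast at h h1 h2 ⊢
    have hl : (2 * (e : ℝ) + 3) ≠ 0 := by positivity
    have hl' : (2 * (e : ℝ) + 2) ≠ 0 := by positivity
    apply mul_left_cancel₀ hl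
    rw [h]
    generalize ∑ k ∈ range e, (1 / (2 * (k : ℝ) + 3) - 1 / (2 * (k : ℝ) + 2) -
      (cc (2 * k + 2) : ℝ) / (2 * (k : ℝ) + 2)) = S
    have h3 : (2 * (e : ℝ) + 3) * ((ww (2 * e + 2) : ℝ) * (1 / (2 * (e : ℝ) + 3))) =
        ww (2 * e + 2) := by field_simp
    have h4 : (2 * (e : ℝ) + 3) * ((ww (2 * e + 2) : ℝ) * (1 / (2 * (e : ℝ) + 2))) =
        ww (2 * e) := by rw [← mul_assoc, h1]; field_simp
    have h5 : (2 * (e : ℝ) + 3) * ((ww (2 * e + 2) : ℝ) * (cc (2 * e + 2) / (2 * (e : ℝ) + 2))) =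
        1 / ((e : ℝ) + 1) := by
      have he : (e : ℝ) + 1 ≠ 0 := by positivity
      rw [show 2 * (e : ℝ) + 2 = 2 * (e + 1) by ring]
      field_simp
      linarith
    linear_combination -(1 + S) * h1 - h3 + h4 + h5

theorem phi_cz_nat (n : ℕ) : cz (n : ℤ) = cc n := by
  unfold cz; rw [if_pos (by omega)]; simp

theorem phi_cz_neg {d : ℤ} (h : d < 0) : cz d = 0 := by
  unfold cz; rw [if_neg (by omega)]

theorem phiR_eq (d : ℤ) :
    phiR d = (phi0 d : ℝ) + phiR 1 * (cz (1 - d) : ℝ) + phiR 2 * (cz (d - 2) : ℝ) := by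
  by_cases h2 : 2 ≤ d
  · rw [phi_cz_neg (show 1 - d < 0 by omega)]
    by_cases he : d % 2 = 0
    · obtain ⟨l, rfl⟩ : ∃ l : ℕ, d = 2 * l + 2 := ⟨((d - 2) / 2).toNat, by omega⟩
      unfold phi0
      rw [if_pos h2, if_pos he, show ((2 * (l : ℤ) + 2 - 2) / 2).toNat = l by omega,
        show 2 * (l : ℤ) + 2 - 2 = ((2 * l : ℕ) : ℤ) by push_cast; ring, phi_cz_nat, phi_caseB]
      simp
    · obtain ⟨l, rfl⟩ : ∃ l : ℕ, d = 2 * l + 3 := ⟨((d - 3) / 2).toNat, by omega⟩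
      unfold phi0
      rw [if_pos h2, if_neg he, show ((2 * (l : ℤ) + 3 - 3) / 2).toNat = l by omega,
        show 2 * (l : ℤ) + 3 - 2 = ((2 * l + 1 : ℕ) : ℤ) by push_cast; ring, phi_cz_nat, phi_caseA,
        mom_cc_odd]
      simp
  · rw [phi_cz_neg (show d - 2 < 0 by omega)]
    by_cases he : d % 2 = 0
    · obtain ⟨l, rfl⟩ : ∃ l : ℕ, d = -(2 * l) := ⟨(-d / 2).toNat, by omega⟩
      unfold phi0
      rw [if_neg h2, if_pos he, show (-(-(2 * (l : ℤ))) / 2).toNat = l by omega,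
        show 1 - -(2 * (l : ℤ)) = ((2 * l + 1 : ℕ) : ℤ) by push_cast; ring, phi_cz_nat, phi_caseD,
        mom_cc_odd]
      simp
    · obtain ⟨l, rfl⟩ : ∃ l : ℕ, d = 1 - 2 * l := ⟨((1 - d) / 2).toNat, by omega⟩
      unfold phi0
      rw [if_neg h2, if_neg he, show ((1 - (1 - 2 * (l : ℤ))) / 2).toNat = l by omega,
        show 1 - (1 - 2 * (l : ℤ)) = ((2 * l : ℕ) : ℤ) by push_cast; ring, phi_cz_nat, phi_caseC]
      simp

theorem MR_eq (i j : ℕ) :
    MR i j = (M0 i j : ℝ) + phiR 1 * (cz ((i : ℤ) - j) : ℝ) +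
      phiR 2 * (cz ((j : ℤ) - i - 1) : ℝ) := by
  have h := (hasSum_nat_add_iff' i).2 (phi_hasSum ((j : ℤ) - i + 1))
  have h2 : (fun k : ℕ => (ww (i + k) : ℝ) / ((j : ℝ) + k + 1)) = fun n : ℕ =>
      (ww (n + i) : ℝ) / (((n + i : ℕ) : ℝ) + (((j : ℤ) - i + 1 : ℤ) : ℝ)) := by
    funext k
    rw [add_comm i k]; congr 1; push_cast; ring
  unfold MR M0
  rw [h2, h.tsum_eq, phiR_eq ((j : ℤ) - i + 1), show 1 - ((j : ℤ) - i + 1) = i - j by ring,
    show (j : ℤ) - i + 1 - 2 = j - i - 1 by ring]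
  push_cast; ring

end Crest.Agent.R6
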