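import Crest.Agent.R6.Defs

/-! Real-place definitions (row 6). `t = 2z/(1+z²)`, `dt/√(1-t²) = ρ(z) dz`, `√(1-t²) = ff z`. -/

set_option autoImplicit false

namespace Crest.Agent.R6

open Polynomial Finset

/-- `t = 2z/(1+z²)`. -/
noncomputable def tz (z : ℝ) : ℝ := 2 * z / (1 + z ^ 2)

/-- `ρ = 2/(1+z²)`; `dt = ff * ρ dz`. -/
noncomputable def rho (z : ℝ) : ℝ := 2 / (1 + z ^ 2)

/-- `√(1-t²) = (1-z²)/(1+z²)` for `|z| ≤ 1`. -/
noncomputable def ff (z : ℝ) : ℝ := (1 - z ^ 2) / (1 + z ^ 2)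

/-- `k_j(t) = ∫_0^1 s^j/(1-ts) ds`. -/
noncomputable def kk (j : ℕ) (t : ℝ) : ℝ := ∫ s in Set.Ioo (0 : ℝ) 1, s ^ j / (1 - t * s)

/-- `φ(d) = ∑_{m + d ≠ 0} w_m/(m+d)` (the term with vanishing denominator is `0`). -/
noncomputable def phiR (d : ℤ) : ℝ := ∑' m : ℕ, (ww m : ℝ) / ((m : ℝ) + d)

/-- `M(i,j)` as a series. -/
noncomputable def MR (i j : ℕ) : ℝ := ∑' k : ℕ, (ww (i + k) : ℝ) / ((j : ℝ) + k + 1)

/-- `Z(i,j)` as a series. -/
noncomputable def ZR (i j : ℕ) : ℝ := ∑' k : ℕ, 1 / (((i : ℝ) + k + 1) * ((j : ℝ) + k + 1))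

/-- Ratio of the inner to the outer sheet. -/
noncomputable def cs (z : ℝ) : ℝ := if 0 < z then -5 else 1

/-- Weight of the outer sheet. -/
noncomputable def om (z : ℝ) : ℝ := if 0 < z then -1 / 4 else -1 / 2

/-- Two-sheet power `z^{-(r-g)} + c(z) z^{r-g}`. -/
noncomputable def two (g r : ℕ) (z : ℝ) : ℝ := z ^ (-((r : ℤ) - g)) + cs z * z ^ ((r : ℤ) - g)

/-- The prefactor `(1-t)^h t^C`. -/
noncomputable def pre (N : ℕ) (z : ℝ) : ℝ := (1 - tz z) ^ (2 * N) * tz z ^ (47 * N)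

/-- The row function in the variable `z`. -/
noncomputable def rowF (N r : ℕ) (z : ℝ) : ℝ := om z * rho z * (pre N z * two (3 * N) r z)

/-- The column function `s^{b+k} (1-s)^q`. -/
noncomputable def colF (N k : ℕ) (s : ℝ) : ℝ := s ^ (6 * N + k) * (1 - s) ^ (2 * N)

/-- `K_k(z) = ∫_0^1 col_k(s)/(1 - t s) ds`. -/
noncomputable def colK (N k : ℕ) (z : ℝ) : ℝ :=
  ∫ s in Set.Ioo (0 : ℝ) 1, colF N k s * (1 / (1 - tz z * s))

/-- A finite signed combination of points of the upper half plane. -/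
structure Atoms where
  m : ℕ
  a : Fin m → ℂ
  γ : Fin m → ℝ

namespace Atoms

noncomputable def mass (A : Atoms) : ℝ := ∑ k, A.γ k

noncomputable def U (A : Atoms) (x : ℝ) : ℝ := ∑ k, A.γ k * Real.log ‖(x : ℂ) - A.a k‖

noncomputable def Ustar (A : Atoms) (x : ℝ) : ℝ := ∑ k, A.γ k * Real.log ‖1 - (x : ℂ) * A.a k‖

noncomputable def Us (A : Atoms) (s : ℝ) : ℝ :=
  ∑ k, A.γ k * Real.log ‖1 + A.a k ^ 2 - 2 * A.a k * (s : ℂ)‖

noncomputable def L (A : Atoms) : ℝ :=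
  ∑ k, ∑ l, A.γ k * A.γ l * Real.log ‖A.a k - (starRingEnd ℂ) (A.a l)‖

noncomputable def Lstar (A : Atoms) : ℝ :=
  ∑ k, ∑ l, A.γ k * A.γ l * Real.log ‖1 - A.a k * (starRingEnd ℂ) (A.a l)‖

end Atoms

/-- The slack `η = 2^{-14}` in the exponents of `1-t` and `1-s`. -/
noncomputable def eta : ℝ := 1 / 16384

/-- The part of the external field shared by both sheets. -/
noncomputable def fld (lam z : ℝ) : ℝ :=
  2 * (2 / 36 - eta) * Real.log (1 - z) - (49 / 36 - eta + lam) * Real.log (1 + z ^ 2)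

/-- An energy certificate: trial charges `A` (variable `X = z^{±1}`), `B` (variables `t` and `1/s`,
in the coordinate `ζ` with `t = 2ζ/(1+ζ²)`), `C` (variable `s`). The inner sheet is only
controlled when `both` holds. -/
structure Cert (lam : ℝ) (both : Prop) (A B C : Atoms) (m1 m2 : ℝ) : Prop where
  imA : ∀ k, 0 < (A.a k).im
  imB : ∀ k, 0 < (B.a k).im
  imC : ∀ k, 0 < (C.a k).im
  normB : ∀ k, ‖B.a k‖ < 1
  massA : A.mass = 1
  massB : B.mass = 0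
  massC : C.mass = 1
  out : ∀ z ∈ Set.Ioo (-1 : ℝ) 1, z ≠ 0 →
    A.Ustar z + B.U z + B.Ustar z + 14 / 36 * Real.log |z| + fld lam z ≤ m1
  inn : both → ∀ z ∈ Set.Ioo (-1 : ℝ) 1, z ≠ 0 →
    A.U z + B.U z + B.Ustar z + 44 / 36 * Real.log |z| + fld lam z ≤ m1
  sd : ∀ s ∈ Set.Ioo (0 : ℝ) 1,
    C.U s - B.Us s + 6 / 36 * Real.log s + (2 / 36 - eta) * Real.log (1 - s) ≤ m2
  tot : m1 + m2 + (47 / 36 + eta) * Real.log 2 + lam * (6 / 36 + eta)
    - (A.L + B.L + B.Lstar + C.L) / 2 ≤ -1.9332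

end Crest.Agent.R6
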