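import Crest.Agent.R6.SheetForm

/-! The outer form as a circle integral; the inner form is bounded by it. -/

set_option autoImplicit false

namespace Crest.Agent.R6

open Finset Polynomial Complex

theorem sheetform2_mul_conj (θ : ℝ) : exp (θ * I) * (starRingEnd ℂ) (exp (θ * I)) = 1 := by
  rw [mul_conj', norm_exp_ofReal_mul_I]
  simp

theorem sheetform2_QQ_ne {n : ℕ} (z : Fin n → ℝ) (hz : ∀ i, z i ∈ Set.Ioo (-1 : ℝ) 1) (θ : ℝ) :
    QQ z (exp (θ * I)) ≠ 0 := by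
  refine prod_ne_zero_iff.2 fun k _ h => ?_
  have h1 := congrArg norm (sub_eq_zero.1 h)
  rw [norm_exp_ofReal_mul_I, norm_real, Real.norm_eq_abs] at h1
  have := abs_lt.2 (hz k)
  linarith

theorem sheetform2_den {n : ℕ} (z : Fin n → ℝ) (θ : ℝ) :
    QQ z (exp (θ * I)) * QS z (exp (θ * I)) =
      exp (θ * I) ^ n * ((‖QQ z (exp (θ * I))‖ ^ 2 : ℝ) : ℂ) := by
  have e : QS z (exp (θ * I)) = exp (θ * I) ^ n * (starRingEnd ℂ) (QQ z (exp (θ * I))) := by
    rw [QS, QQ, map_prod, show exp (θ * I) ^ n = ∏ _k : Fin n, exp (θ * I) by simp,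
      ← prod_mul_distrib]
    refine prod_congr rfl fun k _ => ?_
    rw [map_sub, conj_ofReal, mul_sub, sheetform2_mul_conj]
    ring
  rw [e, ofReal_pow, ← mul_conj']
  ring

theorem sheetform2_cont {n : ℕ} (z : Fin n → ℝ) (hz : ∀ i, z i ∈ Set.Ioo (-1 : ℝ) 1)
    {f : ℝ → ℝ} (hf : Continuous f) :
    Continuous fun θ : ℝ => f θ / ‖QQ z (exp (θ * I))‖ ^ 2 := by
  refine hf.div ?_ fun θ => pow_ne_zero _ (norm_ne_zero_iff.2 (sheetform2_QQ_ne z hz θ))
  unfold QQ
  fun_prop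

theorem sheetform2_norm {n : ℕ} (z : Fin n → ℝ) (D : ℕ) (p : ℝ[X]) (θ : ℝ) :
    ‖aeval (exp (θ * I)) (X ^ D * p ^ 2) / (QQ z (exp (θ * I)) * QS z (exp (θ * I))) *
      exp (θ * I)‖ = ‖aeval (exp (θ * I)) p‖ ^ 2 / ‖QQ z (exp (θ * I))‖ ^ 2 := by
  rw [sheetform2_den]
  simp [norm_exp_ofReal_mul_I]

/-- `res_circle` for `A = X^(n-1-r+k)`: on the circle `Q* = ζ^n conj Q`. -/
theorem outer_entry {n : ℕ} (z : Fin n → ℝ) (hz : ∀ i, z i ∈ Set.Ioo (-1 : ℝ) 1)
    (hinj : Function.Injective z) (r k : Fin n) :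
    2 * Real.pi * ∑ i, alp z i * (z i ^ (n - 1 - r) * z i ^ (k : ℕ)) =
      ∫ θ in (-Real.pi)..Real.pi,
        Real.cos ((((k : ℕ) : ℝ) - (r : ℕ)) * θ) / ‖QQ z (exp (θ * I))‖ ^ 2 := by
  have h := res_circle z hz hinj (X ^ (n - 1 - r + k))
  have e : ∀ θ : ℝ, aeval (exp (θ * I)) (X ^ (n - 1 - r + k) : ℝ[X]) /
      (QQ z (exp (θ * I)) * QS z (exp (θ * I))) * exp (θ * I) =
      ((Real.cos ((((k : ℕ) : ℝ) - (r : ℕ)) * θ) / ‖QQ z (exp (θ * I))‖ ^ 2 : ℝ) : ℂ) +
      ((Real.sin ((((k : ℕ) : ℝ) - (r : ℕ)) * θ) / ‖QQ z (exp (θ * I))‖ ^ 2 : ℝ) : ℂ) * I := by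
    intro θ
    have h1 : exp (θ * I) ^ (n - 1 - r + k) * exp (θ * I) =
        exp (θ * I) ^ n * exp ((((((k : ℕ) : ℝ) - (r : ℕ)) * θ : ℝ) : ℂ) * I) := by
      rw [← pow_succ, ← exp_nat_mul, ← exp_nat_mul, ← exp_add]
      congr 1
      have hr := r.2
      have h2 : n - 1 - r + k + 1 + r = n + k := by omega
      have h3 : (((n - 1 - r + k + 1 : ℕ) : ℂ)) + (r : ℕ) = n + (k : ℕ) := by exact_mod_cast h2
      simp only [ofReal_mul, ofReal_sub, ofReal_natCast]
      linear_combination (θ * I) * h3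
    rw [sheetform2_den, map_pow, aeval_X, div_mul_eq_mul_div, h1,
      mul_div_mul_left _ _ (pow_ne_zero _ (exp_ne_zero _)), exp_mul_I, ← ofReal_cos, ← ofReal_sin,
      ofReal_div, ofReal_div]
    ring
  simp only [e] at h
  have c1 := sheetform2_cont z hz (f := fun θ => Real.cos ((((k : ℕ) : ℝ) - (r : ℕ)) * θ))
    (by fun_prop)
  have c2 := sheetform2_cont z hz (f := fun θ => Real.sin ((((k : ℕ) : ℝ) - (r : ℕ)) * θ))
    (by fun_prop)
  have d1 : Continuous fun θ : ℝ =>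
      ((Real.cos ((((k : ℕ) : ℝ) - (r : ℕ)) * θ) / ‖QQ z (exp (θ * I))‖ ^ 2 : ℝ) : ℂ) :=
    continuous_ofReal.comp c1
  have d2 : Continuous fun θ : ℝ =>
      ((Real.sin ((((k : ℕ) : ℝ) - (r : ℕ)) * θ) / ‖QQ z (exp (θ * I))‖ ^ 2 : ℝ) : ℂ) * I :=
    (continuous_ofReal.comp c2).mul continuous_const
  rw [intervalIntegral.integral_add (d1.intervalIntegrable _ _) (d2.intervalIntegrable _ _),
    intervalIntegral.integral_mul_const, intervalIntegral.integral_ofReal,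
    intervalIntegral.integral_ofReal] at h
  have h2 := congrArg re h
  rw [show (2 : ℂ) = ((2 : ℝ) : ℂ) by simp, ← ofReal_mul, ← ofReal_mul, ofReal_re, add_re, ofReal_re,
    re_ofReal_mul, I_re, mul_zero, add_zero] at h2
  rw [h2]
  simp [pow_add]

/-- The outer form is the circle integral. -/
theorem outer_form {n : ℕ} (z : Fin n → ℝ) (hz : ∀ i, z i ∈ Set.Ioo (-1 : ℝ) 1)
    (hinj : Function.Injective z) (x : Fin n → ℝ) :
    2 * Real.pi * ∑ i, alp z i * ((∑ r, x r * z i ^ (n - 1 - r)) * ∑ k, x k * z i ^ (k : ℕ)) =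
      circ z (∑ k, C (x k) * X ^ (k : ℕ)) := by
  have h := res_circle z hz hinj ((∑ r, C (x r) * X ^ (n - 1 - r)) * ∑ k, C (x k) * X ^ (k : ℕ))
  have e : ∀ θ : ℝ, aeval (exp (θ * I))
      ((∑ r, C (x r) * X ^ (n - 1 - r)) * ∑ k, C (x k) * X ^ (k : ℕ) : ℝ[X]) /
      (QQ z (exp (θ * I)) * QS z (exp (θ * I))) * exp (θ * I) =
      ((‖aeval (exp (θ * I)) (∑ k, C (x k) * X ^ (k : ℕ) : ℝ[X])‖ ^ 2 /
        ‖QQ z (exp (θ * I))‖ ^ 2 : ℝ) : ℂ) := by
    intro θ
    have h1 : aeval (exp (θ * I)) (∑ r, C (x r) * X ^ (n - 1 - r) : ℝ[X]) * exp (θ * I) =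
        exp (θ * I) ^ n *
          (starRingEnd ℂ) (aeval (exp (θ * I)) (∑ k, C (x k) * X ^ (k : ℕ) : ℝ[X])) := by
      simp only [map_sum, map_mul, map_pow, aeval_C, aeval_X, coe_algebraMap, conj_ofReal, sum_mul,
        mul_sum]
      refine sum_congr rfl fun r _ => ?_
      have hr := r.2
      have h2 : exp (θ * I) ^ n = exp (θ * I) ^ (n - 1 - r) * exp (θ * I) * exp (θ * I) ^ (r : ℕ) := by
        rw [← pow_succ, ← pow_add]
        congr 1
        omega
      have h3 := congrArg (· ^ (r : ℕ)) (sheetform2_mul_conj θ)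
      simp only [mul_pow, one_pow] at h3
      rw [h2]
      linear_combination (-(x r : ℂ) * exp (θ * I) ^ (n - 1 - r) * exp (θ * I)) * h3
    rw [sheetform2_den, map_mul, div_mul_eq_mul_div, mul_right_comm, h1, mul_assoc,
      mul_div_mul_left _ _ (pow_ne_zero _ (exp_ne_zero _)), conj_mul']
    push_cast
    rfl
  simp only [e] at h
  rw [intervalIntegral.integral_ofReal, show (2 : ℂ) = ((2 : ℝ) : ℂ) by simp, ← ofReal_mul,
    ← ofReal_mul, ofReal_inj] at h
  rw [circ, h]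
  simp [eval_finsetSum]

/-- `∑ c_i α_i z_i^D p(z_i)² = (all residues) - 6 (residues at z_i > 0)`; the circle and the arc
contribute at most `circ`, the diameter at most `circ/2` by `diam_ineq`, `fejer_riesz`. -/
theorem inner_form {n : ℕ} (z : Fin n → ℝ) (hz : ∀ i, z i ∈ Set.Ioo (-1 : ℝ) 1)
    (h0 : ∀ i, z i ≠ 0) (hinj : Function.Injective z) (D : ℕ) (hf : ∑ i, ff (z i) ≤ D)
    (p : ℝ[X]) :
    2 * Real.pi * |∑ i, alp z i * (cs (z i) * z i ^ D * p.eval (z i) ^ 2)| ≤ 10 * circ z p := by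
  have hπ := Real.pi_pos
  have h1 := res_circle z hz hinj (X ^ D * p ^ 2)
  have h2 := res_half z hz h0 hinj (X ^ D * p ^ 2)
  set S1 := ∑ i, alp z i * (X ^ D * p ^ 2).eval (z i) with hS1
  set S2 := ∑ i ∈ univ.filter (fun i => 0 < z i), alp z i * (X ^ D * p ^ 2).eval (z i) with hS2
  have e : ∑ i, alp z i * (cs (z i) * z i ^ D * p.eval (z i) ^ 2) = S1 - 6 * S2 := by
    rw [hS1, hS2, sum_filter, mul_sum, ← sum_sub_distrib]
    refine sum_congr rfl fun i _ => ?_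
    simp only [cs, eval_mul, eval_pow, eval_X]
    split_ifs <;> ring
  have hc := sheetform2_cont z hz (f := fun θ => ‖aeval (exp (θ * I)) p‖ ^ 2) (by fun_prop)
  have n1 : ∀ S : ℝ, ‖2 * (Real.pi : ℂ) * S‖ = 2 * Real.pi * |S| := fun S => by
    simp [abs_of_pos hπ]
  have b1 : 2 * Real.pi * |S1| ≤ circ z p := by
    rw [← n1, ← h1]
    exact intervalIntegral.norm_integral_le_of_norm_le (by linarith)
      (Filter.Eventually.of_forall fun θ _ => (sheetform2_norm z D p θ).le)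
      (hc.intervalIntegrable _ _)
  have b2 : ‖∫ θ in (-(Real.pi / 2))..(Real.pi / 2), aeval (exp (θ * I)) (X ^ D * p ^ 2) /
      (QQ z (exp (θ * I)) * QS z (exp (θ * I))) * exp (θ * I)‖ ≤ circ z p := by
    refine (intervalIntegral.norm_integral_le_of_norm_le (by linarith)
      (Filter.Eventually.of_forall fun θ _ => (sheetform2_norm z D p θ).le)
      (hc.intervalIntegrable _ _)).trans ?_
    exact intervalIntegral.integral_mono_interval (by linarith) (by linarith) (by linarith)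
      (Filter.Eventually.of_forall fun θ => by positivity) (hc.intervalIntegrable _ _)
  have hQS : ∀ y : ℝ, QS z (y * I) ≠ 0 := fun y => prod_ne_zero_iff.2 fun k _ h => by
    simpa using congrArg re h
  have hQQ : ∀ y : ℝ, QQ z (y * I) ≠ 0 := fun y => prod_ne_zero_iff.2 fun k _ h =>
    h0 k (by simpa using congrArg re h)
  have b3 : ‖∫ y in (-1 : ℝ)..1, aeval (y * I) (X ^ D * p ^ 2) / (QQ z (y * I) * QS z (y * I))‖ ≤
      circ z p / 2 := by
    refine (intervalIntegral.norm_integral_le_of_norm_le (by norm_num)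
      (Filter.Eventually.of_forall fun y hy => ?_) (Continuous.intervalIntegrable ?_ _ _)).trans
      (fejer_riesz z hz p)
    · have h3 := diam_ineq z hz D hf y ⟨hy.1.le, hy.2⟩ h0
      have h4 := norm_pos_iff.2 (hQS y)
      have h5 := norm_pos_iff.2 (hQQ y)
      simp only [map_mul, map_pow, aeval_X, norm_div, norm_mul, norm_pow, norm_real, norm_I, mul_one,
        Real.norm_eq_abs]
      rw [div_le_div_iff₀ (by positivity) (by positivity)]
      have h6 := mul_le_mul_of_nonneg_left h3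
        (show 0 ≤ ‖aeval ((y : ℂ) * I) p‖ ^ 2 * ‖QS z (y * I)‖ by positivity)
      nlinarith
    · refine Continuous.div (by fun_prop) ?_ fun y => pow_ne_zero _ (norm_ne_zero_iff.2 (hQS y))
      unfold QS
      fun_prop
  have b4 : 2 * Real.pi * |S2| ≤ circ z p + circ z p / 2 := by
    rw [← n1, ← h2]
    exact (norm_sub_le _ _).trans (add_le_add b2 b3)
  have b5 : |S1 - 6 * S2| ≤ |S1| + 6 * |S2| := by
    refine (abs_sub _ _).trans (le_of_eq ?_)
    rw [abs_mul, abs_of_pos (show (0 : ℝ) < 6 by norm_num)]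
  rw [e]
  nlinarith

end Crest.Agent.R6
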