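import Crest.Agent.R6.SheetLA
import Crest.Agent.R6.SheetForm2

/-! The two-sheet determinant against one-sheet determinants. -/

set_option autoImplicit false

namespace Crest.Agent.R6

open Finset

theorem sheet_form {n : ℕ} (W V : Matrix (Fin n) (Fin n) ℝ) (α x : Fin n → ℝ) :
    x ⬝ᵥ ((W * Matrix.diagonal α * V.transpose).mulVec x) =
      ∑ i, α i * ((∑ r, x r * W r i) * ∑ k, x k * V k i) := by
  rw [← Matrix.mulVec_mulVec, ← Matrix.mulVec_mulVec, Matrix.dotProduct_mulVec, dotProduct]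
  refine sum_congr rfl fun i _ => ?_
  rw [Matrix.mulVec_diagonal, Matrix.mulVec_transpose]
  simp only [Matrix.vecMul, dotProduct]
  ring

theorem sheet_entry {n : ℕ} (W V : Matrix (Fin n) (Fin n) ℝ) (α : Fin n → ℝ) (r k : Fin n) :
    (W * Matrix.diagonal α * V.transpose) r k = ∑ i, α i * (W r i * V k i) := by
  rw [Matrix.mul_apply]
  refine sum_congr rfl fun i _ => ?_
  rw [Matrix.mul_diagonal, Matrix.transpose_apply]
  ring

theorem sheet_alp_ne {n : ℕ} (z : Fin n → ℝ) (hz : ∀ i, z i ∈ Set.Ioo (-1 : ℝ) 1)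
    (hinj : Function.Injective z) (i : Fin n) : alp z i ≠ 0 := by
  refine one_div_ne_zero (mul_ne_zero (prod_ne_zero_iff.2 fun k hk => ?_)
    (prod_ne_zero_iff.2 fun k _ => ?_))
  · exact sub_ne_zero.2 fun h => (mem_erase.1 hk).1 (hinj h).symm
  · have h1 := hz k
    have h2 := hz i
    nlinarith [h1.1, h1.2, h2.1, h2.2]

/-- Case 1. With `V = (z_i^k)`, `V* = (z_i^{n-1-r})`, `Q = V* diag(α) Vᵀ` is positive definite
(`outer_entry`, `outer_form`), `B = Q + V diag(α c z^D) Vᵀ` is symmetric and `|B| ≤ 11 Q`;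
`two g r z = z^{-(n-1-g)} (z^{n-1-r} + c z^D z^r)`. -/
theorem sheet_outer {n g D : ℕ} (hD : D + 2 * g + 1 = n) (z : Fin n → ℝ)
    (hz : ∀ i, z i ∈ Set.Ioo (-1 : ℝ) 1) (h0 : ∀ i, z i ≠ 0) (hinj : Function.Injective z)
    (hf : ∑ i, ff (z i) ≤ D) :
    |(Matrix.of fun (r i : Fin n) => two g r (z i)).det| ≤
      11 ^ n * |(Matrix.of fun (r i : Fin n) => (z i)⁻¹ ^ (((r : ℕ) : ℤ) - g)).det| := by
  set V : Matrix (Fin n) (Fin n) ℝ := Matrix.of fun r i => z i ^ (r : ℕ) with hV
  set Vs : Matrix (Fin n) (Fin n) ℝ := Matrix.of fun r i => z i ^ (n - 1 - r) with hVs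
  set W : Matrix (Fin n) (Fin n) ℝ :=
    Matrix.of fun r i => z i ^ (n - 1 - r) + cs (z i) * z i ^ D * z i ^ (r : ℕ) with hW
  have hπ := Real.pi_pos
  have hdV : V.det ≠ 0 := by
    rw [← Matrix.det_transpose]
    exact Matrix.det_vandermonde_ne_zero_iff.2 hinj
  have hdVs : Vs.det ≠ 0 := by
    have e : Vs = V.submatrix Fin.revPerm id := by
      ext r i
      simp only [hVs, hV, Matrix.of_apply, Matrix.submatrix_apply, Fin.revPerm_apply, Fin.val_rev, id]
      congr 1
      omega
    rw [e, Matrix.det_permute]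
    exact mul_ne_zero (by simp) hdV
  have hdA : (Matrix.diagonal (alp z)).det ≠ 0 := by
    rw [Matrix.det_diagonal]
    exact prod_ne_zero_iff.2 fun i _ => sheet_alp_ne z hz hinj i
  have hQs : ∀ r k : Fin n, ∑ i, alp z i * (z i ^ (n - 1 - r) * z i ^ (k : ℕ)) =
      ∑ i, alp z i * (z i ^ (n - 1 - k) * z i ^ (r : ℕ)) := by
    intro r k
    refine mul_left_cancel₀ (show 2 * Real.pi ≠ 0 by positivity) ?_
    rw [outer_entry z hz hinj, outer_entry z hz hinj]
    congr 1
    funext θ
    rw [← Real.cos_neg]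
    congr 2
    ring
  have hcirc : ∀ x : Fin n → ℝ,
      2 * Real.pi * (x ⬝ᵥ ((Vs * Matrix.diagonal (alp z) * V.transpose).mulVec x)) =
        circ z (∑ k, Polynomial.C (x k) * Polynomial.X ^ (k : ℕ)) := fun x => by
    rw [sheet_form, ← outer_form z hz hinj]
    rfl
  have hnn : ∀ x : Fin n → ℝ,
      0 ≤ x ⬝ᵥ ((Vs * Matrix.diagonal (alp z) * V.transpose).mulVec x) := fun x => by
    have h1 : 0 ≤ circ z (∑ k, Polynomial.C (x k) * Polynomial.X ^ (k : ℕ)) :=
      intervalIntegral.integral_nonneg (by linarith) fun θ _ => by positivity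
    rw [← hcirc] at h1
    exact nonneg_of_mul_nonneg_right h1 (by positivity)
  have hQ : (Vs * Matrix.diagonal (alp z) * V.transpose).PosDef := by
    refine (Matrix.PosSemidef.posDef_iff_det_ne_zero ?_).2 ?_
    · refine Matrix.PosSemidef.of_dotProduct_mulVec_nonneg ?_ fun x => by simpa using hnn x
      ext r k
      rw [Matrix.conjTranspose_apply, star_trivial, sheet_entry, sheet_entry]
      exact hQs k r
    · rw [Matrix.det_mul, Matrix.det_mul, Matrix.det_transpose]
      exact mul_ne_zero (mul_ne_zero hdVs hdA) hdV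
  have hB : (W * Matrix.diagonal (alp z) * V.transpose).IsSymm := by
    ext r k
    rw [Matrix.transpose_apply, sheet_entry, sheet_entry]
    simp only [hW, hV, Matrix.of_apply, add_mul, mul_add, sum_add_distrib]
    rw [hQs k r]
    congr 1
    exact sum_congr rfl fun i _ => by ring
  have key := abs_det_le_of_form _ _ hB hQ 11 fun x => by
    have h1 := inner_form z hz h0 hinj D hf (∑ k, Polynomial.C (x k) * Polynomial.X ^ (k : ℕ))
    rw [← hcirc] at h1
    have e : x ⬝ᵥ ((W * Matrix.diagonal (alp z) * V.transpose).mulVec x) =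
        x ⬝ᵥ ((Vs * Matrix.diagonal (alp z) * V.transpose).mulVec x) +
          ∑ i, alp z i * (cs (z i) * z i ^ D *
            (∑ k, Polynomial.C (x k) * Polynomial.X ^ (k : ℕ)).eval (z i) ^ 2) := by
      rw [sheet_form, sheet_form, ← sum_add_distrib]
      refine sum_congr rfl fun i _ => ?_
      simp only [hW, hV, hVs, Matrix.of_apply, mul_add, sum_add_distrib, Polynomial.eval_finsetSum,
        Polynomial.eval_mul, Polynomial.eval_C, Polynomial.eval_pow, Polynomial.eval_X]
      have e1 : ∑ r, x r * (cs (z i) * z i ^ D * z i ^ (r : ℕ)) =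
          cs (z i) * z i ^ D * ∑ r, x r * z i ^ (r : ℕ) := by
        rw [mul_sum]
        exact sum_congr rfl fun r _ => by ring
      rw [e1]
      ring
    have h2 := hnn x
    rw [e]
    refine (abs_add_le _ _).trans ?_
    rw [abs_of_nonneg h2]
    nlinarith
  rw [Matrix.det_mul, Matrix.det_mul, Matrix.det_mul, Matrix.det_mul, Matrix.det_transpose] at key
  have h1 : |W.det| ≤ 11 ^ n * |Vs.det| := by
    have h2 := key.trans (mul_le_mul_of_nonneg_left (le_abs_self _) (by positivity))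
    rw [mul_assoc, mul_assoc, abs_mul, abs_mul Vs.det, ← mul_assoc] at h2
    exact le_of_mul_le_mul_right h2 (abs_pos.2 (mul_ne_zero hdA hdV))
  have e1 : (Matrix.of fun (r i : Fin n) => two g r (z i)) =
      Matrix.of fun r i => z i ^ (-((n : ℤ) - 1 - g)) * W r i := by
    ext r i
    have hr := r.2
    simp only [hW, Matrix.of_apply, two, mul_add]
    rw [← zpow_natCast, ← zpow_natCast, ← zpow_natCast, mul_assoc, mul_left_comm,
      ← zpow_add₀ (h0 i), ← zpow_add₀ (h0 i), ← zpow_add₀ (h0 i)]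
    congr 2
    · omega
    · congr 1
      omega
  have e2 : (Matrix.of fun (r i : Fin n) => (z i)⁻¹ ^ (((r : ℕ) : ℤ) - g)) =
      Matrix.of fun r i => z i ^ (-((n : ℤ) - 1 - g)) * Vs r i := by
    ext r i
    have hr := r.2
    simp only [hVs, Matrix.of_apply]
    rw [← zpow_natCast, ← zpow_add₀ (h0 i), inv_zpow']
    congr 1
    omega
  rw [e1, e2, Matrix.det_mul_row, Matrix.det_mul_row, abs_mul, abs_mul, mul_left_comm]
  exact mul_le_mul_of_nonneg_left h1 (abs_nonneg _)

/-- Case 2. Multilinearity in the columns (`MultilinearMap.map_add_univ`), `|c| ≤ 5`. -/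
theorem sheet_any {n g : ℕ} (z : Fin n → ℝ) :
    ∃ ε : Fin n → Bool, |(Matrix.of fun (r i : Fin n) => two g r (z i)).det| ≤
      10 ^ n * |(Matrix.of fun (r i : Fin n) =>
        (if ε i then z i else (z i)⁻¹) ^ (((r : ℕ) : ℤ) - g)).det| := by
  set F : Finset (Fin n) → ℝ := fun s => |(Matrix.of fun (r i : Fin n) =>
    (if i ∈ s then z i else (z i)⁻¹) ^ (((r : ℕ) : ℤ) - g)).det| with hF
  obtain ⟨s₀, hs₀⟩ := Finite.exists_max F
  refine ⟨fun i => decide (i ∈ s₀), ?_⟩
  simp only [decide_eq_true_eq]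
  have e := Matrix.detRowAlternating.toMultilinearMap.map_add_univ
    (fun (i r : Fin n) => cs (z i) * z i ^ (((r : ℕ) : ℤ) - g))
    (fun (i r : Fin n) => z i ^ (-(((r : ℕ) : ℤ) - g)))
  have e1 : (Matrix.of fun (r i : Fin n) => two g r (z i)).det =
      ∑ s : Finset (Fin n), (∏ i, if i ∈ s then cs (z i) else 1) *
        (Matrix.of fun (r i : Fin n) =>
          (if i ∈ s then z i else (z i)⁻¹) ^ (((r : ℕ) : ℤ) - g)).det := by
    rw [← Matrix.det_transpose]
    refine Eq.trans ?_ (e.trans (sum_congr rfl fun s _ => ?_))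
    · refine congrArg Matrix.det ?_
      ext i r
      simp only [two, Matrix.transpose_apply, Matrix.of_apply, Pi.add_apply]
      ring
    · rw [← Matrix.det_mul_row, ← Matrix.det_transpose]
      refine congrArg Matrix.det ?_
      ext i r
      by_cases h : i ∈ s
      · simp [h]
      · simp [h, -zpow_neg]
  rw [e1]
  refine (abs_sum_le_sum_abs _ _).trans ((sum_le_card_nsmul _ _ (5 ^ n * F s₀) fun s _ => ?_).trans
    (le_of_eq ?_))
  · rw [abs_mul]
    refine mul_le_mul ?_ (hs₀ s) (abs_nonneg _) (by positivity)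
    rw [abs_prod]
    refine (prod_le_prod (g := fun _ => 5) (fun _ _ => abs_nonneg _) fun i _ => ?_).trans
      (by simp)
    unfold cs
    split_ifs <;> norm_num
  · rw [card_univ, Fintype.card_finset, Fintype.card_fin, nsmul_eq_mul, ← mul_assoc]
    push_cast
    rw [← mul_pow]
    norm_num [hF]

end Crest.Agent.R6
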