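import Crest.Agent.R6.Entry
import Crest.Agent.R6.Andreief
import Crest.Agent.R6.Sheet
import Crest.Agent.R6.Energy
import Crest.Agent.R6.CertEx

/-! The upper bound at the real place. -/

set_option autoImplicit false

namespace Crest.Agent.R6

open Finset MeasureTheory Filter

theorem real_om_rho (z : ℝ) : |om z * rho z| ≤ 1 := by
  have h1 : |om z| ≤ 1 / 2 := by
    unfold om; split_ifs <;> norm_num [abs_of_neg]
  have h2 : |rho z| ≤ 2 := by
    unfold rho
    have : 0 < 1 + z ^ 2 := by positivity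
    rw [abs_of_pos (by positivity), div_le_iff₀ this]; nlinarith [sq_nonneg z]
  rw [abs_mul]
  nlinarith [abs_nonneg (om z), abs_nonneg (rho z)]

theorem real_det_row (N : ℕ) (z : Fin (36 * N) → ℝ) :
    |(Matrix.of fun (r i : Fin (36 * N)) => rowF N r (z i)).det| ≤
      (∏ i, |pre N (z i)|) * |(Matrix.of fun (r i : Fin (36 * N)) => two (3 * N) r (z i)).det| := by
  have e : (Matrix.of fun (r i : Fin (36 * N)) => rowF N r (z i)) =
      Matrix.of fun (r i : Fin (36 * N)) => (om (z i) * rho (z i) * pre N (z i)) *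
        (Matrix.of fun (r i : Fin (36 * N)) => two (3 * N) r (z i)) r i := by
    ext r i; simp [rowF]; ring
  rw [e, Matrix.det_mul_row, abs_mul, Finset.abs_prod]
  refine mul_le_mul_of_nonneg_right ?_ (abs_nonneg _)
  refine Finset.prod_le_prod (fun i _ => abs_nonneg _) fun i _ => ?_
  rw [abs_mul]
  exact mul_le_of_le_one_left (abs_nonneg _) (real_om_rho _)

theorem real_pow_le (c : ℝ) (hc : 1 ≤ c) (n : ℕ) (hn : 1 ≤ n) :
    c ^ n ≤ Real.exp (Real.log c * n * (1 + Real.log n)) := by
  have h0 : 0 ≤ Real.log c := Real.log_nonneg hc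
  have h1 : 0 ≤ Real.log n := Real.log_nonneg (by exact_mod_cast hn)
  calc c ^ n = Real.exp (Real.log c * n) := by
        rw [mul_comm, Real.exp_nat_mul, Real.exp_log (by linarith)]
    _ ≤ _ := by
        refine Real.exp_le_exp.2 ?_
        have : 0 ≤ Real.log c * n * Real.log n := by positivity
        nlinarith

/-- `|om · rho| ≤ 1`; if `z` is not injective the first determinant vanishes; if
`∑ ff (z i) ≤ 30 N - 1` use `sheet_outer` and `cert_outer` (all `ε = false`), otherwise
`sheet_any` and `cert_both`. -/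
theorem pointwise : ∃ K : ℝ, ∀ N : ℕ, 500 ≤ N → ∀ (z s : Fin (36 * N) → ℝ),
    (∀ i, z i ∈ Set.Ioo (-1 : ℝ) 1) → (∀ i, z i ≠ 0) → (∀ j, s j ∈ Set.Ioo (0 : ℝ) 1) →
    |(Matrix.of fun (r i : Fin (36 * N)) => rowF N r (z i)).det| *
      (|(Matrix.of fun (i j : Fin (36 * N)) => 1 / (1 - tz (z i) * s j)).det| *
      |(Matrix.of fun (k j : Fin (36 * N)) => colF N k (s j)).det|) ≤
    Real.exp (-1.9332 * (36 * N : ℝ) ^ 2 + K * (36 * N) * (1 + Real.log (36 * N))) := by
  obtain ⟨A1, B1, C1, m1, m2, h1⟩ := cert_outer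
  obtain ⟨lam, A2, B2, C2, m3, m4, hl, h2⟩ := cert_both
  obtain ⟨K1, hK1⟩ := energy 0 le_rfl _ _ _ _ _ _ h1
  obtain ⟨K2, hK2⟩ := energy lam hl _ _ _ _ _ _ h2
  refine ⟨max K1 K2 + Real.log 11, fun N hN z s hz h0 hs => ?_⟩
  have hn : 1 ≤ 36 * N := by omega
  have hlog : 0 ≤ Real.log (36 * N : ℝ) := Real.log_nonneg (by exact_mod_cast hn)
  have hpos : 0 ≤ (36 * N : ℝ) * (1 + Real.log (36 * N)) := by positivity
  have h11 := real_pow_le 11 (by norm_num) (36 * N) hn
  push_cast at h11
  set P := |(Matrix.of fun (i j : Fin (36 * N)) => 1 / (1 - tz (z i) * s j)).det| *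
      |(Matrix.of fun (k j : Fin (36 * N)) => colF N k (s j)).det| with hP
  have hP0 : 0 ≤ P := by positivity
  have hpre : 0 ≤ ∏ i, |pre N (z i)| := Finset.prod_nonneg fun i _ => abs_nonneg _
  have fin : ∀ (K D : ℝ), K ≤ max K1 K2 → 0 ≤ D →
      |(Matrix.of fun (r i : Fin (36 * N)) => two (3 * N) r (z i)).det| ≤ 11 ^ (36 * N) * D →
      (∏ i, |pre N (z i)|) * D * P ≤
        Real.exp (-1.9332 * (36 * N : ℝ) ^ 2 + K * (36 * N) * (1 + Real.log (36 * N))) →
      |(Matrix.of fun (r i : Fin (36 * N)) => rowF N r (z i)).det| * P ≤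
        Real.exp (-1.9332 * (36 * N : ℝ) ^ 2 +
          (max K1 K2 + Real.log 11) * (36 * N) * (1 + Real.log (36 * N))) := by
    intro K D hK hD ha hb
    calc _ ≤ ((∏ i, |pre N (z i)|) * (11 ^ (36 * N) * D)) * P := by
          refine mul_le_mul_of_nonneg_right ((real_det_row N z).trans ?_) hP0
          exact mul_le_mul_of_nonneg_left ha hpre
      _ = 11 ^ (36 * N) * ((∏ i, |pre N (z i)|) * D * P) := by ring
      _ ≤ Real.exp (Real.log 11 * (36 * N) * (1 + Real.log (36 * N))) *
          Real.exp (-1.9332 * (36 * N : ℝ) ^ 2 + K * (36 * N) * (1 + Real.log (36 * N))) :=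
          mul_le_mul h11 hb (by positivity) (by positivity)
      _ ≤ _ := by
          rw [← Real.exp_add]
          refine Real.exp_le_exp.2 ?_
          have := mul_le_mul_of_nonneg_right hK hpos
          nlinarith
  by_cases hinj : Function.Injective z
  · by_cases hf : ∑ i, ff (z i) ≤ ((30 * N - 1 : ℕ) : ℝ)
    · have ha := sheet_outer (n := 36 * N) (g := 3 * N) (D := 30 * N - 1) (by omega) z hz h0 hinj hf
      have hb := hK1 N hN z s (fun _ => false) hz h0 hs (by simp) (Or.inl rfl)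
      exact fin K1 _ (le_max_left _ _) (abs_nonneg _) ha hb
    · obtain ⟨ε, ha⟩ := sheet_any (n := 36 * N) (g := 3 * N) z
      have hf' : (30 * N - 1 : ℝ) ≤ ∑ i, ff (z i) := by
        have : ((30 * N - 1 : ℕ) : ℝ) = 30 * N - 1 := by
          rw [Nat.cast_sub (by omega)]; push_cast; ring
        rw [← this]; exact (not_le.1 hf).le
      have hb := hK2 N hN z s ε hz h0 hs (fun _ _ => trivial) (Or.inr hf')
      refine fin K2 _ (le_max_right _ _) (abs_nonneg _) (ha.trans ?_) hb
      exact mul_le_mul_of_nonneg_right (pow_le_pow_left₀ (by norm_num) (by norm_num) _)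
        (abs_nonneg _)
  · simp only [Function.Injective, not_forall] at hinj
    obtain ⟨i, j, hij, hne⟩ := hinj
    have : (Matrix.of fun (r i : Fin (36 * N)) => rowF N r (z i)).det = 0 :=
      Matrix.det_zero_of_column_eq hne fun k => by simp [hij]
    rw [this, abs_zero, zero_mul]
    positivity

theorem real_tz_lt (z : ℝ) (hz : z ∈ Set.Ioo (-1 : ℝ) 1) : |tz z| < 1 := by
  have : 0 < 1 + z ^ 2 := by positivity
  unfold tz
  rw [abs_lt, lt_div_iff₀ this, div_lt_iff₀ this]
  constructor <;> nlinarith [mul_pos (sub_pos.2 hz.1) (sub_pos.2 hz.1),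
    mul_pos (sub_pos.2 hz.2) (sub_pos.2 hz.2)]

theorem real_int_col (N k : ℕ) (z : ℝ) (hz : z ∈ Set.Ioo (-1 : ℝ) 1) :
    Integrable (fun s => colF N k s * (1 / (1 - tz z * s)))
      (volume.restrict (Set.Ioo (0 : ℝ) 1)) := by
  have ht := abs_lt.1 (real_tz_lt z hz)
  have : ContinuousOn (fun s => colF N k s * (1 / (1 - tz z * s))) (Set.Icc (0 : ℝ) 1) := by
    refine ContinuousOn.mul (by unfold colF; fun_prop) ?_
    refine ContinuousOn.div continuousOn_const (by fun_prop) fun s hs => ?_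
    have : tz z * s < 1 := by nlinarith [hs.1, hs.2]
    linarith
  exact (this.integrableOn_Icc).mono_set Set.Ioo_subset_Icc_self

/-- `andreief_bound` twice: on `Ioo (-1) 1 \ {0}` (mass 2) and, inside, on `Ioo 0 1` (mass 1). -/
theorem det_matR_le : ∃ K : ℝ, ∀ N : ℕ, 500 ≤ N →
    |(matR N).det| ≤
      Real.exp (-1.9332 * (36 * N : ℝ) ^ 2 + K * (36 * N) * (1 + Real.log (36 * N))) := by
  obtain ⟨K, hK⟩ := pointwise
  refine ⟨K + Real.log 2, fun N hN => ?_⟩
  have hn : 1 ≤ 36 * N := by omega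
  set B := Real.exp (-1.9332 * (36 * N : ℝ) ^ 2 + K * (36 * N) * (1 + Real.log (36 * N))) with hB
  have e : matR N = Matrix.of fun r k : Fin (36 * N) =>
      ∫ z, rowF N r z * colK N k z ∂(volume.restrict (Set.Ioo (-1 : ℝ) 1)) := by
    ext r k; rw [entry_eq N (by omega) r k]; rfl
  have hS : ∀ᵐ z ∂(volume.restrict (Set.Ioo (-1 : ℝ) 1)), z ∈ Set.Ioo (-1 : ℝ) 1 \ {0} := by
    have h1 : ∀ᵐ z ∂(volume.restrict (Set.Ioo (-1 : ℝ) 1)), z ∈ Set.Ioo (-1 : ℝ) 1 :=
      ae_restrict_mem measurableSet_Ioo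
    have h2 : ∀ᵐ z ∂(volume.restrict (Set.Ioo (-1 : ℝ) 1)), z ≠ (0 : ℝ) :=
      ae_restrict_of_ae (by simp [ae_iff])
    filter_upwards [h1, h2] with z a b using ⟨a, b⟩
  have main := andreief_bound (volume.restrict (Set.Ioo (-1 : ℝ) 1))
    (fun (r : Fin (36 * N)) z => rowF N r z) (fun (k : Fin (36 * N)) z => colK N k z)
    (fun r k => integrableOn_entry N r k (by omega) r.2) _ hS B (by
      intro z hz
      have hz1 : ∀ i, z i ∈ Set.Ioo (-1 : ℝ) 1 := fun i => (hz i).1
      have hz0 : ∀ i, z i ≠ 0 := fun i => (hz i).2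
      set D := |(Matrix.of fun (r i : Fin (36 * N)) => rowF N r (z i)).det| with hD
      have hD0 : 0 ≤ D := abs_nonneg _
      rcases hD0.eq_or_lt with h0 | h0
      · rw [← h0, zero_mul]; positivity
      have inner := andreief_bound (volume.restrict (Set.Ioo (0 : ℝ) 1))
        (fun (k : Fin (36 * N)) s => colF N k s)
        (fun (i : Fin (36 * N)) s => 1 / (1 - tz (z i) * s))
        (fun k i => real_int_col N k (z i) (hz1 i)) (Set.Ioo (0 : ℝ) 1)
        (ae_restrict_mem measurableSet_Ioo) (B / D) (by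
          intro s hs
          rw [le_div_iff₀ h0]
          have := hK N hN z s hz1 hz0 hs
          calc _ = D * (|(Matrix.of fun (i j : Fin (36 * N)) => 1 / (1 - tz (z i) * s j)).det| *
              |(Matrix.of fun (k j : Fin (36 * N)) => colF N k (s j)).det|) := by ring
            _ ≤ B := this)
      have hm : (volume.restrict (Set.Ioo (0 : ℝ) 1)).real Set.univ = 1 := by
        simp [Measure.real]
      rw [hm, one_pow, mul_one, le_div_iff₀ h0] at inner
      rw [mul_comm]
      exact inner)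
  have hm : (volume.restrict (Set.Ioo (-1 : ℝ) 1)).real Set.univ = 2 := by
    simp [Measure.real]; norm_num
  rw [hm] at main
  have h2 := real_pow_le 2 (by norm_num) (36 * N) hn
  push_cast at h2
  rw [e]
  refine main.trans ((mul_le_mul_of_nonneg_left h2 (by positivity)).trans (le_of_eq ?_))
  rw [hB, ← Real.exp_add]
  congr 1; ring

theorem real_upper :
    ∀ᶠ N : ℕ in atTop, |(matR N).det| ≤ Real.exp (-1.933 * (36 * N : ℝ) ^ 2) := by
  obtain ⟨K, hK⟩ := det_matR_le
  have h1 : Tendsto (fun x : ℝ => K * ((1 + Real.log x) / x)) atTop (nhds (K * (0 + 0))) := by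
    refine Tendsto.const_mul K ?_
    simp_rw [add_div]
    refine Tendsto.add ?_ ?_
    · exact (tendsto_inv_atTop_zero (𝕜 := ℝ)).congr fun x => (one_div x).symm
    · simpa using Real.tendsto_pow_log_div_mul_add_atTop 1 0 1 one_ne_zero
  have h2 : Tendsto (fun N : ℕ => (36 * N : ℝ)) atTop atTop :=
    tendsto_natCast_atTop_atTop.const_mul_atTop (by norm_num)
  have h3 := (h1.comp h2).eventually (gt_mem_nhds (show K * (0 + 0) < 0.0002 by norm_num))
  filter_upwards [h3, eventually_ge_atTop 500] with N h hN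
  refine (hK N hN).trans (Real.exp_le_exp.2 ?_)
  have hx : (0 : ℝ) < 36 * N := by
    have : (500 : ℝ) ≤ N := by exact_mod_cast hN
    linarith
  simp only [Function.comp] at h
  rw [← mul_div_assoc, div_lt_iff₀ hx] at h
  nlinarith

end Crest.Agent.R6
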