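import Crest.Agent.R6.GlueDefs

/-! Splitting a row check into chunks. -/

set_option autoImplicit false

namespace Crest.Agent.R6

theorem chkRows_split (f : At → List LT) (k : ℕ) : ∀ (l : List At) (Ms : List ℤ),
    chkRows f (l.take k) (Ms.take k) = true → chkRows f (l.drop k) (Ms.drop k) = true →
    chkRows f l Ms = true := by
  induction k with
  | zero => intro l Ms _ h; simpa using h
  | succ k ih =>
    intro l Ms h1 h2
    cases l with
    | nil =>
      cases Ms with
      | nil => rfl
      | cons M Ms => simp [chkRows] at h1
    | cons t l =>
      cases Ms with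
      | nil => simp [chkRows] at h1
      | cons M Ms =>
        have e1 : chkRows f ((t :: l).take (k + 1)) ((M :: Ms).take (k + 1)) =
          (chk0 (f t) M && chkRows f (l.take k) (Ms.take k)) := rfl
        have e2 : chkRows f (t :: l) (M :: Ms) = (chk0 (f t) M && chkRows f l Ms) := rfl
        rw [e1, Bool.and_eq_true] at h1
        rw [e2, Bool.and_eq_true]
        exact ⟨h1.1, ih l Ms h1.2 (by simpa using h2)⟩

end Crest.Agent.R6
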