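import Crest.Agent.R6.SheetHalf

/-! Residue sums over the unit disc and over the right half disc for
`F = A/(Q Q*)`, `Q = ∏ (ζ - z_k)`, `Q* = ∏ (1 - z_k ζ)`, `z_k ∈ (-1,1)`. -/

set_option autoImplicit false

namespace Crest.Agent.R6

open Finset Polynomial Complex

/-- `Q(ζ) = ∏ (ζ - z_k)`. -/
noncomputable def QQ {n : ℕ} (z : Fin n → ℝ) (ζ : ℂ) : ℂ := ∏ k, (ζ - z k)

/-- `Q*(ζ) = ∏ (1 - z_k ζ)`. -/
noncomputable def QS {n : ℕ} (z : Fin n → ℝ) (ζ : ℂ) : ℂ := ∏ k, (1 - z k * ζ)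

/-- `α_i = 1/(Q'(z_i) Q*(z_i))`. -/
noncomputable def alp {n : ℕ} (z : Fin n → ℝ) (i : Fin n) : ℝ :=
  1 / ((∏ k ∈ univ.erase i, (z i - z k)) * ∏ k, (1 - z k * z i))

/-- Partial fractions: `A - Q* · ∑ α_i A(z_i) Q/(X - z_i)` vanishes at every `z_i`. -/
theorem partial_fractions {n : ℕ} (z : Fin n → ℝ) (hz : ∀ i, z i ∈ Set.Ioo (-1 : ℝ) 1)
    (hinj : Function.Injective z) (A : ℝ[X]) :
    ∃ G : ℝ[X], ∀ ζ : ℂ, QQ z ζ ≠ 0 → QS z ζ ≠ 0 →
      aeval ζ A / (QQ z ζ * QS z ζ) =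
        aeval ζ G / QS z ζ + ∑ i, ((alp z i * A.eval (z i) : ℝ) : ℂ) * (1 / (ζ - z i)) := by
  classical
  have hQS : ∀ j, (∏ k, (1 - z k * z j)) ≠ 0 := fun j =>
    prod_ne_zero_iff.2 fun k _ => by
      have h1 := hz k
      have h2 := hz j
      nlinarith [h1.1, h1.2, h2.1, h2.2]
  have hQ' : ∀ j, (∏ k ∈ univ.erase j, (z j - z k)) ≠ 0 := fun j =>
    prod_ne_zero_iff.2 fun k hk => sub_ne_zero.2 fun h => (mem_erase.1 hk).1 (hinj h).symm
  have hdvd : (∏ k, (X - C (z k))) ∣ A - (∏ k, (1 - C (z k) * X)) *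
      ∑ i, C (alp z i * A.eval (z i)) * ∏ k ∈ univ.erase i, (X - C (z k)) := by
    refine Finset.prod_dvd_of_coprime
      (fun i _ j _ hij => pairwise_coprime_X_sub_C hinj hij) fun j _ => ?_
    rw [dvd_iff_isRoot, IsRoot.def]
    simp only [eval_sub, eval_mul, eval_prod, eval_finsetSum, eval_C, eval_X, eval_one]
    rw [Finset.sum_eq_single j]
    · have h1 := hQS j
      have h2 := hQ' j
      unfold alp
      generalize (∏ k, (1 - z k * z j)) = u at h1 ⊢
      generalize (∏ k ∈ univ.erase j, (z j - z k)) = v at h2 ⊢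
      field_simp
      ring
    · intro i _ hij
      rw [Finset.prod_eq_zero (i := j) (mem_erase.2 ⟨hij.symm, mem_univ _⟩) (sub_self _),
        mul_zero]
    · simp
  obtain ⟨G, hG⟩ := hdvd
  refine ⟨G, fun ζ h1 h2 => ?_⟩
  have h3 := congrArg (aeval ζ) hG
  simp only [map_sub, map_mul, map_prod, map_sum, aeval_X, aeval_C, map_one,
    Complex.coe_algebraMap] at h3
  have h4 : ∀ i, ζ - (z i : ℂ) ≠ 0 := fun i => prod_ne_zero_iff.1 h1 i (mem_univ _)
  have h5 : ∀ i, ∏ k ∈ univ.erase i, (ζ - (z k : ℂ)) = QQ z ζ * (1 / (ζ - z i)) := fun i => by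
    have := h4 i
    rw [QQ, ← Finset.mul_prod_erase univ (fun k => ζ - (z k : ℂ)) (mem_univ i)]
    field_simp
  simp only [h5] at h3
  have h6 : ∑ i, ((alp z i : ℝ) : ℂ) * ((A.eval (z i) : ℝ) : ℂ) * (QQ z ζ * (1 / (ζ - z i))) =
      QQ z ζ * ∑ i, ((alp z i * A.eval (z i) : ℝ) : ℂ) * (1 / (ζ - z i)) := by
    rw [Finset.mul_sum]
    refine Finset.sum_congr rfl fun i _ => ?_
    push_cast
    ring
  rw [h6] at h3
  change aeval ζ A - QS z ζ * _ = QQ z ζ * _ at h3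
  rw [sub_eq_iff_eq_add] at h3
  rw [h3]
  field_simp

theorem sheetres_rad {n : ℕ} (z : Fin n → ℝ) (hz : ∀ i, z i ∈ Set.Ioo (-1 : ℝ) 1) :
    ∃ R : ℝ, 1 < R ∧ ∀ ζ ∈ Metric.ball (0 : ℂ) R, QS z ζ ≠ 0 := by
  have h : ∀ᶠ R in nhdsWithin (1 : ℝ) (Set.Ioi 1), ∀ k, |z k| * R < 1 := by
    rw [Filter.eventually_all]
    intro k
    apply nhdsWithin_le_nhds
    have h1 : ContinuousAt (fun R : ℝ => |z k| * R) 1 := by fun_prop
    exact h1.eventually_lt continuousAt_const (by simpa using abs_lt.2 (hz k))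
  obtain ⟨R, hR1, hR2⟩ := (h.and self_mem_nhdsWithin).exists
  refine ⟨R, hR2, fun ζ hζ => prod_ne_zero_iff.2 fun k _ h0 => ?_⟩
  rw [mem_ball_zero_iff] at hζ
  have h1 : ‖(z k : ℂ) * ζ‖ = 1 := by rw [← sub_eq_zero.1 h0, norm_one]
  rw [norm_mul, norm_real, Real.norm_eq_abs] at h1
  nlinarith [hR1 k, abs_nonneg (z k)]

theorem sheetres_diff {n : ℕ} (z : Fin n → ℝ) (G : ℝ[X]) (U : Set ℂ) (hU : ∀ ζ ∈ U, QS z ζ ≠ 0) :
    DifferentiableOn ℂ (fun ζ : ℂ => aeval ζ G / QS z ζ) U := by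
  refine DifferentiableOn.div ?_ ?_ hU
  · exact (G.differentiable_aeval (𝕜 := ℂ)).differentiableOn
  · unfold QS
    fun_prop

/-- Linearity along a curve. -/
theorem sheetres_lin {n : ℕ} (z c : Fin n → ℝ) (F H : ℂ → ℂ) (U : Set ℂ) (hH : ContinuousOn H U)
    (hF : ∀ ζ ∈ U, QQ z ζ ≠ 0 → F ζ = H ζ + ∑ i, (c i : ℂ) * (1 / (ζ - z i)))
    (γ w : ℝ → ℂ) (hγ : Continuous γ) (hw : Continuous w) (a b : ℝ)
    (hU : ∀ t ∈ Set.uIcc a b, γ t ∈ U) (hz : ∀ t i, γ t - z i ≠ 0) :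
    ∫ t in a..b, F (γ t) * w t =
      (∫ t in a..b, H (γ t) * w t) + ∑ i, (c i : ℂ) * ∫ t in a..b, 1 / (γ t - z i) * w t := by
  have h1 : ∀ i, IntervalIntegrable (fun t => (c i : ℂ) * (1 / (γ t - z i) * w t))
      MeasureTheory.volume a b := fun i =>
    (continuous_const.mul ((continuous_const.div (hγ.sub continuous_const)
      fun t => hz t i).mul hw)).intervalIntegrable _ _
  have h2 : IntervalIntegrable (fun t => H (γ t) * w t) MeasureTheory.volume a b :=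
    ((hH.comp hγ.continuousOn hU).mul hw.continuousOn).intervalIntegrable
  simp only [← intervalIntegral.integral_const_mul]
  rw [← intervalIntegral.integral_finsetSum fun i _ => h1 i, ← intervalIntegral.integral_add h2]
  · refine intervalIntegral.integral_congr fun t ht => ?_
    rw [hF _ (hU t ht) (prod_ne_zero_iff.2 fun i _ => hz t i), add_mul, Finset.sum_mul]
    simp only [mul_assoc]
  · have := IntervalIntegrable.sum univ fun i _ => h1 i
    rwa [Finset.sum_fn] at this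

theorem sheetres_circ (f : ℂ → ℂ) :
    (∫ θ in (-Real.pi)..Real.pi, f (exp (θ * I)) * exp (θ * I)) * I = ∮ ζ in C(0, 1), f ζ := by
  have hper : Function.Periodic (fun θ : ℝ => f (exp (θ * I)) * exp (θ * I)) (2 * Real.pi) := by
    intro θ
    have : exp (((θ + 2 * Real.pi : ℝ) : ℂ) * I) = exp (θ * I) := by
      push_cast
      rw [add_mul, exp_add, exp_two_pi_mul_I, mul_one]
    simp only [this]
  have h1 := hper.intervalIntegral_add_eq (-Real.pi) 0
  rw [show -Real.pi + 2 * Real.pi = Real.pi by ring, zero_add] at h1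
  rw [h1, circleIntegral, ← intervalIntegral.integral_mul_const]
  refine intervalIntegral.integral_congr fun θ _ => ?_
  simp only [deriv_circleMap, circleMap, ofReal_one, one_mul, zero_add, smul_eq_mul]
  ring

theorem sheetres_ne {a : ℝ} (ha : a ∈ Set.Ioo (-1 : ℝ) 1) (θ : ℝ) : exp (θ * I) - a ≠ 0 := by
  intro h
  have h1 := norm_exp_ofReal_mul_I θ
  rw [sub_eq_zero.1 h, norm_real, Real.norm_eq_abs] at h1
  exact (abs_lt.2 ha).ne h1

theorem res_circle {n : ℕ} (z : Fin n → ℝ) (hz : ∀ i, z i ∈ Set.Ioo (-1 : ℝ) 1)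
    (hinj : Function.Injective z) (A : ℝ[X]) :
    ∫ θ in (-Real.pi)..Real.pi,
        aeval (exp (θ * I)) A / (QQ z (exp (θ * I)) * QS z (exp (θ * I))) * exp (θ * I) =
      2 * Real.pi * ((∑ i, alp z i * A.eval (z i) : ℝ) : ℂ) := by
  obtain ⟨G, hG⟩ := partial_fractions z hz hinj A
  obtain ⟨R, hR, hQ⟩ := sheetres_rad z hz
  have hd := sheetres_diff z G _ hQ
  have key := sheetres_lin z (fun i => alp z i * A.eval (z i))
    (fun ζ => aeval ζ A / (QQ z ζ * QS z ζ)) _ _ hd.continuousOn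
    (fun ζ h1 h2 => hG ζ h2 (hQ ζ h1)) (fun θ => exp (θ * I)) (fun θ => exp (θ * I))
    (by fun_prop) (by fun_prop) (-Real.pi) Real.pi (fun θ _ => by simpa using hR)
    (fun θ i => sheetres_ne (hz i) θ)
  rw [key]
  have h1 : ∫ θ in (-Real.pi)..Real.pi,
      aeval (exp (θ * I)) G / QS z (exp (θ * I)) * exp (θ * I) = 0 := by
    have h2 := sheetres_circ fun ζ : ℂ => aeval ζ G / QS z ζ
    rw [DiffContOnCl.circleIntegral_eq_zero zero_le_one
      (hd.diffContOnCl_ball (Metric.closedBall_subset_ball hR))] at h2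
    exact (mul_eq_zero.1 h2).resolve_right I_ne_zero
  have h3 : ∀ i, ∫ θ in (-Real.pi)..Real.pi, 1 / (exp (θ * I) - z i) * exp (θ * I) =
      2 * Real.pi := fun i => by
    have h2 := sheetres_circ fun ζ : ℂ => 1 / (ζ - z i)
    simp only [one_div] at h2 ⊢
    rw [circleIntegral.integral_sub_inv_of_mem_ball
      (by simpa using abs_lt.2 (hz i))] at h2
    exact mul_right_cancel₀ I_ne_zero h2
  simp only [h1, h3, zero_add, ← Finset.sum_mul]
  rw [ofReal_sum, mul_comm]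

theorem res_half {n : ℕ} (z : Fin n → ℝ) (hz : ∀ i, z i ∈ Set.Ioo (-1 : ℝ) 1) (h0 : ∀ i, z i ≠ 0)
    (hinj : Function.Injective z) (A : ℝ[X]) :
    (∫ θ in (-(Real.pi / 2))..(Real.pi / 2),
        aeval (exp (θ * I)) A / (QQ z (exp (θ * I)) * QS z (exp (θ * I))) * exp (θ * I)) -
      ∫ y in (-1 : ℝ)..1, aeval (y * I) A / (QQ z (y * I) * QS z (y * I)) =
      2 * Real.pi * ((∑ i ∈ univ.filter (fun i => 0 < z i), alp z i * A.eval (z i) : ℝ) : ℂ) := by
  obtain ⟨G, hG⟩ := partial_fractions z hz hinj A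
  obtain ⟨R, hR, hQ⟩ := sheetres_rad z hz
  have hd := sheetres_diff z G _ hQ
  have k1 := sheetres_lin z (fun i => alp z i * A.eval (z i))
    (fun ζ => aeval ζ A / (QQ z ζ * QS z ζ)) _ _ hd.continuousOn
    (fun ζ h1 h2 => hG ζ h2 (hQ ζ h1)) (fun θ => exp (θ * I)) (fun θ => I * exp (θ * I))
    (by fun_prop) (by fun_prop) (-(Real.pi / 2)) (Real.pi / 2) (fun θ _ => by simpa using hR)
    (fun θ i => sheetres_ne (hz i) θ)
  have k2 := sheetres_lin z (fun i => alp z i * A.eval (z i))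
    (fun ζ => aeval ζ A / (QQ z ζ * QS z ζ)) _ _ hd.continuousOn
    (fun ζ h1 h2 => hG ζ h2 (hQ ζ h1)) (fun y => y * I) (fun _ => I)
    (by fun_prop) (by fun_prop) (-1) 1 (fun y hy => by
      rw [Set.uIcc_of_le (by norm_num)] at hy
      have := abs_le.2 hy
      simp only [mem_ball_zero_iff, norm_mul, norm_real, norm_I, mul_one, Real.norm_eq_abs]
      linarith)
    (fun y i h => h0 i (by simpa using congrArg re h))
  have k3 := halfdisc_cauchy _ R hR hd
  apply mul_right_cancel₀ I_ne_zero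
  rw [sub_mul, ← intervalIntegral.integral_mul_const, ← intervalIntegral.integral_mul_const]
  have e1 : ∀ θ : ℝ, aeval (exp (θ * I)) A / (QQ z (exp (θ * I)) * QS z (exp (θ * I))) *
      exp (θ * I) * I = aeval (exp (θ * I)) A / (QQ z (exp (θ * I)) * QS z (exp (θ * I))) *
        (I * exp (θ * I)) := fun θ => by ring
  simp only [e1]
  rw [k1, k2, k3, add_sub_add_left_eq_sub, ← Finset.sum_sub_distrib]
  simp only [← mul_sub, fun i => halfdisc_pole (z i) (hz i) (h0 i)]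
  rw [Finset.sum_filter, ofReal_sum, Finset.mul_sum, Finset.sum_mul]
  refine Finset.sum_congr rfl fun i _ => ?_
  split_ifs
  · ring
  · simp

end Crest.Agent.R6
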