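import Crest.Agent.R6.RDefs
import Crest.Agent.R6.SheetRes

/-! The inner-sheet form is bounded by the outer-sheet form. -/

set_option autoImplicit false

namespace Crest.Agent.R6

open Finset Polynomial Complex

/-- `v^{(1-a)/(1+a)} ≤ (v+a)/(1+av)`: the difference of logarithms has derivative
`-f a (1-v)²/(v (v+a) (1+av)) ≤ 0` and vanishes at `v = 1`. -/
theorem node_ineq (a v : ℝ) (ha : 0 ≤ a) (ha1 : a ≤ 1) (hv : 0 < v) (hv1 : v ≤ 1) :
    (1 - a) / (1 + a) * Real.log v ≤ Real.log (v + a) - Real.log (1 + a * v) := by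
  have hd : ∀ x : ℝ, 0 < x → HasDerivAt
      (fun x => Real.log (x + a) - Real.log (1 + a * x) - (1 - a) / (1 + a) * Real.log x)
      (-((1 - a) * a * (1 - x) ^ 2 / ((1 + a) * (x * ((x + a) * (1 + a * x)))))) x := fun x hx => by
    have h1 : x + a ≠ 0 := by positivity
    have h2 : 1 + a * x ≠ 0 := by positivity
    have h3 : 1 + a ≠ 0 := by positivity
    have := ((((hasDerivAt_id x).add_const a).log h1).sub
      ((((hasDerivAt_id x).const_mul a).const_add 1).log h2)).sub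
      ((Real.hasDerivAt_log hx.ne').const_mul ((1 - a) / (1 + a)))
    refine HasDerivAt.congr_deriv this ?_
    simp only [id]
    field_simp
    ring
  have hanti : AntitoneOn
      (fun x => Real.log (x + a) - Real.log (1 + a * x) - (1 - a) / (1 + a) * Real.log x)
      (Set.Ioi 0) := by
    refine antitoneOn_of_deriv_nonpos (convex_Ioi 0)
      (fun x hx => (hd x hx).continuousAt.continuousWithinAt)
      (fun x hx => (hd x (interior_subset hx)).differentiableAt.differentiableWithinAt) ?_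
    intro x hx
    have hx' : 0 < x := interior_subset hx
    rw [(hd x hx').deriv, neg_nonpos]
    have := sub_nonneg.2 ha1
    positivity
  have := hanti hv (Set.mem_Ioi.2 one_pos) hv1
  simp only [mul_one, Real.log_one, mul_zero, sub_self] at this
  linarith

theorem sheetform_sq {a : ℝ} {b : ℂ} (h : a ^ 2 ≤ ‖b‖ ^ 2) : a ≤ ‖b‖ :=
  (le_abs_self a).trans (abs_le_of_sq_le_sq h (norm_nonneg b))

/-- On the imaginary diameter `|y|^D |Q*| ≤ |Q|`. -/
theorem diam_ineq {n : ℕ} (z : Fin n → ℝ) (hz : ∀ i, z i ∈ Set.Ioo (-1 : ℝ) 1) (D : ℕ)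
    (hf : ∑ i, ff (z i) ≤ D) (y : ℝ) (hy : y ∈ Set.Icc (-1 : ℝ) 1) (h0 : ∀ i, z i ≠ 0) :
    |y| ^ D * ‖QS z (y * I)‖ ≤ ‖QQ z (y * I)‖ := by
  have hff : ∀ i, 0 < ff (z i) := fun i => by
    have := hz i
    have h1 : 0 < 1 - z i ^ 2 := by nlinarith [this.1, this.2]
    unfold ff
    positivity
  by_cases hy0 : y = 0
  · subst hy0
    rcases Nat.eq_zero_or_pos D with rfl | hD
    · rcases Nat.eq_zero_or_pos n with rfl | hn
      · simp [QS, QQ]
      · exfalso
        have : Nonempty (Fin n) := ⟨⟨0, hn⟩⟩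
        have := Finset.sum_pos (s := univ) (fun i _ => hff i) Finset.univ_nonempty
        simp only [Nat.cast_zero] at hf
        linarith
    · simp [hD.ne']
  have hv : 0 < y ^ 2 := by positivity
  have hv1 : y ^ 2 ≤ 1 := by nlinarith [hy.1, hy.2]
  have e1 : ‖QS z (y * I)‖ ^ 2 = ∏ i, (1 + z i ^ 2 * y ^ 2) := by
    rw [QS, norm_prod, ← Finset.prod_pow]
    refine Finset.prod_congr rfl fun i _ => ?_
    rw [Complex.sq_norm, Complex.normSq_apply]
    simp
    ring
  have e2 : ‖QQ z (y * I)‖ ^ 2 = ∏ i, (y ^ 2 + z i ^ 2) := by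
    rw [QQ, norm_prod, ← Finset.prod_pow]
    refine Finset.prod_congr rfl fun i _ => ?_
    rw [Complex.sq_norm, Complex.normSq_apply]
    simp
    ring
  refine sheetform_sq ?_
  rw [mul_pow, e1, e2, ← pow_mul, mul_comm D 2, pow_mul, sq_abs]
  have p1 : 0 < ∏ i, (1 + z i ^ 2 * y ^ 2) := Finset.prod_pos fun i _ => by positivity
  have p2 : 0 < ∏ i, (y ^ 2 + z i ^ 2) := Finset.prod_pos fun i _ => by positivity
  rw [← Real.log_le_log_iff (by positivity) p2, Real.log_mul (by positivity) p1.ne', Real.log_pow,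
    Real.log_prod (fun i _ => by positivity), Real.log_prod (fun i _ => by positivity)]
  have hl : Real.log (y ^ 2) ≤ 0 := Real.log_nonpos hv.le hv1
  have h1 : ∑ i, ff (z i) * Real.log (y ^ 2) ≤
      ∑ i, (Real.log (y ^ 2 + z i ^ 2) - Real.log (1 + z i ^ 2 * y ^ 2)) :=
    Finset.sum_le_sum fun i _ => node_ineq (z i ^ 2) (y ^ 2) (by positivity)
      (by nlinarith [(hz i).1, (hz i).2]) hv hv1
  rw [Finset.sum_sub_distrib, ← Finset.sum_mul] at h1
  nlinarith

/-- The circle integral `∫ |p|²/|Q|² dθ`. -/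
noncomputable def circ {n : ℕ} (z : Fin n → ℝ) (p : ℝ[X]) : ℝ :=
  ∫ θ in (-Real.pi)..Real.pi, ‖aeval (exp (θ * I)) p‖ ^ 2 / ‖QQ z (exp (θ * I))‖ ^ 2

theorem sheetform_R {n : ℕ} (z : Fin n → ℝ) (hz : ∀ i, z i ∈ Set.Ioo (-1 : ℝ) 1) :
    ∃ R : ℝ, 1 < R ∧ ∀ ζ ∈ Metric.ball (0 : ℂ) R, QS z ζ ≠ 0 := by
  have h1 : ∀ᶠ R in nhdsWithin (1 : ℝ) (Set.Ioi 1), ∀ i, |z i| * R < 1 := by
    refine Filter.Eventually.filter_mono nhdsWithin_le_nhds (Filter.eventually_all.2 fun i => ?_)
    have hc : ContinuousAt (fun R : ℝ => |z i| * R) 1 := by fun_prop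
    exact hc.eventually (gt_mem_nhds (by simpa using abs_lt.2 (hz i)))
  obtain ⟨R, hR, hR1⟩ := (h1.and self_mem_nhdsWithin).exists
  refine ⟨R, hR1, fun ζ hζ => Finset.prod_ne_zero_iff.2 fun i _ h => ?_⟩
  have h2 : ‖(z i : ℂ) * ζ‖ = 1 := by rw [← sub_eq_zero.1 h, norm_one]
  rw [norm_mul, norm_real, Real.norm_eq_abs] at h2
  have h3 : ‖ζ‖ < R := mem_ball_zero_iff.1 hζ
  have := hR i
  nlinarith [abs_nonneg (z i)]

theorem sheetform_circ {n : ℕ} (z : Fin n → ℝ) (θ : ℝ) :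
    ‖QS z (exp (θ * I))‖ = ‖QQ z (exp (θ * I))‖ := by
  rw [QS, QQ, norm_prod, norm_prod]
  refine Finset.prod_congr rfl fun i _ => ?_
  rw [← sq_eq_sq₀ (norm_nonneg _) (norm_nonneg _), Complex.sq_norm, Complex.sq_norm,
    Complex.normSq_apply, Complex.normSq_apply]
  simp only [sub_re, one_re, mul_re, ofReal_re, exp_ofReal_mul_I_re, ofReal_im,
    exp_ofReal_mul_I_im, sub_im, one_im, mul_im]
  linear_combination (z i ^ 2 - 1) * Real.sin_sq_add_cos_sq θ

theorem sheetform_conj {n : ℕ} (z : Fin n → ℝ) (p : ℝ[X]) (y : ℝ) :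
    aeval (-((y : ℂ) * I)) p / QS z (-(y * I)) =
      (starRingEnd ℂ) (aeval ((y : ℂ) * I) p / QS z (y * I)) := by
  have e : -((y : ℂ) * I) = (starRingEnd ℂ) (y * I) := by simp
  rw [map_div₀, e]
  congr 1
  · exact Polynomial.aeval_algHom_apply (Complex.conjAe : ℂ →ₐ[ℝ] ℂ) ((y : ℂ) * I) p
  · simp [QS]

/-- Fejér–Riesz for `φ = p/Q*`: `|φ(iy)|² = φ(iy) φ(-iy)`, then `halfdisc_cauchy` for
`ζ ↦ φ(ζ) φ(-ζ)`; `|Q*| = |Q|` on the circle. -/
theorem fejer_riesz {n : ℕ} (z : Fin n → ℝ) (hz : ∀ i, z i ∈ Set.Ioo (-1 : ℝ) 1) (p : ℝ[X]) :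
    ∫ y in (-1 : ℝ)..1, ‖aeval (y * I) p‖ ^ 2 / ‖QS z (y * I)‖ ^ 2 ≤ circ z p / 2 := by
  obtain ⟨R, hR, hQ⟩ := sheetform_R z hz
  set φ : ℂ → ℂ := fun ζ => aeval ζ p / QS z ζ with hφ
  have hd : DifferentiableOn ℂ φ (Metric.ball 0 R) := by
    refine DifferentiableOn.div ?_ ?_ hQ
    · have : (fun ζ : ℂ => aeval ζ p) = fun ζ => (p.map (algebraMap ℝ ℂ)).eval ζ := by
        funext ζ
        rw [Polynomial.eval_map_algebraMap]
      rw [this]
      exact (Polynomial.differentiable _).differentiableOn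
    · unfold QS
      fun_prop
  have hd' : DifferentiableOn ℂ (fun ζ => φ (-ζ)) (Metric.ball 0 R) :=
    hd.comp (differentiable_neg.differentiableOn) fun ζ hζ => by simpa using hζ
  have key := halfdisc_cauchy (fun ζ => φ ζ * φ (-ζ)) R hR (hd.mul hd')
  set ψ : ℝ → ℝ := fun θ => ‖φ (exp (θ * I))‖ ^ 2 with hψ
  have hc0 : Continuous fun θ : ℝ => φ (exp (θ * I)) :=
    hd.continuousOn.comp_continuous (by fun_prop) fun θ => by simpa using hR
  have hc : Continuous ψ := hc0.norm.pow 2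
  have hshift : ∀ θ : ℝ, exp (((θ + Real.pi : ℝ) : ℂ) * I) = -exp (θ * I) := fun θ => by
    push_cast
    rw [add_mul, Complex.exp_add, Complex.exp_pi_mul_I]
    ring
  have hper : Function.Periodic ψ (2 * Real.pi) := fun θ => by
    have : θ + 2 * Real.pi = θ + Real.pi + Real.pi := by ring
    simp only [hψ]
    rw [this, hshift, hshift, neg_neg]
  have hc' : Continuous fun θ => ψ (θ + Real.pi) := hc.comp (continuous_add_const _)
  have e1 : circ z p = ∫ θ in (-Real.pi)..Real.pi, ψ θ := by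
    unfold circ
    refine intervalIntegral.integral_congr fun θ _ => ?_
    simp only [hψ, hφ, norm_div, div_pow, sheetform_circ]
  have e2 : ∫ θ in (-Real.pi)..Real.pi, ψ θ =
      ∫ θ in (-(Real.pi / 2))..(Real.pi / 2), (ψ θ + ψ (θ + Real.pi)) := by
    rw [intervalIntegral.integral_add (hc.intervalIntegrable _ _)
      (hc'.intervalIntegrable _ _),
      intervalIntegral.integral_comp_add_right ψ]
    have h1 := hper.intervalIntegral_add_eq (-Real.pi) (-(Real.pi / 2))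
    have h2 : -Real.pi + 2 * Real.pi = Real.pi := by ring
    have h3 : -(Real.pi / 2) + Real.pi = Real.pi / 2 := by ring
    have h4 : -(Real.pi / 2) + 2 * Real.pi = Real.pi / 2 + Real.pi := by ring
    rw [h2, h4] at h1
    rw [h1, h3]
    exact (intervalIntegral.integral_add_adjacent_intervals (hc.intervalIntegrable _ _)
      (hc.intervalIntegrable _ _)).symm
  have e3 : ∫ y in (-1 : ℝ)..1, φ (y * I) * φ (-(y * I)) * I =
      ((∫ y in (-1 : ℝ)..1, ‖aeval (y * I) p‖ ^ 2 / ‖QS z (y * I)‖ ^ 2 : ℝ) : ℂ) * I := by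
    rw [intervalIntegral.integral_mul_const, ← intervalIntegral.integral_ofReal]
    congr 1
    refine intervalIntegral.integral_congr fun y _ => ?_
    simp only [hφ]
    rw [sheetform_conj, Complex.mul_conj', norm_div]
    push_cast
    ring
  rw [e3] at key
  have e4 := congrArg norm key
  rw [norm_mul, norm_I, mul_one, norm_real, Real.norm_eq_abs] at e4
  refine (le_abs_self _).trans ?_
  rw [← e4, e1, e2, ← intervalIntegral.integral_div]
  refine intervalIntegral.norm_integral_le_of_norm_le (by linarith [Real.pi_pos])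
    (Filter.Eventually.of_forall fun θ _ => ?_)
    (((hc.add hc').div_const 2).intervalIntegrable _ _)
  simp only [hψ, hshift, norm_mul, norm_I, norm_exp_ofReal_mul_I, mul_one]
  nlinarith [sq_nonneg (‖φ (exp (θ * I))‖ - ‖φ (-exp (θ * I))‖)]

end Crest.Agent.R6
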