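import Mathlib

/-! Contour integrals over the boundary of the right half disc. -/

set_option autoImplicit false

namespace Crest.Agent.R6

open Complex

theorem sheethalf_arc (F G : ℂ → ℂ) (U : Set ℂ) (h : ∀ z ∈ U, HasDerivAt F (G z) z)
    (hc : ContinuousOn G U)
    (hU : ∀ θ ∈ Set.uIcc (-(Real.pi / 2)) (Real.pi / 2), exp (θ * I) ∈ U) :
    ∫ θ in (-(Real.pi / 2))..(Real.pi / 2), G (exp (θ * I)) * (I * exp (θ * I)) =
      F I - F (-I) := by
  have h1 : Continuous fun θ : ℝ => exp (θ * I) := by fun_prop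
  rw [intervalIntegral.integral_eq_sub_of_hasDerivAt (f := fun θ : ℝ => F (exp (θ * I)))]
  · simp [exp_neg]
  · intro θ hθ
    have h2 : HasDerivAt (fun z : ℂ => F (exp (z * I))) (G (exp (θ * I)) * (exp (θ * I) * I)) θ := by
      have := (h _ (hU θ hθ)).comp (θ : ℂ) ((hasDerivAt_id (θ : ℂ)).mul_const I).cexp
      simp only [id, one_mul] at this
      exact this
    rw [mul_comm I]
    exact h2.comp_ofReal
  · exact ((hc.comp h1.continuousOn hU).mul (by fun_prop)).intervalIntegrable

theorem sheethalf_seg (F G : ℂ → ℂ) (U : Set ℂ) (h : ∀ z ∈ U, HasDerivAt F (G z) z)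
    (hc : ContinuousOn G U) (hU : ∀ y ∈ Set.uIcc (-1 : ℝ) 1, (y : ℂ) * I ∈ U) :
    ∫ y in (-1 : ℝ)..1, G (y * I) * I = F I - F (-I) := by
  have h1 : Continuous fun y : ℝ => (y : ℂ) * I := by fun_prop
  rw [intervalIntegral.integral_eq_sub_of_hasDerivAt (f := fun y : ℝ => F (y * I))]
  · simp
  · intro y hy
    have h2 : HasDerivAt (fun z : ℂ => F (z * I)) (G (y * I) * I) y := by
      have := (h _ (hU y hy)).comp (y : ℂ) ((hasDerivAt_id (y : ℂ)).mul_const I)
      simp only [one_mul] at this
      exact this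
    exact h2.comp_ofReal
  · exact ((hc.comp h1.continuousOn hU).mul (by fun_prop)).intervalIntegrable

theorem sheethalf_log (a z : ℂ) (hz : z - a ∈ slitPlane) :
    HasDerivAt (fun w => log (w - a)) (1 / (z - a)) z :=
  ((hasDerivAt_id z).sub_const a).clog hz

theorem sheethalf_log' (a z : ℂ) (hz : a - z ∈ slitPlane) :
    HasDerivAt (fun w => log (a - w)) (1 / (z - a)) z := by
  have := ((hasDerivAt_id z).const_sub a).clog hz
  rwa [id, ← neg_sub z a, neg_div_neg_eq] at this

theorem sheethalf_cont (a : ℂ) (U : Set ℂ) (h : ∀ z ∈ U, z - a ≠ 0) :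
    ContinuousOn (fun z => 1 / (z - a)) U :=
  continuousOn_const.div (by fun_prop) h

/-- Cauchy's theorem for the right half disc (`DifferentiableOn.isExactOn_ball` and FTC). -/
theorem halfdisc_cauchy (G : ℂ → ℂ) (R : ℝ) (hR : 1 < R)
    (hG : DifferentiableOn ℂ G (Metric.ball 0 R)) :
    ∫ θ in (-(Real.pi / 2))..(Real.pi / 2), G (exp (θ * I)) * (I * exp (θ * I)) =
      ∫ y in (-1 : ℝ)..1, G (y * I) * I := by
  obtain ⟨F, hF⟩ := hG.isExactOn_ball
  rw [sheethalf_arc F G _ hF hG.continuousOn fun θ _ => by simpa using hR,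
    sheethalf_seg F G _ hF hG.continuousOn fun y hy => ?_]
  rw [Set.uIcc_of_le (by norm_num)] at hy
  have := abs_le.2 hy
  simp only [mem_ball_zero_iff, norm_mul, norm_real, norm_I, mul_one, Real.norm_eq_abs]
  linarith

/-- The winding of the boundary of the right half disc around a real point. -/
theorem halfdisc_pole (a : ℝ) (ha : a ∈ Set.Ioo (-1 : ℝ) 1) (h0 : a ≠ 0) :
    (∫ θ in (-(Real.pi / 2))..(Real.pi / 2), 1 / (exp (θ * I) - a) * (I * exp (θ * I))) -
      ∫ y in (-1 : ℝ)..1, 1 / (y * I - a) * I = if 0 < a then 2 * Real.pi * I else 0 := by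
  have harc := sheethalf_arc (fun w => log (w - a)) (fun z => 1 / (z - a))
    {z | z - a ∈ slitPlane} (fun z hz => sheethalf_log a z hz)
    (sheethalf_cont a _ fun z hz => slitPlane_ne_zero hz) (fun θ hθ => by
      rw [Set.uIcc_of_le (by linarith [Real.pi_pos])] at hθ
      have h1 := Real.cos_nonneg_of_mem_Icc hθ
      have h2 := Real.sin_sq_add_cos_sq θ
      simp only [Set.mem_ofPred_eq, mem_slitPlane_iff, sub_re, sub_im, exp_ofReal_mul_I_re,
        exp_ofReal_mul_I_im, ofReal_re, ofReal_im, sub_zero]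
      by_cases h : Real.sin θ = 0
      · left
        rw [h] at h2
        nlinarith [ha.2]
      · exact Or.inr h)
  rw [harc]
  split_ifs with hpos
  · rw [sheethalf_seg (fun w => log (a - w)) (fun z => 1 / (z - a)) {z | a - z ∈ slitPlane}
      (fun z hz => sheethalf_log' a z hz)
      (sheethalf_cont a _ fun z hz h => slitPlane_ne_zero hz (by rw [← neg_sub, h, neg_zero]))
      (fun y _ => Or.inl (by simpa using hpos))]
    have e1 : log (I - a) = log (a - I) + Real.pi * I := by
      rw [← neg_sub (a : ℂ) I, log, log, norm_neg, arg_neg_eq_arg_add_pi_of_im_neg (by simp)]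
      push_cast
      ring
    have e2 : log (-I - a) = log (a - -I) - Real.pi * I := by
      rw [← neg_sub (a : ℂ) (-I), log, log, norm_neg, arg_neg_eq_arg_sub_pi_of_im_pos (by simp)]
      push_cast
      ring
    rw [e1, e2]
    ring
  · have hneg : a < 0 := lt_of_le_of_ne (not_lt.1 hpos) h0
    rw [sheethalf_seg (fun w => log (w - a)) (fun z => 1 / (z - a)) {z | z - a ∈ slitPlane}
      (fun z hz => sheethalf_log a z hz) (sheethalf_cont a _ fun z hz => slitPlane_ne_zero hz)
      (fun y _ => Or.inl (by simpa using hneg)), sub_self]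

end Crest.Agent.R6
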