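import Mathlib

/-! Determinant monotonicity for quadratic forms. -/

set_option autoImplicit false

namespace Crest.Agent.R6

open Matrix

theorem sheetla_one {n : ℕ} (C : Matrix (Fin n) (Fin n) ℝ) (hC : C.IsHermitian) (K : ℝ)
    (h : ∀ y : Fin n → ℝ, |y ⬝ᵥ (C *ᵥ y)| ≤ K * (y ⬝ᵥ y)) : |C.det| ≤ K ^ n := by
  have he : ∀ i, |hC.eigenvalues i| ≤ K := fun i => by
    have h1 := h (hC.eigenvectorBasis i)
    have h2 : (⇑(hC.eigenvectorBasis i) : Fin n → ℝ) ⬝ᵥ ⇑(hC.eigenvectorBasis i) = 1 := by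
      have := EuclideanSpace.inner_eq_star_dotProduct (hC.eigenvectorBasis i)
        (hC.eigenvectorBasis i)
      rw [real_inner_self_eq_norm_sq, hC.eigenvectorBasis.orthonormal.1 i] at this
      simpa using this.symm
    rw [hC.mulVec_eigenvectorBasis, dotProduct_smul, h2] at h1
    simpa using h1
  rw [hC.det_eq_prod_eigenvalues, Finset.abs_prod]
  calc ∏ i, |((hC.eigenvalues i : ℝ))| ≤ ∏ _i : Fin n, K :=
        Finset.prod_le_prod (fun i _ => abs_nonneg _) fun i _ => he i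
    _ = K ^ n := by simp

/-- If `Q` is positive definite, `B` symmetric and `|xᵀ B x| ≤ K xᵀ Q x` then
`|det B| ≤ K^n det Q` (conjugate by the inverse square root of `Q`; eigenvalues `≤ K`). -/
theorem abs_det_le_of_form {n : ℕ} (B Q : Matrix (Fin n) (Fin n) ℝ) (hB : B.IsSymm)
    (hQ : Q.PosDef) (K : ℝ) (h : ∀ x : Fin n → ℝ, |x ⬝ᵥ (B *ᵥ x)| ≤ K * (x ⬝ᵥ (Q *ᵥ x))) :
    |B.det| ≤ K ^ n * Q.det := by
  open scoped MatrixOrder in
  obtain ⟨P, hP, rfl⟩ := CStarAlgebra.isStrictlyPositive_iff_eq_star_mul_self.mp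
    hQ.isStrictlyPositive
  have hd : IsUnit P.det := (isUnit_iff_isUnit_det P).1 hP
  have hs : star P = Pᵀ := by
    rw [star_eq_conjTranspose, conjTranspose_eq_transpose_of_trivial]
  rw [hs] at h ⊢
  have h1 : |((P⁻¹)ᵀ * B * P⁻¹).det| ≤ K ^ n := by
    refine sheetla_one _ ?_ K fun y => ?_
    · rw [IsHermitian, conjTranspose_eq_transpose_of_trivial, transpose_mul, transpose_mul,
        transpose_transpose, hB.eq, Matrix.mul_assoc]
    · have h2 := h (P⁻¹ *ᵥ y)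
      have e1 : y ⬝ᵥ (((P⁻¹)ᵀ * B * P⁻¹) *ᵥ y) = (P⁻¹ *ᵥ y) ⬝ᵥ (B *ᵥ (P⁻¹ *ᵥ y)) := by
        rw [← mulVec_mulVec, ← mulVec_mulVec, dotProduct_mulVec y, vecMul_transpose]
      have e2 : (P⁻¹ *ᵥ y) ⬝ᵥ ((Pᵀ * P) *ᵥ (P⁻¹ *ᵥ y)) = y ⬝ᵥ y := by
        rw [← mulVec_mulVec, dotProduct_mulVec (P⁻¹ *ᵥ y), vecMul_transpose, mulVec_mulVec,
          mul_nonsing_inv _ hd, one_mulVec]
      rwa [← e1, e2] at h2
  have h3 : B.det = ((P⁻¹)ᵀ * B * P⁻¹).det * (P.det * P.det) := by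
    have := hd.ne_zero
    rw [det_mul, det_mul, det_transpose, det_nonsing_inv, Ring.inverse_eq_inv']
    field_simp
  rw [h3, det_mul Pᵀ, det_transpose, abs_mul, abs_mul_self]
  exact mul_le_mul_of_nonneg_right h1 (mul_self_nonneg _)

end Crest.Agent.R6
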